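import Vale.Agent.P162.Rep

open Equiv Finset
open scoped RealInnerProductSpace BigOperators

set_option linter.unusedSectionVars false

namespace Vale.Agent.P162

variable {X : Type*} [Fintype X] [DecidableEq X]

/-- the transposition exchanging the two cards of column `p` -/
def io (p : X) : Perm (X ⊕ X) := swap (Sum.inl p) (Sum.inr p)

lemma colFlip_apply_inl (s : X → Bool) (x : X) :
    colFlip s (Sum.inl x) = if s x then Sum.inr x else Sum.inl x := rfl

lemma colFlip_apply_inr (s : X → Bool) (x : X) :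
    colFlip s (Sum.inr x) = if s x then Sum.inl x else Sum.inr x := rfl

lemma colFlip_mul (s t : X → Bool) : colFlip s * colFlip t = colFlip (fun x => xor (s x) (t x)) := by
  ext x
  rcases x with x | x <;> cases hs : s x <;> cases ht : t x <;>
    simp [Equiv.Perm.mul_apply, colFlip_apply_inl, colFlip_apply_inr, hs, ht]

lemma colFlip_zero : colFlip (fun _ : X => false) = 1 := by
  ext x
  rcases x with x | x <;> simp [colFlip_apply_inl, colFlip_apply_inr]

lemma colFlip_single (p : X) : colFlip (fun x => decide (x = p)) = io p := by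
  ext x
  rcases x with x | x
  · rw [colFlip_apply_inl, io]
    by_cases h : x = p
    · subst h; simp
    · simp [h, swap_apply_of_ne_of_ne]
  · rw [colFlip_apply_inr, io]
    by_cases h : x = p
    · subst h; simp
    · simp [h, swap_apply_of_ne_of_ne]

/-- character -/
def chi (A s : X → Bool) : ℝ := ∏ x, if A x && s x then (-1 : ℝ) else 1

lemma chi_xor (A s t : X → Bool) : chi A (fun x => xor (s x) (t x)) = chi A s * chi A t := by
  unfold chi
  rw [← Finset.prod_mul_distrib]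
  refine Finset.prod_congr rfl fun x _ => ?_
  cases h1 : A x <;> cases h2 : s x <;> cases h3 : t x <;> simp [h2, h3]

lemma chi_single (A : X → Bool) (p : X) :
    chi A (fun x => decide (x = p)) = if A p then -1 else 1 := by
  unfold chi
  rw [Finset.prod_eq_single p]
  · simp
  · intro b _ hb
    simp [hb]
  · simp

lemma chi_zero_left (s : X → Bool) : chi (fun _ => false) s = 1 := by
  simp [chi]

lemma sum_chi (s : X → Bool) :
    ∑ A : X → Bool, chi A s = if s = (fun _ => false) then (2 : ℝ) ^ Fintype.card X else 0 := by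
  unfold chi
  have h := Finset.prod_univ_sum (fun _ : X => (univ : Finset Bool))
    (fun x b => if b && s x then (-1 : ℝ) else 1)
  rw [Fintype.piFinset_univ] at h
  rw [← h]
  split_ifs with hs
  · subst hs
    simp
  · have : ∃ x, s x = true := by
      by_contra hcon
      push Not at hcon
      apply hs
      ext x
      simpa using hcon x
    obtain ⟨x, hx⟩ := this
    apply Finset.prod_eq_zero (Finset.mem_univ x)
    simp [hx]

variable {V : Type*} [NormedAddCommGroup V] [InnerProductSpace ℝ V]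

/-- projection onto the sector `A` (columns in `A` antisymmetric, the others symmetric) -/
noncomputable def PA (ρ : Perm (X ⊕ X) →* (V →L[ℝ] V)) (A : X → Bool) (v : V) : V :=
  ((2 : ℝ) ^ Fintype.card X)⁻¹ • ∑ s : X → Bool, chi A s • ρ (colFlip s) v

lemma sum_PA (ρ : Perm (X ⊕ X) →* (V →L[ℝ] V)) (v : V) : ∑ A : X → Bool, PA ρ A v = v := by
  unfold PA
  rw [← Finset.smul_sum, Finset.sum_comm]
  simp_rw [← Finset.sum_smul, sum_chi]
  rw [Finset.sum_eq_single (fun _ => false)]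
  · simp [colFlip_zero]
  · intro b _ hb
    simp [hb]
  · simp

lemma PA_zero (ρ : Perm (X ⊕ X) →* (V →L[ℝ] V)) (v : V) :
    PA ρ (fun _ => false) v = avg ρ (fun s : X → Bool => colFlip s) v := by
  rw [avg_apply]
  unfold PA
  simp [chi_zero_left]

/-- vector in the sector `A` -/
def Sec (ρ : Perm (X ⊕ X) →* (V →L[ℝ] V)) (A : X → Bool) (v : V) : Prop :=
  ∀ p, ρ (io p) v = (if A p then (-1 : ℝ) else 1) • v

lemma PA_sec (ρ : Perm (X ⊕ X) →* (V →L[ℝ] V)) (A : X → Bool) (v : V) : Sec ρ A (PA ρ A v) := by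
  intro p
  unfold PA
  rw [map_smul, map_sum, smul_comm]
  congr 1
  rw [← chi_single A p, Finset.smul_sum]
  rw [← Equiv.sum_comp (Equiv.ofBijective (fun s : X → Bool => fun x => xor (decide (x = p)) (s x))
    (Function.Involutive.bijective (fun s => by ext x; simp)))]
  refine Finset.sum_congr rfl fun s _ => ?_
  simp only [Equiv.ofBijective_apply]
  rw [map_smul, chi_xor, ← map_mul_apply, ← colFlip_single, colFlip_mul, smul_smul]
  congr 3
  ext x
  simp

lemma io_sq (p : X) : io p * io p = 1 := by simp [io]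

lemma sec_orth {ρ : Perm (X ⊕ X) →* (V →L[ℝ] V)} (hρ : Isom ρ) {A B : X → Bool} (hAB : A ≠ B)
    {v w : V} (hv : Sec ρ A v) (hw : Sec ρ B w) : ⟪v, w⟫ = 0 := by
  have : ∃ p, A p ≠ B p := by
    by_contra hcon
    push Not at hcon
    exact hAB (funext hcon)
  obtain ⟨p, hp⟩ := this
  have h := hρ.inner_map (io p) v w
  rw [hv p, hw p, inner_smul_left, inner_smul_right] at h
  cases hA : A p <;> cases hB : B p <;> simp [hA, hB] at hp h <;> linarith

/-- operators commuting with the column transpositions preserve the sectors -/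
lemma sec_map {ρ : Perm (X ⊕ X) →* (V →L[ℝ] V)} {A : X → Bool} {v : V} (hv : Sec ρ A v)
    (T : V →L[ℝ] V) (hT : ∀ p w, T (ρ (io p) w) = ρ (io p) (T w)) : Sec ρ A (T v) := by
  intro p
  rw [← hT, hv p, map_smul]

lemma sum_sq_of_sec {ρ : Perm (X ⊕ X) →* (V →L[ℝ] V)} (hρ : Isom ρ) (x y : (X → Bool) → V)
    (hx : ∀ A, Sec ρ A (x A)) (hy : ∀ A, Sec ρ A (y A)) :
    ⟪∑ A, x A, ∑ A, y A⟫ = ∑ A, ⟪x A, y A⟫ := by
  rw [sum_inner]
  refine Finset.sum_congr rfl fun A _ => ?_
  rw [inner_sum, Finset.sum_eq_single A]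
  · intro B _ hB
    exact sec_orth hρ (Ne.symm hB) (hx A) (hy B)
  · simp

/-- the operator `κ_{pq}` -/
noncomputable def kap (ρ : Perm (X ⊕ X) →* (V →L[ℝ] V)) (p q : X) : V →L[ℝ] V :=
  ρ (swap (Sum.inl p) (Sum.inl q)) + ρ (swap (Sum.inr p) (Sum.inr q)) -
    ρ (swap (Sum.inl p) (Sum.inr q)) - ρ (swap (Sum.inr p) (Sum.inl q))

lemma kap_apply (ρ : Perm (X ⊕ X) →* (V →L[ℝ] V)) (p q : X) (v : V) : kap ρ p q v =
    ρ (swap (Sum.inl p) (Sum.inl q)) v + ρ (swap (Sum.inr p) (Sum.inr q)) v -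
    ρ (swap (Sum.inl p) (Sum.inr q)) v - ρ (swap (Sum.inr p) (Sum.inl q)) v := rfl

lemma kap_symm {ρ : Perm (X ⊕ X) →* (V →L[ℝ] V)} (hρ : Isom ρ) (p q : X) (v w : V) :
    ⟪kap ρ p q v, w⟫ = ⟪v, kap ρ p q w⟫ := by
  simp only [kap_apply, inner_sub_left, inner_sub_right, inner_add_left, inner_add_right]
  simp only [hρ.inner_left, swap_inv]

lemma kap_norm_le {ρ : Perm (X ⊕ X) →* (V →L[ℝ] V)} (hρ : Isom ρ) (p q : X) (v : V) :
    ‖kap ρ p q v‖ ≤ 4 * ‖v‖ := by
  rw [kap_apply]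
  refine (norm_sub_le _ _).trans ?_
  have h1 := norm_sub_le (ρ (swap (Sum.inl p) (Sum.inl q)) v + ρ (swap (Sum.inr p) (Sum.inr q)) v)
    (ρ (swap (Sum.inl p) (Sum.inr q)) v)
  have h2 := norm_add_le (ρ (swap (Sum.inl p) (Sum.inl q)) v) (ρ (swap (Sum.inr p) (Sum.inr q)) v)
  simp only [hρ _ v] at h1 h2 ⊢
  linarith

lemma io_mul_swap (r : X) (a b : X ⊕ X) : io r * swap a b = swap (io r a) (io r b) * io r :=
  Equiv.mul_swap_eq_swap_mul _ _ _

lemma io_inl_self (p : X) : io p (Sum.inl p) = Sum.inr p := by simp [io]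
lemma io_inr_self (p : X) : io p (Sum.inr p) = Sum.inl p := by simp [io]
lemma io_inl_ne {p r : X} (h : p ≠ r) : io r (Sum.inl p) = Sum.inl p := by
  simp [io, swap_apply_of_ne_of_ne, h]
lemma io_inr_ne {p r : X} (h : p ≠ r) : io r (Sum.inr p) = Sum.inr p := by
  simp [io, swap_apply_of_ne_of_ne, h]

lemma io_kap_self_left (ρ : Perm (X ⊕ X) →* (V →L[ℝ] V)) {p q : X} (hpq : p ≠ q) (v : V) :
    ρ (io p) (kap ρ p q v) = - kap ρ p q (ρ (io p) v) := by
  simp only [kap_apply, map_add, map_sub, ← map_mul_apply, io_mul_swap, io_inl_self, io_inr_self,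
    io_inl_ne hpq.symm, io_inr_ne hpq.symm]
  abel

lemma io_kap_self_right (ρ : Perm (X ⊕ X) →* (V →L[ℝ] V)) {p q : X} (hpq : p ≠ q) (v : V) :
    ρ (io q) (kap ρ p q v) = - kap ρ p q (ρ (io q) v) := by
  simp only [kap_apply, map_add, map_sub, ← map_mul_apply, io_mul_swap, io_inl_self, io_inr_self,
    io_inl_ne hpq, io_inr_ne hpq]
  abel

lemma io_kap_other (ρ : Perm (X ⊕ X) →* (V →L[ℝ] V)) {p q r : X} (hp : p ≠ r) (hq : q ≠ r)
    (v : V) : ρ (io r) (kap ρ p q v) = kap ρ p q (ρ (io r) v) := by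
  simp only [kap_apply, map_add, map_sub, ← map_mul_apply, io_mul_swap, 
    io_inl_ne hp, io_inr_ne hp, io_inl_ne hq, io_inr_ne hq]

/-- toggle the columns `p` and `q` -/
def tog (p q : X) (A : X → Bool) : X → Bool := fun x => if x = p ∨ x = q then !(A x) else A x

lemma tog_tog (p q : X) (A : X → Bool) : tog p q (tog p q A) = A := by
  ext x
  unfold tog
  split_ifs <;> simp

/-- toggling as an equivalence -/
def togEquiv (p q : X) : (X → Bool) ≃ (X → Bool) := Function.Involutive.toPerm _ (tog_tog p q)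

lemma kap_sec {ρ : Perm (X ⊕ X) →* (V →L[ℝ] V)} {p q : X} (hpq : p ≠ q) {A : X → Bool} {v : V}
    (hv : Sec ρ A v) : Sec ρ (tog p q A) (kap ρ p q v) := by
  intro r
  by_cases hp : r = p
  · subst hp
    rw [io_kap_self_left ρ hpq, hv r, map_smul]
    cases h : A r <;> simp [tog, h]
  · by_cases hq : r = q
    · subst hq
      rw [io_kap_self_right ρ hpq, hv r, map_smul]
      cases h : A r <;> simp [tog, h]
    · rw [io_kap_other ρ (Ne.symm hp) (Ne.symm hq), hv r, map_smul]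
      simp [tog, hp, hq]

lemma kap_diag (ρ : Perm (X ⊕ X) →* (V →L[ℝ] V)) (p : X) (v : V) :
    kap ρ p p v = (2 : ℝ) • (v - ρ (io p) v) := by
  rw [kap_apply]
  simp only [swap_self, swap_comm (Sum.inr p) (Sum.inl p)]
  have h1 : ρ (Equiv.refl (X ⊕ X)) v = v := by
    have : ρ (Equiv.refl (X ⊕ X)) = 1 := map_one ρ
    rw [this]; rfl
  rw [h1, show swap (Sum.inl p) (Sum.inr p) = io p from rfl, two_smul]
  abel

/-- creation estimate -/
lemma kap_sq_le {ρ : Perm (X ⊕ X) →* (V →L[ℝ] V)} (hρ : Isom ρ) {p q : X} (hpq : p ≠ q) {v : V}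
    (hp : ρ (io p) v = v) (hq : ρ (io q) v = v) :
    ‖kap ρ p q v‖ ^ 2 ≤ 8 * (‖v‖ ^ 2 - ⟪v, ρ (swap (Sum.inl q) (Sum.inr p)) v⟫) := by
  set u := ρ (swap (Sum.inl p) (Sum.inl q)) v with hu
  have hd : ρ (swap (Sum.inr p) (Sum.inl q)) v = ρ (io p) u := by
    rw [hu, ← map_mul_apply, io_mul_swap, map_mul_apply, hp, io_inl_self, io_inl_ne hpq.symm]
  have hc : ρ (swap (Sum.inl p) (Sum.inr q)) v = ρ (io q) u := by
    rw [hu, ← map_mul_apply, io_mul_swap, map_mul_apply, hq, io_inl_ne hpq, io_inl_self]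
  have hb : ρ (swap (Sum.inr p) (Sum.inr q)) v = ρ (io q) (ρ (io p) u) := by
    rw [← hd, ← map_mul_apply, io_mul_swap, map_mul_apply, hq, io_inr_ne hpq, io_inl_self]
  have hk : kap ρ p q v = (u - ρ (io p) u) - ρ (io q) (u - ρ (io p) u) := by
    rw [kap_apply, hb, hc, hd, map_sub]
    abel
  have h1 : ‖kap ρ p q v‖ ≤ 2 * ‖u - ρ (io p) u‖ := by
    rw [hk]
    refine (norm_sub_le _ _).trans ?_
    rw [hρ]
    linarith
  have h2 : ‖u - ρ (io p) u‖ ^ 2 = 2 * (‖v‖ ^ 2 - ⟪v, ρ (swap (Sum.inl q) (Sum.inr p)) v⟫) := by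
    have h4 : ‖u‖ = ‖v‖ := hρ _ _
    rw [norm_sub_sq_real, hρ (io p) u, h4, hu]
    have h3 : ⟪ρ (swap (Sum.inl p) (Sum.inl q)) v, ρ (io p) (ρ (swap (Sum.inl p) (Sum.inl q)) v)⟫ =
        ⟪v, ρ (swap (Sum.inl q) (Sum.inr p)) v⟫ := by
      rw [hρ.inner_left, swap_inv, ← map_mul_apply, ← map_mul_apply]
      have e : swap (Sum.inl p : X ⊕ X) (Sum.inl q) * io p * swap (Sum.inl p) (Sum.inl q) =
          swap (Sum.inl q) (Sum.inr p) := by
        unfold io
        rw [Equiv.mul_swap_eq_swap_mul (swap (Sum.inl p : X ⊕ X) (Sum.inl q)) (Sum.inl p)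
          (Sum.inr p), mul_assoc, swap_mul_self, mul_one, swap_apply_left,
          swap_apply_of_ne_of_ne (by simp) (by simp)]
      rw [e]
    rw [h3]
    ring
  calc ‖kap ρ p q v‖ ^ 2 ≤ (2 * ‖u - ρ (io p) u‖) ^ 2 := by
        apply pow_le_pow_left₀ (norm_nonneg _) h1
    _ = 8 * (‖v‖ ^ 2 - ⟪v, ρ (swap (Sum.inl q) (Sum.inr p)) v⟫) := by
        rw [mul_pow, h2]; ring

end Vale.Agent.P162
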