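import Vale.Agent.P162.Setup

open Equiv Finset
open scoped RealInnerProductSpace BigOperators

namespace Vale.Agent.P162

section compare

variable {V : Type*} [NormedAddCommGroup V] [InnerProductSpace ℝ V] [CompleteSpace V]

lemma cmp_exp_symm (Z : V →L[ℝ] V) (hZ : ∀ v w, ⟪Z v, w⟫ = ⟪v, Z w⟫) (v w : V) :
    ⟪NormedSpace.exp Z v, w⟫ = ⟪v, NormedSpace.exp Z w⟫ := by
  have h1 : IsSelfAdjoint Z :=
    ContinuousLinearMap.isSelfAdjoint_iff_isSymmetric.2 (fun v w => hZ v w)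
  have h2 : IsSelfAdjoint (NormedSpace.exp Z) := h1.exp
  exact ContinuousLinearMap.isSelfAdjoint_iff_isSymmetric.1 h2 v w

omit [CompleteSpace V] in
lemma cmp_smul_symm (Z : V →L[ℝ] V) (hZ : ∀ v w, ⟪Z v, w⟫ = ⟪v, Z w⟫) (c : ℝ) (v w : V) :
    ⟪(c • Z) v, w⟫ = ⟪v, (c • Z) w⟫ := by
  have e : ∀ x, (c • Z) x = c • Z x := fun _ => rfl
  rw [e, e, inner_smul_left, inner_smul_right, hZ]
  simp

lemma cmp_exp_hasDerivAt (Z : V →L[ℝ] V) (s : ℝ) :
    HasDerivAt (fun r : ℝ => NormedSpace.exp (r • Z)) (Z * NormedSpace.exp (s • Z)) s :=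
  hasDerivAt_exp_smul_const' Z s

lemma cmp_exp_add (Z : V →L[ℝ] V) (s t : ℝ) :
    NormedSpace.exp (s • Z) * NormedSpace.exp (t • Z) = NormedSpace.exp ((s + t) • Z) := by
  let _ : NormedAlgebra ℚ (V →L[ℝ] V) := NormedAlgebra.restrictScalars ℚ ℝ (V →L[ℝ] V)
  rw [add_smul, NormedSpace.exp_add_of_commute]
  exact (Commute.refl Z).smul_left s |>.smul_right t

theorem exp_compare (Z G : V →L[ℝ] V) (hZ : ∀ v w, ⟪Z v, w⟫ = ⟪v, Z w⟫)
    (hG : ∀ v w, ⟪G v, w⟫ = ⟪v, G w⟫)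
    (b : ℝ) (hb : 0 ≤ b)
    (h : ∀ s ∈ Set.Icc 0 b, ∀ w : V,
      0 ≤ ⟪w, G (NormedSpace.exp (s • G) w)⟫ + ⟪Z w, NormedSpace.exp (s • G) w⟫) (v : V) :
    ⟪v, NormedSpace.exp (-(b • Z)) v⟫ ≤ ⟪v, NormedSpace.exp (b • G) v⟫ := by
  set Y : V →L[ℝ] V := (1 / 2 : ℝ) • Z with hY
  have hYs : ∀ v w, ⟪Y v, w⟫ = ⟪v, Y w⟫ := cmp_smul_symm Z hZ _
  set u : V := NormedSpace.exp ((-b) • Y) v with hu
  set f : ℝ → V := fun s => NormedSpace.exp (s • Y) u with hf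
  set φ : ℝ → ℝ := fun s => ⟪f s, NormedSpace.exp (s • G) (f s)⟫ with hφ
  have hfd : ∀ s, HasDerivAt f (Y (f s)) s := by
    intro s
    have h1 := (cmp_exp_hasDerivAt Y s).clm_apply (hasDerivAt_const s u)
    simpa using h1
  have hφd : ∀ s, HasDerivAt φ
      (⟪f s, G (NormedSpace.exp (s • G) (f s))⟫ + ⟪Z (f s), NormedSpace.exp (s • G) (f s)⟫) s := by
    intro s
    have h1 := (cmp_exp_hasDerivAt G s).clm_apply (hfd s)
    have h2 := (hfd s).inner ℝ h1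
    refine h2.congr_deriv ?_
    have e1 : ⟪f s, NormedSpace.exp (s • G) (Y (f s))⟫ = ⟪Y (f s), NormedSpace.exp (s • G) (f s)⟫ := by
      rw [← cmp_exp_symm (s • G) (cmp_smul_symm G hG s), real_inner_comm]
    have e2 : ⟪Y (f s), NormedSpace.exp (s • G) (f s)⟫ =
        1 / 2 * ⟪Z (f s), NormedSpace.exp (s • G) (f s)⟫ := by
      rw [hY]
      simp [inner_smul_left]
    rw [inner_add_right, e1, e2]
    show ⟪f s, G (NormedSpace.exp (s • G) (f s))⟫ + _ + _ = _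
    ring
  have hmono : MonotoneOn φ (Set.Icc 0 b) := by
    refine monotoneOn_of_deriv_nonneg (convex_Icc 0 b)
      (fun s _ => (hφd s).continuousAt.continuousWithinAt)
      (fun s _ => (hφd s).differentiableAt.differentiableWithinAt) ?_
    intro s hs
    rw [(hφd s).deriv]
    exact h s (interior_subset hs) (f s)
  have h0 : φ 0 ≤ φ b := hmono ⟨le_rfl, hb⟩ ⟨hb, le_rfl⟩ hb
  have e0 : φ 0 = ⟪v, NormedSpace.exp (-(b • Z)) v⟫ := by
    have h1 : f 0 = u := by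
      simp [hf]
    have h2 : φ 0 = ⟪u, u⟫ := by
      simp only [hφ, h1, zero_smul, NormedSpace.exp_zero]
      rfl
    rw [h2, hu, cmp_exp_symm _ (cmp_smul_symm Y hYs _)]
    have h3 : NormedSpace.exp ((-b) • Y) (NormedSpace.exp ((-b) • Y) v) =
        (NormedSpace.exp ((-b) • Y) * NormedSpace.exp ((-b) • Y)) v := rfl
    rw [h3, cmp_exp_add, hY, smul_smul]
    congr 3
    rw [← neg_smul]
    congr 1
    ring
  have e1 : f b = v := by
    show NormedSpace.exp (b • Y) (NormedSpace.exp ((-b) • Y) v) = v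
    have h3 : NormedSpace.exp (b • Y) (NormedSpace.exp ((-b) • Y) v) =
        (NormedSpace.exp (b • Y) * NormedSpace.exp ((-b) • Y)) v := rfl
    rw [h3, cmp_exp_add, add_neg_cancel, zero_smul, NormedSpace.exp_zero]
    rfl
  rw [e0] at h0
  refine h0.trans (le_of_eq ?_)
  simp only [hφ, e1]

lemma cmp_exp_mem (L : V →L[ℝ] V) (W : Submodule ℝ V) (hWc : IsClosed (W : Set V))
    (hW : ∀ w ∈ W, L w ∈ W) (w : V) (hw : w ∈ W) : NormedSpace.exp L w ∈ W := by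
  have h1 : HasSum (fun n : ℕ => ((n.factorial : ℝ)⁻¹) • L ^ n) (NormedSpace.exp L) :=
    NormedSpace.exp_series_hasSum_exp' (𝕂 := ℝ) L
  have h2 := (ContinuousLinearMap.apply ℝ V w).hasSum h1
  refine hWc.mem_of_tendsto h2 (Filter.Eventually.of_forall fun s => ?_)
  refine W.sum_mem fun n _ => ?_
  have h3 : ∀ n : ℕ, (L ^ n) w ∈ W := by
    intro n
    induction n with
    | zero => simpa using hw
    | succ n ih =>
      rw [pow_succ']
      exact hW _ ih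
  exact W.smul_mem _ (h3 n)

theorem exp_decay (L : V →L[ℝ] V) (hL : ∀ v w, ⟪L v, w⟫ = ⟪v, L w⟫) (W : Submodule ℝ V)
    (hWc : IsClosed (W : Set V)) (hW : ∀ w ∈ W, L w ∈ W) (a : ℝ)
    (ha : ∀ w ∈ W, a * ‖w‖ ^ 2 ≤ ⟪w, L w⟫) (t : ℝ) (ht : 0 ≤ t) (w : V) (hw : w ∈ W) :
    ⟪w, NormedSpace.exp (-(t • L)) w⟫ ≤ Real.exp (-(t * a)) * ‖w‖ ^ 2 := by
  set Y : V →L[ℝ] V := (-(1 / 2) : ℝ) • L with hY
  have hYs : ∀ v w, ⟪Y v, w⟫ = ⟪v, Y w⟫ := cmp_smul_symm L hL _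
  set f : ℝ → V := fun s => NormedSpace.exp (s • Y) w with hf
  have hfd : ∀ s, HasDerivAt f (Y (f s)) s := by
    intro s
    have h1 := (cmp_exp_hasDerivAt Y s).clm_apply (hasDerivAt_const s w)
    simpa using h1
  have hfm : ∀ s, f s ∈ W := by
    intro s
    refine cmp_exp_mem (s • Y) W hWc ?_ w hw
    intro x hx
    rw [hY, smul_smul]
    exact W.smul_mem _ (hW x hx)
  set φ : ℝ → ℝ := fun s => Real.exp (s * a) * ⟪f s, f s⟫ with hφ
  have hφd : ∀ s, HasDerivAt φ (Real.exp (s * a) * (a * ⟪f s, f s⟫ - ⟪f s, L (f s)⟫)) s := by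
    intro s
    have h1 := (hfd s).inner ℝ (hfd s)
    have h2 : HasDerivAt (fun s : ℝ => Real.exp (s * a)) (Real.exp (s * a) * a) s := by
      have h3 := ((hasDerivAt_id s).mul_const a).exp
      simpa using h3
    refine (h2.mul h1).congr_deriv ?_
    have e1 : ⟪Y (f s), f s⟫ = ⟪f s, Y (f s)⟫ := hYs _ _
    have e2 : ⟪f s, Y (f s)⟫ = -(1 / 2) * ⟪f s, L (f s)⟫ := by
      rw [hY]
      simp [inner_smul_right]
    rw [e1, e2]
    ring
  have hanti : AntitoneOn φ (Set.Icc 0 t) := by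
    refine antitoneOn_of_deriv_nonpos (convex_Icc 0 t)
      (fun s _ => (hφd s).continuousAt.continuousWithinAt)
      (fun s _ => (hφd s).differentiableAt.differentiableWithinAt) ?_
    intro s hs
    rw [(hφd s).deriv]
    have h1 := ha (f s) (hfm s)
    rw [← real_inner_self_eq_norm_sq] at h1
    exact mul_nonpos_of_nonneg_of_nonpos (Real.exp_pos _).le (by linarith)
  have h0 : φ t ≤ φ 0 := hanti ⟨le_rfl, ht⟩ ⟨ht, le_rfl⟩ ht
  have e0 : φ 0 = ‖w‖ ^ 2 := by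
    have h1 : f 0 = w := by
      simp [hf]
    simp only [hφ, h1, zero_mul, Real.exp_zero, one_mul, real_inner_self_eq_norm_sq]
  have e1 : ⟪f t, f t⟫ = ⟪w, NormedSpace.exp (-(t • L)) w⟫ := by
    show ⟪NormedSpace.exp (t • Y) w, NormedSpace.exp (t • Y) w⟫ = _
    rw [cmp_exp_symm _ (cmp_smul_symm Y hYs _)]
    have h3 : NormedSpace.exp (t • Y) (NormedSpace.exp (t • Y) w) =
        (NormedSpace.exp (t • Y) * NormedSpace.exp (t • Y)) w := rfl
    rw [h3, cmp_exp_add, hY, smul_smul]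
    congr 3
    rw [← neg_smul]
    congr 1
    ring
  have h1 : Real.exp (t * a) * ⟪w, NormedSpace.exp (-(t • L)) w⟫ ≤ ‖w‖ ^ 2 := by
    rw [← e1, ← e0]
    exact h0
  have h2 := mul_le_mul_of_nonneg_left h1 (Real.exp_pos (-(t * a))).le
  rw [← mul_assoc, ← Real.exp_add, neg_add_cancel, Real.exp_zero, one_mul] at h2
  exact h2

end compare

end Vale.Agent.P162
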