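import Mathlib

open Equiv

namespace Vale.Agent.P162

/-- One Thorp shuffle of a deck of `2 * m` cards, positions numbered `0, …, 2 * m - 1`, with coins
`c`: the cards in positions `i` (top half) and `m + i` (bottom half), `i < m`, are placed in the
positions `2 * i` and `2 * i + 1`, in this order if `c i = false` and in the opposite order if
`c i = true`. The function gives the new position of the card in position `x`. -/
def thorpFun (m : ℕ) (c : Fin m → Bool) (x : Fin (2 * m)) : Fin (2 * m) :=
  if h : (x : ℕ) < m then
    ⟨2 * (x : ℕ) + (if c ⟨x, h⟩ then 1 else 0), by split <;> omega⟩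
  else
    ⟨2 * ((x : ℕ) - m) + (if c ⟨(x : ℕ) - m, by omega⟩ then 0 else 1), by split <;> omega⟩

lemma thorpFun_injective (m : ℕ) (c : Fin m → Bool) : Function.Injective (thorpFun m c) := by
  intro x y hxy
  have hx := x.2
  have hy := y.2
  unfold thorpFun at hxy
  by_cases h1 : (x : ℕ) < m <;> by_cases h2 : (y : ℕ) < m
  · simp only [h1, h2, dif_pos, Fin.mk.injEq] at hxy
    apply Fin.ext
    split at hxy <;> split at hxy <;> omega
  · simp only [h1, h2, dif_pos, dif_neg, not_false_iff, Fin.mk.injEq] at hxy
    exfalso
    have e : (x : ℕ) = (y : ℕ) - m := by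
      split at hxy <;> split at hxy <;> omega
    have e2 : (⟨(x : ℕ), h1⟩ : Fin m) = ⟨(y : ℕ) - m, by omega⟩ := Fin.ext e
    rw [e2] at hxy
    split at hxy <;> omega
  · simp only [h1, h2, dif_pos, dif_neg, not_false_iff, Fin.mk.injEq] at hxy
    exfalso
    have e : (y : ℕ) = (x : ℕ) - m := by
      split at hxy <;> split at hxy <;> omega
    have e2 : (⟨(y : ℕ), h2⟩ : Fin m) = ⟨(x : ℕ) - m, by omega⟩ := Fin.ext e
    rw [e2] at hxy
    split at hxy <;> omega
  · simp only [h1, h2, dif_neg, not_false_iff, Fin.mk.injEq] at hxy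
    apply Fin.ext
    split at hxy <;> split at hxy <;> omega

/-- the permutation of positions produced by one Thorp shuffle with coins `c` -/
noncomputable def thorpPerm (m : ℕ) (c : Fin m → Bool) : Perm (Fin (2 * m)) :=
  Equiv.ofBijective (thorpFun m c) (Finite.injective_iff_bijective.1 (thorpFun_injective m c))

/-- the law of one Thorp shuffle (fair independent coins) on the symmetric group -/
noncomputable def thorpLaw (m : ℕ) (g : Perm (Fin (2 * m))) : ℝ :=
  (((Finset.univ : Finset (Fin m → Bool)).filter fun c => thorpPerm m c = g).card : ℝ) / 2 ^ m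

/-- the law after `t` independent Thorp shuffles: the `t`-fold convolution power of `thorpLaw` -/
noncomputable def thorpPow (m : ℕ) : ℕ → Perm (Fin (2 * m)) → ℝ
  | 0 => fun g => if g = 1 then 1 else 0
  | t + 1 => fun g => ∑ a : Perm (Fin (2 * m)), thorpLaw m a * thorpPow m t (a⁻¹ * g)

/-- total variation distance between the law after `t` Thorp shuffles and the uniform law -/
noncomputable def tvDist (m t : ℕ) : ℝ :=
  1 / 2 * ∑ g : Perm (Fin (2 * m)), |thorpPow m t g - 1 / ((2 * m).factorial : ℝ)|

/-- the mixing time of the Thorp shuffle of a deck of `2 * m` cards -/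
noncomputable def tmix (m : ℕ) : ℕ := sInf {t : ℕ | tvDist m t ≤ 1 / 4}

end Vale.Agent.P162
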