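import Vale.Agent.P162.Setup

open Equiv Finset
open scoped RealInnerProductSpace BigOperators

namespace Vale.Agent.P162

section spectral

variable {X : Type*} [Fintype X] [DecidableEq X] {V : Type*} [NormedAddCommGroup V]
    [InnerProductSpace ℝ V]

/-- the random transposition Laplacian of the subset `C` -/
noncomputable def lapC (ρ : Perm X →* (V →L[ℝ] V)) (C : Finset X) : V →L[ℝ] V :=
  (1 / 2 : ℝ) • ∑ i ∈ C, ∑ j ∈ C, (1 - ρ (swap i j))

lemma lapC_apply (ρ : Perm X →* (V →L[ℝ] V)) (C : Finset X) (v : V) :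
    lapC ρ C v = (1 / 2 : ℝ) • ∑ i ∈ C, ∑ j ∈ C, (v - ρ (swap i j) v) := by
  simp [lapC, ContinuousLinearMap.sum_apply]

lemma lapC_univ (ρ : Perm X →* (V →L[ℝ] V)) : lapC ρ univ = lap ρ := rfl

lemma perm_mem {C : Finset X} {g : Perm X} (hg : ∀ x, x ∉ C → g x = x) (x : X) :
    x ∈ C ↔ g x ∈ C := by
  constructor
  · intro hx
    by_contra hgx
    have h1 := hg _ hgx
    have h2 := g.injective h1
    rw [h2] at hgx
    exact hgx hx
  · intro hx
    by_contra hgx
    rw [hg x hgx] at hx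
    exact hgx hx

lemma lapC_comm (ρ : Perm X →* (V →L[ℝ] V)) (C : Finset X) {g : Perm X}
    (hg : ∀ x, x ∉ C → g x = x) (v : V) : lapC ρ C (ρ g v) = ρ g (lapC ρ C v) := by
  rw [lapC_apply, lapC_apply, map_smul, map_sum]
  congr 1
  symm
  refine Finset.sum_equiv g (perm_mem hg) fun i hi => ?_
  rw [map_sum]
  refine Finset.sum_equiv g (perm_mem hg) fun j hj => ?_
  rw [map_sub, ← map_mul_apply, ← map_mul_apply, Equiv.mul_swap_eq_swap_mul]

lemma lapC_symm {ρ : Perm X →* (V →L[ℝ] V)} (hρ : Isom ρ) (C : Finset X) (v w : V) :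
    ⟪lapC ρ C v, w⟫ = ⟪v, lapC ρ C w⟫ := by
  rw [lapC_apply, lapC_apply, inner_smul_left, inner_smul_right]
  simp only [sum_inner, inner_sum, inner_sub_left, inner_sub_right]
  congr 1
  refine Finset.sum_congr rfl fun i _ => Finset.sum_congr rfl fun j _ => ?_
  rw [hρ.inner_left, swap_inv]

lemma symz_apply (ρ : Perm X →* (V →L[ℝ] V)) (B : Finset X) (v : V) :
    symz ρ B v = ∑ g ∈ (univ : Finset (Perm X)).filter (fun g => ∀ x, x ∉ B → g x = x), ρ g v := by
  simp [symz, ContinuousLinearMap.sum_apply]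

lemma symz_inv (ρ : Perm X →* (V →L[ℝ] V)) (B : Finset X) {g : Perm X}
    (hg : ∀ x, x ∉ B → g x = x) (v : V) : ρ g (symz ρ B v) = symz ρ B v := by
  rw [symz_apply, map_sum]
  refine Finset.sum_equiv (Equiv.mulLeft g) (fun h => ?_) fun h _ => ?_
  · simp only [mem_filter, mem_univ, true_and, Equiv.coe_mulLeft, Perm.mul_apply]
    constructor
    · intro h1 x hx
      rw [h1 x hx, hg x hx]
    · intro h1 x hx
      apply g.injective
      rw [h1 x hx, hg x hx]
  · rw [Equiv.coe_mulLeft, map_mul_apply]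

lemma symz_empty (ρ : Perm X →* (V →L[ℝ] V)) (v : V) : symz ρ ∅ v = v := by
  rw [symz_apply]
  have : (univ : Finset (Perm X)).filter (fun g => ∀ x, x ∉ (∅ : Finset X) → g x = x) = {1} := by
    ext g
    simp only [mem_filter, mem_univ, true_and, Finset.notMem_empty, not_false_eq_true,
      forall_const, mem_singleton]
    constructor
    · intro h
      ext x
      rw [h x]; rfl
    · rintro rfl x
      rfl
  rw [this, Finset.sum_singleton, map_one]
  rfl

/-- the coset decomposition -/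
lemma symz_insert (ρ : Perm X →* (V →L[ℝ] V)) {B : Finset X} {j : X} (hj : j ∉ B) {y : V}
    (hy : ∀ g : Perm X, (∀ x, x ∉ B → g x = x) → ρ g y = y) :
    ∃ N : ℕ, N ≠ 0 ∧ symz ρ (insert j B) y = (N : ℝ) • ∑ i ∈ insert j B, ρ (swap i j) y := by
  refine ⟨((univ : Finset (Perm X)).filter (fun g => ∀ x, x ∉ B → g x = x)).card, ?_, ?_⟩
  · apply Finset.card_ne_zero_of_mem (a := 1)
    simp
  · have h1 : symz ρ (insert j B) y = ∑ p ∈ (insert j B) ×ˢ
        ((univ : Finset (Perm X)).filter (fun g => ∀ x, x ∉ B → g x = x)),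
        ρ (swap p.1 j * p.2) y := by
      rw [symz_apply]
      refine Finset.sum_nbij' (fun g => (g j, swap (g j) j * g)) (fun p => swap p.1 j * p.2)
        ?_ ?_ ?_ ?_ ?_
      · intro g hg
        simp only [mem_filter, mem_univ, true_and] at hg
        simp only [mem_product, mem_filter, mem_univ, true_and, Perm.mul_apply]
        refine ⟨(perm_mem hg j).mp (mem_insert_self j B), ?_⟩
        intro x hx
        by_cases hxj : x = j
        · rw [hxj, swap_apply_left]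
        · have hx' : x ∉ insert j B := by
            simp only [mem_insert, not_or]
            exact ⟨hxj, hx⟩
          rw [hg x hx', swap_apply_of_ne_of_ne _ hxj]
          intro h2
          have h3 := (perm_mem hg j).mp (mem_insert_self j B)
          rw [← h2] at h3
          exact hx' h3
      · rintro ⟨i, g⟩ hp
        simp only [mem_product, mem_filter, mem_univ, true_and] at hp
        obtain ⟨hi, hg⟩ := hp
        simp only [mem_filter, mem_univ, true_and, Perm.mul_apply]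
        intro x hx
        have hx' : x ∉ B := fun h => hx (mem_insert_of_mem h)
        rw [hg x hx', swap_apply_of_ne_of_ne]
        · rintro rfl
          exact hx hi
        · rintro rfl
          exact hx (mem_insert_self _ _)
      · intro g hg
        simp only
        rw [← mul_assoc, swap_mul_self, one_mul]
      · rintro ⟨i, g⟩ hp
        simp only [mem_product, mem_filter, mem_univ, true_and] at hp
        obtain ⟨hi, hg⟩ := hp
        have h2 : (swap i j * g) j = i := by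
          rw [Perm.mul_apply, hg j hj, swap_apply_right]
        simp only [h2]
        rw [← mul_assoc, swap_mul_self, one_mul]
      · intro g hg
        simp only
        rw [← mul_assoc, swap_mul_self, one_mul]
    rw [h1, Finset.sum_product, Finset.smul_sum]
    refine Finset.sum_congr rfl fun i _ => ?_
    have h2 : ∀ g ∈ (univ : Finset (Perm X)).filter (fun g => ∀ x, x ∉ B → g x = x),
        ρ (swap i j * g) y = ρ (swap i j) y := by
      intro g hg
      rw [map_mul_apply, hy g (by simpa using hg)]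
    rw [Finset.sum_congr rfl h2, Finset.sum_const, ← Nat.cast_smul_eq_nsmul ℝ]

/-- splitting of the Laplacian at a vector invariant under the permutations of `B`. -/
lemma lapC_split (ρ : Perm X →* (V →L[ℝ] V)) {B C : Finset X} (hBC : B ⊆ C) {y : V}
    (hy : ∀ g : Perm X, (∀ x, x ∉ B → g x = x) → ρ g y = y)
    (hj : ∀ j ∈ C \ B, ∑ i ∈ B, ρ (swap i j) y = -y) :
    lapC ρ C y = (((C \ B).card : ℝ) * (B.card + 1)) • y + lapC ρ (C \ B) y := by
  have hsplit : ∀ f : X → V, ∑ i ∈ C, f i = ∑ i ∈ C \ B, f i + ∑ i ∈ B, f i := fun f =>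
    (Finset.sum_sdiff hBC).symm
  rw [lapC_apply, lapC_apply, hsplit]
  have h1 : ∀ i, ∑ j ∈ C, (y - ρ (swap i j) y) = ∑ j ∈ C \ B, (y - ρ (swap i j) y) +
      ∑ j ∈ B, (y - ρ (swap i j) y) := fun i => hsplit _
  simp only [h1, Finset.sum_add_distrib]
  have hBB : ∑ i ∈ B, ∑ j ∈ B, (y - ρ (swap i j) y) = 0 := by
    refine Finset.sum_eq_zero fun i hi => Finset.sum_eq_zero fun j hj => ?_
    rw [hy, sub_self]
    intro x hx
    apply swap_apply_of_ne_of_ne
    · rintro rfl; exact hx hi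
    · rintro rfl; exact hx hj
  have hDB : ∑ i ∈ C \ B, ∑ j ∈ B, (y - ρ (swap i j) y) =
      (((C \ B).card : ℝ) * (B.card + 1)) • y := by
    have : ∀ i ∈ C \ B, ∑ j ∈ B, (y - ρ (swap i j) y) = ((B.card : ℝ) + 1) • y := by
      intro i hi
      rw [Finset.sum_sub_distrib, Finset.sum_const]
      have h2 : ∑ j ∈ B, ρ (swap i j) y = -y := by
        rw [← hj i hi]
        refine Finset.sum_congr rfl fun j _ => ?_
        rw [swap_comm]
      rw [h2, ← Nat.cast_smul_eq_nsmul ℝ, add_smul, one_smul, sub_neg_eq_add]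
    rw [Finset.sum_congr rfl this, Finset.sum_const, ← Nat.cast_smul_eq_nsmul ℝ, smul_smul]
  have hBD : ∑ i ∈ B, ∑ j ∈ C \ B, (y - ρ (swap i j) y) =
      (((C \ B).card : ℝ) * (B.card + 1)) • y := by
    rw [← hDB, Finset.sum_comm]
    refine Finset.sum_congr rfl fun i _ => Finset.sum_congr rfl fun j _ => ?_
    rw [swap_comm]
  rw [hBB, hDB, hBD, add_zero]
  module

variable [FiniteDimensional ℝ V]

/-- existence of a minimizing eigenvector -/
lemma exists_min_eigen (L : V →L[ℝ] V) (hL : ∀ v w, ⟪L v, w⟫ = ⟪v, L w⟫) (W : Submodule ℝ V)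
    (hW : ∀ w ∈ W, L w ∈ W) {x : V} (hx : x ∈ W) (hx0 : x ≠ 0) :
    ∃ w₀ ∈ W, w₀ ≠ 0 ∧ ∃ θ : ℝ, L w₀ = θ • w₀ ∧ ∀ w ∈ W, θ * ‖w‖ ^ 2 ≤ ⟪w, L w⟫ := by
  have hcomp : IsCompact ((W : Set V) ∩ Metric.sphere (0 : V) 1) := by
    have : ProperSpace V := FiniteDimensional.proper ℝ V
    apply (isCompact_sphere (0 : V) 1).inter_left
    exact W.closed_of_finiteDimensional
  have hne : ((W : Set V) ∩ Metric.sphere (0 : V) 1).Nonempty := by
    refine ⟨(‖x‖⁻¹) • x, W.smul_mem _ hx, ?_⟩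
    simp [norm_smul, hx0]
  have hcont : ContinuousOn (fun v : V => ⟪v, L v⟫) ((W : Set V) ∩ Metric.sphere (0 : V) 1) :=
    (continuous_id.inner L.continuous).continuousOn
  obtain ⟨w₀, ⟨hw₀W, hw₀s⟩, hmin⟩ := hcomp.exists_isMinOn hne hcont
  have hn : ‖w₀‖ = 1 := by simpa using hw₀s
  have hw0 : w₀ ≠ 0 := by
    rintro rfl
    simp at hn
  set θ : ℝ := ⟪w₀, L w₀⟫ with hθ
  have hle : ∀ w ∈ W, θ * ‖w‖ ^ 2 ≤ ⟪w, L w⟫ := by
    intro w hw
    by_cases hw0 : w = 0
    · simp [hw0]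
    have hmem : (‖w‖⁻¹) • w ∈ ((W : Set V) ∩ Metric.sphere (0 : V) 1) :=
      ⟨W.smul_mem _ hw, by simp [norm_smul, hw0]⟩
    have h1 := hmin hmem
    simp only [Set.mem_ofPred_eq, map_smul, inner_smul_left, inner_smul_right, conj_trivial] at h1
    have hn : 0 < ‖w‖ := norm_pos_iff.mpr hw0
    have h2 : θ * ‖w‖ ^ 2 ≤ (‖w‖⁻¹ * (‖w‖⁻¹ * ⟪w, L w⟫)) * ‖w‖ ^ 2 :=
      mul_le_mul_of_nonneg_right h1 (by positivity)
    have h3 : (‖w‖⁻¹ * (‖w‖⁻¹ * ⟪w, L w⟫)) * ‖w‖ ^ 2 = ⟪w, L w⟫ := by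
      field_simp
    linarith
  refine ⟨w₀, hw₀W, hw0, θ, ?_, hle⟩
  -- `z = L w₀ - θ w₀`
  set z := L w₀ - θ • w₀ with hz
  have hzW : z ∈ W := W.sub_mem (hW _ hw₀W) (W.smul_mem _ hw₀W)
  have h1 : ∀ t : ℝ, 0 ≤ 2 * t * ‖z‖ ^ 2 + t ^ 2 * (⟪z, L z⟫ - θ * ‖z‖ ^ 2) := by
    intro t
    have h2 := hle _ (W.add_mem hw₀W (W.smul_mem t hzW))
    have h3 : ‖w₀ + t • z‖ ^ 2 = 1 + 2 * t * ⟪w₀, z⟫ + t ^ 2 * ‖z‖ ^ 2 := by
      rw [norm_add_sq_real, hn, norm_smul, inner_smul_right, mul_pow, Real.norm_eq_abs, sq_abs]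
      ring
    have h4 : ⟪w₀ + t • z, L (w₀ + t • z)⟫ = θ + 2 * t * ⟪z, L w₀⟫ + t ^ 2 * ⟪z, L z⟫ := by
      rw [map_add, map_smul, inner_add_left, inner_add_right, inner_add_right, inner_smul_left,
        inner_smul_left, inner_smul_right, inner_smul_right, conj_trivial, ← hθ,
        ← hL w₀ z, real_inner_comm z (L w₀)]
      ring
    have h5 : ⟪z, L w₀⟫ = ‖z‖ ^ 2 + θ * ⟪w₀, z⟫ := by
      have h6 : L w₀ = z + θ • w₀ := by rw [hz]; abel
      rw [h6, inner_add_right, inner_smul_right, real_inner_self_eq_norm_sq, real_inner_comm]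
    rw [h3, h4, h5] at h2
    nlinarith
  have h2 : ‖z‖ = 0 := by
    by_contra hz0
    have hzpos : 0 < ‖z‖ ^ 2 := by positivity
    set c := ⟪z, L z⟫ - θ * ‖z‖ ^ 2 with hc
    have h3 := h1 (-(‖z‖ ^ 2 / (|c| + 1)))
    have hcpos : 0 < |c| + 1 := by positivity
    have hcle : c ≤ |c| := le_abs_self c
    set s := ‖z‖ ^ 2 / (|c| + 1) with hs
    have hspos : 0 < s := by positivity
    have hsc : s * c ≤ ‖z‖ ^ 2 := by
      have h4 : s * (|c| + 1) = ‖z‖ ^ 2 := by rw [hs]; field_simp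
      nlinarith
    have h5 : s ^ 2 * c ≤ s * ‖z‖ ^ 2 := by
      have : s ^ 2 * c = s * (s * c) := by ring
      rw [this]
      exact mul_le_mul_of_nonneg_left hsc hspos.le
    have h6 : 0 < s * ‖z‖ ^ 2 := by positivity
    nlinarith
  rw [norm_eq_zero, hz, sub_eq_zero] at h2
  exact h2

theorem spectral_aux {ρ : Perm X →* (V →L[ℝ] V)} (hρ : Isom ρ) : ∀ n : ℕ, ∀ C : Finset X,
    C.card = n → ∀ W : Submodule ℝ V,
    (∀ g : Perm X, (∀ x, x ∉ C → g x = x) → ∀ w ∈ W, ρ g w ∈ W) → ∀ a : ℕ,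
    (∀ B : Finset X, B ⊆ C → B.card = a + 1 → ∀ w ∈ W, symz ρ B w = 0) → ∀ v ∈ W,
    (n : ℝ) * ((n : ℝ) - a) / 2 * ‖v‖ ^ 2 ≤ ⟪v, lapC ρ C v⟫ := by
  intro n
  induction n using Nat.strong_induction_on with
  | _ n ih =>
  intro C hC W hW a ha v hv
  by_cases hv0 : v = 0
  · simp [hv0]
  rcases Nat.eq_zero_or_pos n with hn | hn
  · have hCe : C = ∅ := by rw [← Finset.card_eq_zero]; omega
    rw [hn, hCe, lapC_apply]
    simp
  have hLW : ∀ w ∈ W, lapC ρ C w ∈ W := by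
    intro w hw
    rw [lapC_apply]
    refine W.smul_mem _ (W.sum_mem fun i hi => W.sum_mem fun j hj => W.sub_mem hw (hW _ ?_ w hw))
    intro x hx
    apply swap_apply_of_ne_of_ne
    · rintro rfl; exact hx hi
    · rintro rfl; exact hx hj
  obtain ⟨w₀, hw₀W, hw₀, θ, hθ, hmin⟩ := exists_min_eigen (lapC ρ C) (lapC_symm hρ C) W hLW hv hv0
  -- it suffices to bound `θ`
  suffices hsuff : (n : ℝ) * ((n : ℝ) - a) / 2 ≤ θ by
    exact (mul_le_mul_of_nonneg_right hsuff (by positivity)).trans (hmin v hv)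
  -- the eigenspace
  let Wθ : Submodule ℝ V := W ⊓ LinearMap.ker ((lapC ρ C - θ • (1 : V →L[ℝ] V)) : V →ₗ[ℝ] V)
  have hmemθ : ∀ w, w ∈ Wθ ↔ w ∈ W ∧ lapC ρ C w = θ • w := by
    intro w
    simp only [Wθ, Submodule.mem_inf, LinearMap.mem_ker]
    refine and_congr_right fun _ => ?_
    show (lapC ρ C - θ • (1 : V →L[ℝ] V)) w = 0 ↔ _
    rw [ContinuousLinearMap.sub_apply, ContinuousLinearMap.smul_apply, sub_eq_zero]
    rfl
  have hWθinv : ∀ g : Perm X, (∀ x, x ∉ C → g x = x) → ∀ w ∈ Wθ, ρ g w ∈ Wθ := by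
    intro g hg w hw
    rw [hmemθ] at hw ⊢
    exact ⟨hW g hg w hw.1, by rw [lapC_comm ρ C hg, hw.2, map_smul]⟩
  have hex : ∃ b : ℕ, ∀ B : Finset X, B ⊆ C → B.card = b → ∀ w ∈ Wθ, symz ρ B w = 0 :=
    ⟨a + 1, fun B hB hBc w hw => ha B hB hBc w ((hmemθ w).mp hw).1⟩
  classical
  obtain ⟨b, hb, hbmin⟩ : ∃ b : ℕ, (∀ B : Finset X, B ⊆ C → B.card = b → ∀ w ∈ Wθ,
      symz ρ B w = 0) ∧ ∀ b' < b, ¬ (∀ B : Finset X, B ⊆ C → B.card = b' → ∀ w ∈ Wθ,
      symz ρ B w = 0) := ⟨Nat.find hex, Nat.find_spec hex, fun b' hb' => Nat.find_min hex hb'⟩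
  have hba : b ≤ a + 1 := by
    by_contra hcon
    push Not at hcon
    exact hbmin _ hcon (fun B hB hBc w hw => ha B hB hBc w ((hmemθ w).mp hw).1)
  have hw₀θ : w₀ ∈ Wθ := (hmemθ _).mpr ⟨hw₀W, hθ⟩
  have hb0 : b ≠ 0 := by
    rintro rfl
    have h1 := hb ∅ (Finset.empty_subset _) rfl w₀ hw₀θ
    rw [symz_empty] at h1
    exact hw₀ h1
  obtain ⟨a', rfl⟩ : ∃ a', b = a' + 1 := ⟨b - 1, by omega⟩
  have h1 := hbmin a' (Nat.lt_succ_self a')
  push Not at h1
  obtain ⟨B, hBC, hBcard, w, hw, hyne⟩ := h1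
  set y := symz ρ B w with hydef
  have hPB : ∀ g : Perm X, (∀ x, x ∉ B → g x = x) → ∀ x, x ∉ C → g x = x :=
    fun g hg x hx => hg x (fun h => hx (hBC h))
  have hyθ : y ∈ Wθ := by
    rw [hydef, symz_apply]
    refine Wθ.sum_mem fun g hg => hWθinv g (hPB g (by simpa using hg)) w hw
  have hyinv : ∀ g : Perm X, (∀ x, x ∉ B → g x = x) → ρ g y = y := fun g hg =>
    symz_inv ρ B hg w
  have hj : ∀ j ∈ C \ B, ∑ i ∈ B, ρ (swap i j) y = -y := by
    intro j hj
    rw [mem_sdiff] at hj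
    obtain ⟨N, hN, h2⟩ := symz_insert ρ hj.2 hyinv
    rw [hb (insert j B) (Finset.insert_subset hj.1 hBC)
      (by rw [Finset.card_insert_of_notMem hj.2, hBcard]) y hyθ] at h2
    have h3 : ∑ i ∈ insert j B, ρ (swap i j) y = 0 := by
      have := h2.symm
      rw [smul_eq_zero] at this
      exact this.resolve_left (by exact_mod_cast hN)
    rw [Finset.sum_insert hj.2, swap_self] at h3
    have h4 : ρ (Equiv.refl X) y = y := by
      have : (Equiv.refl X : Perm X) = 1 := rfl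
      rw [this, map_one]; rfl
    rw [h4] at h3
    exact eq_neg_of_add_eq_zero_right h3
  have hBne : B.Nonempty := by
    by_contra hBe
    rw [Finset.not_nonempty_iff_eq_empty] at hBe
    have hCne : C.Nonempty := by
      rw [← Finset.card_pos]; omega
    obtain ⟨j, hjC⟩ := hCne
    have h2 := hj j (by rw [hBe]; simpa using hjC)
    rw [hBe, Finset.sum_empty] at h2
    exact hyne (by rw [eq_comm, neg_eq_zero] at h2; exact h2)
  have hsplit := lapC_split ρ hBC hyinv hj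
  set D := C \ B with hD
  have hDcard : D.card + B.card = n := by
    rw [hD, Finset.card_sdiff_add_card_eq_card hBC, hC]
  have hBpos : 0 < B.card := hBne.card_pos
  have hind := ih D.card (by omega) D rfl Wθ
    (fun g hg w hw => hWθinv g (fun x hx => hg x (fun h => hx (Finset.sdiff_subset h))) w hw) a'
    (fun B' hB' hB'c w hw => hb B' (hB'.trans Finset.sdiff_subset) hB'c w hw) y hyθ
  have hy2 : 0 < ‖y‖ ^ 2 := by positivity
  have h5 : θ * ‖y‖ ^ 2 = (D.card : ℝ) * (B.card + 1) * ‖y‖ ^ 2 + ⟪y, lapC ρ D y⟫ := by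
    have h6 := ((hmemθ y).mp hyθ).2
    rw [hsplit] at h6
    have h7 : ⟪y, θ • y⟫ = θ * ‖y‖ ^ 2 := by
      rw [inner_smul_right, real_inner_self_eq_norm_sq]
    rw [← h7, ← h6, inner_add_right, inner_smul_right, real_inner_self_eq_norm_sq]
  have h6 : ((D.card : ℝ) * (B.card + 1) + (D.card : ℝ) * (D.card - a') / 2) * ‖y‖ ^ 2 ≤
      θ * ‖y‖ ^ 2 := by
    rw [h5, add_mul]
    linarith
  have h7 := le_of_mul_le_mul_right h6 hy2
  have hnR : (n : ℝ) = D.card + a' := by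
    rw [← hDcard, hBcard]; push_cast; ring
  have haR : (a' : ℝ) ≤ a := by
    have : a' ≤ a := by omega
    exact_mod_cast this
  have hBR : (B.card : ℝ) = a' := by rw [hBcard]
  rw [hBR] at h7
  have hDnn : (0 : ℝ) ≤ D.card := by positivity
  have hann : (0 : ℝ) ≤ a' := by positivity
  have hnnn : (0 : ℝ) ≤ n := by positivity
  have h8 : (n : ℝ) * (n - a) / 2 ≤ n * (n - a') / 2 := by nlinarith
  have h9 : (n : ℝ) * (n - a') / 2 ≤ (D.card : ℝ) * (a' + 1) + (D.card : ℝ) * (D.card - a') / 2 := by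
    rw [hnR]
    nlinarith
  linarith

theorem spectral {X : Type*} [Fintype X] [DecidableEq X] {V : Type*} [NormedAddCommGroup V]
    [InnerProductSpace ℝ V] [FiniteDimensional ℝ V] {ρ : Perm X →* (V →L[ℝ] V)} (hρ : Isom ρ)
    (W : Submodule ℝ V) (hW : ∀ g, ∀ w ∈ W, ρ g w ∈ W) (a : ℕ)
    (h : ∀ B : Finset X, B.card = a + 1 → ∀ w ∈ W, symz ρ B w = 0) (v : V) (hv : v ∈ W) :
    (Fintype.card X : ℝ) * ((Fintype.card X : ℝ) - a) / 2 * ‖v‖ ^ 2 ≤ ⟪v, lap ρ v⟫ := by
  rw [← lapC_univ]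
  exact spectral_aux hρ (Fintype.card X) univ Finset.card_univ W (fun g _ => hW g) a
    (fun B _ => h B) v hv

end spectral

end Vale.Agent.P162
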