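import Vale.Agent.P162.Compare
import Vale.Agent.P162.Spectral

/-! P162, task C: decay through the filtration by the number of cards. -/

open Equiv Finset
open scoped RealInnerProductSpace BigOperators

namespace Vale.Agent.P162

set_option linter.unusedSectionVars false

namespace DepthAux

section gen

variable {X : Type*} [Fintype X] [DecidableEq X] {V : Type*} [NormedAddCommGroup V]
    [InnerProductSpace ℝ V] {ρ : Perm X →* (V →L[ℝ] V)}

/-- permutations fixing everything outside `B` -/
def St (B : Finset X) : Finset (Perm X) :=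
  (univ : Finset (Perm X)).filter (fun g => ∀ x, x ∉ B → g x = x)

theorem mem_St {B : Finset X} {g : Perm X} : g ∈ St B ↔ ∀ x, x ∉ B → g x = x := by
  simp [St]

theorem one_mem_St (B : Finset X) : (1 : Perm X) ∈ St B := by
  rw [mem_St]; intro x _; rfl

theorem inv_mem_St {B : Finset X} {g : Perm X} (h : g ∈ St B) : g⁻¹ ∈ St B := by
  rw [mem_St] at *
  intro x hx
  rw [Perm.inv_eq_iff_eq]
  exact (h x hx).symm

theorem mul_mem_St {B : Finset X} {g g' : Perm X} (h : g ∈ St B) (h' : g' ∈ St B) :
    g * g' ∈ St B := by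
  rw [mem_St] at *
  intro x hx
  rw [Perm.mul_apply, h' x hx, h x hx]

theorem St_mono {B B' : Finset X} (h : B' ⊆ B) {g : Perm X} (hg : g ∈ St B') : g ∈ St B := by
  rw [mem_St] at *
  exact fun x hx => hg x (fun hx' => hx (h hx'))

theorem symz_apply (B : Finset X) (v : V) : symz ρ B v = ∑ g ∈ St B, ρ g v := by
  simp [symz, St]

theorem symz_symm (hρ : Isom ρ) (B : Finset X) (v w : V) :
    ⟪symz ρ B v, w⟫ = ⟪v, symz ρ B w⟫ := by
  rw [symz_apply, symz_apply, sum_inner, inner_sum]
  refine Finset.sum_nbij' (fun g => g⁻¹) (fun g => g⁻¹) (fun g hg => inv_mem_St hg)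
    (fun g hg => inv_mem_St hg) (fun g _ => inv_inv g) (fun g _ => inv_inv g) (fun g _ => ?_)
  exact hρ.inner_left g v w

theorem symz_inv {B : Finset X} {g : Perm X} (hg : g ∈ St B) (v : V) :
    ρ g (symz ρ B v) = symz ρ B v := by
  rw [symz_apply, map_sum]
  refine Finset.sum_nbij' (fun h => g * h) (fun h => g⁻¹ * h) (fun h hh => mul_mem_St hg hh)
    (fun h hh => mul_mem_St (inv_mem_St hg) hh) (fun h _ => inv_mul_cancel_left g h)
    (fun h _ => mul_inv_cancel_left g h) (fun h _ => ?_)
  rw [map_mul_apply]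

theorem conj_mem_St {B : Finset X} {g : Perm X} (h : Perm X) (hg : g ∈ St B) :
    h * g * h⁻¹ ∈ St (B.map h.toEmbedding) := by
  rw [mem_St] at *
  intro x hx
  have hx' : h⁻¹ x ∉ B := by
    intro h1
    apply hx
    rw [Finset.mem_map]
    exact ⟨h⁻¹ x, h1, by simp⟩
  rw [Perm.mul_apply, Perm.mul_apply, hg _ hx']
  simp

theorem map_symz (h : Perm X) (B : Finset X) (v : V) :
    ρ h (symz ρ B v) = symz ρ (B.map h.toEmbedding) (ρ h v) := by
  rw [symz_apply, symz_apply, map_sum]
  refine Finset.sum_nbij' (fun g => h * g * h⁻¹) (fun g => h⁻¹ * g * h)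
    (fun g hg => conj_mem_St h hg) (fun g hg => ?_) (fun g _ => by group) (fun g _ => by group)
    (fun g _ => ?_)
  · rw [mem_St] at *
    intro x hx
    have hx' : h x ∉ B.map h.toEmbedding := by
      intro h1
      rw [Finset.mem_map] at h1
      obtain ⟨y, hy, hxy⟩ := h1
      apply hx
      have : y = x := h.injective hxy
      rw [← this]; exact hy
    rw [Perm.mul_apply, Perm.mul_apply, hg _ hx']
    simp
  · rw [← map_mul_apply, ← map_mul_apply]
    congr 2
    group

theorem symz_of_inv {B : Finset X} {w : V} (hw : ∀ g ∈ St B, ρ g w = w) :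
    symz ρ B w = ((St B).card : ℝ) • w := by
  rw [symz_apply, Finset.sum_congr rfl hw, Finset.sum_const, Nat.cast_smul_eq_nsmul]

theorem card_St_pos (B : Finset X) : (0 : ℝ) < ((St B).card : ℝ) := by
  exact_mod_cast Finset.card_pos.2 ⟨1, one_mem_St B⟩

end gen

variable {X : Type} [Fintype X] [DecidableEq X]

theorem regRep_apply (g : Perm X) (v : EuclideanSpace ℝ (Perm X)) (x : Perm X) :
    regRep X g v x = v (g⁻¹ * x) := rfl

theorem regRep_isom : Isom (regRep X) := by
  intro g v
  exact ((LinearIsometryEquiv.piLpCongrLeft 2 ℝ ℝ (Equiv.mulLeft g)).norm_map v)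

/-- functions that depend only on the positions of `k` cards -/
noncomputable def U (X : Type) [Fintype X] [DecidableEq X] (k : ℕ) :
    Submodule ℝ (EuclideanSpace ℝ (Perm X)) :=
  (powersetCard (Fintype.card X - k) (univ : Finset X)).sup
    (fun B => LinearMap.range (symz (regRep X) B).toLinearMap)

theorem symz_mem_U {k : ℕ} {B : Finset X} (hB : B.card = Fintype.card X - k)
    (v : EuclideanSpace ℝ (Perm X)) : symz (regRep X) B v ∈ U X k := by
  have h1 : LinearMap.range (symz (regRep X) B).toLinearMap ≤ U X k :=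
    Finset.le_sup (f := fun B => LinearMap.range (symz (regRep X) B).toLinearMap)
      (mem_powersetCard.2 ⟨subset_univ B, hB⟩)
  exact h1 ⟨v, rfl⟩

theorem U_le {k : ℕ} {W : Submodule ℝ (EuclideanSpace ℝ (Perm X))}
    (h : ∀ B : Finset X, B.card = Fintype.card X - k → ∀ v, symz (regRep X) B v ∈ W) :
    U X k ≤ W := by
  refine Finset.sup_le fun B hB => ?_
  rintro _ ⟨v, rfl⟩
  exact h B (mem_powersetCard.1 hB).2 v

theorem U_left {k : ℕ} (g : Perm X) {v : EuclideanSpace ℝ (Perm X)} (hv : v ∈ U X k) :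
    regRep X g v ∈ U X k := by
  have h1 : U X k ≤ (U X k).comap (regRep X g).toLinearMap := by
    refine U_le fun B hB v => ?_
    show regRep X g (symz (regRep X) B v) ∈ U X k
    rw [map_symz]
    exact symz_mem_U (by rw [card_map, hB]) _
  exact h1 hv

theorem U_mono (k : ℕ) : U X k ≤ U X (k + 1) := by
  refine U_le fun B hB v => ?_
  obtain ⟨B', hB', hc⟩ := Finset.exists_subset_card_eq (s := B) (n := Fintype.card X - (k + 1))
    (by omega)
  have h1 := symz_of_inv (ρ := regRep X) (B := B') (w := symz (regRep X) B v)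
    (fun g hg => symz_inv (St_mono hB' hg) v)
  have h2 : symz (regRep X) B v =
      ((St B').card : ℝ)⁻¹ • symz (regRep X) B' (symz (regRep X) B v) := by
    rw [h1, smul_smul, inv_mul_cancel₀ (card_St_pos B').ne', one_smul]
  rw [h2]
  exact Submodule.smul_mem _ _ (symz_mem_U hc _)

theorem U_top : U X (Fintype.card X) = ⊤ := by
  rw [eq_top_iff]
  intro v _
  have h1 : symz (regRep X) (∅ : Finset X) v = v := by
    rw [symz_apply]
    have : St (∅ : Finset X) = {1} := by
      ext g
      rw [mem_St, Finset.mem_singleton]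
      constructor
      · intro h
        ext x
        exact h x (Finset.notMem_empty x)
      · rintro rfl; intro x _; rfl
    rw [this, Finset.sum_singleton, map_one]
    rfl
  rw [← h1]
  exact symz_mem_U (by simp) v

/-- right translation -/
noncomputable def rt (h : Perm X) : EuclideanSpace ℝ (Perm X) ≃ₗᵢ[ℝ] EuclideanSpace ℝ (Perm X) :=
  LinearIsometryEquiv.piLpCongrLeft 2 ℝ ℝ (Equiv.mulRight h)

theorem rt_apply (h : Perm X) (v : EuclideanSpace ℝ (Perm X)) (x : Perm X) :
    rt h v x = v (x * h⁻¹) := rfl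

theorem rt_symz (h : Perm X) (B : Finset X) (v : EuclideanSpace ℝ (Perm X)) :
    rt h (symz (regRep X) B v) = symz (regRep X) B (rt h v) := by
  rw [symz_apply, symz_apply, map_sum]
  refine Finset.sum_congr rfl fun g _ => ?_
  ext x
  rw [rt_apply, regRep_apply, regRep_apply, rt_apply, mul_assoc]

theorem U_right {k : ℕ} (h : Perm X) {v : EuclideanSpace ℝ (Perm X)} (hv : v ∈ U X k) :
    rt h v ∈ U X k := by
  have h1 : U X k ≤ (U X k).comap (rt h).toLinearEquiv.toLinearMap := by
    refine U_le fun B hB v => ?_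
    show rt h (symz (regRep X) B v) ∈ U X k
    rw [rt_symz]
    exact symz_mem_U hB _
  exact h1 hv

theorem starProj_rt (k : ℕ) (h : Perm X) (v : EuclideanSpace ℝ (Perm X)) :
    (U X k).starProjection (rt h v) = rt h ((U X k).starProjection v) := by
  apply Submodule.eq_starProjection_of_mem_of_inner_eq_zero
  · exact U_right h (Submodule.starProjection_apply_mem _ _)
  · intro w hw
    have h1 : w = rt h (rt h⁻¹ w) := by
      ext x
      rw [rt_apply, rt_apply, inv_inv, inv_mul_cancel_right]
    rw [← map_sub, h1, LinearIsometryEquiv.inner_map_map]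
    exact Submodule.starProjection_inner_eq_zero _ _ (U_right _ hw)

/-- the point mass -/
noncomputable def dl (g : Perm X) : EuclideanSpace ℝ (Perm X) := EuclideanSpace.single g (1 : ℝ)

theorem rt_dl (g : Perm X) : rt g (dl 1) = dl g := by
  ext x
  rw [rt_apply]
  simp only [dl, PiLp.single_apply]
  congr 1
  rw [mul_inv_eq_one]

theorem norm_proj_dl (k : ℕ) (g : Perm X) :
    ‖(U X k).starProjection (dl g)‖ = ‖(U X k).starProjection (dl 1)‖ := by
  rw [← rt_dl g, starProj_rt, LinearIsometryEquiv.norm_map]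

theorem finrank_eq (k : ℕ) : (Module.finrank ℝ (U X k) : ℝ) =
    ((Fintype.card X).factorial : ℝ) * ‖(U X k).starProjection (dl 1)‖ ^ 2 := by
  have h1 : LinearMap.IsProj (U X k) ((U X k).starProjection).toLinearMap :=
    ⟨fun x => Submodule.starProjection_apply_mem _ _,
      fun x hx => Submodule.starProjection_eq_self_iff.2 hx⟩
  rw [← h1.trace, LinearMap.trace_eq_sum_inner _ (EuclideanSpace.basisFun (Perm X) ℝ)]
  have h2 : ∀ g : Perm X, ⟪EuclideanSpace.basisFun (Perm X) ℝ g,
      ((U X k).starProjection).toLinearMap (EuclideanSpace.basisFun (Perm X) ℝ g)⟫ =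
      ‖(U X k).starProjection (dl 1)‖ ^ 2 := by
    intro g
    rw [EuclideanSpace.basisFun_apply, ← norm_proj_dl k g, ← real_inner_self_eq_norm_sq]
    show ⟪dl g, (U X k).starProjection (dl g)⟫ = _
    have h3 := Submodule.starProjection_inner_eq_zero (K := U X k) (dl g)
      ((U X k).starProjection (dl g)) (Submodule.starProjection_apply_mem _ _)
    rw [inner_sub_left, sub_eq_zero] at h3
    exact h3
  rw [Finset.sum_congr rfl (fun g _ => h2 g), Finset.sum_const, card_univ, Fintype.card_perm,
    nsmul_eq_mul]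

/-- restriction of the inverse to the complement of `B` -/
def res (B : Finset X) (x : Perm X) : {y // y ∉ B} ↪ X :=
  ⟨fun y => x⁻¹ y.1, fun _ _ h => Subtype.ext ((x⁻¹).injective h)⟩

theorem symz_res (B : Finset X) (v : EuclideanSpace ℝ (Perm X)) {x y : Perm X}
    (h : res B y = res B x) : symz (regRep X) B v y = symz (regRep X) B v x := by
  have hg : y * x⁻¹ ∈ St B := by
    rw [mem_St]
    intro z hz
    have h1 : y⁻¹ z = x⁻¹ z := congrArg (fun e : {y // y ∉ B} ↪ X => e ⟨z, hz⟩) h
    rw [Perm.mul_apply, ← h1]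
    simp
  have h2 := congrArg (fun w : EuclideanSpace ℝ (Perm X) => w y) (symz_inv (ρ := regRep X) hg v)
  simp only [regRep_apply] at h2
  have h3 : (y * x⁻¹)⁻¹ * y = x := by group
  rw [← h2, h3]

/-- functions of the restriction -/
noncomputable def TT (B : Finset X) :
    (({y // y ∉ B} ↪ X) → ℝ) →ₗ[ℝ] EuclideanSpace ℝ (Perm X) where
  toFun φ := WithLp.toLp 2 (fun x => φ (res B x))
  map_add' φ φ' := by ext x; rfl
  map_smul' c φ := by ext x; rfl

theorem range_le (B : Finset X) :
    LinearMap.range (symz (regRep X) B).toLinearMap ≤ LinearMap.range (TT B) := by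
  classical
  rintro _ ⟨v, rfl⟩
  refine ⟨fun i => if h : ∃ x, res B x = i then symz (regRep X) B v h.choose else 0, ?_⟩
  ext x
  show (if h : ∃ x', res B x' = res B x then symz (regRep X) B v h.choose else 0) =
    symz (regRep X) B v x
  have h : ∃ x', res B x' = res B x := ⟨x, rfl⟩
  rw [dif_pos h]
  exact symz_res B v h.choose_spec

theorem finrank_range_symz {B : Finset X} {k : ℕ} (hB : B.card = Fintype.card X - k)
    (hk : k ≤ Fintype.card X) :
    Module.finrank ℝ (LinearMap.range (symz (regRep X) B).toLinearMap) ≤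
      (Fintype.card X).descFactorial k := by
  refine (Submodule.finrank_mono (range_le B)).trans ((LinearMap.finrank_range_le _).trans ?_)
  rw [Module.finrank_fintype_fun_eq_card, Fintype.card_embedding_eq]
  have h1 : Fintype.card {y // y ∉ B} = k := by
    rw [Fintype.card_subtype_compl, Fintype.card_coe, hB]
    omega
  rw [h1]

theorem finrank_sup_le {E : Type*} [AddCommGroup E] [Module ℝ E] [FiniteDimensional ℝ E]
    {ι : Type*} [DecidableEq ι] (S : Finset ι) (F : ι → Submodule ℝ E) :
    Module.finrank ℝ (S.sup F : Submodule ℝ E) ≤ ∑ i ∈ S, Module.finrank ℝ (F i) := by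
  induction S using Finset.induction_on with
  | empty => simp
  | insert a S ha ih =>
    rw [Finset.sup_insert, Finset.sum_insert ha]
    exact (Submodule.finrank_add_le_finrank_add_finrank _ _).trans (by gcongr)

theorem finrank_U_le {k : ℕ} (hk : k ≤ Fintype.card X) :
    Module.finrank ℝ (U X k) ≤ (Fintype.card X).choose k * (Fintype.card X).descFactorial k := by
  refine (finrank_sup_le _ _).trans ?_
  refine (Finset.sum_le_card_nsmul _ _ _ (fun B hB =>
    finrank_range_symz (mem_powersetCard.1 hB).2 hk)).trans ?_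
  rw [card_powersetCard, card_univ, smul_eq_mul, Nat.choose_symm hk]

theorem P0_dl : (U X 0).starProjection (dl 1) =
    WithLp.toLp 2 (fun _ => (1 : ℝ) / (Fintype.card X).factorial) := by
  have hinv : ∀ w ∈ U X 0, ∀ g : Perm X, w g = w 1 := by
    intro w hw g
    have h1 : U X 0 ≤ LinearMap.ker ((regRep X g⁻¹ - 1).toLinearMap) := by
      refine U_le fun B hB v => ?_
      have hB' : B = univ := by
        rw [← card_eq_iff_eq_univ, hB, Nat.sub_zero]
      rw [LinearMap.mem_ker]
      show regRep X g⁻¹ (symz (regRep X) B v) - symz (regRep X) B v = 0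
      rw [sub_eq_zero]
      refine symz_inv ?_ v
      rw [mem_St, hB']
      intro x hx
      exact absurd (Finset.mem_univ x) hx
    have h2 : regRep X g⁻¹ w - w = 0 := LinearMap.mem_ker.1 (h1 hw)
    rw [sub_eq_zero] at h2
    have h3 := congrArg (fun w : EuclideanSpace ℝ (Perm X) => w 1) h2
    simp only [regRep_apply, inv_inv, mul_one] at h3
    exact h3
  have hf : (0 : ℝ) < (Fintype.card X).factorial := by exact_mod_cast Nat.factorial_pos _
  apply Submodule.eq_starProjection_of_mem_of_inner_eq_zero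
  · have h1 : (WithLp.toLp 2 (fun _ => (1 : ℝ) / (Fintype.card X).factorial) :
        EuclideanSpace ℝ (Perm X)) =
        ((1 : ℝ) / (Fintype.card X).factorial) • symz (regRep X) univ (dl 1) := by
      ext x
      have h2 : symz (regRep X) univ (dl 1) x = 1 := by
        rw [symz_apply]
        have h3 : St (univ : Finset X) = univ := by
          ext g; simp [mem_St]
        rw [h3]
        simp only [WithLp.ofLp_sum, Finset.sum_apply, regRep_apply, dl,
          PiLp.single_apply]
        rw [Finset.sum_eq_single x]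
        · simp
        · intro g _ hg
          rw [if_neg]
          rw [inv_mul_eq_one]
          exact hg
        · intro h; exact absurd (Finset.mem_univ x) h
      show (1 : ℝ) / (Fintype.card X).factorial =
        ((1 : ℝ) / (Fintype.card X).factorial) * symz (regRep X) univ (dl 1) x
      rw [h2, mul_one]
    rw [h1]
    exact Submodule.smul_mem _ _ (symz_mem_U (by rw [card_univ, Nat.sub_zero]) _)
  · intro w hw
    have h1 : ⟪dl (1 : Perm X), w⟫ = w 1 := by
      rw [dl, EuclideanSpace.inner_single_left]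
      simp
    have h2 : ⟪(WithLp.toLp 2 (fun _ => (1 : ℝ) / (Fintype.card X).factorial) :
        EuclideanSpace ℝ (Perm X)), w⟫ = w 1 := by
      rw [PiLp.inner_apply]
      simp only [hinv w hw, RCLike.inner_apply, conj_trivial]
      rw [Finset.sum_const, card_univ, Fintype.card_perm, nsmul_eq_mul]
      field_simp
    rw [inner_sub_left, h1, h2, sub_self]

section main

variable {κ : Type} [Fintype κ] [Nonempty κ] (f : κ → Perm X)

theorem R_mem {k : ℕ} {v : EuclideanSpace ℝ (Perm X)} (hv : v ∈ U X k) :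
    avg (regRep X) f v ∈ U X k := by
  rw [avg_apply]
  exact Submodule.smul_mem _ _ (Submodule.sum_mem _ fun c _ => U_left _ hv)

theorem R_orth {k : ℕ} {v : EuclideanSpace ℝ (Perm X)} (hv : v ∈ (U X k)ᗮ) :
    avg (regRep X) f v ∈ (U X k)ᗮ := by
  rw [avg_apply]
  refine Submodule.smul_mem _ _ (Submodule.sum_mem _ fun c _ => ?_)
  rw [Submodule.mem_orthogonal]
  intro u hu
  rw [real_inner_comm, regRep_isom.inner_left, real_inner_comm]
  exact (Submodule.mem_orthogonal _ _).1 hv _ (U_left _ hu)

theorem Rpow_mem {k : ℕ} (c : ℕ) {v : EuclideanSpace ℝ (Perm X)} (hv : v ∈ U X k) :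
    (avg (regRep X) f ^ c) v ∈ U X k := by
  induction c with
  | zero => simpa using hv
  | succ c ih =>
    rw [pow_succ']
    exact R_mem f ih

theorem Rpow_orth {k : ℕ} (c : ℕ) {v : EuclideanSpace ℝ (Perm X)} (hv : v ∈ (U X k)ᗮ) :
    (avg (regRep X) f ^ c) v ∈ (U X k)ᗮ := by
  induction c with
  | zero => simpa using hv
  | succ c ih =>
    rw [pow_succ']
    exact R_orth f ih

theorem U_orth_left {k : ℕ} (g : Perm X) {v : EuclideanSpace ℝ (Perm X)} (hv : v ∈ (U X k)ᗮ) :
    regRep X g v ∈ (U X k)ᗮ := by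
  rw [Submodule.mem_orthogonal]
  intro u hu
  rw [real_inner_comm, regRep_isom.inner_left, real_inner_comm]
  exact (Submodule.mem_orthogonal _ _).1 hv _ (U_left _ hu)

theorem contr {f : κ → Perm X} {β : ℝ} (hβ : 0 ≤ β) (hf : Good f β) {k : ℕ}
    (hk : k + 1 ≤ Fintype.card X) {w : EuclideanSpace ℝ (Perm X)} (h1 : w ∈ U X (k + 1))
    (h2 : w ∈ (U X k)ᗮ) :
    ‖avg (regRep X) f w‖ ^ 2 ≤ Real.exp (-(β * (k + 1) / 2)) * ‖w‖ ^ 2 := by
  have hn : (0 : ℝ) < Fintype.card X := by
    have : 0 < Fintype.card X := by omega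
    exact_mod_cast this
  have hW : ∀ g : Perm X, ∀ w ∈ U X (k + 1) ⊓ (U X k)ᗮ, regRep X g w ∈ U X (k + 1) ⊓ (U X k)ᗮ :=
    fun g w hw => ⟨U_left g hw.1, U_orth_left g hw.2⟩
  have hsp : ∀ v ∈ U X (k + 1) ⊓ (U X k)ᗮ,
      (Fintype.card X : ℝ) * (k + 1) / 2 * ‖v‖ ^ 2 ≤ ⟪v, lap (regRep X) v⟫ := by
    intro v hv
    have := spectral (regRep_isom (X := X)) (U X (k + 1) ⊓ (U X k)ᗮ) hW
      (Fintype.card X - (k + 1)) (fun B hB w hw => by
        rw [← norm_eq_zero, ← sq_eq_zero_iff, ← real_inner_self_eq_norm_sq,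
          symz_symm regRep_isom, real_inner_comm]
        exact (Submodule.mem_orthogonal _ _).1 hw.2 _ (symz_mem_U (by omega) _)) v hv
    rw [Nat.cast_sub hk] at this
    have e : (Fintype.card X : ℝ) - ((Fintype.card X : ℝ) - ((k + 1 : ℕ) : ℝ)) = k + 1 := by
      push_cast; ring
    rw [e] at this
    exact this
  have hlap : ∀ w ∈ U X (k + 1) ⊓ (U X k)ᗮ, lap (regRep X) w ∈ U X (k + 1) ⊓ (U X k)ᗮ := by
    intro w hw
    rw [lap_apply]
    exact Submodule.smul_mem _ _ (Submodule.sum_mem _ fun i _ => Submodule.sum_mem _ fun j _ =>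
      Submodule.sub_mem _ hw (hW _ w hw))
  have h3 := exp_decay (lap (regRep X)) (lap_symm regRep_isom) (U X (k + 1) ⊓ (U X k)ᗮ)
    (Submodule.closed_of_finiteDimensional _) hlap _ hsp (β / Fintype.card X)
    (by positivity) w ⟨h1, h2⟩
  have h4 := hf (EuclideanSpace ℝ (Perm X)) (regRep X) regRep_isom w
  rw [neg_smul] at h4
  refine h4.trans (h3.trans (le_of_eq ?_))
  congr 2
  field_simp

theorem contr_pow {f : κ → Perm X} {β : ℝ} (hβ : 0 ≤ β) (hf : Good f β) {k : ℕ}
    (hk : k + 1 ≤ Fintype.card X) (c : ℕ) {w : EuclideanSpace ℝ (Perm X)} (h1 : w ∈ U X (k + 1))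
    (h2 : w ∈ (U X k)ᗮ) :
    ‖(avg (regRep X) f ^ c) w‖ ^ 2 ≤ Real.exp (-(c * β * (k + 1) / 2)) * ‖w‖ ^ 2 := by
  induction c with
  | zero => simp
  | succ c ih =>
    rw [show avg (regRep X) f ^ (c + 1) = avg (regRep X) f * avg (regRep X) f ^ c from
      pow_succ' _ _]
    show ‖avg (regRep X) f ((avg (regRep X) f ^ c) w)‖ ^ 2 ≤ _
    refine (contr hβ hf hk (Rpow_mem f c h1) (Rpow_orth f c h2)).trans ?_
    have h3 : Real.exp (-(((c + 1 : ℕ) : ℝ) * β * (k + 1) / 2)) =
        Real.exp (-(β * (k + 1) / 2)) * Real.exp (-(c * β * (k + 1) / 2)) := by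
      rw [← Real.exp_add]
      congr 1
      push_cast
      ring
    rw [h3, mul_assoc]
    exact mul_le_mul_of_nonneg_left ih (Real.exp_pos _).le

theorem norm_add_sq_of_mem {k : ℕ} {u w : EuclideanSpace ℝ (Perm X)} (hu : u ∈ U X k)
    (hw : w ∈ (U X k)ᗮ) : ‖u + w‖ ^ 2 = ‖u‖ ^ 2 + ‖w‖ ^ 2 := by
  rw [norm_add_sq_real, (Submodule.mem_orthogonal _ _).1 hw u hu]
  ring

theorem U_mono' {j k : ℕ} (h : j ≤ k) : U X j ≤ U X k :=
  monotone_nat_of_le_succ U_mono h

theorem main_ind {f : κ → Perm X} {β : ℝ} (hβ : 0 ≤ β) (hf : Good f β) (c : ℕ) :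
    ∀ N : ℕ, N ≤ Fintype.card X →
    ‖(avg (regRep X) f ^ c) ((U X N).starProjection (dl 1) - (U X 0).starProjection (dl 1))‖ ^ 2 ≤
      ∑ k ∈ Finset.Icc 1 N, Real.exp (-(c * β * k / 2)) *
        ‖(U X k).starProjection (dl 1)‖ ^ 2 := by
  intro N
  induction N with
  | zero => intro _; simp
  | succ N ih =>
    intro hN
    have ih := ih (by omega)
    obtain ⟨w, hw⟩ : ∃ w, w = (U X (N + 1)).starProjection (dl 1) -
      (U X N).starProjection (dl 1) := ⟨_, rfl⟩
    have hw1 : w ∈ U X (N + 1) := by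
      rw [hw]
      exact Submodule.sub_mem _ (Submodule.starProjection_apply_mem _ _)
        (U_mono N (Submodule.starProjection_apply_mem _ _))
    have hw2 : w ∈ (U X N)ᗮ := by
      have e : w = (dl 1 - (U X N).starProjection (dl 1)) -
        (dl 1 - (U X (N + 1)).starProjection (dl 1)) := by rw [hw]; abel
      rw [e]
      refine Submodule.sub_mem _ (Submodule.sub_starProjection_mem_orthogonal _) ?_
      exact Submodule.orthogonal_le (U_mono N) (Submodule.sub_starProjection_mem_orthogonal _)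
    have e1 : (U X (N + 1)).starProjection (dl 1) - (U X 0).starProjection (dl 1) =
        ((U X N).starProjection (dl 1) - (U X 0).starProjection (dl 1)) + w := by
      rw [hw]; abel
    have hu : (U X N).starProjection (dl 1) - (U X 0).starProjection (dl 1) ∈ U X N :=
      Submodule.sub_mem _ (Submodule.starProjection_apply_mem _ _)
        (U_mono' (Nat.zero_le N) (Submodule.starProjection_apply_mem _ _))
    have h3 : ‖w‖ ^ 2 ≤ ‖(U X (N + 1)).starProjection (dl 1)‖ ^ 2 := by
      have e2 : (U X (N + 1)).starProjection (dl 1) = (U X N).starProjection (dl 1) + w := by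
        rw [hw]; abel
      rw [e2, norm_add_sq_of_mem (Submodule.starProjection_apply_mem _ _) hw2]
      nlinarith [sq_nonneg ‖(U X N).starProjection (dl 1)‖]
    rw [e1, map_add, norm_add_sq_of_mem (Rpow_mem f c hu) (Rpow_orth f c hw2),
      Finset.sum_Icc_succ_top (by omega)]
    refine add_le_add ih ?_
    refine (contr_pow hβ hf hN c hw1 hw2).trans ?_
    push_cast
    exact mul_le_mul_of_nonneg_left h3 (Real.exp_pos _).le

end main

end DepthAux

open DepthAux in
theorem depth_bound {X : Type} [Fintype X] [DecidableEq X] {κ : Type} [Fintype κ] [Nonempty κ]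
    (f : κ → Perm X) (β : ℝ) (hβ : 0 ≤ β) (hf : Good f β) (c : ℕ) :
    ((Fintype.card X).factorial : ℝ) *
      ‖((avg (regRep X) f) ^ c) (EuclideanSpace.single (1 : Perm X) (1 : ℝ) -
        (WithLp.toLp 2 fun _ => (1 : ℝ) / (Fintype.card X).factorial))‖ ^ 2 ≤
    ∑ k ∈ Finset.Icc 1 (Fintype.card X), ((Fintype.card X).choose k : ℝ) *
      ((Fintype.card X).descFactorial k : ℝ) * Real.exp (-(c * β * k / 2)) := by
  have h1 := main_ind hβ hf c (Fintype.card X) le_rfl
  have h2 : (U X (Fintype.card X)).starProjection (dl 1) = dl 1 := by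
    rw [Submodule.starProjection_eq_self_iff, U_top]
    trivial
  rw [h2, P0_dl] at h1
  have hf0 : (0 : ℝ) ≤ (Fintype.card X).factorial := Nat.cast_nonneg _
  refine (mul_le_mul_of_nonneg_left h1 hf0).trans ?_
  rw [Finset.mul_sum]
  refine Finset.sum_le_sum fun k hk => ?_
  have hk' := Finset.mem_Icc.1 hk
  have h3 := finrank_eq (X := X) k
  have h4 : (Module.finrank ℝ (U X k) : ℝ) ≤ ((Fintype.card X).choose k : ℝ) *
      ((Fintype.card X).descFactorial k : ℝ) := by
    exact_mod_cast finrank_U_le hk'.2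
  have h5 : ((Fintype.card X).factorial : ℝ) * (Real.exp (-(c * β * k / 2)) *
      ‖(U X k).starProjection (dl 1)‖ ^ 2) =
      (Module.finrank ℝ (U X k) : ℝ) * Real.exp (-(c * β * k / 2)) := by
    rw [h3]; ring
  rw [h5]
  exact mul_le_mul_of_nonneg_right h4 (Real.exp_pos _).le

end Vale.Agent.P162
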