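import Mathlib

open scoped RealInnerProductSpace BigOperators

set_option linter.unusedSectionVars false

namespace Vale.Agent.P162

section

variable {V : Type*} [NormedAddCommGroup V] [InnerProductSpace ℝ V] [CompleteSpace V]

lemma pow_apply_eigen (T : V →L[ℝ] V) {v : V} {c : ℝ} (h : T v = c • v) (k : ℕ) :
    (T ^ k) v = c ^ k • v := by
  induction k with
  | zero => simp
  | succ k ih =>
    rw [pow_succ, mul_apply_eq_comp, h, map_smul, ih, smul_smul, pow_succ, mul_comm]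

lemma exp_hasSum_apply (T : V →L[ℝ] V) (v : V) :
    HasSum (fun k : ℕ => ((k.factorial : ℝ)⁻¹) • (T ^ k) v) (NormedSpace.exp T v) := by
  have h := NormedSpace.exp_series_hasSum_exp' (𝕂 := ℝ) T
  have h2 := (ContinuousLinearMap.apply ℝ V v).hasSum h
  simpa using h2

lemma exp_apply_eigen (T : V →L[ℝ] V) {v : V} {c : ℝ} (h : T v = c • v) :
    NormedSpace.exp T v = Real.exp c • v := by
  have h1 := exp_hasSum_apply T v
  have h2 : HasSum (fun k : ℕ => ((k.factorial : ℝ)⁻¹) • (c ^ k • v)) (Real.exp c • v) := by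
    have h3 : HasSum (fun k : ℕ => c ^ k / (k.factorial : ℝ)) (Real.exp c) := by
      have := NormedSpace.expSeries_div_hasSum_exp (𝔸 := ℝ) c
      rwa [← Real.exp_eq_exp_ℝ] at this
    have h4 := h3.smul_const v
    convert h4 using 2 with k
    rw [smul_smul]
    congr 1
    ring
  have h5 : (fun k : ℕ => ((k.factorial : ℝ)⁻¹) • (T ^ k) v) =
      (fun k : ℕ => ((k.factorial : ℝ)⁻¹) • (c ^ k • v)) := by
    ext1 k
    rw [pow_apply_eigen T h]
  rw [h5] at h1
  exact h1.unique h2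

lemma pow_symm {T : V →L[ℝ] V} (hT : ∀ v w, ⟪T v, w⟫ = ⟪v, T w⟫) (k : ℕ) (v w : V) :
    ⟪(T ^ k) v, w⟫ = ⟪v, (T ^ k) w⟫ := by
  induction k generalizing v w with
  | zero => simp
  | succ k ih =>
    rw [pow_succ, mul_apply_eq_comp, ih, hT, ← mul_apply_eq_comp,
      ← pow_succ, pow_succ']

lemma exp_symm {T : V →L[ℝ] V} (hT : ∀ v w, ⟪T v, w⟫ = ⟪v, T w⟫) (v w : V) :
    ⟪NormedSpace.exp T v, w⟫ = ⟪v, NormedSpace.exp T w⟫ := by
  have h1 := (innerSL ℝ w).hasSum (exp_hasSum_apply T v)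
  have h2 := (innerSL ℝ v).hasSum (exp_hasSum_apply T w)
  have h3 : (fun k : ℕ => (innerSL ℝ w) (((k.factorial : ℝ)⁻¹) • (T ^ k) v)) =
      (fun k : ℕ => (innerSL ℝ v) (((k.factorial : ℝ)⁻¹) • (T ^ k) w)) := by
    ext1 k
    rw [innerSL_apply_apply, innerSL_apply_apply, inner_smul_right, inner_smul_right,
      real_inner_comm, pow_symm hT]
  have h4 : HasSum (fun k : ℕ => (innerSL ℝ w) (((k.factorial : ℝ)⁻¹) • (T ^ k) v))
      ((innerSL ℝ w) (NormedSpace.exp T v)) := h1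
  rw [h3] at h4
  have h5 := h4.unique h2
  rw [innerSL_apply_apply, innerSL_apply_apply] at h5
  rw [real_inner_comm]
  exact h5

lemma smul_symm {T : V →L[ℝ] V} (hT : ∀ v w, ⟪T v, w⟫ = ⟪v, T w⟫) (c : ℝ) (v w : V) :
    ⟪(c • T) v, w⟫ = ⟪v, (c • T) w⟫ := by
  simp only [smul_apply, inner_smul_left, inner_smul_right, hT]
  simp

lemma exp_add_comm {T S : V →L[ℝ] V} (h : Commute T S) :
    NormedSpace.exp (T + S) = NormedSpace.exp T * NormedSpace.exp S := by
  let _ : NormedAlgebra ℚ (V →L[ℝ] V) := NormedAlgebra.restrictScalars ℚ ℝ (V →L[ℝ] V)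
  exact NormedSpace.exp_add_of_commute h

/-- half exponentials: `⟪v, exp((c+c) T) v⟫ = ‖exp(c T) v‖²` -/
lemma inner_exp_eq_norm_sq {T : V →L[ℝ] V} (hT : ∀ v w, ⟪T v, w⟫ = ⟪v, T w⟫) (c : ℝ) (v : V) :
    ⟪v, NormedSpace.exp (c • T) v⟫ = ‖NormedSpace.exp ((c / 2) • T) v‖ ^ 2 := by
  have h : NormedSpace.exp (c • T) =
      NormedSpace.exp ((c / 2) • T) * NormedSpace.exp ((c / 2) • T) := by
    rw [← exp_add_comm (Commute.refl _), ← add_smul]
    congr 2
    ring
  rw [h, mul_apply_eq_comp, ← exp_symm (smul_symm hT _), real_inner_self_eq_norm_sq]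

lemma exp_comm_apply {T S : V →L[ℝ] V} (h : Commute T S) (v : V) :
    NormedSpace.exp T (S v) = S (NormedSpace.exp T v) := by
  have := h.exp_left
  exact congrArg (fun F : V →L[ℝ] V => F v) this.eq

end

end Vale.Agent.P162
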