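import Vale.Agent.P162.Induct
import Vale.Agent.P162.Depth

open Equiv Finset
open scoped RealInnerProductSpace BigOperators

set_option linter.unusedSectionVars false

namespace Vale.Agent.P162

/-! ### one pass is good -/

lemma card_Pos (d : ℕ) : Fintype.card (Pos d) = 2 ^ d := by
  induction d with
  | zero => rfl
  | succ d ih =>
    have h : Fintype.card (Pos (d + 1)) = Fintype.card (Pos d ⊕ Pos d) := rfl
    rw [h, Fintype.card_sum, ih]
    ring

instance instNonemptyCoins (d : ℕ) : Nonempty (Coins d) := by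
  induction d with
  | zero => exact ⟨()⟩
  | succ d ih => exact ⟨(ih.some, ih.some, fun _ => false)⟩

lemma good_pass_one : Good (pass 1) (1 / 10) := good_base (pass 0) (1 / 10)

lemma good_pass (d : ℕ) : ∃ β : ℝ, (1 / 10) * (1 / 4 + (1 / 2) ^ (d + 2)) ≤ β ∧ β ≤ 1 / 10 ∧
    Good (pass (d + 2)) β := by
  induction d with
  | zero =>
    refine ⟨1 / 20, by norm_num, by norm_num, ?_⟩
    have h := good_doubled (pass 1) (1 / 10) (by norm_num) le_rfl
      (by rw [card_Pos]; norm_num) good_pass_one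
    rw [card_Pos] at h
    norm_num at h
    exact h
  | succ d ih =>
    obtain ⟨β, h1, h2, h3⟩ := ih
    have hβ0 : 0 ≤ β := le_trans (by positivity) h1
    have h := good_doubled (pass (d + 2)) β hβ0 h2
      (by rw [card_Pos]; exact le_self_pow (by norm_num) (by norm_num)) h3
    rw [card_Pos] at h
    refine ⟨_, ?_, ?_, h⟩
    · have hx : (1 / 2 : ℝ) ^ (d + 2) ≤ 1 / 4 := by
        calc (1 / 2 : ℝ) ^ (d + 2) ≤ (1 / 2 : ℝ) ^ 2 :=
              pow_le_pow_of_le_one (by norm_num) (by norm_num) (by omega)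
          _ = 1 / 4 := by norm_num
      have hx0 : 0 < (1 / 2 : ℝ) ^ (d + 2) := by positivity
      have e : (1 : ℝ) / ((2 ^ (d + 2) : ℕ) : ℝ) = (1 / 2) ^ (d + 2) := by
        push_cast
        rw [one_div, one_div, inv_pow]
      rw [e, show d + 1 + 2 = (d + 2) + 1 from rfl, pow_succ (1 / 2 : ℝ) (d + 2)]
      set y := (1 / 2 : ℝ) ^ (d + 2)
      nlinarith
    · have hx0 : (0 : ℝ) ≤ 1 / ((2 ^ (d + 2) : ℕ) : ℝ) := by positivity
      nlinarith

lemma good_pass' (d : ℕ) : ∃ β : ℝ, 1 / 40 ≤ β ∧ Good (pass (d + 1)) β := by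
  rcases d with _ | d
  · exact ⟨1 / 10, by norm_num, good_pass_one⟩
  · obtain ⟨β, h1, _, h3⟩ := good_pass d
    have hx0 : 0 < (1 / 2 : ℝ) ^ (d + 2) := by positivity
    exact ⟨β, by linarith, h3⟩

/-! ### transport along a bijection -/

lemma lap_transport {X Y : Type} [Fintype X] [DecidableEq X] [Fintype Y] [DecidableEq Y]
    (e : X ≃ Y) {V : Type*} [NormedAddCommGroup V] [InnerProductSpace ℝ V]
    (ρ : Perm Y →* (V →L[ℝ] V)) :
    lap (ρ.comp (e.permCongrHom.toMonoidHom)) = lap ρ := by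
  unfold lap
  congr 1
  rw [← Equiv.sum_comp e]
  refine Finset.sum_congr rfl fun i _ => ?_
  rw [← Equiv.sum_comp e]
  refine Finset.sum_congr rfl fun j _ => ?_
  congr 1
  change ρ (e.permCongr (swap i j)) = _
  congr 1
  ext x
  simp [Equiv.permCongr_apply, swap_apply_def, Equiv.symm_apply_eq]
  split_ifs <;> simp

lemma good_transport {X Y : Type} [Fintype X] [DecidableEq X] [Fintype Y] [DecidableEq Y]
    (e : X ≃ Y) {κ : Type} [Fintype κ] (f : κ → Perm X) (β : ℝ) (hf : Good f β) :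
    Good (fun c => e.permCongrHom (f c)) β := by
  intro V _ _ _ ρ hρ v
  have h := hf V (ρ.comp (e.permCongrHom.toMonoidHom)) (hρ.comp _) v
  rw [lap_transport, avg_comp, Fintype.card_congr e] at h
  exact h

/-! ### the Thorp operator -/

/-- the law after `t` shuffles as a vector -/
noncomputable def vec (m t : ℕ) : EuclideanSpace ℝ (Perm (Fin (2 * m))) :=
  WithLp.toLp 2 (thorpPow m t)

/-- the uniform law as a vector -/
noncomputable def uni (m : ℕ) : EuclideanSpace ℝ (Perm (Fin (2 * m))) :=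
  WithLp.toLp 2 fun _ => (1 : ℝ) / (Fintype.card (Fin (2 * m))).factorial

/-- the Thorp averaging operator in the regular representation -/
noncomputable def Top (m : ℕ) :
    EuclideanSpace ℝ (Perm (Fin (2 * m))) →L[ℝ] EuclideanSpace ℝ (Perm (Fin (2 * m))) :=
  avg (regRep (Fin (2 * m))) (thorpPerm m)

lemma Top_apply (m : ℕ) (v : EuclideanSpace ℝ (Perm (Fin (2 * m)))) (g : Perm (Fin (2 * m))) :
    Top m v g = ∑ a, thorpLaw m a * v (a⁻¹ * g) := by
  unfold Top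
  rw [avg_apply]
  have e1 : ∀ a : Perm (Fin (2 * m)), thorpLaw m a * v (a⁻¹ * g) =
      ∑ c : Fin m → Bool, if thorpPerm m c = a then (1 / 2 ^ m : ℝ) * v (a⁻¹ * g) else 0 := by
    intro a
    unfold thorpLaw
    rw [Finset.card_filter]
    push_cast
    rw [Finset.sum_div, Finset.sum_mul]
    refine Finset.sum_congr rfl fun c _ => ?_
    split_ifs <;> simp
  simp_rw [e1]
  rw [Finset.sum_comm]
  simp only [Finset.sum_ite_eq, Finset.mem_univ, if_true]
  rw [← Finset.mul_sum]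
  simp only [WithLp.ofLp_smul, WithLp.ofLp_sum, Pi.smul_apply, Finset.sum_apply, smul_eq_mul]
  congr 1
  simp

lemma Top_vec (m t : ℕ) : Top m (vec m t) = vec m (t + 1) := by
  ext g
  rw [Top_apply]
  rfl

lemma vec_zero (m : ℕ) : vec m 0 = EuclideanSpace.single (1 : Perm (Fin (2 * m))) (1 : ℝ) := by
  ext g
  simp [vec, thorpPow]

lemma Top_uni (m : ℕ) : Top m (uni m) = uni m := by
  ext g
  unfold Top
  rw [avg_apply]
  simp [uni, DepthAux.regRep_apply]

lemma Top_pow_vec (m t : ℕ) : (Top m ^ t) (vec m 0) = vec m t := by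
  induction t with
  | zero => simp
  | succ t ih => rw [pow_succ', mul_apply_eq_comp, ih, Top_vec]

lemma Top_pow_uni (m t : ℕ) : (Top m ^ t) (uni m) = uni m := by
  induction t with
  | zero => simp
  | succ t ih => rw [pow_succ', mul_apply_eq_comp, ih, Top_uni]

lemma Top_norm_le (m : ℕ) (v : EuclideanSpace ℝ (Perm (Fin (2 * m)))) : ‖Top m v‖ ≤ ‖v‖ :=
  avg_norm_le DepthAux.regRep_isom _ _

lemma Top_pow_anti (m : ℕ) (v : EuclideanSpace ℝ (Perm (Fin (2 * m)))) {s t : ℕ} (h : s ≤ t) :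
    ‖(Top m ^ t) v‖ ≤ ‖(Top m ^ s) v‖ := by
  induction t, h using Nat.le_induction with
  | base => exact le_rfl
  | succ t _ ih =>
    rw [pow_succ', mul_apply_eq_comp]
    exact (Top_norm_le m _).trans ih

/-- total variation is controlled by the `L²` norm -/
lemma tv_le (m t : ℕ) : tvDist m t ≤
    1 / 2 * Real.sqrt ((2 * m).factorial * ‖(Top m ^ t) (vec m 0 - uni m)‖ ^ 2) := by
  rw [map_sub, Top_pow_vec, Top_pow_uni]
  unfold tvDist
  apply mul_le_mul_of_nonneg_left _ (by norm_num)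
  apply Real.le_sqrt_of_sq_le
  have h := sq_sum_le_card_mul_sum_sq (s := (univ : Finset (Perm (Fin (2 * m)))))
    (f := fun g => |thorpPow m t g - 1 / ((2 * m).factorial : ℝ)|)
  refine h.trans (le_of_eq ?_)
  rw [Finset.card_univ, Fintype.card_perm, Fintype.card_fin, EuclideanSpace.norm_sq_eq]
  congr 1
  refine Finset.sum_congr rfl fun g _ => ?_
  simp [vec, uni]

/-- geometric bound -/
lemma geom_bound (d : ℕ) {β : ℝ} (hβ : 1 / 40 ≤ β) :
    ∑ k ∈ Finset.Icc 1 (2 ^ (d + 1) : ℕ), ((2 ^ (d + 1)).choose k : ℝ) *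
      ((2 ^ (d + 1)).descFactorial k : ℝ) * Real.exp (-((400 * (d + 1) : ℕ) * β * k / 2)) ≤
      1 / 4 := by
  have hq : ∀ k : ℕ, ((2 ^ (d + 1)).choose k : ℝ) *
      ((2 ^ (d + 1)).descFactorial k : ℝ) * Real.exp (-((400 * (d + 1) : ℕ) * β * k / 2)) ≤
      (1 / 8 : ℝ) ^ k := by
    intro k
    have h1 : ((2 ^ (d + 1)).choose k : ℝ) ≤ (2 ^ (d + 1) : ℝ) ^ k := by
      exact_mod_cast Nat.choose_le_pow _ _
    have h2 : ((2 ^ (d + 1)).descFactorial k : ℝ) ≤ (2 ^ (d + 1) : ℝ) ^ k := by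
      exact_mod_cast Nat.descFactorial_le_pow _ _
    have h3 : Real.exp (-((400 * (d + 1) : ℕ) * β * k / 2)) ≤ (Real.exp (-(5 * (d + 1)))) ^ k := by
      rw [← Real.exp_nat_mul]
      apply Real.exp_le_exp.2
      push_cast
      have hk : (0 : ℝ) ≤ k := by positivity
      have hd : (0 : ℝ) ≤ (d : ℝ) + 1 := by positivity
      nlinarith [mul_nonneg hk hd, mul_le_mul_of_nonneg_right hβ (mul_nonneg hk hd)]
    have h4 : Real.exp (-(5 * (d + 1))) ≤ (1 / 32 : ℝ) ^ (d + 1) := by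
      have h5 : Real.exp (-(5 * ((d : ℝ) + 1))) = (Real.exp (-5)) ^ (d + 1) := by
        rw [← Real.exp_nat_mul]
        congr 1
        push_cast
        ring
      rw [h5]
      apply pow_le_pow_left₀ (Real.exp_pos _).le
      rw [Real.exp_neg, ← one_div]
      apply one_div_le_one_div_of_le (by norm_num)
      have h6 : (2 : ℝ) ≤ Real.exp 1 := by
        have := Real.add_one_le_exp (1 : ℝ)
        linarith
      calc (32 : ℝ) = 2 ^ 5 := by norm_num
        _ ≤ (Real.exp 1) ^ 5 := pow_le_pow_left₀ (by norm_num) h6 5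
        _ = Real.exp 5 := by rw [← Real.exp_nat_mul]; norm_num
    calc ((2 ^ (d + 1)).choose k : ℝ) * ((2 ^ (d + 1)).descFactorial k : ℝ) *
          Real.exp (-((400 * (d + 1) : ℕ) * β * k / 2))
        ≤ (2 ^ (d + 1) : ℝ) ^ k * (2 ^ (d + 1) : ℝ) ^ k * ((1 / 32 : ℝ) ^ (d + 1)) ^ k := by
          gcongr
          exact h3.trans (pow_le_pow_left₀ (Real.exp_pos _).le h4 k)
      _ = (((1 / 8 : ℝ)) ^ (d + 1)) ^ k := by
          rw [← mul_pow, ← mul_pow, ← mul_pow, ← mul_pow]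
          norm_num
      _ ≤ (1 / 8 : ℝ) ^ k := by
          apply pow_le_pow_left₀ (by positivity)
          calc (1 / 8 : ℝ) ^ (d + 1) ≤ (1 / 8 : ℝ) ^ 1 :=
                pow_le_pow_of_le_one (by norm_num) (by norm_num) (by omega)
            _ = 1 / 8 := by norm_num
  calc ∑ k ∈ Finset.Icc 1 (2 ^ (d + 1) : ℕ), ((2 ^ (d + 1)).choose k : ℝ) *
      ((2 ^ (d + 1)).descFactorial k : ℝ) * Real.exp (-((400 * (d + 1) : ℕ) * β * k / 2))
      ≤ ∑ k ∈ Finset.Icc 1 (2 ^ (d + 1) : ℕ), (1 / 8 : ℝ) ^ k := Finset.sum_le_sum fun k _ => hq k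
    _ ≤ 1 / 4 := by
        generalize (2 ^ (d + 1) : ℕ) = N
        have h : ∀ N : ℕ, ∑ k ∈ Finset.Icc 1 N, (1 / 8 : ℝ) ^ k = 1 / 7 - 1 / 7 * (1 / 8) ^ N := by
          intro N
          induction N with
          | zero => simp
          | succ N ih =>
            rw [Finset.sum_Icc_succ_top (by omega), ih, pow_succ]
            ring
        rw [h]
        have : (0 : ℝ) ≤ (1 / 8) ^ N := by positivity
        linarith

/-- the statement proved in `Link.lean` -/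
def Linked : Prop := ∀ d : ℕ, ∃ e : Pos (d + 1) ≃ Fin (2 * 2 ^ d),
      ∀ (V : Type) [NormedAddCommGroup V] [InnerProductSpace ℝ V]
        (ρ : Perm (Fin (2 * 2 ^ d)) →* (V →L[ℝ] V)),
        (avg ρ (thorpPerm (2 ^ d))) ^ (d + 1) =
          avg (ρ.comp (e.permCongrHom.toMonoidHom)) (pass (d + 1))

lemma uni_eq (m : ℕ) : (WithLp.toLp 2 fun _ => (1 : ℝ) / (Fintype.card (Fin (2 * m))).factorial :
    EuclideanSpace ℝ (Perm (Fin (2 * m)))) = uni m := rfl

lemma core (hD : Linked) (d : ℕ) : ∃ β : ℝ, 1 / 40 ≤ β ∧ ∀ c : ℕ,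
    ((2 * 2 ^ d).factorial : ℝ) *
        ‖(Top (2 ^ d) ^ ((d + 1) * c)) (vec (2 ^ d) 0 - uni (2 ^ d))‖ ^ 2 ≤
    ∑ k ∈ Finset.Icc 1 (2 ^ (d + 1) : ℕ), ((2 ^ (d + 1)).choose k : ℝ) *
      ((2 ^ (d + 1)).descFactorial k : ℝ) * Real.exp (-(c * β * k / 2)) := by
  obtain ⟨e, he⟩ := hD d
  obtain ⟨β, hβ, hgood⟩ := good_pass' d
  refine ⟨β, hβ, fun c => ?_⟩
  have hg2 := good_transport e (pass (d + 1)) β hgood
  have hb := depth_bound (fun c => e.permCongrHom (pass (d + 1) c)) β (by linarith) hg2 c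
  have hR : avg (regRep (Fin (2 * 2 ^ d))) (fun c => e.permCongrHom (pass (d + 1) c)) =
      (Top (2 ^ d)) ^ (d + 1) := (he _ (regRep (Fin (2 * 2 ^ d)))).symm
  rw [hR, ← pow_mul, uni_eq, ← vec_zero, Fintype.card_fin] at hb
  have hN : 2 * 2 ^ d = 2 ^ (d + 1) := by ring
  rw [← hN]
  exact hb

theorem final_of_link (hD : Linked) :
    ∃ C : ℕ, ∀ d : ℕ, tmix (2 ^ d) ≤ C * (d + 1) ^ 2 ∧
      ∀ t : ℕ, C * (d + 1) ^ 2 ≤ t → tvDist (2 ^ d) t ≤ 1 / 4 := by
  refine ⟨400, fun d => ?_⟩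
  have key : ∀ t : ℕ, 400 * (d + 1) ^ 2 ≤ t → tvDist (2 ^ d) t ≤ 1 / 4 := by
    intro t ht
    obtain ⟨β, hβ, hcore⟩ := core hD d
    have hb2 := (hcore (400 * (d + 1))).trans (geom_bound d hβ)
    have hanti := Top_pow_anti (2 ^ d) (vec (2 ^ d) 0 - uni (2 ^ d))
      (s := (d + 1) * (400 * (d + 1))) (t := t) (le_trans (le_of_eq (by ring)) ht)
    have h2 := tv_le (2 ^ d) t
    have h3 : ((2 * 2 ^ d).factorial : ℝ) *
        ‖(Top (2 ^ d) ^ t) (vec (2 ^ d) 0 - uni (2 ^ d))‖ ^ 2 ≤ (1 / 2) ^ 2 := by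
      calc ((2 * 2 ^ d).factorial : ℝ) * ‖(Top (2 ^ d) ^ t) (vec (2 ^ d) 0 - uni (2 ^ d))‖ ^ 2
          ≤ ((2 * 2 ^ d).factorial : ℝ) *
        ‖(Top (2 ^ d) ^ ((d + 1) * (400 * (d + 1)))) (vec (2 ^ d) 0 - uni (2 ^ d))‖ ^ 2 := by
            gcongr
        _ ≤ 1 / 4 := hb2
        _ = (1 / 2) ^ 2 := by norm_num
    have h4 := Real.sqrt_le_sqrt h3
    rw [Real.sqrt_sq (by norm_num)] at h4
    linarith
  exact ⟨Nat.sInf_le (key _ le_rfl), key⟩

end Vale.Agent.P162
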