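import Vale.Agent.P162.Step

open Equiv Finset
open scoped RealInnerProductSpace BigOperators

set_option linter.unusedSectionVars false

namespace Vale.Agent.P162

lemma avg_doubled {X : Type} [Fintype X] [DecidableEq X] {κ : Type} [Fintype κ]
    (f : κ → Perm X) {V : Type*} [NormedAddCommGroup V] [InnerProductSpace ℝ V]
    (ρ : Perm (X ⊕ X) →* (V →L[ℝ] V)) :
    avg ρ (doubled f) = avg (ρ.comp (topHom X)) f *
      (avg (ρ.comp (botHom X)) f * avg ρ (fun s : X → Bool => colFlip s)) := by
  rw [avg_comp, avg_comp, avg_mul, avg_mul]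
  congr 1

/-- the column symmetrizer is a contraction commuting with the half exponentials -/
lemma final_step {X : Type} [Fintype X] [DecidableEq X] {V : Type*} [NormedAddCommGroup V]
    [InnerProductSpace ℝ V] [CompleteSpace V] {ρ : Perm (X ⊕ X) →* (V →L[ℝ] V)} (hρ : Isom ρ)
    (c : ℝ) (v : V) :
    ⟪avg ρ (fun s : X → Bool => colFlip s) v,
      NormedSpace.exp (c • lap ρ) (avg ρ (fun s : X → Bool => colFlip s) v)⟫ ≤
    ⟪v, NormedSpace.exp (c • lap ρ) v⟫ := by
  rw [inner_exp_eq_norm_sq (lap_symm hρ), inner_exp_eq_norm_sq (lap_symm hρ)]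
  have h : NormedSpace.exp ((c / 2) • lap ρ) (avg ρ (fun s : X → Bool => colFlip s) v) =
      avg ρ (fun s : X → Bool => colFlip s) (NormedSpace.exp ((c / 2) • lap ρ) v) :=
    exp_comm_apply ((lap_comm_avg ρ _).smul_left _) v
  rw [h]
  exact pow_le_pow_left₀ (norm_nonneg _) (avg_norm_le hρ _ _) 2

lemma top_bot_comm {X : Type*} (a b : Perm X) : topHom X a * botHom X b = botHom X b * topHom X a := by
  ext x
  rcases x with x | x <;> rfl

theorem good_doubled {X : Type} [Fintype X] [DecidableEq X] {κ : Type} [Fintype κ]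
    (f : κ → Perm X) (β : ℝ) (hβ : 0 ≤ β) (hβ' : β ≤ 1 / 10) (hX : 2 ≤ Fintype.card X)
    (hf : Good f β) : Good (doubled f) (β * (1 - 1 / Fintype.card X)) := by
  intro V _ _ _ ρ hρ v
  have hm : (2 : ℝ) ≤ Fintype.card X := by exact_mod_cast hX
  set m : ℝ := (Fintype.card X : ℝ) with hmdef
  set E : V →L[ℝ] V := avg ρ (fun s : X → Bool => colFlip s) with hE
  set u : V := E v with hu
  have hsec : Sec ρ (fun _ => false) u := by
    rw [hu, hE, ← PA_zero]
    exact PA_sec ρ _ v
  have hNu : Nop ρ u = (0 : ℝ) • u := by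
    rw [Nop_sec hsec]
    congr 1
    simp [nA]
  rw [avg_doubled, mul_apply_eq_comp, mul_apply_eq_comp]
  -- the two halves
  set ρt := ρ.comp (topHom X) with hρt
  set ρb := ρ.comp (botHom X) with hρb
  have hρtI : Isom ρt := hρ.comp _
  have hρbI : Isom ρb := hρ.comp _
  have ctb : Commute (lap ρt) (lap ρb) := by
    unfold lap
    apply Commute.smul_left
    apply Commute.smul_right
    apply Commute.sum_left
    intro i _
    apply Commute.sum_left
    intro j _
    apply Commute.sum_right
    intro i' _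
    apply Commute.sum_right
    intro j' _
    apply Commute.sub_left (Commute.one_left _)
    apply Commute.sub_right (Commute.one_right _)
    change ρ _ * ρ _ = ρ _ * ρ _
    rw [← map_mul, ← map_mul, top_bot_comm]
  have ctb2 : Commute (lap ρt) (avg ρb f) := by
    unfold lap avg
    apply Commute.smul_left
    apply Commute.smul_right
    apply Commute.sum_left
    intro i _
    apply Commute.sum_left
    intro j _
    apply Commute.sum_right
    intro i' _
    apply Commute.sub_left (Commute.one_left _)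
    change ρ _ * ρ _ = ρ _ * ρ _
    rw [← map_mul, ← map_mul, top_bot_comm]
  have s1 := hf V ρt hρtI (avg ρb f u)
  have s2 : ⟪avg ρb f u, NormedSpace.exp (-(β / Fintype.card X) • lap ρt) (avg ρb f u)⟫ =
      ‖avg ρb f (NormedSpace.exp ((-(β / m) / 2) • lap ρt) u)‖ ^ 2 := by
    rw [inner_exp_eq_norm_sq (lap_symm hρtI)]
    rw [exp_comm_apply (ctb2.smul_left _)]
  have s3 := hf V ρb hρbI (NormedSpace.exp ((-(β / m) / 2) • lap ρt) u)
  have s4 : ⟪NormedSpace.exp ((-(β / m) / 2) • lap ρt) u,
      NormedSpace.exp (-(β / Fintype.card X) • lap ρb)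
        (NormedSpace.exp ((-(β / m) / 2) • lap ρt) u)⟫ =
      ⟪u, NormedSpace.exp (-(β • Zop ρ)) u⟫ := by
    have e1 : -(β • Zop ρ) = (-(β / m)) • lap ρb + (-(β / m)) • lap ρt := by
      unfold Zop lapTB
      rw [smul_smul, smul_add, neg_add, ← neg_smul, ← neg_smul, add_comm]
      congr 3 <;> · rw [← hmdef]; ring
    rw [e1, exp_add_comm ((ctb.symm.smul_left _).smul_right _), mul_apply_eq_comp]
    rw [exp_symm (smul_symm (lap_symm hρtI) _)]
    congr 1
    rw [exp_comm_apply (T := (-(β / m)) • lap ρb)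
      (S := NormedSpace.exp ((-(β / m) / 2) • lap ρt))]
    · rw [exp_comm_apply (T := (-(β / m)) • lap ρb)
        (S := NormedSpace.exp ((-(β / m)) • lap ρt))]
      · have e3 : (-(β / m)) • lap ρt = (-(β / m) / 2) • lap ρt + (-(β / m) / 2) • lap ρt := by
          rw [← add_smul]; congr 1; ring
        rw [e3, exp_add_comm (Commute.refl _), mul_apply_eq_comp]
      · exact ((ctb.symm.smul_left _).smul_right _).exp_right
    · exact ((ctb.symm.smul_left _).smul_right _).exp_right
  have s5 := exp_compare (Zop ρ) (Gop ρ)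
    (by
      unfold Zop lapTB
      refine smul_symm ?_ _
      intro v w
      rw [add_apply, add_apply, inner_add_left, inner_add_right, lap_symm hρtI, lap_symm hρbI])
    (by
      intro v w
      unfold Gop
      rw [add_apply, add_apply, inner_add_left, inner_add_right,
        smul_symm (lap_symm hρ), smul_symm (Nop_symm hρ)])
    β hβ (fun s hs w => step_ineq hρ hX s hs.1 (hs.2.trans hβ') w) u
  have s6 : NormedSpace.exp (β • Gop ρ) u =
      NormedSpace.exp (-(β * (1 - 1 / m) / Fintype.card (X ⊕ X)) • lap ρ) u := by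
    have e1 : β • Gop ρ = (-(β * (1 - 1 / m) / Fintype.card (X ⊕ X))) • lap ρ +
        (β * (17 / 2)) • Nop ρ := by
      unfold Gop aco
      rw [smul_add, smul_smul, smul_smul]
      congr 2
      rw [Fintype.card_sum, Nat.cast_add, ← hmdef]
      field_simp
      ring
    rw [e1, exp_add_comm (((lap_comm_Nop ρ).smul_left _).smul_right _), mul_apply_eq_comp]
    have e2 : ((β * (17 / 2)) • Nop ρ) u = (0 : ℝ) • u := by
      change (β * (17 / 2)) • (Nop ρ u) = _
      rw [hNu]
      simp
    rw [exp_apply_eigen _ e2, Real.exp_zero, one_smul]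
  have s7 := final_step hρ (-(β * (1 - 1 / m) / Fintype.card (X ⊕ X))) v
  calc ‖avg ρt f (avg ρb f u)‖ ^ 2 ≤ _ := s1
    _ = _ := s2
    _ ≤ _ := s3
    _ = _ := s4
    _ ≤ _ := s5
    _ = _ := by rw [s6]
    _ ≤ _ := s7

/-- base case: decks of two cards -/
theorem good_base {κ : Type} [Fintype κ] [Nonempty κ] (f : κ → Perm Unit) (β : ℝ) :
    Good (doubled f) β := by
  intro V _ _ _ ρ hρ v
  set E : V →L[ℝ] V := avg ρ (fun s : Unit → Bool => colFlip s) with hE
  have hsec : Sec ρ (fun _ => false) (E v) := by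
    rw [hE, ← PA_zero]
    exact PA_sec ρ _ v
  have hlap : (lap ρ) (E v) = 0 := by
    rw [lap_apply]
    have h1 : ρ (swap (Sum.inl ()) (Sum.inr ())) (E v) = E v := by
      have := hsec ()
      simpa [io] using this
    have h2 : ρ (swap (Sum.inr ()) (Sum.inl ())) (E v) = E v := by
      rw [swap_comm]; exact h1
    have h3 : ρ (Equiv.refl (Unit ⊕ Unit)) (E v) = E v := by
      have : ρ (Equiv.refl (Unit ⊕ Unit)) = 1 := map_one ρ
      rw [this]; rfl
    simp [Fintype.sum_sum_type, h1, h2, h3]
    abel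
  have h1 := final_step hρ (-(β / Fintype.card (Unit ⊕ Unit))) v
  have h2 : NormedSpace.exp (-(β / Fintype.card (Unit ⊕ Unit)) • lap ρ) (E v) = E v := by
    have e2 : (-(β / Fintype.card (Unit ⊕ Unit)) • lap ρ) (E v) = (0 : ℝ) • E v := by
      change -(β / (Fintype.card (Unit ⊕ Unit) : ℝ)) • (lap ρ (E v)) = _
      rw [hlap]
      simp
    rw [exp_apply_eigen _ e2, Real.exp_zero, one_smul]
  rw [← hE, h2, real_inner_self_eq_norm_sq] at h1
  refine le_trans ?_ h1
  rw [avg_doubled, mul_apply_eq_comp, mul_apply_eq_comp, ← hE]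
  apply pow_le_pow_left₀ (norm_nonneg _)
  exact (avg_norm_le (hρ.comp _) _ _).trans (avg_norm_le (hρ.comp _) _ _)

end Vale.Agent.P162
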