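import Vale.Agent.P162.Columns

open Equiv Finset
open scoped RealInnerProductSpace BigOperators

set_option linter.unusedSectionVars false

namespace Vale.Agent.P162

variable {X : Type*} [Fintype X] [DecidableEq X]

/-- number of antisymmetric columns -/
noncomputable def nA (A : X → Bool) : ℝ := ∑ x, if A x then (1 : ℝ) else 0

lemma nA_nonneg (A : X → Bool) : 0 ≤ nA A := by
  unfold nA
  refine Finset.sum_nonneg fun x _ => ?_
  split_ifs <;> norm_num

lemma nA_tog {p q : X} (hpq : p ≠ q) (A : X → Bool) :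
    nA (tog p q A) = nA A + (if A p then -1 else 1) + (if A q then -1 else 1) := by
  have h1 : (if A p then (-1 : ℝ) else 1) = ∑ x, if x = p then (if A x then (-1 : ℝ) else 1) else 0 := by
    simp
  have h2 : (if A q then (-1 : ℝ) else 1) = ∑ x, if x = q then (if A x then (-1 : ℝ) else 1) else 0 := by
    simp
  rw [h1, h2]
  unfold nA
  rw [← Finset.sum_add_distrib, ← Finset.sum_add_distrib]
  refine Finset.sum_congr rfl fun x _ => ?_
  unfold tog
  by_cases hp : x = p
  · subst hp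
    cases h : A x <;> simp [hpq]
  · by_cases hq : x = q
    · subst hq
      cases h : A x <;> simp [hp]
    · simp [hp, hq]

/-- ordered pairs in different states -/
lemma count_hop (A : X → Bool) :
    ∑ p : X, ∑ q : X, (if p = q then (0 : ℝ) else if A p = A q then 0 else 1) ≤
      2 * Fintype.card X * nA A := by
  have h : ∀ p q : X, (if p = q then (0 : ℝ) else if A p = A q then 0 else 1) ≤
      (if A p then (1 : ℝ) else 0) + (if A q then (1 : ℝ) else 0) := by
    intro p q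
    by_cases hpq : p = q
    · subst hpq
      cases A p <;> simp
    · cases A p <;> cases A q <;> simp [hpq]
  refine (Finset.sum_le_sum fun p _ => Finset.sum_le_sum fun q _ => h p q).trans ?_
  simp only [Finset.sum_add_distrib, Finset.sum_const, Finset.card_univ, nsmul_eq_mul,
    ← Finset.mul_sum]
  unfold nA
  linarith

lemma count_tt (A : X → Bool) :
    ∑ p : X, ∑ q : X, (if p = q then (0 : ℝ) else if A p = true ∧ A q = true then 1 else 0) =
      nA A * nA A - nA A := by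
  have h : ∀ p q : X, (if p = q then (0 : ℝ) else if A p = true ∧ A q = true then 1 else 0) =
      (if A p then (1 : ℝ) else 0) * (if A q then (1 : ℝ) else 0) -
        (if p = q then (if A p then (1 : ℝ) else 0) else 0) := by
    intro p q
    by_cases hpq : p = q
    · subst hpq
      cases A p <;> simp
    · cases A p <;> cases A q <;> simp [hpq]
  simp only [h, Finset.sum_sub_distrib, Finset.sum_ite_eq, Finset.mem_univ, if_true]
  unfold nA
  rw [Finset.sum_mul_sum]

variable {V : Type*} [NormedAddCommGroup V] [InnerProductSpace ℝ V]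

lemma tog_left {p q : X} (A : X → Bool) : tog p q A p = !(A p) := by simp [tog]
lemma tog_right {p q : X} (A : X → Bool) : tog p q A q = !(A q) := by simp [tog]

/-- weight in the Cauchy–Schwarz inequality for creation -/
noncomputable def th (A : X → Bool) : ℝ := (nA A + 1) / (8 * Fintype.card X)

lemma key_pair {ρ : Perm (X ⊕ X) →* (V →L[ℝ] V)} (hρ : Isom ρ) (hX : 2 ≤ Fintype.card X)
    (γ : ℝ) (hγ : Real.cosh γ ≤ 2) (x : (X → Bool) → V) {p q : X} (hpq : p ≠ q) :
    ∑ A, Real.exp (γ * (nA A - nA (tog p q A)) / 2) * ⟪kap ρ p q (x (tog p q A)), x A⟫ ≤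
      ∑ A, ((if A p = A q then 0 else 1) * (4 * ‖x A‖ ^ 2) +
        (if A p = false ∧ A q = false then 1 else 0) * (2 * th A * ‖kap ρ p q (x A)‖ ^ 2) +
        (if A p = true ∧ A q = true then 1 else 0) * (2 * (th (tog p q A))⁻¹ * ‖x A‖ ^ 2)) := by
  have hm : (2 : ℝ) ≤ Fintype.card X := by exact_mod_cast hX
  -- split the left-hand side
  have e1 : ∀ A : X → Bool,
      Real.exp (γ * (nA A - nA (tog p q A)) / 2) * ⟪kap ρ p q (x (tog p q A)), x A⟫ =
      (if A p = A q then 0 else 1) * ⟪kap ρ p q (x (tog p q A)), x A⟫ +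
      (if A p = false ∧ A q = false then 1 else 0) *
        (Real.exp (-γ) * ⟪kap ρ p q (x (tog p q A)), x A⟫) +
      (if A p = true ∧ A q = true then 1 else 0) *
        (Real.exp γ * ⟪kap ρ p q (x (tog p q A)), x A⟫) := by
    intro A
    rw [nA_tog hpq]
    cases hp : A p <;> cases hq : A q <;> simp
    · left
      ring_nf
    · left
      ring_nf
  rw [Finset.sum_congr rfl fun A _ => e1 A]
  rw [Finset.sum_add_distrib, Finset.sum_add_distrib, Finset.sum_add_distrib,
    Finset.sum_add_distrib]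
  have hop : ∑ A : X → Bool, (if A p = A q then (0 : ℝ) else 1) *
      ⟪kap ρ p q (x (tog p q A)), x A⟫ ≤
      ∑ A : X → Bool, (if A p = A q then (0 : ℝ) else 1) * (4 * ‖x A‖ ^ 2) := by
    have r : ∑ A : X → Bool, (if A p = A q then (0 : ℝ) else 1) * (2 * ‖x (tog p q A)‖ ^ 2) =
        ∑ A : X → Bool, (if A p = A q then (0 : ℝ) else 1) * (2 * ‖x A‖ ^ 2) := by
      rw [← Equiv.sum_comp (togEquiv p q)]
      refine Finset.sum_congr rfl fun A _ => ?_
      change (if tog p q A p = tog p q A q then (0 : ℝ) else 1) *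
        (2 * ‖x (tog p q (tog p q A))‖ ^ 2) = _
      rw [tog_left, tog_right, tog_tog]
      cases A p <;> cases A q <;> simp
    calc ∑ A : X → Bool, (if A p = A q then (0 : ℝ) else 1) * ⟪kap ρ p q (x (tog p q A)), x A⟫
        ≤ ∑ A : X → Bool, ((if A p = A q then (0 : ℝ) else 1) * (2 * ‖x (tog p q A)‖ ^ 2) +
            (if A p = A q then (0 : ℝ) else 1) * (2 * ‖x A‖ ^ 2)) := by
          refine Finset.sum_le_sum fun A _ => ?_
          rw [← mul_add]
          apply mul_le_mul_of_nonneg_left _ (by split_ifs <;> norm_num)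
          have h1 := real_inner_le_norm (kap ρ p q (x (tog p q A))) (x A)
          have h2 := kap_norm_le hρ p q (x (tog p q A))
          have h3 := norm_nonneg (x A)
          nlinarith [sq_nonneg (‖x (tog p q A)‖ - ‖x A‖), mul_le_mul_of_nonneg_right h2 h3]
      _ = ∑ A : X → Bool, (if A p = A q then (0 : ℝ) else 1) * (4 * ‖x A‖ ^ 2) := by
          rw [Finset.sum_add_distrib, r, ← Finset.sum_add_distrib]
          refine Finset.sum_congr rfl fun A _ => ?_
          ring
  have tt : ∑ A : X → Bool, (if A p = true ∧ A q = true then (1 : ℝ) else 0) *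
        (Real.exp γ * ⟪kap ρ p q (x (tog p q A)), x A⟫) =
      ∑ A : X → Bool, (if A p = false ∧ A q = false then (1 : ℝ) else 0) *
        (Real.exp γ * ⟪kap ρ p q (x (tog p q A)), x A⟫) := by
    rw [← Equiv.sum_comp (togEquiv p q)]
    refine Finset.sum_congr rfl fun A _ => ?_
    change (if tog p q A p = true ∧ tog p q A q = true then (1 : ℝ) else 0) *
        (Real.exp γ * ⟪kap ρ p q (x (tog p q (tog p q A))), x (tog p q A)⟫) = _
    rw [tog_left, tog_right, tog_tog, kap_symm hρ, real_inner_comm]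
    cases A p <;> cases A q <;> simp
  have tt2 : ∑ A : X → Bool, (if A p = true ∧ A q = true then (1 : ℝ) else 0) *
        (2 * (th (tog p q A))⁻¹ * ‖x A‖ ^ 2) =
      ∑ A : X → Bool, (if A p = false ∧ A q = false then (1 : ℝ) else 0) *
        (2 * (th A)⁻¹ * ‖x (tog p q A)‖ ^ 2) := by
    rw [← Equiv.sum_comp (togEquiv p q)]
    refine Finset.sum_congr rfl fun A _ => ?_
    change (if tog p q A p = true ∧ tog p q A q = true then (1 : ℝ) else 0) *
        (2 * (th (tog p q (tog p q A)))⁻¹ * ‖x (tog p q A)‖ ^ 2) = _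
    rw [tog_left, tog_right, tog_tog]
    cases A p <;> cases A q <;> simp
  rw [tt, tt2]
  have ff : ∑ A : X → Bool, (if A p = false ∧ A q = false then (1 : ℝ) else 0) *
        (Real.exp (-γ) * ⟪kap ρ p q (x (tog p q A)), x A⟫) +
      ∑ A : X → Bool, (if A p = false ∧ A q = false then (1 : ℝ) else 0) *
        (Real.exp γ * ⟪kap ρ p q (x (tog p q A)), x A⟫) ≤
      ∑ A : X → Bool, (if A p = false ∧ A q = false then (1 : ℝ) else 0) *
        (2 * th A * ‖kap ρ p q (x A)‖ ^ 2) +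
      ∑ A : X → Bool, (if A p = false ∧ A q = false then (1 : ℝ) else 0) *
        (2 * (th A)⁻¹ * ‖x (tog p q A)‖ ^ 2) := by
    rw [← Finset.sum_add_distrib, ← Finset.sum_add_distrib]
    refine Finset.sum_le_sum fun A _ => ?_
    rw [← mul_add, ← mul_add]
    apply mul_le_mul_of_nonneg_left _ (by split_ifs <;> norm_num)
    have hth : 0 < th A := by
      unfold th
      have := nA_nonneg A
      positivity
    have h1 : ⟪kap ρ p q (x (tog p q A)), x A⟫ = ⟪kap ρ p q (x A), x (tog p q A)⟫ := by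
      rw [kap_symm hρ, real_inner_comm]
    rw [h1, ← add_mul]
    have h2 : Real.exp (-γ) + Real.exp γ = 2 * Real.cosh γ := by
      rw [Real.cosh_eq]; ring
    rw [h2]
    set a := ‖kap ρ p q (x A)‖ with ha
    set b := ‖x (tog p q A)‖ with hb
    have h3 : ⟪kap ρ p q (x A), x (tog p q A)⟫ ≤ a * b := real_inner_le_norm _ _
    have h4 : 0 < Real.cosh γ := Real.cosh_pos γ
    have h5 : 2 * Real.cosh γ * ⟪kap ρ p q (x A), x (tog p q A)⟫ ≤ 2 * Real.cosh γ * (a * b) :=
      mul_le_mul_of_nonneg_left h3 (by positivity)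
    have hab : 0 ≤ a * b := mul_nonneg (norm_nonneg _) (norm_nonneg _)
    have h6 : 2 * Real.cosh γ * (a * b) ≤ 4 * (a * b) := by nlinarith
    have h7 : 4 * (a * b) ≤ 2 * th A * a ^ 2 + 2 * (th A)⁻¹ * b ^ 2 := by
      have h8 : 2 * th A * a ^ 2 + 2 * (th A)⁻¹ * b ^ 2 - 4 * (a * b) =
          2 * (th A)⁻¹ * (th A * a - b) ^ 2 := by
        field_simp
        ring
      have h9 : 0 ≤ 2 * (th A)⁻¹ * (th A * a - b) ^ 2 := by positivity
      linarith
    linarith
  linarith

lemma lap_ge_cross {ρ : Perm (X ⊕ X) →* (V →L[ℝ] V)} (hρ : Isom ρ) (v : V) :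
    ∑ p : X, ∑ q : X, (‖v‖ ^ 2 - ⟪v, ρ (swap (Sum.inl q) (Sum.inr p)) v⟫) ≤ ⟪v, lap ρ v⟫ := by
  have hnn : ∀ i j : X ⊕ X, 0 ≤ ‖v‖ ^ 2 - ⟪v, ρ (swap i j) v⟫ := by
    intro i j
    have h1 := real_inner_le_norm v (ρ (swap i j) v)
    rw [hρ] at h1
    nlinarith
  rw [inner_lap]
  simp only [Fintype.sum_sum_type, Finset.sum_add_distrib]
  have h1 : 0 ≤ ∑ p : X, ∑ q : X, (‖v‖ ^ 2 - ⟪v, ρ (swap (Sum.inl p) (Sum.inl q)) v⟫) :=
    Finset.sum_nonneg fun i _ => Finset.sum_nonneg fun j _ => hnn _ _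
  have h2 : 0 ≤ ∑ p : X, ∑ q : X, (‖v‖ ^ 2 - ⟪v, ρ (swap (Sum.inr p) (Sum.inr q)) v⟫) :=
    Finset.sum_nonneg fun i _ => Finset.sum_nonneg fun j _ => hnn _ _
  have h3 : ∑ p : X, ∑ q : X, (‖v‖ ^ 2 - ⟪v, ρ (swap (Sum.inl p) (Sum.inr q)) v⟫) =
      ∑ p : X, ∑ q : X, (‖v‖ ^ 2 - ⟪v, ρ (swap (Sum.inl q) (Sum.inr p)) v⟫) := by
    rw [Finset.sum_comm]
  have h4 : ∑ p : X, ∑ q : X, (‖v‖ ^ 2 - ⟪v, ρ (swap (Sum.inr p) (Sum.inl q)) v⟫) =
      ∑ p : X, ∑ q : X, (‖v‖ ^ 2 - ⟪v, ρ (swap (Sum.inl q) (Sum.inr p)) v⟫) := by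
    refine Finset.sum_congr rfl fun p _ => Finset.sum_congr rfl fun q _ => ?_
    rw [swap_comm]
  rw [h3, h4]
  linarith

/-- the three contributions of one sector -/
lemma sector_bound {ρ : Perm (X ⊕ X) →* (V →L[ℝ] V)} (hρ : Isom ρ) (hX : 2 ≤ Fintype.card X)
    (A : X → Bool) (v : V) (hv : Sec ρ A v) :
    (1 / 2 : ℝ) * ∑ p, ∑ q, (if p = q then 0 else
      ((if A p = A q then 0 else 1) * (4 * ‖v‖ ^ 2) +
        (if A p = false ∧ A q = false then 1 else 0) * (2 * th A * ‖kap ρ p q v‖ ^ 2) +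
        (if A p = true ∧ A q = true then 1 else 0) * (2 * (th (tog p q A))⁻¹ * ‖v‖ ^ 2))) ≤
    16 * Fintype.card X * (nA A * ‖v‖ ^ 2) + (1 / Fintype.card X) * ⟪v, lap ρ v⟫ := by
  have hm : (2 : ℝ) ≤ Fintype.card X := by exact_mod_cast hX
  have hn := nA_nonneg A
  have hth : 0 < th A := by
    unfold th
    positivity
  have hnn : ∀ i j : X ⊕ X, 0 ≤ ‖v‖ ^ 2 - ⟪v, ρ (swap i j) v⟫ := by
    intro i j
    have h1 := real_inner_le_norm v (ρ (swap i j) v)
    rw [hρ] at h1
    nlinarith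
  have hterm : ∀ p q : X, (if p = q then (0 : ℝ) else
      ((if A p = A q then 0 else 1) * (4 * ‖v‖ ^ 2) +
        (if A p = false ∧ A q = false then 1 else 0) * (2 * th A * ‖kap ρ p q v‖ ^ 2) +
        (if A p = true ∧ A q = true then 1 else 0) * (2 * (th (tog p q A))⁻¹ * ‖v‖ ^ 2))) ≤
      (if p = q then (0 : ℝ) else if A p = A q then 0 else 1) * (4 * ‖v‖ ^ 2) +
      16 * th A * (‖v‖ ^ 2 - ⟪v, ρ (swap (Sum.inl q) (Sum.inr p)) v⟫) +
      (if p = q then (0 : ℝ) else if A p = true ∧ A q = true then 1 else 0) *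
        (2 * (8 * Fintype.card X / (nA A - 1)) * ‖v‖ ^ 2) := by
    intro p q
    have hc := mul_nonneg (mul_nonneg (by norm_num : (0:ℝ) ≤ 16) hth.le)
      (hnn (Sum.inl q) (Sum.inr p))
    by_cases hpq : p = q
    · simp only [hpq, if_true]
      subst hpq
      linarith
    · simp only [hpq, if_false]
      cases hp : A p <;> cases hq : A q
      · simp
        have h1 := kap_sq_le hρ hpq (v := v) (by rw [hv p, hp]; simp) (by rw [hv q, hq]; simp)
        nlinarith [mul_le_mul_of_nonneg_left h1 hth.le]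
      · simp
        linarith
      · simp
        linarith
      · simp
        have h2 : (th (tog p q A))⁻¹ = 8 * Fintype.card X / (nA A - 1) := by
          unfold th
          rw [nA_tog hpq, hp, hq]
          simp only [if_true]
          rw [inv_div]
          congr 1
          ring
        rw [h2]
        linarith
  refine (mul_le_mul_of_nonneg_left (Finset.sum_le_sum fun p _ => Finset.sum_le_sum fun q _ =>
    hterm p q) (by norm_num)).trans ?_
  simp only [Finset.sum_add_distrib, ← Finset.sum_mul, ← Finset.mul_sum]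
  rw [count_tt]
  have h1 := count_hop A
  have h2 := lap_ge_cross hρ v
  have h3 := inner_lap_le hρ v
  have h4 := inner_lap_nonneg hρ v
  simp only [Fintype.card_sum, Nat.cast_add] at h3
  set m : ℝ := (Fintype.card X : ℝ) with hmdef
  have h5 : (nA A * nA A - nA A) * (2 * (8 * m / (nA A - 1)) * ‖v‖ ^ 2) ≤
      16 * m * (nA A * ‖v‖ ^ 2) := by
    by_cases h : nA A = 1
    · rw [h]
      simp
      positivity
    · have h6 : nA A - 1 ≠ 0 := sub_ne_zero.2 h
      apply le_of_eq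
      field_simp
      ring
  have h7 : 16 * th A * (∑ p : X, ∑ q : X, (‖v‖ ^ 2 - ⟪v, ρ (swap (Sum.inl q) (Sum.inr p)) v⟫)) ≤
      16 * th A * ⟪v, lap ρ v⟫ := mul_le_mul_of_nonneg_left h2 (by positivity)
  have h8 : 16 * th A * ⟪v, lap ρ v⟫ ≤ 2 * (1 / m * ⟪v, lap ρ v⟫) + 8 * m * (nA A * ‖v‖ ^ 2) := by
    unfold th
    have h9 : nA A / m * ⟪v, lap ρ v⟫ ≤ nA A / m * ((m + m) ^ 2 * ‖v‖ ^ 2) :=
      mul_le_mul_of_nonneg_left h3 (by positivity)
    have h10 : nA A / m * ((m + m) ^ 2 * ‖v‖ ^ 2) = 4 * m * (nA A * ‖v‖ ^ 2) := by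
      field_simp
      ring
    have h11 : 16 * ((nA A + 1) / (8 * m)) * ⟪v, lap ρ v⟫ =
        2 * (nA A / m * ⟪v, lap ρ v⟫) + 2 * (1 / m * ⟪v, lap ρ v⟫) := by
      field_simp
      ring
    rw [h11]
    linarith
  have h12 : (∑ p : X, ∑ q : X, if p = q then (0 : ℝ) else if A p = A q then 0 else 1) *
      (4 * ‖v‖ ^ 2) ≤ 2 * m * nA A * (4 * ‖v‖ ^ 2) :=
    mul_le_mul_of_nonneg_right h1 (by positivity)
  nlinarith

/-- the key inequality -/
lemma key {ρ : Perm (X ⊕ X) →* (V →L[ℝ] V)} (hρ : Isom ρ) (hX : 2 ≤ Fintype.card X)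
    (γ : ℝ) (hγ : Real.cosh γ ≤ 2) (x : (X → Bool) → V) (hx : ∀ A, Sec ρ A (x A)) :
    (1 / 2 : ℝ) * ∑ p, ∑ q, (if p = q then 0 else
      ∑ A, Real.exp (γ * (nA A - nA (tog p q A)) / 2) * ⟪kap ρ p q (x (tog p q A)), x A⟫) ≤
    16 * Fintype.card X * ∑ A, nA A * ‖x A‖ ^ 2 +
      (1 / Fintype.card X) * ∑ A, ⟪x A, lap ρ (x A)⟫ := by
  have hm : (2 : ℝ) ≤ Fintype.card X := by exact_mod_cast hX
  have h1 : (1 / 2 : ℝ) * ∑ p, ∑ q, (if p = q then 0 else
      ∑ A, Real.exp (γ * (nA A - nA (tog p q A)) / 2) * ⟪kap ρ p q (x (tog p q A)), x A⟫) ≤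
      (1 / 2 : ℝ) * ∑ p, ∑ q, ∑ A : X → Bool, (if p = q then 0 else
      ((if A p = A q then 0 else 1) * (4 * ‖x A‖ ^ 2) +
        (if A p = false ∧ A q = false then 1 else 0) * (2 * th A * ‖kap ρ p q (x A)‖ ^ 2) +
        (if A p = true ∧ A q = true then 1 else 0) *
          (2 * (th (tog p q A))⁻¹ * ‖x A‖ ^ 2))) := by
    apply mul_le_mul_of_nonneg_left _ (by norm_num)
    refine Finset.sum_le_sum fun p _ => Finset.sum_le_sum fun q _ => ?_
    by_cases hpq : p = q
    · simp [hpq]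
    · simp only [hpq, if_false]
      exact key_pair hρ hX γ hγ x hpq
  refine h1.trans ?_
  have h2 : (1 / 2 : ℝ) * ∑ p, ∑ q, ∑ A : X → Bool, (if p = q then 0 else
      ((if A p = A q then 0 else 1) * (4 * ‖x A‖ ^ 2) +
        (if A p = false ∧ A q = false then 1 else 0) * (2 * th A * ‖kap ρ p q (x A)‖ ^ 2) +
        (if A p = true ∧ A q = true then 1 else 0) *
          (2 * (th (tog p q A))⁻¹ * ‖x A‖ ^ 2))) =
      ∑ A : X → Bool, (1 / 2 : ℝ) * ∑ p, ∑ q, (if p = q then 0 else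
      ((if A p = A q then 0 else 1) * (4 * ‖x A‖ ^ 2) +
        (if A p = false ∧ A q = false then 1 else 0) * (2 * th A * ‖kap ρ p q (x A)‖ ^ 2) +
        (if A p = true ∧ A q = true then 1 else 0) *
          (2 * (th (tog p q A))⁻¹ * ‖x A‖ ^ 2))) := by
    rw [← Finset.mul_sum]
    congr 1
    rw [Finset.sum_comm (s := (univ : Finset (X → Bool)))]
    refine Finset.sum_congr rfl fun p _ => ?_
    rw [Finset.sum_comm]
  rw [h2, Finset.mul_sum, Finset.mul_sum, ← Finset.sum_add_distrib]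
  exact Finset.sum_le_sum fun A _ => sector_bound hρ hX A (x A) (hx A)

end Vale.Agent.P162
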