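import Vale.Agent.P162.Setup

open Equiv Finset
open scoped RealInnerProductSpace BigOperators

set_option linter.unusedSectionVars false

namespace Vale.Agent.P162

/-- bit strings, most significant bit first -/
abbrev BS (D : ℕ) := Fin D → Bool

/-- flip bit `j` of `x` according to the coin attached to the other bits of `x` -/
def flipFun {D : ℕ} (j : Fin D) (c : BS D → Bool) (x : BS D) : BS D :=
  Function.update x j (xor (x j) (c (Function.update x j false)))

lemma flipFun_invol {D : ℕ} (j : Fin D) (c : BS D → Bool) : Function.Involutive (flipFun j c) := by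
  intro x
  unfold flipFun
  simp

/-- flips of bit `j` as permutations -/
def bflip {D : ℕ} (j : Fin D) (c : BS D → Bool) : Perm (BS D) := (flipFun_invol j c).toPerm _

lemma bflip_apply {D : ℕ} (j : Fin D) (c : BS D → Bool) (x : BS D) :
    bflip j c x = Function.update x j (xor (x j) (c (Function.update x j false))) := rfl

/-- permuting the bits -/
def pbit {D : ℕ} (σ : Perm (Fin D)) : Perm (BS D) where
  toFun x := x ∘ σ
  invFun x := x ∘ σ.symm
  left_inv x := by ext i; simp
  right_inv x := by ext i; simp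

lemma pbit_apply {D : ℕ} (σ : Perm (Fin D)) (x : BS D) : pbit σ x = x ∘ σ := rfl

lemma pbit_pow {D : ℕ} (σ : Perm (Fin D)) (k : ℕ) : pbit σ ^ k = pbit (σ ^ k) := by
  induction k with
  | zero => ext x i; simp [pbit_apply]
  | succ k ih =>
    rw [pow_succ, pow_succ', ih]
    ext x i
    simp [pbit_apply, Perm.mul_apply]

lemma bflip_pbit {D : ℕ} (σ : Perm (Fin D)) (j : Fin D) (c : BS D → Bool) :
    bflip j c * pbit σ = pbit σ * bflip (σ j) (c ∘ pbit σ) := by
  ext1 x
  simp only [Perm.mul_apply, bflip_apply, pbit_apply, Function.comp]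
  funext i
  by_cases h : i = j
  · subst h
    have e : Function.update (x ∘ ⇑σ) i false = Function.update x (σ i) false ∘ ⇑σ := by
      funext k
      by_cases hk : k = i
      · subst hk; simp
      · simp [hk]
    rw [Function.update_self, e]
    change _ = Function.update x (σ i) _ (σ i)
    rw [Function.update_self]
  · have h2 : σ i ≠ σ j := fun e => h (σ.injective e)
    rw [Function.update_of_ne h]
    change _ = Function.update x (σ j) _ (σ i)
    rw [Function.update_of_ne h2]
    rfl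

section ops

variable {V : Type*} [NormedAddCommGroup V] [InnerProductSpace ℝ V]

lemma avg_left_mul {G : Type*} [Group G] (ρ : G →* (V →L[ℝ] V)) {κ : Type*} [Fintype κ]
    (g : G) (f : κ → G) : avg ρ (fun c => g * f c) = ρ g * avg ρ f := by
  unfold avg
  simp only [map_mul, mul_smul_comm, Finset.mul_sum]

lemma avg_right_mul {G : Type*} [Group G] (ρ : G →* (V →L[ℝ] V)) {κ : Type*} [Fintype κ]
    (g : G) (f : κ → G) : avg ρ (fun c => f c * g) = avg ρ f * ρ g := by
  unfold avg
  simp only [map_mul, smul_mul_assoc, Finset.sum_mul]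

lemma avg_fst {G : Type*} [Group G] (ρ : G →* (V →L[ℝ] V)) {κ κ' : Type*} [Fintype κ]
    [Fintype κ'] [Nonempty κ'] (f : κ → G) :
    avg ρ (fun p : κ × κ' => f p.1) = avg ρ f := by
  unfold avg
  rw [Fintype.sum_prod_type, Fintype.card_prod]
  simp only [Finset.sum_const, Finset.card_univ]
  rw [← Finset.smul_sum, ← Nat.cast_smul_eq_nsmul ℝ, smul_smul]
  congr 1
  have : (Fintype.card κ' : ℝ) ≠ 0 := by exact_mod_cast Fintype.card_ne_zero
  push_cast
  field_simp

lemma avg_bflip_pbit {D : ℕ} (ρ : Perm (BS D) →* (V →L[ℝ] V)) (σ : Perm (Fin D)) (j : Fin D) :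
    avg ρ (bflip j) * ρ (pbit σ) = ρ (pbit σ) * avg ρ (bflip (σ j)) := by
  rw [← avg_right_mul, ← avg_left_mul]
  simp only [bflip_pbit]
  exact avg_equiv ρ (Equiv.arrowCongr (pbit σ).symm (Equiv.refl Bool))
    (fun c => pbit σ * bflip (σ j) c)

/-- the operator of bit `k` -/
noncomputable def Eop {D : ℕ} (ρ : Perm (BS D) →* (V →L[ℝ] V)) (k : ℕ) : V →L[ℝ] V :=
  if h : k < D then avg ρ (bflip ⟨k, h⟩) else 1

/-- product of the operators of the first `k` bits -/
noncomputable def prodE {D : ℕ} (ρ : Perm (BS D) →* (V →L[ℝ] V)) : ℕ → V →L[ℝ] V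
  | 0 => 1
  | k + 1 => Eop ρ k * prodE ρ k

lemma finRotate_pow_zero (D k : ℕ) (h : k < D + 1) :
    ((finRotate (D + 1)) ^ k) 0 = ⟨k, h⟩ := by
  induction k with
  | zero => rfl
  | succ k ih =>
    rw [pow_succ', Perm.mul_apply, ih (by omega)]
    apply Fin.ext
    rw [finRotate_apply]
    rw [Fin.val_add_one_of_lt]
    rw [Fin.lt_def]
    simp
    omega

lemma thorp_pow {D : ℕ} (ρ : Perm (BS (D + 1)) →* (V →L[ℝ] V)) (k : ℕ) (hk : k ≤ D + 1) :
    (ρ (pbit (finRotate (D + 1))) * avg ρ (bflip 0)) ^ k =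
      ρ (pbit (finRotate (D + 1)) ^ k) * prodE ρ k := by
  induction k with
  | zero => simp [prodE]
  | succ k ih =>
    rw [pow_succ', ih (by omega), prodE, Eop, dif_pos (show k < D + 1 by omega)]
    have h := avg_bflip_pbit ρ ((finRotate (D + 1)) ^ k) 0
    rw [finRotate_pow_zero D k (by omega)] at h
    rw [mul_assoc, ← mul_assoc (avg ρ (bflip 0)), pbit_pow, h, pow_succ', map_mul, pbit_pow]
    simp only [mul_assoc]

end ops

/-! ### the recursive description -/

/-- strings of length `D + 1` by first bit -/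
def consE (D : ℕ) : BS D ⊕ BS D ≃ BS (D + 1) where
  toFun x := Sum.elim (fun y => Fin.cons false y) (fun y => Fin.cons true y) x
  invFun x := if x 0 then Sum.inr (Fin.tail x) else Sum.inl (Fin.tail x)
  left_inv x := by rcases x with x | x <;> simp
  right_inv x := by
    by_cases h : x 0
    · simp only [h, if_true, Sum.elim_inr]
      rw [← h, Fin.cons_self_tail]
    · have h' : x 0 = false := by simpa using h
      simp only [h', Sum.elim_inl, Bool.false_eq_true, if_false]
      rw [← h', Fin.cons_self_tail]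

lemma consE_inl {D : ℕ} (y : BS D) : consE D (Sum.inl y) = Fin.cons false y := rfl
lemma consE_inr {D : ℕ} (y : BS D) : consE D (Sum.inr y) = Fin.cons true y := rfl

/-- tree positions and bit strings -/
def posE : (D : ℕ) → Pos D ≃ BS D
  | 0 => (Equiv.ofUnique Unit (BS 0))
  | D + 1 => (Equiv.sumCongr (posE D) (posE D)).trans (consE D)

/-- the two halves -/
def iotaF (D : ℕ) : Perm (BS D) →* Perm (BS (D + 1)) :=
  ((consE D).permCongrHom.toMonoidHom).comp (topHom (BS D))

def iotaT (D : ℕ) : Perm (BS D) →* Perm (BS (D + 1)) :=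
  ((consE D).permCongrHom.toMonoidHom).comp (botHom (BS D))

lemma iotaF_cons {D : ℕ} (p : Perm (BS D)) (b : Bool) (y : BS D) :
    iotaF D p (Fin.cons b y) = if b then Fin.cons b y else Fin.cons b (p y) := by
  cases b
  · rw [← consE_inl]
    change consE D (topHom _ p ((consE D).symm (consE D (Sum.inl y)))) = _
    rw [Equiv.symm_apply_apply]
    rfl
  · rw [← consE_inr]
    change consE D (topHom _ p ((consE D).symm (consE D (Sum.inr y)))) = _
    rw [Equiv.symm_apply_apply]
    rfl

lemma iotaT_cons {D : ℕ} (p : Perm (BS D)) (b : Bool) (y : BS D) :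
    iotaT D p (Fin.cons b y) = if b then Fin.cons b (p y) else Fin.cons b y := by
  cases b
  · rw [← consE_inl]
    change consE D (botHom _ p ((consE D).symm (consE D (Sum.inl y)))) = _
    rw [Equiv.symm_apply_apply]
    rfl
  · rw [← consE_inr]
    change consE D (botHom _ p ((consE D).symm (consE D (Sum.inr y)))) = _
    rw [Equiv.symm_apply_apply]
    rfl

lemma bflip_succ {D : ℕ} (j : Fin D) (c : BS (D + 1) → Bool) :
    bflip j.succ c = iotaF D (bflip j (fun y => c (Fin.cons false y))) *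
      iotaT D (bflip j (fun y => c (Fin.cons true y))) := by
  ext1 x
  obtain ⟨b, y, rfl⟩ : ∃ (b : Bool) (y : BS D), x = Fin.cons b y :=
    ⟨x 0, Fin.tail x, (Fin.cons_self_tail x).symm⟩
  rw [Perm.mul_apply, iotaT_cons]
  cases b
  · simp only [Bool.false_eq_true, if_false]
    rw [iotaF_cons]
    simp only [Bool.false_eq_true, if_false, bflip_apply]
    rw [Fin.cons_update, ← Fin.cons_update]
    simp
  · simp only [if_true]
    rw [iotaF_cons]
    simp only [if_true, bflip_apply]
    rw [← Fin.cons_update, ← Fin.cons_update]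
    simp

/-- coins on `BS (D + 1)` as pairs of coins on `BS D` -/
def coinE (D : ℕ) : (BS (D + 1) → Bool) ≃ (BS D → Bool) × (BS D → Bool) :=
  ((consE D).symm.arrowCongr (Equiv.refl Bool)).trans (Equiv.sumArrowEquivProdArrow _ _ _)

lemma coinE_apply {D : ℕ} (c : BS (D + 1) → Bool) :
    coinE D c = (fun y => c (Fin.cons false y), fun y => c (Fin.cons true y)) := rfl

lemma Eop_succ {D : ℕ} {V : Type*} [NormedAddCommGroup V] [InnerProductSpace ℝ V]
    (ρ : Perm (BS (D + 1)) →* (V →L[ℝ] V)) (k : ℕ) (hk : k < D) :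
    Eop ρ (k + 1) = Eop (ρ.comp (iotaF D)) k * Eop (ρ.comp (iotaT D)) k := by
  rw [Eop, Eop, Eop, dif_pos (by omega), dif_pos hk, dif_pos hk, avg_comp, avg_comp, avg_mul]
  have h := avg_equiv ρ (coinE D) (fun p : (BS D → Bool) × (BS D → Bool) =>
    iotaF D (bflip ⟨k, hk⟩ p.1) * iotaT D (bflip ⟨k, hk⟩ p.2))
  rw [← h]
  congr 1
  funext c
  exact bflip_succ ⟨k, hk⟩ c

lemma iota_comm {D : ℕ} (p q : Perm (BS D)) : iotaF D p * iotaT D q = iotaT D q * iotaF D p := by
  ext1 x
  obtain ⟨b, y, rfl⟩ : ∃ (b : Bool) (y : BS D), x = Fin.cons b y :=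
    ⟨x 0, Fin.tail x, (Fin.cons_self_tail x).symm⟩
  cases b <;> simp [Perm.mul_apply, iotaT_cons, iotaF_cons]

lemma Eop_comm {D : ℕ} {V : Type*} [NormedAddCommGroup V] [InnerProductSpace ℝ V]
    (ρ : Perm (BS (D + 1)) →* (V →L[ℝ] V)) (k l : ℕ) :
    Commute (Eop (ρ.comp (iotaF D)) k) (Eop (ρ.comp (iotaT D)) l) := by
  unfold Eop
  split_ifs
  · unfold avg
    apply Commute.smul_left
    apply Commute.smul_right
    apply Commute.sum_left
    intro c _
    apply Commute.sum_right
    intro c' _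
    change ρ _ * ρ _ = ρ _ * ρ _
    rw [← map_mul, ← map_mul, iota_comm]
  · exact Commute.one_right _
  · exact Commute.one_left _
  · exact Commute.one_left _

lemma prodE_comm {D : ℕ} {V : Type*} [NormedAddCommGroup V] [InnerProductSpace ℝ V]
    (ρ : Perm (BS (D + 1)) →* (V →L[ℝ] V)) (k l : ℕ) :
    Commute (prodE (ρ.comp (iotaF D)) k) (Eop (ρ.comp (iotaT D)) l) := by
  induction k with
  | zero => exact Commute.one_left _
  | succ k ih => exact (Eop_comm ρ k l).mul_left ih

lemma prodE_succ {D : ℕ} {V : Type*} [NormedAddCommGroup V] [InnerProductSpace ℝ V]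
    (ρ : Perm (BS (D + 1)) →* (V →L[ℝ] V)) (k : ℕ) (hk : k ≤ D) :
    prodE ρ (k + 1) = prodE (ρ.comp (iotaF D)) k * (prodE (ρ.comp (iotaT D)) k * Eop ρ 0) := by
  induction k with
  | zero => simp [prodE]
  | succ k ih =>
    rw [prodE, ih (by omega), Eop_succ ρ k (by omega), prodE, prodE]
    have h := (prodE_comm ρ k k).eq
    simp only [mul_assoc]
    congr 1
    simp only [← mul_assoc]
    rw [h]

/-- left half -/
def pinl {D : ℕ} (z : Pos D) : Pos (D + 1) := Sum.inl z

/-- right half -/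
def pinr {D : ℕ} (z : Pos D) : Pos (D + 1) := Sum.inr z

lemma posE_top {D : ℕ} (p : Perm (Pos D)) :
    (posE (D + 1)).permCongrHom (topHom (Pos D) p) = iotaF D ((posE D).permCongrHom p) := by
  ext1 x
  obtain ⟨b, y, rfl⟩ : ∃ (b : Bool) (y : BS D), x = Fin.cons b y :=
    ⟨x 0, Fin.tail x, (Fin.cons_self_tail x).symm⟩
  rw [iotaF_cons]
  obtain ⟨z, rfl⟩ := (posE D).surjective y
  cases b
  · change posE (D + 1) (topHom (Pos D) p ((posE (D + 1)).symm (posE (D + 1) (pinl z)))) = _
    rw [Equiv.symm_apply_apply]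
    change posE (D + 1) (Sum.inl (p z)) = Fin.cons false (posE D (p ((posE D).symm (posE D z))))
    rw [Equiv.symm_apply_apply]
    rfl
  · change posE (D + 1) (topHom (Pos D) p ((posE (D + 1)).symm (posE (D + 1) (pinr z)))) = _
    rw [Equiv.symm_apply_apply]
    rfl

lemma posE_bot {D : ℕ} (p : Perm (Pos D)) :
    (posE (D + 1)).permCongrHom (botHom (Pos D) p) = iotaT D ((posE D).permCongrHom p) := by
  ext1 x
  obtain ⟨b, y, rfl⟩ : ∃ (b : Bool) (y : BS D), x = Fin.cons b y :=
    ⟨x 0, Fin.tail x, (Fin.cons_self_tail x).symm⟩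
  rw [iotaT_cons]
  obtain ⟨z, rfl⟩ := (posE D).surjective y
  cases b
  · change posE (D + 1) (botHom (Pos D) p ((posE (D + 1)).symm (posE (D + 1) (pinl z)))) = _
    rw [Equiv.symm_apply_apply]
    rfl
  · change posE (D + 1) (botHom (Pos D) p ((posE (D + 1)).symm (posE (D + 1) (pinr z)))) = _
    rw [Equiv.symm_apply_apply]
    change posE (D + 1) (Sum.inr (p z)) = Fin.cons true (posE D (p ((posE D).symm (posE D z))))
    rw [Equiv.symm_apply_apply]
    rfl

lemma posE_col {D : ℕ} (s : BS D → Bool) (c : BS (D + 1) → Bool)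
    (h : ∀ y, c (Fin.cons false y) = s y) :
    (posE (D + 1)).permCongrHom (colFlip (s ∘ posE D)) = bflip 0 c := by
  ext1 x
  obtain ⟨b, y, rfl⟩ : ∃ (b : Bool) (y : BS D), x = Fin.cons b y :=
    ⟨x 0, Fin.tail x, (Fin.cons_self_tail x).symm⟩
  obtain ⟨z, rfl⟩ := (posE D).surjective y
  rw [bflip_apply]
  cases b
  · change posE (D + 1) (colFlip (s ∘ posE D) ((posE (D + 1)).symm (posE (D + 1) (pinl z)))) = _
    rw [Equiv.symm_apply_apply]
    simp only [Fin.cons_zero, Fin.update_cons_zero, h]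
    change posE (D + 1) (if s (posE D z) then Sum.inr z else Sum.inl z) = _
    cases s (posE D z) <;> rfl
  · change posE (D + 1) (colFlip (s ∘ posE D) ((posE (D + 1)).symm (posE (D + 1) (pinr z)))) = _
    rw [Equiv.symm_apply_apply]
    simp only [Fin.cons_zero, Fin.update_cons_zero, h]
    change posE (D + 1) (if s (posE D z) then Sum.inl z else Sum.inr z) = _
    cases s (posE D z) <;> rfl

lemma avg_bflip_zero {D : ℕ} {V : Type*} [NormedAddCommGroup V] [InnerProductSpace ℝ V]
    (ρ : Perm (BS (D + 1)) →* (V →L[ℝ] V)) :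
    avg (ρ.comp ((posE (D + 1)).permCongrHom.toMonoidHom)) (fun s : Pos D → Bool => colFlip s) =
      avg ρ (bflip (0 : Fin (D + 1))) := by
  let F : (Pos D → Bool) → Perm (BS (D + 1)) := fun s => (posE (D + 1)).permCongrHom (colFlip s)
  have h1 : avg (ρ.comp ((posE (D + 1)).permCongrHom.toMonoidHom))
      (fun s : Pos D → Bool => colFlip s) = avg ρ F := rfl
  have h2 := avg_equiv ρ ((posE D).arrowCongr (Equiv.refl Bool)).symm F
  have h3 := avg_fst ρ (κ' := BS D → Bool) (F ∘ ((posE D).arrowCongr (Equiv.refl Bool)).symm)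
  have h4 := avg_equiv ρ (coinE D) (fun p : (BS D → Bool) × (BS D → Bool) =>
    (F ∘ ((posE D).arrowCongr (Equiv.refl Bool)).symm) p.1)
  rw [h1, ← h2, ← h3, ← h4]
  congr 1
  funext c
  exact posE_col (fun y => c (Fin.cons false y)) c (fun y => rfl)

lemma avg_doubled2 {X : Type} [Fintype X] [DecidableEq X] {κ : Type} [Fintype κ]
    (f : κ → Perm X) {V : Type*} [NormedAddCommGroup V] [InnerProductSpace ℝ V]
    (ρ : Perm (X ⊕ X) →* (V →L[ℝ] V)) :
    avg ρ (doubled f) = avg (ρ.comp (topHom X)) f *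
      (avg (ρ.comp (botHom X)) f * avg ρ (fun s : X → Bool => colFlip s)) := by
  rw [avg_comp, avg_comp, avg_mul, avg_mul]
  congr 1

lemma pass_eq_prodE (D : ℕ) : ∀ {V : Type} [NormedAddCommGroup V] [InnerProductSpace ℝ V]
    (ρ : Perm (BS D) →* (V →L[ℝ] V)),
    avg (ρ.comp ((posE D).permCongrHom.toMonoidHom)) (pass D) = prodE ρ D := by
  induction D with
  | zero =>
    intro V _ _ ρ
    rw [avg_comp]
    simp only [prodE]
    unfold avg
    have h : ∀ c : Coins 0, (posE 0).permCongrHom.toMonoidHom (pass 0 c) = 1 := by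
      intro c
      exact map_one _
    simp only [h, map_one]
    have h0 : Fintype.card (Coins 0) = 1 := rfl
    simp [h0]
  | succ D ih =>
    intro V _ _ ρ
    have h1 : avg (ρ.comp ((posE (D + 1)).permCongrHom.toMonoidHom)) (pass (D + 1)) =
        avg ((ρ.comp ((posE (D + 1)).permCongrHom.toMonoidHom)).comp (topHom (Pos D))) (pass D) *
        (avg ((ρ.comp ((posE (D + 1)).permCongrHom.toMonoidHom)).comp (botHom (Pos D))) (pass D) *
        avg (ρ.comp ((posE (D + 1)).permCongrHom.toMonoidHom))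
          (fun s : Pos D → Bool => colFlip s)) :=
      avg_doubled2 (pass D) (ρ.comp ((posE (D + 1)).permCongrHom.toMonoidHom))
    rw [h1, avg_bflip_zero]
    have h2 : (ρ.comp ((posE (D + 1)).permCongrHom.toMonoidHom)).comp (topHom (Pos D)) =
        (ρ.comp (iotaF D)).comp ((posE D).permCongrHom.toMonoidHom) := by
      ext1 p
      exact congrArg ρ (posE_top p)
    have h3 : (ρ.comp ((posE (D + 1)).permCongrHom.toMonoidHom)).comp (botHom (Pos D)) =
        (ρ.comp (iotaT D)).comp ((posE D).permCongrHom.toMonoidHom) := by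
      ext1 p
      exact congrArg ρ (posE_bot p)
    rw [h2, h3, ih, ih, prodE_succ ρ D le_rfl]
    rw [Eop, dif_pos (by omega)]
    rfl

/-! ### the numbers of the positions -/

/-- value of a bit string, most significant bit first -/
def val : (D : ℕ) → BS D → ℕ
  | 0, _ => 0
  | D + 1, x => (x 0).toNat * 2 ^ D + val D (Fin.tail x)

lemma val_cons {D : ℕ} (b : Bool) (y : BS D) :
    val (D + 1) (Fin.cons b y) = b.toNat * 2 ^ D + val D y := by
  simp [val]

lemma val_snoc {D : ℕ} (y : BS D) (b : Bool) :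
    val (D + 1) (Fin.snoc (α := fun _ => Bool) y b) = 2 * val D y + b.toNat := by
  induction D with
  | zero =>
    simp [val, Fin.snoc]
  | succ D ih =>
    have h : y = Fin.cons (y 0) (Fin.tail y) := (Fin.cons_self_tail y).symm
    rw [h, ← Fin.cons_snoc_eq_snoc_cons, val_cons, val_cons, ih]
    ring

lemma val_lt {D : ℕ} (x : BS D) : val D x < 2 ^ D := by
  induction D with
  | zero => simp [val]
  | succ D ih =>
    have h := ih (Fin.tail x)
    simp only [val, pow_succ]
    cases x 0 <;> simp <;> omega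

lemma val_inj {D : ℕ} : Function.Injective (val D) := by
  induction D with
  | zero => intro x y _; exact Subsingleton.elim _ _
  | succ D ih =>
    intro x y h
    have h1 := val_lt (Fin.tail x)
    have h2 := val_lt (Fin.tail y)
    simp only [val] at h
    have h3 : x 0 = y 0 ∧ val D (Fin.tail x) = val D (Fin.tail y) := by
      cases hx : x 0 <;> cases hy : y 0 <;> simp [hx, hy] at h ⊢ <;> omega
    rw [← Fin.cons_self_tail x, ← Fin.cons_self_tail y, h3.1, ih h3.2]

/-- bit strings as numbers -/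
noncomputable def bits (d : ℕ) : BS d ≃ Fin (2 ^ d) :=
  Equiv.ofBijective (fun x => ⟨val d x, val_lt x⟩)
    ((Fintype.bijective_iff_injective_and_card _).2
      ⟨fun x y h => val_inj (Fin.ext_iff.1 h), by simp⟩)

noncomputable def bits2 (d : ℕ) : BS (d + 1) ≃ Fin (2 * 2 ^ d) :=
  Equiv.ofBijective (fun x => ⟨val (d + 1) x, lt_of_lt_of_eq (val_lt x) (by ring)⟩)
    ((Fintype.bijective_iff_injective_and_card _).2
      ⟨fun x y h => val_inj (Fin.ext_iff.1 h), by simp; ring⟩)

lemma bits_val {d : ℕ} (x : BS d) : ((bits d x : Fin (2 ^ d)) : ℕ) = val d x := rfl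
lemma bits2_val {d : ℕ} (x : BS (d + 1)) : ((bits2 d x : Fin (2 * 2 ^ d)) : ℕ) = val (d + 1) x :=
  rfl

lemma pbit_cons {D : ℕ} (b : Bool) (y : BS D) :
    pbit (finRotate (D + 1)) (Fin.cons b y) = Fin.snoc (α := fun _ => Bool) y b := by
  rw [pbit_apply]
  funext i
  refine Fin.lastCases ?_ (fun j => ?_) i
  · simp
  · simp

/-- one Thorp shuffle in bits -/
lemma thorp_bits {d : ℕ} (c : Fin (2 ^ d) → Bool) (c' : BS (d + 1) → Bool)
    (h : ∀ y, c' (Fin.cons false y) = c (bits d y)) :
    (bits2 d).permCongrHom (pbit (finRotate (d + 1)) * bflip 0 c') = thorpPerm (2 ^ d) c := by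
  ext1 x
  obtain ⟨z, rfl⟩ := (bits2 d).surjective x
  change bits2 d ((pbit (finRotate (d + 1)) * bflip 0 c') ((bits2 d).symm (bits2 d z))) =
    thorpFun (2 ^ d) c (bits2 d z)
  rw [Equiv.symm_apply_apply, Perm.mul_apply]
  obtain ⟨b, y, rfl⟩ : ∃ (b : Bool) (y : BS d), z = Fin.cons b y :=
    ⟨z 0, Fin.tail z, (Fin.cons_self_tail z).symm⟩
  rw [bflip_apply]
  simp only [Fin.cons_zero, Fin.update_cons_zero, h]
  rw [pbit_cons]
  apply Fin.ext
  rw [bits2_val, val_snoc]
  have hy := val_lt y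
  have hv : ((bits2 d (Fin.cons b y) : Fin (2 * 2 ^ d)) : ℕ) = b.toNat * 2 ^ d + val d y := by
    rw [bits2_val, val_cons]
  unfold thorpFun
  cases b
  · simp only [Bool.toNat_false, zero_mul, zero_add] at hv
    rw [dif_pos (by rw [hv]; exact hy)]
    have e : (⟨((bits2 d (Fin.cons false y) : Fin (2 * 2 ^ d)) : ℕ), by rw [hv]; exact hy⟩ :
        Fin (2 ^ d)) = bits d y := Fin.ext hv
    have e2 := congrArg c e
    change _ = 2 * ((bits2 d (Fin.cons false y) : Fin (2 * 2 ^ d)) : ℕ) +
      (if c ⟨((bits2 d (Fin.cons false y) : Fin (2 * 2 ^ d)) : ℕ), by rw [hv]; exact hy⟩ = true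
        then 1 else 0)
    rw [e2, hv]
    cases c (bits d y) <;> simp
  · simp only [Bool.toNat_true, one_mul] at hv
    rw [dif_neg (by rw [hv]; omega)]
    have e : (⟨((bits2 d (Fin.cons true y) : Fin (2 * 2 ^ d)) : ℕ) - 2 ^ d,
        by rw [hv]; omega⟩ : Fin (2 ^ d)) = bits d y := Fin.ext (by simp [hv, bits_val])
    have e2 := congrArg c e
    change _ = 2 * (((bits2 d (Fin.cons true y) : Fin (2 * 2 ^ d)) : ℕ) - 2 ^ d) +
      (if c ⟨((bits2 d (Fin.cons true y) : Fin (2 * 2 ^ d)) : ℕ) - 2 ^ d, by rw [hv]; omega⟩ = true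
        then 0 else 1)
    rw [e2, hv]
    cases c (bits d y) <;> simp

lemma avg_thorp {d : ℕ} {V : Type*} [NormedAddCommGroup V] [InnerProductSpace ℝ V]
    (ρ : Perm (Fin (2 * 2 ^ d)) →* (V →L[ℝ] V)) :
    avg ρ (thorpPerm (2 ^ d)) =
      (ρ.comp ((bits2 d).permCongrHom.toMonoidHom)) (pbit (finRotate (d + 1))) *
        avg (ρ.comp ((bits2 d).permCongrHom.toMonoidHom)) (bflip (0 : Fin (d + 1))) := by
  rw [← avg_left_mul, avg_comp]
  have h2 := avg_equiv ρ ((bits d).arrowCongr (Equiv.refl Bool)) (thorpPerm (2 ^ d))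
  have h3 := avg_fst ρ (κ' := BS d → Bool)
    (thorpPerm (2 ^ d) ∘ ((bits d).arrowCongr (Equiv.refl Bool)))
  have h4 := avg_equiv ρ (coinE d) (fun p : (BS d → Bool) × (BS d → Bool) =>
    (thorpPerm (2 ^ d) ∘ ((bits d).arrowCongr (Equiv.refl Bool))) p.1)
  rw [← h2, ← h3, ← h4]
  congr 1
  funext c
  refine (thorp_bits _ c ?_).symm
  intro y
  change _ = c (Fin.cons false ((bits d).symm (bits d y)))
  rw [Equiv.symm_apply_apply]

theorem thorp_pass (d : ℕ) : ∃ e : Pos (d + 1) ≃ Fin (2 * 2 ^ d),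
    ∀ (V : Type) [NormedAddCommGroup V] [InnerProductSpace ℝ V]
      (ρ : Perm (Fin (2 * 2 ^ d)) →* (V →L[ℝ] V)),
      (avg ρ (thorpPerm (2 ^ d))) ^ (d + 1) =
        avg (ρ.comp (e.permCongrHom.toMonoidHom)) (pass (d + 1)) := by
  refine ⟨(posE (d + 1)).trans (bits2 d), ?_⟩
  intro V _ _ ρ
  rw [avg_thorp, thorp_pow _ _ le_rfl]
  have h0 : ∀ k : ℕ, ∀ i : Fin (d + 1),
      ((((finRotate (d + 1)) ^ k) i : Fin (d + 1)) : ℕ) = ((i : ℕ) + k) % (d + 1) := by
    intro k i
    induction k with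
    | zero =>
      simp [Nat.mod_eq_of_lt i.2]
    | succ k ih =>
      rw [pow_succ', Perm.mul_apply, finRotate_apply, Fin.val_add, ih, Fin.val_one',
        ← Nat.add_mod, add_assoc]
  have h1 : (pbit (finRotate (d + 1))) ^ (d + 1) = 1 := by
    rw [pbit_pow]
    ext1 x
    rw [pbit_apply]
    funext i
    simp only [Function.comp]
    congr 1
    apply Fin.ext
    rw [h0]
    simp [Nat.mod_eq_of_lt i.2]
  rw [h1, map_one, one_mul, ← pass_eq_prodE]
  rfl

end Vale.Agent.P162
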