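import Mathlib

open Equiv Finset
open scoped RealInnerProductSpace BigOperators

namespace Vale.Agent.P162

section framework

variable {G : Type*} [Group G] {V : Type*} [NormedAddCommGroup V] [InnerProductSpace ℝ V]

/-- the representation acts by isometries -/
def Isom (ρ : G →* (V →L[ℝ] V)) : Prop := ∀ g v, ‖ρ g v‖ = ‖v‖

/-- average of the operators `ρ (f c)` over a finite coin space `κ` -/
noncomputable def avg (ρ : G →* (V →L[ℝ] V)) {κ : Type*} [Fintype κ] (f : κ → G) : V →L[ℝ] V :=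
  (Fintype.card κ : ℝ)⁻¹ • ∑ c, ρ (f c)

lemma Isom.comp {H : Type*} [Group H] {ρ : G →* (V →L[ℝ] V)} (hρ : Isom ρ) (φ : H →* G) :
    Isom (ρ.comp φ) := fun g v => hρ (φ g) v

lemma map_inv_apply (ρ : G →* (V →L[ℝ] V)) (g : G) (v : V) : ρ g⁻¹ (ρ g v) = v := by
  have : (ρ g⁻¹ * ρ g) v = v := by
    rw [← map_mul, inv_mul_cancel, map_one]; rfl
  exact this

lemma map_mul_apply (ρ : G →* (V →L[ℝ] V)) (g h : G) (v : V) : ρ (g * h) v = ρ g (ρ h v) := by
  rw [map_mul]; rfl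

lemma Isom.inner_map {ρ : G →* (V →L[ℝ] V)} (hρ : Isom ρ) (g : G) (v w : V) :
    ⟪ρ g v, ρ g w⟫ = ⟪v, w⟫ := by
  have h1 := hρ g (v + w)
  have h2 := hρ g v
  have h3 := hρ g w
  rw [map_add] at h1
  have e1 := norm_add_sq_real (ρ g v) (ρ g w)
  have e2 := norm_add_sq_real v w
  rw [h1, h2, h3] at e1
  linarith

lemma Isom.inner_left {ρ : G →* (V →L[ℝ] V)} (hρ : Isom ρ) (g : G) (v w : V) :
    ⟪ρ g v, w⟫ = ⟪v, ρ g⁻¹ w⟫ := by
  have h := hρ.inner_map g⁻¹ (ρ g v) w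
  rw [map_inv_apply] at h
  exact h.symm

lemma avg_apply (ρ : G →* (V →L[ℝ] V)) {κ : Type*} [Fintype κ] (f : κ → G) (v : V) :
    avg ρ f v = (Fintype.card κ : ℝ)⁻¹ • ∑ c, ρ (f c) v := by
  simp [avg, ContinuousLinearMap.sum_apply]

lemma avg_mul (ρ : G →* (V →L[ℝ] V)) {κ κ' : Type*} [Fintype κ] [Fintype κ'] (f : κ → G)
    (g : κ' → G) : avg ρ f * avg ρ g = avg ρ (fun p : κ × κ' => f p.1 * g p.2) := by
  simp only [avg, smul_mul_smul_comm, Finset.sum_mul_sum, Fintype.card_prod, Nat.cast_mul,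
    mul_inv, Fintype.sum_prod_type, map_mul]

lemma avg_equiv (ρ : G →* (V →L[ℝ] V)) {κ κ' : Type*} [Fintype κ] [Fintype κ'] (e : κ ≃ κ')
    (f : κ' → G) : avg ρ (f ∘ e) = avg ρ f := by
  simp only [avg, Function.comp]
  rw [Fintype.card_congr e, Equiv.sum_comp e (fun c => ρ (f c))]

lemma avg_comp {H : Type*} [Group H] (ρ : G →* (V →L[ℝ] V)) (φ : H →* G) {κ : Type*} [Fintype κ]
    (f : κ → H) : avg (ρ.comp φ) f = avg ρ (fun c => φ (f c)) := rfl

lemma avg_norm_le {ρ : G →* (V →L[ℝ] V)} (hρ : Isom ρ) {κ : Type*} [Fintype κ] [Nonempty κ]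
    (f : κ → G) (v : V) : ‖avg ρ f v‖ ≤ ‖v‖ := by
  rw [avg_apply, norm_smul, norm_inv, Real.norm_natCast]
  have h : ‖∑ c, ρ (f c) v‖ ≤ Fintype.card κ * ‖v‖ := by
    refine (norm_sum_le _ _).trans ?_
    simp [hρ _ v]
  have hc : (0:ℝ) < Fintype.card κ := by exact_mod_cast Fintype.card_pos
  rw [inv_mul_le_iff₀ hc]
  exact h

variable {X : Type*} [Fintype X] [DecidableEq X]

/-- the (unnormalised) random transposition Laplacian `∑_{i<j} (1 - (i j))`
of a representation of the symmetric group of `X` -/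
noncomputable def lap (ρ : Perm X →* (V →L[ℝ] V)) : V →L[ℝ] V :=
  (1 / 2 : ℝ) • ∑ i, ∑ j, (1 - ρ (swap i j))

lemma lap_apply (ρ : Perm X →* (V →L[ℝ] V)) (v : V) :
    lap ρ v = (1 / 2 : ℝ) • ∑ i, ∑ j, (v - ρ (swap i j) v) := by
  simp [lap, ContinuousLinearMap.sum_apply]

/-- `lap` is central -/
lemma lap_comm (ρ : Perm X →* (V →L[ℝ] V)) (g : Perm X) : lap ρ * ρ g = ρ g * lap ρ := by
  have key : ρ g * (∑ i, ∑ j, (1 - ρ (swap i j))) = (∑ i, ∑ j, (1 - ρ (swap i j))) * ρ g := by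
    rw [Finset.mul_sum, Finset.sum_mul]
    simp only [Finset.mul_sum, Finset.sum_mul]
    rw [← Equiv.sum_comp g (fun i => ∑ j, (1 - ρ (swap i j)) * ρ g)]
    refine Finset.sum_congr rfl fun i _ => ?_
    rw [← Equiv.sum_comp g (fun j => (1 - ρ (swap (g i) j)) * ρ g)]
    refine Finset.sum_congr rfl fun j _ => ?_
    rw [mul_sub, sub_mul, mul_one, one_mul, ← map_mul, ← map_mul]
    congr 2
    rw [Equiv.mul_swap_eq_swap_mul]
  unfold lap
  rw [mul_smul_comm, smul_mul_assoc, key]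

lemma lap_comm_avg (ρ : Perm X →* (V →L[ℝ] V)) {κ : Type*} [Fintype κ] (f : κ → Perm X) :
    Commute (lap ρ) (avg ρ f) := by
  unfold avg
  apply Commute.smul_right
  apply Commute.sum_right
  intro c _
  exact lap_comm ρ (f c)

lemma lap_symm {ρ : Perm X →* (V →L[ℝ] V)} (hρ : Isom ρ) (v w : V) :
    ⟪lap ρ v, w⟫ = ⟪v, lap ρ w⟫ := by
  rw [lap_apply, lap_apply, inner_smul_left, inner_smul_right]
  simp only [sum_inner, inner_sum, inner_sub_left, inner_sub_right]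
  congr 1
  refine Finset.sum_congr rfl fun i _ => Finset.sum_congr rfl fun j _ => ?_
  rw [hρ.inner_left, swap_inv]

lemma inner_lap {ρ : Perm X →* (V →L[ℝ] V)} (v : V) :
    ⟪v, lap ρ v⟫ = (1 / 2 : ℝ) * ∑ i, ∑ j, (‖v‖ ^ 2 - ⟪v, ρ (swap i j) v⟫) := by
  rw [lap_apply, inner_smul_right]
  simp only [inner_sum, inner_sub_right, real_inner_self_eq_norm_sq]

lemma inner_lap_nonneg {ρ : Perm X →* (V →L[ℝ] V)} (hρ : Isom ρ) (v : V) :
    0 ≤ ⟪v, lap ρ v⟫ := by
  rw [inner_lap]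
  apply mul_nonneg (by norm_num)
  refine Finset.sum_nonneg fun i _ => Finset.sum_nonneg fun j _ => ?_
  have h1 := real_inner_le_norm v (ρ (swap i j) v)
  rw [hρ] at h1
  nlinarith

lemma inner_lap_le {ρ : Perm X →* (V →L[ℝ] V)} (hρ : Isom ρ) (v : V) :
    ⟪v, lap ρ v⟫ ≤ (Fintype.card X : ℝ) ^ 2 * ‖v‖ ^ 2 := by
  rw [inner_lap]
  have h : ∀ i j : X, ‖v‖ ^ 2 - ⟪v, ρ (swap i j) v⟫ ≤ 2 * ‖v‖ ^ 2 := by
    intro i j
    have h1 := abs_real_inner_le_norm v (ρ (swap i j) v)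
    rw [hρ] at h1
    have := (abs_le.1 h1).1
    nlinarith
  calc (1 / 2 : ℝ) * ∑ i, ∑ j, (‖v‖ ^ 2 - ⟪v, ρ (swap i j) v⟫)
      ≤ (1 / 2 : ℝ) * ∑ _i : X, ∑ _j : X, 2 * ‖v‖ ^ 2 := by
        gcongr with i _ j _
        exact h i j
    _ = (Fintype.card X : ℝ) ^ 2 * ‖v‖ ^ 2 := by
        simp only [Finset.sum_const, Finset.card_univ, nsmul_eq_mul]
        ring

end framework

/-- `Good f β`: in every isometric representation of the symmetric group of `X`, the averaging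
operator `R` of the family `f` satisfies `R* R ≤ exp (-(β/|X|) lap)`. -/
def Good {X : Type} [Fintype X] [DecidableEq X] {κ : Type} [Fintype κ] (f : κ → Perm X)
    (β : ℝ) : Prop :=
  ∀ (V : Type) [NormedAddCommGroup V] [InnerProductSpace ℝ V] [CompleteSpace V]
    (ρ : Perm X →* (V →L[ℝ] V)), Isom ρ → ∀ v : V,
    ‖avg ρ f v‖ ^ 2 ≤ ⟪v, NormedSpace.exp (-(β / Fintype.card X) • lap ρ) v⟫

/-- flip the columns in `s` : exchange `inl x` and `inr x` whenever `s x = true` -/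
def colFlipFun {X : Type*} (s : X → Bool) : X ⊕ X → X ⊕ X
  | Sum.inl x => if s x then Sum.inr x else Sum.inl x
  | Sum.inr x => if s x then Sum.inl x else Sum.inr x

lemma colFlipFun_invol {X : Type*} (s : X → Bool) : Function.Involutive (colFlipFun s) := by
  rintro (x | x) <;> by_cases h : s x <;> simp [colFlipFun, h]

/-- column flips as permutations of `X ⊕ X` -/
def colFlip {X : Type*} (s : X → Bool) : Perm (X ⊕ X) := (colFlipFun_invol s).toPerm _

/-- the embedding of `Perm X` in `Perm (X ⊕ X)` acting on the top half -/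
def topHom (X : Type*) : Perm X →* Perm (X ⊕ X) :=
  (Equiv.Perm.sumCongrHom X X).comp (MonoidHom.inl _ _)

/-- the embedding of `Perm X` in `Perm (X ⊕ X)` acting on the bottom half -/
def botHom (X : Type*) : Perm X →* Perm (X ⊕ X) :=
  (Equiv.Perm.sumCongrHom X X).comp (MonoidHom.inr _ _)

/-- one more direction: flip random columns first, then act independently in both halves -/
def doubled {X κ : Type*} (f : κ → Perm X) (c : κ × κ × (X → Bool)) : Perm (X ⊕ X) :=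
  topHom X (f c.1) * botHom X (f c.2.1) * colFlip c.2.2

end Vale.Agent.P162
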