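import Vale.Agent.P162.Rep
import Vale.Agent.P162.Defs

open Equiv Finset
open scoped RealInnerProductSpace BigOperators

namespace Vale.Agent.P162

/-- the (unnormalised) symmetrizer over the permutations fixing every point outside `B` -/
noncomputable def symz {X : Type*} [Fintype X] [DecidableEq X] {V : Type*} [NormedAddCommGroup V]
    [InnerProductSpace ℝ V] (ρ : Perm X →* (V →L[ℝ] V)) (B : Finset X) : V →L[ℝ] V :=
  ∑ g ∈ (univ : Finset (Perm X)).filter (fun g => ∀ x, x ∉ B → g x = x), ρ g

/-- left regular representation -/
noncomputable def regRep (X : Type) [Fintype X] [DecidableEq X] :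
    Perm X →* (EuclideanSpace ℝ (Perm X) →L[ℝ] EuclideanSpace ℝ (Perm X)) where
  toFun g := ((LinearIsometryEquiv.piLpCongrLeft 2 ℝ ℝ (Equiv.mulLeft g)).toLinearIsometry).toContinuousLinearMap
  map_one' := by
    ext v x
    simp
    rfl
  map_mul' a b := by
    ext v x
    simp
    rfl

/-- positions: a binary tree of depth `d` (most significant bit first) -/
def Pos : ℕ → Type
  | 0 => Unit
  | d + 1 => Pos d ⊕ Pos d

instance instFintypePos : (d : ℕ) → Fintype (Pos d)
  | 0 => inferInstanceAs (Fintype Unit)
  | d + 1 => by
      haveI := instFintypePos d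
      exact inferInstanceAs (Fintype (Pos d ⊕ Pos d))

instance instDecEqPos : (d : ℕ) → DecidableEq (Pos d)
  | 0 => inferInstanceAs (DecidableEq Unit)
  | d + 1 => by
      haveI := instDecEqPos d
      exact inferInstanceAs (DecidableEq (Pos d ⊕ Pos d))

/-- coins of one pass -/
def Coins : ℕ → Type
  | 0 => Unit
  | d + 1 => Coins d × Coins d × (Pos d → Bool)

instance instFintypeCoins : (d : ℕ) → Fintype (Coins d)
  | 0 => inferInstanceAs (Fintype Unit)
  | d + 1 => by
      haveI := instFintypeCoins d
      exact inferInstanceAs (Fintype (Coins d × Coins d × (Pos d → Bool)))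

/-- the permutation of one pass (`d` shuffles) -/
def pass : (d : ℕ) → Coins d → Perm (Pos d)
  | 0 => fun _ => 1
  | d + 1 => fun c => doubled (pass d) c

end Vale.Agent.P162
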