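import Mathlib

/-!
# The Thorp shuffle: definitions used in the final statement
-/

open scoped BigOperators

namespace Vale.Agent.P162

/-- `π` is the permutation of positions performed by one Thorp shuffle of a deck of `2 * m` cards
with coins `c`.  Positions are numbered from `0`.  The cards in positions `i` and `m + i`
(`i < m`) go to the positions `2 * i` and `2 * i + 1`: the card from the top half goes to
`2 * i + 1` if the coin `c i` is `true`, and to `2 * i` otherwise. -/
def IsThorp (m : ℕ) (c : Fin m → Bool) (π : Equiv.Perm (Fin (2 * m))) : Prop :=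
  ∀ i : Fin m,
    ((π ⟨i, by omega⟩ : Fin (2 * m)) : ℕ) = 2 * i + (if c i then 1 else 0) ∧
    ((π ⟨m + i, by omega⟩ : Fin (2 * m)) : ℕ) = 2 * i + (if c i then 0 else 1)

open Classical in
/-- The law `q_n`, `n = 2 * m`, of the permutation performed by one Thorp shuffle: all `2 ^ m`
coin vectors are equally likely. -/
noncomputable def thorpLaw (m : ℕ) (π : Equiv.Perm (Fin (2 * m))) : ℝ :=
  ((Finset.univ.filter (fun c : Fin m → Bool => IsThorp m c π)).card : ℝ) / 2 ^ m

/-- The law of the permutation performed by `t` independent Thorp shuffles. -/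
noncomputable def thorpPow (m : ℕ) : ℕ → Equiv.Perm (Fin (2 * m)) → ℝ
  | 0 => fun π => if π = 1 then 1 else 0
  | t + 1 => fun π => ∑ σ : Equiv.Perm (Fin (2 * m)), thorpLaw m σ * thorpPow m t (σ⁻¹ * π)

/-- Total variation distance of the law of `t` Thorp shuffles from the uniform law. -/
noncomputable def thorpDist (m t : ℕ) : ℝ :=
  (1 / 2) * ∑ π : Equiv.Perm (Fin (2 * m)), |thorpPow m t π - 1 / (Nat.factorial (2 * m) : ℝ)|

/-- The mixing time of the Thorp shuffle of `2 * m` cards. -/
noncomputable def tmix (m : ℕ) : ℕ := sInf {t : ℕ | thorpDist m t ≤ 1 / 4}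

end Vale.Agent.P162
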