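import Vale.Agent.P162.Defs
import Vale.Agent.P162.Thorp

/-! Skeleton of P162 (Thorp shuffle mixes in O(log² n), n = 2^d): exact statements of the modules.
Do NOT import this file; put your module in its own file `Vale/Agent/P162/<Name>.lean`
(import `Vale.Agent.P162.Defs`), statement verbatim, auxiliary lemmas in a sub-namespace.
Paper proof: board topic PROOF, search P162. -/

open scoped BigOperators Matrix

namespace Vale.Agent.P162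

/-! ### (A) Signs.lean -/
section A
variable {Y : Type} [Fintype Y] [DecidableEq Y]

/-- expand: a sum of monomials in the signs, each with expectation 0 or 1. -/
theorem kap_nonneg (m : ℕ) (e e' : Y × Y) : 0 ≤ kap m e e' := sorry

/-- `∑_{e'} s_{e'} = S²`; by symmetry under permutations of `Y` and `∑_{y≠y'} s_y s_{y'} = S² - n`,
`∑_{e'} κ_m(e,e') = E[(S²-n) S² (2S²/n)^m] / (n(n-1))` for `e` off the diagonal; then
`1/(m+2)! ≤ 1/(2 m!)`, `(S²-n)S² ≤ S⁴`, `u² ≤ 128 exp(u/8)`,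
`E exp(S²/(4n)) ≤ √2` (induction: `E exp(a(S+c)²) ≤ (1-2an)^(-1/2) exp(ac²/(1-2an))`). -/
theorem kap_sum {t : ℝ} (ht0 : 0 ≤ t) (ht : t ≤ 1 / 16) (e : Y × Y) (he : e.1 ≠ e.2) (M : ℕ) :
    ∑ m ∈ Finset.range M, t ^ (m + 2) / (Nat.factorial (m + 2) : ℝ) * ∑ e' : Y × Y, kap m e e'
      ≤ 200 * t ^ 2 := sorry

end A

section
variable {X Y : Type} [Fintype X] [DecidableEq X] [Fintype Y] [DecidableEq Y]
  {Ω : Type} [Fintype Ω] [DecidableEq Ω]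

/-! ### (B) Words.lean -/
/-- `-V = (1/2n) ∑_e S_e`; conjugation by `ρ (flip s)` (which fixes `f`) turns `S_e` into `s_e S_e`;
average over `s`, expand `(-V_s)^m = (1/2n)^m ∑ words`, `‖S_e v‖ ≤ 4 ‖v‖`. -/
theorem words {ρ : Equiv.Perm (Bool × Y) →* Matrix Ω Ω ℝ} (hρ : IsOrth ρ) (f : Ω → ℝ)
    (hf : ∀ s : Y → Bool, ρ (flip s) *ᵥ f = f) (m : ℕ) (e e' : Y × Y) :
    |(Sop ρ e *ᵥ f) ⬝ᵥ ((-Vop ρ) ^ m *ᵥ (Sop ρ e' *ᵥ f))| ≤
      kap m e e' * (Real.sqrt ((Sop ρ e *ᵥ f) ⬝ᵥ (Sop ρ e *ᵥ f)) *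
        Real.sqrt ((Sop ρ e' *ᵥ f) ⬝ᵥ (Sop ρ e' *ᵥ f))) := sorry

/-! ### (C) Core.lean (uses A, B) -/
/-- `⟨f,(-V)^k f⟩ = (1/4n²) ∑_{e,e'} ⟨S_e f, (-V)^(k-2) S_e' f⟩` for `k ≥ 2`, `⟨f,V f⟩ = 0`;
Schur test with (A),(B); `∑_e ‖S_e f‖² ≤ 8 ∑_{p,q} ⟨f,(1-ρ(p q)) f⟩ = 16 n ⟨f, L f⟩`. -/
theorem core {ρ : Equiv.Perm (Bool × Y) →* Matrix Ω Ω ℝ} (hρ : IsOrth ρ) (f : Ω → ℝ)
    (hf : ∀ s : Y → Bool, ρ (flip s) *ᵥ f = f) {t : ℝ} (ht0 : 0 ≤ t) (ht : t ≤ 1 / 16) :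
    f ⬝ᵥ (NormedSpace.exp (-t • Vop ρ) *ᵥ f) ≤
      f ⬝ᵥ f + 1000 * t ^ 2 / Fintype.card Y * (f ⬝ᵥ (Lap ρ *ᵥ f)) := sorry

/-! ### (D) Step.lean (uses C) -/
/-- `‖a₀ a₁ P f‖² ≤ ⟨Pf, exp(-t(L₀+L₁)) Pf⟩`, `L₀ + L₁ = L + V`, `L` commutes with everything,
`core` for `exp(-tL/2) P f`, `1 + cL ≤ exp(cL)`. -/
theorem dom_step [Nonempty Y] (a : MonoidAlgebra ℝ (Equiv.Perm Y)) {t : ℝ} (ht0 : 0 ≤ t)
    (ht : t ≤ 1 / 16) (h : Dom a t) :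
    Dom (MonoidAlgebra.mapDomainAlgHom ℝ ℝ (half false) a *
      MonoidAlgebra.mapDomainAlgHom ℝ ℝ (half true) a * top Y)
      (t - 1000 * t ^ 2 / Fintype.card Y) := sorry

theorem dom_congr {X' : Type} [Fintype X'] [DecidableEq X'] (e : X ≃ X')
    (a : MonoidAlgebra ℝ (Equiv.Perm X)) {t : ℝ} (h : Dom a t) :
    Dom (MonoidAlgebra.mapDomainAlgHom ℝ ℝ e.permCongrHom.toMonoidHom a) t := sorry

theorem dom_mono (a : MonoidAlgebra ℝ (Equiv.Perm X)) {t t' : ℝ} (h : Dom a t) (htt : t' ≤ t) :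
    Dom a t' := sorry

/-- `t₀ = 1/4000`, `t_{d+1} = t_d - 1000 t_d²/2^d ≥ 1/8000`. -/
theorem dom_sweep (d : ℕ) : Dom (sweep d) (1 / 8000) := sorry

/-! ### (E) Spec.lean -/
/-- sum over the permutations which fix all points outside `U` -/
noncomputable def SU (ρ : Equiv.Perm X →* Matrix Ω Ω ℝ) (U : Finset X) : Matrix Ω Ω ℝ :=
  ∑ g ∈ Finset.univ.filter (fun g : Equiv.Perm X => ∀ x, x ∉ U → g x = x), ρ g

/-- Strong induction on `|A|` for `T_A = ∑_{x,y∈A} ρ (x y) ≤ |A| k` on any subspace invariant under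
the permutations supported in `A` and killed by `SU U`, `U ⊆ A`, `|U| > k`. -/
theorem lap_ge {ρ : Equiv.Perm X →* Matrix Ω Ω ℝ} (hρ : IsOrth ρ) (k : ℕ)
    (W : Submodule ℝ (Ω → ℝ)) (hW : ∀ g, ∀ w ∈ W, ρ g *ᵥ w ∈ W)
    (hk : ∀ U : Finset X, k < U.card → ∀ w ∈ W, SU ρ U *ᵥ w = 0) (w : Ω → ℝ) (hw : w ∈ W) :
    ((Fintype.card X : ℝ) - k) * (w ⬝ᵥ w) ≤ w ⬝ᵥ (Lap ρ *ᵥ w) := sorry

/-! ### (F) Trace.lean (uses E) -/
/-- left regular representation -/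
def reg (G : Type) [Group G] [Fintype G] [DecidableEq G] : G →* Matrix G G ℝ where
  toFun g := Matrix.of fun h h' => if h = g * h' then 1 else 0
  map_one' := by ext h h'; simp [Matrix.one_apply]
  map_mul' g k := by
    ext h h'
    simp [Matrix.mul_apply, mul_assoc]

/-- `V_k` = span of the indicators `1[∀ j, σ⁻¹ (a j) = b j]`, `a b : Fin k → X`, has dimension
`≤ N^(2k)`; a function orthogonal to it is killed by `SU U`, `|U| ≥ N - k`; so `Lap` has at most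
`N^(2k)` eigenvalues `< k + 1`, and `Tr exp(-sL) ≤ 1 + ∑_{i ≥ 1} N^(2i) e^(-si)`. -/
theorem trace_bound [Nonempty X] {s : ℝ} (hs : (Fintype.card X : ℝ) ^ 2 * Real.exp (-s) ≤ 1 / 5) :
    Matrix.trace (NormedSpace.exp (-s • Lap (reg (Equiv.Perm X)))) ≤ 1 + 1 / 4 := sorry

/-! ### (G) Mix.lean -/
/-- `(a^m)^* a^m ≤ exp(-m c L)` since `L` is central; apply to the delta function at `1`. -/
theorem coll_bound (a : MonoidAlgebra ℝ (Equiv.Perm X)) {c : ℝ} (h : Dom a c) (m : ℕ) :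
    (Fintype.card (Equiv.Perm X) : ℝ) * ∑ g : Equiv.Perm X, ((a ^ m).coeff g) ^ 2 ≤
      Matrix.trace (NormedSpace.exp (-(m * c) • Lap (reg (Equiv.Perm X)))) := sorry

end

/-! ### (H) ThorpId.lean -/
/-- one Thorp shuffle of `2^(d+1)` cards = `R * P`, `P` = random swaps of positions `i`, `n/2 + i`,
`R` = left rotation of the bits (coordinate 0 = most significant bit), `R^(d+1) = 1`. -/
theorem thorp_id (d : ℕ) : ∃ e : (Fin (d + 1) → Bool) ≃ Fin (2 * 2 ^ d),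
    (∑ π : Equiv.Perm (Fin (2 * 2 ^ d)), MonoidAlgebra.single π (thorpLaw (2 ^ d) π)) ^ (d + 1) =
      MonoidAlgebra.mapDomainAlgHom ℝ ℝ e.permCongrHom.toMonoidHom (sweep (d + 1)) := sorry

/-! ### (I) Final.lean (uses all; convolution powers, Cauchy-Schwarz, monotonicity of TV) -/
theorem main : ∃ C : ℝ, 0 < C ∧ ∀ d : ℕ,
    (∀ t : ℕ, C * (Real.log (2 ^ (d + 1))) ^ 2 ≤ t → thorpDist (2 ^ d) t ≤ 1 / 4) ∧
    (tmix (2 ^ d) : ℝ) ≤ C * (Real.log (2 ^ (d + 1))) ^ 2 := sorry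

end Vale.Agent.P162
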