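import Vale.Agent.P162.Expo
import Vale.Agent.P162.Key
import Vale.Agent.P162.Compare

open Equiv Finset
open scoped RealInnerProductSpace BigOperators

set_option linter.unusedSectionVars false

namespace Vale.Agent.P162

section

variable {X : Type*} [Fintype X] [DecidableEq X]
variable {V : Type*} [NormedAddCommGroup V] [InnerProductSpace ℝ V]

/-- number of antisymmetric columns, as an operator -/
noncomputable def Nop (ρ : Perm (X ⊕ X) →* (V →L[ℝ] V)) : V →L[ℝ] V :=
  (1 / 2 : ℝ) • ∑ p : X, (1 - ρ (io p))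

lemma Nop_apply (ρ : Perm (X ⊕ X) →* (V →L[ℝ] V)) (v : V) :
    Nop ρ v = (1 / 2 : ℝ) • ∑ p : X, (v - ρ (io p) v) := by
  simp [Nop]

lemma Nop_sec {ρ : Perm (X ⊕ X) →* (V →L[ℝ] V)} {A : X → Bool} {v : V} (hv : Sec ρ A v) :
    Nop ρ v = nA A • v := by
  rw [Nop_apply]
  have : ∀ p, v - ρ (io p) v = (if A p then (2 : ℝ) else 0) • v := by
    intro p
    rw [hv p]
    cases A p
    · simp
    · simp [two_smul]
  simp_rw [this]
  rw [← Finset.sum_smul, smul_smul]
  congr 1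
  unfold nA
  rw [Finset.mul_sum]
  refine Finset.sum_congr rfl fun p _ => ?_
  cases A p <;> simp

lemma Nop_symm {ρ : Perm (X ⊕ X) →* (V →L[ℝ] V)} (hρ : Isom ρ) (v w : V) :
    ⟪Nop ρ v, w⟫ = ⟪v, Nop ρ w⟫ := by
  rw [Nop_apply, Nop_apply, inner_smul_left, inner_smul_right]
  simp only [sum_inner, inner_sum, inner_sub_left, inner_sub_right]
  congr 1
  refine Finset.sum_congr rfl fun i _ => ?_
  rw [hρ.inner_left, io, swap_inv]

lemma lap_comm_Nop (ρ : Perm (X ⊕ X) →* (V →L[ℝ] V)) : Commute (lap ρ) (Nop ρ) := by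
  unfold Nop
  apply Commute.smul_right
  apply Commute.sum_right
  intro p _
  exact (Commute.one_right _).sub_right (lap_comm ρ (io p))

/-- sum of the two half-deck Laplacians -/
noncomputable def lapTB (ρ : Perm (X ⊕ X) →* (V →L[ℝ] V)) : V →L[ℝ] V :=
  lap (ρ.comp (topHom X)) + lap (ρ.comp (botHom X))

lemma topHom_swap (p q : X) : topHom X (swap p q) = swap (Sum.inl p) (Sum.inl q) := by
  change Equiv.Perm.sumCongr (swap p q) (1 : Perm X) = _
  rw [Equiv.Perm.sumCongr_swap_one]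

lemma botHom_swap (p q : X) : botHom X (swap p q) = swap (Sum.inr p) (Sum.inr q) := by
  change Equiv.Perm.sumCongr (1 : Perm X) (swap p q) = _
  rw [Equiv.Perm.sumCongr_one_swap]

/-- the decomposition of the two half-deck Laplacians -/
lemma lapTB_eq (ρ : Perm (X ⊕ X) →* (V →L[ℝ] V)) (v : V) :
    (2 : ℝ) • lapTB ρ v = lap ρ v - (1 / 2 : ℝ) • ∑ p, ∑ q, kap ρ p q v := by
  unfold lapTB
  rw [add_apply, lap_apply, lap_apply, lap_apply]
  simp only [MonoidHom.comp_apply, topHom_swap, botHom_swap, Fintype.sum_sum_type, kap_apply,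
    Finset.sum_add_distrib, Finset.sum_sub_distrib]
  module

/-- the half-deck Laplacian normalised -/
noncomputable def Zop (ρ : Perm (X ⊕ X) →* (V →L[ℝ] V)) : V →L[ℝ] V :=
  (1 / Fintype.card X : ℝ) • lapTB ρ

/-- coefficient of the full Laplacian -/
noncomputable def aco (X : Type*) [Fintype X] : ℝ :=
  1 / (2 * Fintype.card X) * (1 - 1 / Fintype.card X)

/-- the comparison operator -/
noncomputable def Gop (ρ : Perm (X ⊕ X) →* (V →L[ℝ] V)) : V →L[ℝ] V :=
  (-aco X) • lap ρ + (17 / 2 : ℝ) • Nop ρ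

lemma Zop_apply (hX : 2 ≤ Fintype.card X) (ρ : Perm (X ⊕ X) →* (V →L[ℝ] V)) (v : V) :
    Zop ρ v = (1 / (2 * Fintype.card X) : ℝ) • (lap ρ v - (2 : ℝ) • Nop ρ v -
      (1 / 2 : ℝ) • ∑ p, ∑ q, if p = q then 0 else kap ρ p q v) := by
  have hm : (2 : ℝ) ≤ Fintype.card X := by exact_mod_cast hX
  have h := lapTB_eq ρ v
  have h1 : Zop ρ v = (1 / (2 * Fintype.card X) : ℝ) • ((2 : ℝ) • lapTB ρ v) := by
    unfold Zop
    rw [smul_smul]
    change (1 / Fintype.card X : ℝ) • lapTB ρ v = _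
    congr 1
    field_simp
  have h2 : ∑ p : X, ∑ q : X, kap ρ p q v =
      (4 : ℝ) • Nop ρ v + ∑ p : X, ∑ q : X, if p = q then 0 else kap ρ p q v := by
    rw [Nop_apply, smul_smul, show (4 : ℝ) * (1 / 2) = 2 by norm_num, Finset.smul_sum,
      ← Finset.sum_add_distrib]
    refine Finset.sum_congr rfl fun p _ => ?_
    rw [← kap_diag]
    rw [← Finset.sum_erase_add _ _ (Finset.mem_univ p), add_comm]
    congr 1
    rw [← Finset.sum_erase_add _ _ (Finset.mem_univ p)]
    simp only [if_true, add_zero]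
    refine Finset.sum_congr rfl fun q hq => ?_
    rw [if_neg (Ne.symm (Finset.ne_of_mem_erase hq))]
  rw [h1, h, h2]
  congr 1
  module

variable [CompleteSpace V]

lemma step_ineq {ρ : Perm (X ⊕ X) →* (V →L[ℝ] V)} (hρ : Isom ρ) (hX : 2 ≤ Fintype.card X)
    (s : ℝ) (hs : 0 ≤ s) (hs' : s ≤ 1 / 10) (w : V) :
    0 ≤ ⟪w, Gop ρ (NormedSpace.exp (s • Gop ρ) w)⟫ +
      ⟪Zop ρ w, NormedSpace.exp (s • Gop ρ) w⟫ := by
  have hm : (2 : ℝ) ≤ Fintype.card X := by exact_mod_cast hX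
  set m : ℝ := (Fintype.card X : ℝ) with hmdef
  set a : ℝ := aco X with ha
  set γ : ℝ := 17 / 2 * s with hγ
  have hcosh : Real.cosh γ ≤ 2 := by
    refine (Real.cosh_le_exp_half_sq γ).trans ?_
    have h1 : γ ^ 2 / 2 ≤ 1 / 2 := by
      have : γ ≤ 1 := by rw [hγ]; linarith
      have : 0 ≤ γ := by rw [hγ]; linarith
      nlinarith
    have h2 : Real.exp (1 / 2) ^ 2 ≤ 2 ^ 2 := by
      rw [← Real.exp_nat_mul]
      norm_num
      have := Real.exp_one_lt_d9
      linarith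
    have h3 : Real.exp (1 / 2) ≤ 2 := by
      exact (pow_le_pow_iff_left₀ (Real.exp_pos _).le (by norm_num) (by norm_num)).1 h2
    exact (Real.exp_le_exp.2 h1).trans h3
  -- half exponential
  set H : V →L[ℝ] V := NormedSpace.exp ((-(s * a) / 2) • lap ρ) with hH
  have hHs : ∀ v w, ⟪H v, w⟫ = ⟪v, H w⟫ :=
    exp_symm (smul_symm (lap_symm hρ) _)
  have hHρ : ∀ g v, H (ρ g v) = ρ g (H v) := by
    intro g v
    have hc : Commute (lap ρ) (ρ g) := lap_comm ρ g
    exact exp_comm_apply (hc.smul_left _) v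
  have hHlap : ∀ v, H (lap ρ v) = lap ρ (H v) := by
    intro v
    exact exp_comm_apply ((Commute.refl (lap ρ)).smul_left _) v
  have hlapρ : ∀ g v, lap ρ (ρ g v) = ρ g (lap ρ v) := by
    intro g v
    exact congrArg (fun F : V →L[ℝ] V => F v) (lap_comm ρ g)
  have hHkap : ∀ p q v, H (kap ρ p q v) = kap ρ p q (H v) := by
    intro p q v
    simp only [kap_apply, map_add, map_sub, hHρ]
  set wA : (X → Bool) → V := fun A => PA ρ A w with hwA
  have hw : w = ∑ A, wA A := (sum_PA ρ w).symm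
  have hwS : ∀ A, Sec ρ A (wA A) := fun A => PA_sec ρ A w
  have hexp : ∀ A, NormedSpace.exp (s • Gop ρ) (wA A) = Real.exp (γ * nA A) • H (H (wA A)) := by
    intro A
    have e1 : s • Gop ρ = (-(s * a)) • lap ρ + γ • Nop ρ := by
      unfold Gop
      rw [smul_add, smul_smul, smul_smul]
      congr 2
      · ring
      · rw [hγ]; ring
    rw [e1, exp_add_comm (((lap_comm_Nop ρ).smul_left _).smul_right _), mul_apply_eq_comp]
    have e2 : (γ • Nop ρ) (wA A) = (γ * nA A) • wA A := by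
      change γ • (Nop ρ (wA A)) = _
      rw [Nop_sec (hwS A), smul_smul]
    rw [exp_apply_eigen _ e2, map_smul]
    congr 1
    have e3 : (-(s * a)) • lap ρ = (-(s * a) / 2) • lap ρ + (-(s * a) / 2) • lap ρ := by
      rw [← add_smul]; congr 1; ring
    rw [e3, exp_add_comm (Commute.refl _), mul_apply_eq_comp]
  set x : (X → Bool) → V := fun A => Real.exp (γ * nA A / 2) • H (wA A) with hx
  have hsecH : ∀ {A : X → Bool} {v : V}, Sec ρ A v → Sec ρ A (H v) := fun hv =>
    sec_map hv H (fun p w => hHρ _ _)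
  have hsecs : ∀ {A : X → Bool} {v : V} (c : ℝ), Sec ρ A v → Sec ρ A (c • v) := by
    intro A v c hv p
    rw [map_smul, hv p, smul_comm]
  have hxS : ∀ A, Sec ρ A (x A) := fun A => hsecs _ (hsecH (hwS A))
  have hee : ∀ A : X → Bool, Real.exp (γ * nA A) = Real.exp (γ * nA A / 2) * Real.exp (γ * nA A / 2) := by
    intro A
    rw [← Real.exp_add]
    congr 1
    ring
  have hexpw : NormedSpace.exp (s • Gop ρ) w = ∑ A, Real.exp (γ * nA A) • H (H (wA A)) := by
    conv_lhs => rw [hw]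
    rw [map_sum]
    exact Finset.sum_congr rfl fun A _ => hexp A
  have hES : ∀ A, Sec ρ A (Real.exp (γ * nA A) • H (H (wA A))) := fun A =>
    hsecs _ (hsecH (hsecH (hwS A)))
  -- first term
  have T1 : ∀ T : V →L[ℝ] V, (∀ p v, T (ρ (io p) v) = ρ (io p) (T v)) →
      (∀ v, H (T v) = T (H v)) →
      ⟪w, T (NormedSpace.exp (s • Gop ρ) w)⟫ = ∑ A, ⟪x A, T (x A)⟫ := by
    intro T hT hTH
    rw [hexpw, map_sum]
    conv_lhs => rw [hw]
    rw [sum_sq_of_sec hρ _ _ hwS (fun A => sec_map (hES A) T hT)]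
    refine Finset.sum_congr rfl fun A _ => ?_
    rw [map_smul, inner_smul_right, ← hTH, ← hHs, hee, hx]
    simp only [map_smul, inner_smul_left, inner_smul_right]
    simp
    ring
  have hioN : ∀ p v, Nop ρ (ρ (io p) v) = ρ (io p) (Nop ρ v) := by
    intro p v
    rw [Nop_apply, Nop_apply, map_smul, map_sum]
    congr 1
    refine Finset.sum_congr rfl fun q _ => ?_
    rw [map_sub]
    congr 1
    rw [← map_mul_apply, ← map_mul_apply]
    congr 2
    by_cases hpq : p = q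
    · subst hpq; rfl
    · unfold io
      rw [Equiv.mul_swap_eq_swap_mul, swap_apply_of_ne_of_ne (by simp [hpq]) (by simp),
        swap_apply_of_ne_of_ne (by simp) (by simp [hpq])]
  have hHN : ∀ v, H (Nop ρ v) = Nop ρ (H v) := by
    intro v
    exact exp_comm_apply ((lap_comm_Nop ρ).smul_left _) v
  have L1 := T1 (lap ρ) (fun p v => hlapρ _ _) hHlap
  have L2 := T1 (Nop ρ) hioN hHN
  have L3 : ∀ A, ⟪x A, Nop ρ (x A)⟫ = nA A * ‖x A‖ ^ 2 := by
    intro A
    rw [Nop_sec (hxS A), inner_smul_right, real_inner_self_eq_norm_sq]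
  simp only [L3] at L2
  -- the off-diagonal part
  have T2 : ∀ p q : X, p ≠ q → ⟪kap ρ p q w, NormedSpace.exp (s • Gop ρ) w⟫ =
      ∑ A, Real.exp (γ * (nA A - nA (tog p q A)) / 2) * ⟪kap ρ p q (x (tog p q A)), x A⟫ := by
    intro p q hpq
    rw [hexpw]
    have e1 : kap ρ p q w = ∑ A, kap ρ p q (wA (tog p q A)) := by
      conv_lhs => rw [hw]
      rw [map_sum]
      exact (Equiv.sum_comp (togEquiv p q) (fun B => kap ρ p q (wA B))).symm
    have e2 : ∀ A, Sec ρ A (kap ρ p q (wA (tog p q A))) := by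
      intro A
      have := kap_sec hpq (hwS (tog p q A))
      rwa [tog_tog] at this
    rw [e1, sum_sq_of_sec hρ _ _ e2 hES]
    refine Finset.sum_congr rfl fun A _ => ?_
    rw [inner_smul_right, ← hHs, hHkap, hx]
    simp only [map_smul, inner_smul_left, inner_smul_right]
    simp only [conj_trivial]
    rw [← mul_assoc, ← mul_assoc, ← Real.exp_add, ← Real.exp_add]
    congr 2
    ring
  have hkey := key hρ hX γ hcosh x hxS
  have hG : ⟪w, Gop ρ (NormedSpace.exp (s • Gop ρ) w)⟫ =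
      -a * ∑ A, ⟪x A, lap ρ (x A)⟫ + 17 / 2 * ∑ A, nA A * ‖x A‖ ^ 2 := by
    rw [← L1, ← L2]
    unfold Gop
    simp only [add_apply, smul_apply, inner_add_right, inner_smul_right]
    rfl
  have hZ : ⟪Zop ρ w, NormedSpace.exp (s • Gop ρ) w⟫ = 1 / (2 * m) *
      (∑ A, ⟪x A, lap ρ (x A)⟫ - 2 * ∑ A, nA A * ‖x A‖ ^ 2 -
        1 / 2 * ∑ p, ∑ q, (if p = q then 0 else
      ∑ A, Real.exp (γ * (nA A - nA (tog p q A)) / 2) * ⟪kap ρ p q (x (tog p q A)), x A⟫)) := by
    rw [Zop_apply hX, inner_smul_left, inner_sub_left, inner_sub_left, lap_symm hρ,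
      inner_smul_left, Nop_symm hρ, inner_smul_left, L1, L2]
    simp only [conj_trivial, sum_inner]
    have e5 : ∑ p : X, ∑ q : X, ⟪(if p = q then 0 else kap ρ p q w : V),
        NormedSpace.exp (s • Gop ρ) w⟫ = ∑ p : X, ∑ q : X, (if p = q then 0 else
      ∑ A, Real.exp (γ * (nA A - nA (tog p q A)) / 2) *
        ⟪kap ρ p q (x (tog p q A)), x A⟫) := by
      refine Finset.sum_congr rfl fun p _ => Finset.sum_congr rfl fun q _ => ?_
      by_cases hpq : p = q
      · simp [hpq]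
      · simp only [hpq, if_false]
        exact T2 p q hpq
    rw [e5]
  rw [hG, hZ]
  set S1 := ∑ A, ⟪x A, lap ρ (x A)⟫ with hS1
  set S2 := ∑ A, nA A * ‖x A‖ ^ 2 with hS2
  have hS2n : 0 ≤ S2 := Finset.sum_nonneg fun A _ => mul_nonneg (nA_nonneg A) (by positivity)
  set K := 1 / 2 * ∑ p, ∑ q, (if p = q then 0 else
      ∑ A, Real.exp (γ * (nA A - nA (tog p q A)) / 2) * ⟪kap ρ p q (x (tog p q A)), x A⟫) with hK
  have hav : a = 1 / (2 * m) * (1 - 1 / m) := rfl
  have h1 : -a * S1 + 17 / 2 * S2 + 1 / (2 * m) * (S1 - 2 * S2 - K) =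
      1 / (2 * m) * ((17 * m - 2) * S2 + 1 / m * S1 - K) := by
    rw [hav]
    field_simp
    ring
  rw [h1]
  apply mul_nonneg (by positivity)
  nlinarith

end

end Vale.Agent.P162
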