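import Mathlib

/-!
# P162, `Θ(log n)`, module [CALC]: the final calculation
-/

open Finset
open scoped BigOperators

namespace Vale.Agent.P162.Th

namespace CalcAux

lemma div_pow_le_choose (k : ℕ) : ∀ n : ℕ, k ≤ n → ((n : ℝ) / k) ^ k ≤ (n.choose k : ℝ) := by
  induction k with
  | zero => intro n _; simp
  | succ k ih =>
    intro n hn
    obtain ⟨m, rfl⟩ : ∃ m, n = m + 1 := ⟨n - 1, by omega⟩
    have hm : k ≤ m := by omega
    have h1 := ih m hm
    have h2 : ((m + 1).choose (k + 1) : ℝ) = ((m : ℝ) + 1) / (k + 1) * (m.choose k : ℝ) := by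
      have := Nat.add_one_mul_choose_eq m k
      have h3 : ((m : ℝ) + 1) * (m.choose k : ℝ) = ((m + 1).choose (k + 1) : ℝ) * (k + 1) := by
        exact_mod_cast this
      field_simp
      linarith
    rw [h2, pow_succ, mul_comm]
    push_cast
    refine mul_le_mul_of_nonneg_left ?_ (by positivity)
    refine le_trans ?_ h1
    rcases Nat.eq_zero_or_pos k with hk | hk
    · subst hk; simp
    · have hk' : (0 : ℝ) < k := by exact_mod_cast hk
      have hm' : (k : ℝ) ≤ m := by exact_mod_cast hm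
      refine pow_le_pow_left₀ (by positivity) ?_ k
      rw [div_le_div_iff₀ (by positivity) hk']
      nlinarith

lemma choose_le_exp {n k : ℕ} (hk : 1 ≤ k) :
    (n.choose k : ℝ) ≤ (Real.exp 1 * n / k) ^ k := by
  have hk' : (0 : ℝ) < k := by exact_mod_cast hk
  have h1 : (n.choose k : ℝ) ≤ (n : ℝ) ^ k / (k.factorial : ℝ) := Nat.choose_le_pow_div k n
  have h2 : (k : ℝ) ^ k / (k.factorial : ℝ) ≤ Real.exp k :=
    Real.pow_div_factorial_le_exp (k : ℝ) hk'.le k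
  have h3 : (Real.exp 1) ^ k = Real.exp k := by rw [← Real.exp_nat_mul, mul_one]
  have h4 : (0 : ℝ) < (k.factorial : ℝ) := by exact_mod_cast Nat.factorial_pos k
  have h5 : (0 : ℝ) < (k : ℝ) ^ k := by positivity
  calc (n.choose k : ℝ) ≤ (n : ℝ) ^ k / (k.factorial : ℝ) := h1
    _ = (n : ℝ) ^ k / (k : ℝ) ^ k * ((k : ℝ) ^ k / (k.factorial : ℝ)) := by field_simp
    _ ≤ (n : ℝ) ^ k / (k : ℝ) ^ k * Real.exp k := by gcongr
    _ = (Real.exp 1 * n / k) ^ k := by
        rw [← h3, mul_div_assoc, mul_pow, div_pow]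
        ring

lemma sum_bound (N : ℕ) : ∑ k ∈ Finset.Icc 1 N, (k : ℝ) * (1 / 2) ^ (k - 1) ≤ 4 := by
  have h : ∀ N : ℕ, ∑ k ∈ Finset.Icc 1 N, (k : ℝ) * (1 / 2) ^ (k - 1)
      = 4 - ((N : ℝ) + 2) * 2 * (1 / 2) ^ N := by
    intro N
    induction N with
    | zero => simp; norm_num
    | succ N ih =>
      rw [Finset.sum_Icc_succ_top (by omega), ih]
      push_cast
      rw [pow_succ]
      ring
  rw [h]
  have : 0 ≤ ((N : ℝ) + 2) * 2 * (1 / 2) ^ N := by positivity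
  linarith

/-- the bound for small `k` -/
lemma small {C : ℝ} (hC : 0 ≤ C) {n k : ℕ} (hk : 1 ≤ k) (hkn : k ≤ n) {x : ℝ}
    (h : ∀ k' : ℕ, k ≤ k' → k' ≤ n →
      x ≤ ((n.choose k : ℝ) / (k'.choose k : ℝ)) * Real.exp (C * (k' : ℝ) ^ 2 / n) *
        ((2 / (k'.choose k : ℝ)) * Real.exp (C * (k' : ℝ) ^ 2 / n)) ^ 3) :
    x ≤ 8 * (Real.exp (16 * C + 1) * k / n) ^ k := by
  have hk0 : (1 : ℝ) ≤ k := by exact_mod_cast hk
  have hkn0 : (k : ℝ) ≤ n := by exact_mod_cast hkn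
  have hn0 : (1 : ℝ) ≤ n := hk0.trans hkn0
  set s : ℝ := Real.sqrt (k * n) with hs
  have hs2 : s ^ 2 = k * n := Real.sq_sqrt (by positivity)
  have hs1 : 1 ≤ s := by
    rw [hs]
    apply Real.one_le_sqrt.2
    nlinarith
  set k' : ℕ := ⌈s⌉₊ with hk'
  have hsk : s ≤ k' := Nat.le_ceil s
  have hk1 : k ≤ k' := by
    have : (k : ℝ) ≤ s := by
      rw [hs]
      apply Real.le_sqrt_of_sq_le
      nlinarith
    exact_mod_cast this.trans hsk
  have hk2 : k' ≤ n := by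
    apply Nat.ceil_le.2
    rw [hs]
    apply Real.sqrt_le_iff.2
    constructor
    · positivity
    · nlinarith
  have hk3 : (k' : ℝ) ≤ 2 * s := by
    have := Nat.ceil_lt_add_one (show 0 ≤ s by linarith)
    linarith
  have hk4 : (k' : ℝ) ^ 2 ≤ 4 * (k * n) := by
    rw [← hs2]
    nlinarith [Nat.cast_nonneg (α := ℝ) k']
  have hk'0 : (0 : ℝ) < k' := by linarith
  have hx := h k' hk1 hk2
  set E := Real.exp (C * (k' : ℝ) ^ 2 / n) with hE
  have hEle : E ≤ Real.exp (4 * C) ^ k := by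
    rw [← Real.exp_nat_mul, hE]
    apply Real.exp_le_exp.2
    rw [div_le_iff₀ (by linarith)]
    nlinarith
  have hE0 : 0 < E := Real.exp_pos _
  have hch0 : (0 : ℝ) < (k'.choose k : ℝ) := by exact_mod_cast Nat.choose_pos hk1
  have hch2 : ((n : ℝ) / k) ^ k ≤ (k'.choose k : ℝ) ^ 2 := by
    have h1 := div_pow_le_choose k k' hk1
    have h2 : (((k' : ℝ) / k) ^ k) ^ 2 ≤ (k'.choose k : ℝ) ^ 2 :=
      pow_le_pow_left₀ (by positivity) h1 2
    refine le_trans ?_ h2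
    rw [← pow_mul, mul_comm k 2, pow_mul]
    refine pow_le_pow_left₀ (by positivity) ?_ k
    rw [div_pow, div_le_div_iff₀ (by positivity) (by positivity)]
    have h3 : (k : ℝ) * n ≤ (k' : ℝ) ^ 2 := by
      rw [← hs2]
      exact pow_le_pow_left₀ (by linarith) hsk 2
    nlinarith
  have hch4 : (((n : ℝ) / k) ^ k) ^ 2 ≤ (k'.choose k : ℝ) ^ 4 := by
    have := pow_le_pow_left₀ (by positivity) hch2 2
    calc _ ≤ ((k'.choose k : ℝ) ^ 2) ^ 2 := this
      _ = _ := by ring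
  have hq0 : 0 < (((n : ℝ) / k) ^ k) ^ 2 := by positivity
  calc x ≤ _ := hx
    _ = 8 * ((n.choose k : ℝ) * E ^ 4 / (k'.choose k : ℝ) ^ 4) := by
        field_simp
        ring
    _ ≤ 8 * ((Real.exp 1 * n / k) ^ k * (Real.exp (4 * C) ^ k) ^ 4 / (((n : ℝ) / k) ^ k) ^ 2) := by
        have h1 : (n.choose k : ℝ) * E ^ 4 ≤ (Real.exp 1 * n / k) ^ k * (Real.exp (4 * C) ^ k) ^ 4 :=
          mul_le_mul (choose_le_exp hk) (pow_le_pow_left₀ hE0.le hEle 4) (by positivity)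
            (by positivity)
        have h2 : (n.choose k : ℝ) * E ^ 4 / (k'.choose k : ℝ) ^ 4
            ≤ (Real.exp 1 * n / k) ^ k * (Real.exp (4 * C) ^ k) ^ 4 / (((n : ℝ) / k) ^ k) ^ 2 :=
          div_le_div₀ (by positivity) h1 hq0 hch4
        linarith
    _ = 8 * (Real.exp (16 * C + 1) * k / n) ^ k := by
        have h1 : Real.exp (16 * C + 1) = Real.exp (4 * C) ^ 4 * Real.exp 1 := by
          rw [← Real.exp_nat_mul, ← Real.exp_add]
          congr 1
          push_cast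
          ring
        rw [h1, ← pow_mul, mul_comm k 4, pow_mul, ← pow_mul _ k 2, mul_comm k 2, pow_mul,
          ← mul_pow, ← div_pow]
        congr 2
        field_simp

end CalcAux

open CalcAux

theorem final_calc (C : ℝ) (hC : 0 ≤ C) : ∃ t₁ n₀ : ℕ, ∀ n : ℕ, n₀ ≤ n → ∀ a : ℕ → ℝ,
    (∀ k k' : ℕ, 1 ≤ k → 3 * k ≤ n → k ≤ k' → k' ≤ n →
      a k ≤ ((n.choose k : ℝ) / (k'.choose k : ℝ)) * Real.exp (C * (k' : ℝ) ^ 2 / n) *
        ((2 / (k'.choose k : ℝ)) * Real.exp (C * (k' : ℝ) ^ 2 / n)) ^ 3) →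
    (∀ k : ℕ, 1 ≤ k → k ≤ n → a k ≤ Real.exp (C * n) * Real.exp (-(t₁ * k / 80))) →
    ∑ k ∈ Finset.Icc 1 n, a k ≤ 1 / 4 := by
  set B : ℝ := Real.exp (16 * C + 1) with hB
  have hB2 : 2 ≤ B := by
    have h1 := Real.add_one_le_exp (16 * C + 1)
    rw [← hB] at h1
    linarith
  have hB0 : 0 < B := by linarith
  refine ⟨⌈160 * B * (C + 1)⌉₊, ⌈256 * B⌉₊ + 16, ?_⟩
  intro n hn a h1 h2
  have hn16 : 16 ≤ n := by omega
  have hnB : 256 * B ≤ n := by
    have h3 : (256 * B) ≤ (⌈256 * B⌉₊ : ℝ) := Nat.le_ceil _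
    have h4 : ((⌈256 * B⌉₊ : ℕ) : ℝ) ≤ n := by exact_mod_cast (by omega : ⌈256 * B⌉₊ ≤ n)
    linarith
  have hn0 : (0 : ℝ) < n := by
    have : (16 : ℝ) ≤ n := by exact_mod_cast hn16
    linarith
  set t : ℝ := ((⌈160 * B * (C + 1)⌉₊ : ℕ) : ℝ) with ht
  have htB : 160 * B * (C + 1) ≤ t := Nat.le_ceil _
  have hpt : ∀ k ∈ Finset.Icc 1 n, a k ≤ 8 * (B / n) * ((k : ℝ) * (1 / 2) ^ (k - 1)) +
      Real.exp (-n) := by
    intro k hk
    rw [Finset.mem_Icc] at hk
    have hk0 : (1 : ℝ) ≤ k := by exact_mod_cast hk.1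
    by_cases hs : 2 * B * k ≤ n
    · have h3k : 3 * k ≤ n := by
        have : (3 : ℝ) * k ≤ n := by nlinarith
        exact_mod_cast this
      have h3 := small hC hk.1 hk.2 (fun k' hk1 hk2 => h1 k k' hk.1 h3k hk1 hk2)
      rw [← hB] at h3
      have h4 : B * k / n ≤ 1 / 2 := by
        rw [div_le_div_iff₀ hn0 (by norm_num)]
        linarith
      have h5 : (B * k / n) ^ k ≤ (B * k / n) * (1 / 2) ^ (k - 1) := by
        obtain ⟨m, rfl⟩ : ∃ m, k = m + 1 := ⟨k - 1, by omega⟩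
        rw [pow_succ, mul_comm, Nat.add_sub_cancel]
        exact mul_le_mul_of_nonneg_left (pow_le_pow_left₀ (by positivity) h4 m) (by positivity)
      have h6 : 0 < Real.exp (-n) := Real.exp_pos _
      calc a k ≤ 8 * (B * k / n) ^ k := h3
        _ ≤ 8 * ((B * k / n) * (1 / 2) ^ (k - 1)) := by linarith
        _ = 8 * (B / n) * ((k : ℝ) * (1 / 2) ^ (k - 1)) := by ring
        _ ≤ _ := by linarith
    · push Not at hs
      have h3 := h2 k hk.1 hk.2
      have h4 : Real.exp (C * n) * Real.exp (-(t * k / 80)) ≤ Real.exp (-n) := by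
        rw [← Real.exp_add]
        apply Real.exp_le_exp.2
        have h5 : (C + 1) * n ≤ t * k / 80 := by
          rw [le_div_iff₀ (by norm_num)]
          have h6 : 160 * B * (C + 1) * k ≤ t * k := by nlinarith
          nlinarith
        linarith
      have h5 : 0 ≤ 8 * (B / n) * ((k : ℝ) * (1 / 2) ^ (k - 1)) := by positivity
      linarith
  have hexp : (n : ℝ) * Real.exp (-n) ≤ 1 / 8 := by
    have h3 : (n : ℝ) ^ 2 / 2 ≤ Real.exp n := by
      have := Real.pow_div_factorial_le_exp (n : ℝ) hn0.le 2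
      simpa using this
    rw [Real.exp_neg, ← div_eq_mul_inv, div_le_div_iff₀ (Real.exp_pos _) (by norm_num)]
    have h16 : (16 : ℝ) ≤ n := by exact_mod_cast hn16
    nlinarith
  calc ∑ k ∈ Finset.Icc 1 n, a k
      ≤ ∑ k ∈ Finset.Icc 1 n, (8 * (B / n) * ((k : ℝ) * (1 / 2) ^ (k - 1)) + Real.exp (-n)) :=
        Finset.sum_le_sum hpt
    _ = 8 * (B / n) * ∑ k ∈ Finset.Icc 1 n, ((k : ℝ) * (1 / 2) ^ (k - 1)) +
        n * Real.exp (-n) := by
        rw [Finset.sum_add_distrib, ← Finset.mul_sum, Finset.sum_const, Nat.card_Icc,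
          Nat.add_sub_cancel, nsmul_eq_mul]
    _ ≤ 8 * (B / n) * 4 + 1 / 8 := by
        have := sum_bound n
        gcongr
    _ ≤ 1 / 4 := by
        have : 8 * (B / n) * 4 ≤ 1 / 8 := by
          rw [show 8 * (B / n) * 4 = 32 * B / n by ring, div_le_div_iff₀ hn0 (by norm_num)]
          linarith
        linarith

end Vale.Agent.P162.Th
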