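import Mathlib

/-!
# P162, `Θ(log n)`: [EXT] extreme eigenvalues on an invariant subspace
-/

open Finset
open scoped BigOperators RealInnerProductSpace

namespace Vale.Agent.P162.Th

theorem ext_ge {E : Type*} [NormedAddCommGroup E] [InnerProductSpace ℝ E]
    [FiniteDimensional ℝ E] {ι : Type*} (T : E →ₗ[ℝ] E) (hT : T.IsSymmetric)
    (H : Submodule ℝ E) (hH : ∀ v ∈ H, T v ∈ H) (P : ι → E →ₗ[ℝ] E)
    (hP : ∀ i v, P i (T v) = T (P i v)) (h0 : ∀ v ∈ H, (∀ i, P i v = 0) → v = 0) (lam : ℝ)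
    (h : ∀ v ∈ H, ∀ i, lam * ‖P i v‖ ^ 2 ≤ ⟪T (P i v), P i v⟫) :
    ∀ v ∈ H, lam * ‖v‖ ^ 2 ≤ ⟪T v, v⟫ := by
  classical
  intro v hv
  have hS : (T.restrict hH).IsSymmetric := hT.restrict_invariant hH
  set b := hS.eigenvectorBasis rfl with hb
  set μ := hS.eigenvalues rfl with hμ
  have hTb : ∀ i, (T (b i : E)) = μ i • (b i : E) := by
    intro i
    exact congrArg (Subtype.val) (hS.apply_eigenvectorBasis rfl i)
  have hlam : ∀ i, lam ≤ μ i := by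
    intro i
    have hbi : (b i : E) ≠ 0 := by
      intro e
      have : b i = 0 := Subtype.ext e
      have h1 := b.orthonormal.1 i
      rw [this, norm_zero] at h1
      exact zero_ne_one h1
    obtain ⟨j, hj⟩ : ∃ j, P j (b i : E) ≠ 0 := by
      by_contra hne
      push Not at hne
      exact hbi (h0 _ (b i).2 hne)
    have h1 := h _ (b i).2 j
    rw [← hP, hTb, map_smul, inner_smul_left, real_inner_self_eq_norm_sq] at h1
    simp only [conj_trivial] at h1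
    have h2 : 0 < ‖P j (b i : E)‖ ^ 2 := by positivity
    exact le_of_mul_le_mul_right h1 h2
  have e1 : ⟪T v, v⟫ = ∑ i, μ i * ⟪(b i : E), v⟫ ^ 2 := by
    have h1 := b.sum_inner_mul_inner (T.restrict hH ⟨v, hv⟩) ⟨v, hv⟩
    have h2 : ⟪(T.restrict hH ⟨v, hv⟩), (⟨v, hv⟩ : H)⟫ = ⟪T v, v⟫ := rfl
    rw [← h2, ← h1]
    refine Finset.sum_congr rfl fun i _ => ?_
    have h3 : ⟪(T.restrict hH ⟨v, hv⟩), b i⟫ = ⟪T v, (b i : E)⟫ := rfl
    have h4 : ⟪b i, (⟨v, hv⟩ : H)⟫ = ⟪(b i : E), v⟫ := rfl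
    rw [h3, h4, hT v (b i : E), hTb, inner_smul_right, real_inner_comm]
    ring
  have e2 : ‖v‖ ^ 2 = ∑ i, ⟪(b i : E), v⟫ ^ 2 := by
    have h1 := b.sum_inner_mul_inner ⟨v, hv⟩ ⟨v, hv⟩
    have h2 : ⟪(⟨v, hv⟩ : H), (⟨v, hv⟩ : H)⟫ = ‖v‖ ^ 2 := real_inner_self_eq_norm_sq _
    rw [← h2, ← h1]
    refine Finset.sum_congr rfl fun i _ => ?_
    have h4 : ⟪b i, (⟨v, hv⟩ : H)⟫ = ⟪(b i : E), v⟫ := rfl
    have h3 : ⟪(⟨v, hv⟩ : H), b i⟫ = ⟪(b i : E), v⟫ := by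
      rw [real_inner_comm, h4]
    rw [h3, h4]
    ring
  rw [e1, e2, Finset.mul_sum]
  exact Finset.sum_le_sum fun i _ => mul_le_mul_of_nonneg_right (hlam i) (sq_nonneg _)

theorem ext_le {E : Type*} [NormedAddCommGroup E] [InnerProductSpace ℝ E]
    [FiniteDimensional ℝ E] {ι : Type*} (T : E →ₗ[ℝ] E) (hT : T.IsSymmetric)
    (H : Submodule ℝ E) (hH : ∀ v ∈ H, T v ∈ H) (P : ι → E →ₗ[ℝ] E)
    (hP : ∀ i v, P i (T v) = T (P i v)) (h0 : ∀ v ∈ H, (∀ i, P i v = 0) → v = 0) (lam : ℝ)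
    (h : ∀ v ∈ H, ∀ i, ⟪T (P i v), P i v⟫ ≤ lam * ‖P i v‖ ^ 2) :
    ∀ v ∈ H, ⟪T v, v⟫ ≤ lam * ‖v‖ ^ 2 := by
  intro v hv
  have h1 := ext_ge (-T) (by
      intro x y
      have := hT x y
      simp only [LinearMap.neg_apply, inner_neg_left, inner_neg_right]
      rw [this]) H (fun v hv => by
      simpa using H.neg_mem (hH v hv)) P (fun i v => by simp [hP]) h0 (-lam)
    (fun v hv i => by
      have := h v hv i
      simp only [LinearMap.neg_apply, inner_neg_left]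
      linarith) v hv
  simp only [LinearMap.neg_apply, inner_neg_left] at h1
  linarith

end Vale.Agent.P162.Th
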