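import Vale.Agent.P162.ThQB
import Vale.Agent.P162.ThExt

/-!
# P162, `Θ(log n)`, module [E1]: lower bound of `Bk k'` on `U X k`
-/

open Finset Equiv
open scoped BigOperators RealInnerProductSpace

namespace Vale.Agent.P162.Th

open DepthAux QB

set_option linter.unusedSectionVars false

section levels

variable {X : Type} [Fintype X] [DecidableEq X]

namespace E1Aux

theorem Bk_symm (k : ℕ) (v w : EuclideanSpace ℝ (Perm X)) : ⟪Bk X k v, w⟫ = ⟪v, Bk X k w⟫ := by
  rw [Bk_apply, Bk_apply, inner_smul_left, inner_smul_right, sum_inner, inner_sum]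
  congr 1
  exact Finset.sum_congr rfl fun Z _ => Qz_symm Z v w

theorem inner_Qz (Z : Finset X) (v : EuclideanSpace ℝ (Perm X)) : ⟪Qz Z v, v⟫ = ‖Qz Z v‖ ^ 2 := by
  rw [← real_inner_self_eq_norm_sq, Qz_symm Z v (Qz Z v), Qz_idem, ← Qz_symm]

theorem inner_Bk (k : ℕ) (v : EuclideanSpace ℝ (Perm X)) :
    ⟪Bk X k v, v⟫ = ((Fintype.card X).choose k : ℝ)⁻¹ *
      ∑ Z ∈ powersetCard k (univ : Finset X), ‖Qz Z v‖ ^ 2 := by
  rw [Bk_apply, inner_smul_left, sum_inner]
  simp only [inner_Qz, conj_trivial]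

theorem Bk_nonneg (k : ℕ) (v : EuclideanSpace ℝ (Perm X)) : 0 ≤ ⟪Bk X k v, v⟫ := by
  rw [inner_Bk]
  positivity

theorem Qz_Bk (k : ℕ) (Z : Finset X) (v : EuclideanSpace ℝ (Perm X)) :
    Qz Z (Bk X k v) = Bk X k (Qz Z v) :=
  Qz_comm (fun g v => (rt_Bk g k v).symm) Z v

theorem Qz_U {k : ℕ} (Z : Finset X) {v : EuclideanSpace ℝ (Perm X)} (hv : v ∈ U X k) :
    Qz Z v ∈ U X k := by
  rw [Qz_apply]
  exact Submodule.smul_mem _ _ (Submodule.sum_mem _ fun g _ => U_right g hv)

theorem Bk_U {k : ℕ} (k' : ℕ) {v : EuclideanSpace ℝ (Perm X)} (hv : v ∈ U X k) :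
    Bk X k' v ∈ U X k := by
  rw [Bk_apply]
  exact Submodule.smul_mem _ _ (Submodule.sum_mem _ fun Z _ => Qz_U Z hv)

theorem rt_U_orth {k : ℕ} (g : Perm X) {v : EuclideanSpace ℝ (Perm X)} (hv : v ∈ (U X k)ᗮ) :
    rt g v ∈ (U X k)ᗮ := by
  rw [Submodule.mem_orthogonal]
  intro u hu
  rw [real_inner_comm, inner_rt, real_inner_comm]
  exact (Submodule.mem_orthogonal _ _).1 hv _ (U_right _ hu)

theorem Qz_U_orth {k : ℕ} (Z : Finset X) {v : EuclideanSpace ℝ (Perm X)} (hv : v ∈ (U X k)ᗮ) :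
    Qz Z v ∈ (U X k)ᗮ := by
  rw [Qz_apply]
  exact Submodule.smul_mem _ _ (Submodule.sum_mem _ fun g _ => rt_U_orth g hv)

theorem Bk_U_orth {k : ℕ} (k' : ℕ) {v : EuclideanSpace ℝ (Perm X)} (hv : v ∈ (U X k)ᗮ) :
    Bk X k' v ∈ (U X k)ᗮ := by
  rw [Bk_apply]
  exact Submodule.smul_mem _ _ (Submodule.sum_mem _ fun Z _ => Qz_U_orth Z hv)

/-- number of `k'`-sets containing a given set -/
theorem card_supersets {k' : ℕ} (Z : Finset X) :
    ((powersetCard k' (univ : Finset X)).filter (fun Z' => Z ⊆ Z')).card =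
      if Z.card ≤ k' then (Fintype.card X - Z.card).choose (k' - Z.card) else 0 := by
  split_ifs with h
  · have e : (Fintype.card X - Z.card).choose (k' - Z.card) =
        (powersetCard (k' - Z.card) (Zᶜ)).card := by
      rw [card_powersetCard, card_compl]
    rw [e]
    refine Finset.card_nbij' (fun Z' => Z' \ Z) (fun W => W ∪ Z) (fun Z' hZ' => ?_)
      (fun W hW => ?_) (fun Z' hZ' => ?_) (fun W hW => ?_)
    · simp only [mem_coe, mem_filter, mem_powersetCard] at hZ'
      simp only [mem_coe, mem_powersetCard]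
      refine ⟨fun x hx => by simp at hx ⊢; exact hx.2, ?_⟩
      rw [card_sdiff_of_subset hZ'.2, hZ'.1.2]
    · simp only [mem_coe, mem_powersetCard] at hW
      simp only [mem_coe, mem_filter, mem_powersetCard]
      have hd : Disjoint W Z := by
        rw [Finset.disjoint_left]
        intro x hx
        simpa using hW.1 hx
      refine ⟨⟨subset_univ _, ?_⟩, subset_union_right⟩
      rw [card_union_of_disjoint hd, hW.2]
      omega
    · simp only [mem_coe, mem_filter, mem_powersetCard] at hZ'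
      exact sdiff_union_of_subset hZ'.2
    · simp only [mem_coe, mem_powersetCard] at hW
      have hd : Disjoint W Z := by
        rw [Finset.disjoint_left]
        intro x hx
        simpa using hW.1 hx
      show (W ∪ Z) \ Z = W
      rw [union_sdiff_right, sdiff_eq_self_of_disjoint hd]
  · rw [Finset.card_eq_zero, Finset.filter_eq_empty_iff]
    intro Z' hZ' hs
    have := card_le_card hs
    rw [(mem_powersetCard.1 hZ').2] at this
    exact h this

end E1Aux

open E1Aux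

theorem E1 {k k' : ℕ} (h : k ≤ k') (h' : k' ≤ Fintype.card X) (v : EuclideanSpace ℝ (Perm X))
    (hv : v ∈ U X k) :
    ((k'.choose k : ℝ) / ((Fintype.card X).choose k : ℝ)) * ‖v‖ ^ 2 ≤ ⟪Bk X k' v, v⟫ := by
  have hk : k ≤ Fintype.card X := h.trans h'
  refine ext_ge (ι := {Z : Finset X // Z.card = k}) (Bk X k').toLinearMap
    (fun v w => Bk_symm k' v w) (U X k) (fun v hv => Bk_U k' hv)
    (fun Z => (Qz Z.1).toLinearMap) (fun Z v => Qz_Bk k' Z.1 v) (fun v hv h0 => ?_) _
    (fun v hv Z => ?_) v hv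
  · have h1 : v ∈ (U X k)ᗮ := (mem_U_orth hk v).2 fun Z hZ => h0 ⟨Z, hZ⟩
    have h2 := (Submodule.mem_orthogonal _ _).1 h1 v hv
    exact inner_self_eq_zero.1 h2
  · obtain ⟨Z, hZ⟩ := Z
    show ((k'.choose k : ℝ) / ((Fintype.card X).choose k : ℝ)) * ‖Qz Z v‖ ^ 2 ≤
      ⟪Bk X k' (Qz Z v), Qz Z v⟫
    rw [inner_Bk]
    have h1 : ((powersetCard k' (univ : Finset X)).filter (fun Z' => Z ⊆ Z')).card *
        ‖Qz Z v‖ ^ 2 ≤ ∑ Z' ∈ powersetCard k' (univ : Finset X), ‖Qz Z' (Qz Z v)‖ ^ 2 := by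
      rw [← nsmul_eq_mul, ← Finset.sum_const]
      calc ∑ _x ∈ (powersetCard k' (univ : Finset X)).filter (fun Z' => Z ⊆ Z'), ‖Qz Z v‖ ^ 2
          = ∑ Z' ∈ (powersetCard k' (univ : Finset X)).filter (fun Z' => Z ⊆ Z'),
            ‖Qz Z' (Qz Z v)‖ ^ 2 := by
            refine Finset.sum_congr rfl fun Z' hZ' => ?_
            rw [Qz_sub (Finset.mem_filter.1 hZ').2]
        _ ≤ _ := Finset.sum_le_sum_of_subset_of_nonneg (Finset.filter_subset _ _)
            (fun _ _ _ => by positivity)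
    have h2 : (0 : ℝ) < ((Fintype.card X).choose k' : ℝ) := by
      exact_mod_cast Nat.choose_pos h'
    have h3 : (0 : ℝ) < ((Fintype.card X).choose k : ℝ) := by
      exact_mod_cast Nat.choose_pos hk
    have h4 : ((Fintype.card X).choose k' : ℝ) * (k'.choose k : ℝ) =
        ((Fintype.card X).choose k : ℝ) * ((Fintype.card X - k).choose (k' - k) : ℝ) := by
      exact_mod_cast Nat.choose_mul h
    rw [card_supersets, hZ, if_pos h] at h1
    have h5 : ((k'.choose k : ℝ) / ((Fintype.card X).choose k : ℝ)) =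
        ((Fintype.card X).choose k' : ℝ)⁻¹ * ((Fintype.card X - k).choose (k' - k) : ℝ) := by
      field_simp
      linarith
    rw [h5, mul_assoc]
    exact mul_le_mul_of_nonneg_left h1 (by positivity)

end levels

end Vale.Agent.P162.Th
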