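import Vale.Agent.P162.ThE1

/-!
# P162, `Θ(log n)`, module [E2]: upper bound of `Bk (k+1)` on level `k + 1`
-/

open Finset Equiv
open scoped BigOperators RealInnerProductSpace

namespace Vale.Agent.P162.Th

open DepthAux QB E1Aux

set_option linter.unusedSectionVars false

section levels

variable {X : Type} [Fintype X] [DecidableEq X]

namespace E2Aux

theorem swap_mem_St {Z : Finset X} {a b : X} (ha : a ∉ Z) (hb : b ∉ Z) :
    swap a b ∈ St Zᶜ := by
  rw [mem_St_compl]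
  intro x hx
  exact swap_apply_of_ne_of_ne (fun h => ha (h ▸ hx)) (fun h => hb (h ▸ hx))

theorem app_inv (g : Perm X) (x : X) : g (g⁻¹ x) = x := g.apply_symm_apply x

theorem inv_app (g : Perm X) (x : X) : g⁻¹ (g x) = x := g.symm_apply_apply x

/-- the relation between the translates of a function of level `k + 1` -/
theorem exchange {k : ℕ} (hk : k ≤ Fintype.card X) {Z₀ : Finset X} (hZ₀ : Z₀.card = k + 1)
    {f : EuclideanSpace ℝ (Perm X)} (hf : Qz Z₀ f = f) (hU : f ∈ (U X k)ᗮ) {z : X}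
    (hz : z ∈ Z₀) : f + ∑ y ∈ Z₀ᶜ, rt (swap z y) f = 0 := by
  obtain ⟨W, hW⟩ : ∃ W, W = Z₀.erase z := ⟨_, rfl⟩
  have hzW : z ∉ W := by rw [hW]; simp
  have hWc : W.card = k := by rw [hW, card_erase_of_mem hz, hZ₀]; rfl
  have hinv : ∀ g ∈ St Z₀ᶜ, rt g f = f := fun g hg => by
    conv_rhs => rw [← hf]
    rw [← rt_Qz_of_mem hg, hf]
  obtain ⟨S, hS⟩ : ∃ S, S = ∑ y ∈ Wᶜ, rt (swap z y) f := ⟨_, rfl⟩
  have h1 : f + ∑ y ∈ Z₀ᶜ, rt (swap z y) f = S := by
    have e : Wᶜ = insert z Z₀ᶜ := by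
      ext x
      rw [hW]
      simp only [mem_compl, mem_erase, mem_insert]
      tauto
    rw [hS, e, Finset.sum_insert (by simpa using hz), swap_self]
    congr 1
  have h2 : ∀ g ∈ St Wᶜ, rt g S = S := by
    intro g hg
    have hgi := inv_mem_St hg
    rw [mem_St_compl] at hg hgi
    rw [hS, map_sum]
    refine Finset.sum_nbij' (fun y => g⁻¹ y) (fun y => g y) (fun y hy => ?_) (fun y hy => ?_)
      (fun y _ => by simp) (fun y _ => by simp) (fun y hy => ?_)
    · rw [mem_compl] at *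
      intro h
      apply hy
      have := hg _ h
      rw [app_inv] at this
      rw [this]; exact h
    · rw [mem_compl] at *
      intro h
      apply hy
      have := hgi _ h
      rw [inv_app] at this
      rw [this]; exact h
    · -- `rt (swap z y * g) f = rt (swap z (g⁻¹ y)) f`
      have hy' : y ∉ W := by simpa using hy
      have hy2 : g⁻¹ y ∉ W := by
        intro h
        apply hy'
        have := hg _ h
        rw [app_inv] at this
        rw [this]; exact h
      rw [rt_rt]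
      have hh : swap z y * g * swap z (g⁻¹ y) ∈ St Z₀ᶜ := by
        rw [mem_St_compl]
        intro x hx
        by_cases hxz : x = z
        · subst hxz
          rw [Perm.mul_apply, Perm.mul_apply, swap_apply_left, app_inv,
            swap_apply_right]
        · have hxW : x ∈ W := by rw [hW]; exact mem_erase.2 ⟨hxz, hx⟩
          rw [Perm.mul_apply, Perm.mul_apply,
            swap_apply_of_ne_of_ne hxz (fun h => hy2 (by rw [← h]; exact hxW)), hg x hxW,
            swap_apply_of_ne_of_ne hxz (fun h => hy' (by rw [← h]; exact hxW))]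
      have e : swap z y * g = (swap z y * g * swap z (g⁻¹ y)) * swap z (g⁻¹ y) := by
        rw [mul_assoc (swap z y * g), swap_mul_self, mul_one]
      rw [e, ← rt_rt, hinv _ hh]
  have h3 : Qz W S = 0 := by
    rw [hS, map_sum]
    refine Finset.sum_eq_zero fun y hy => ?_
    rw [Qz_rt_of_mem (swap_mem_St hzW (by simpa using hy))]
    exact (mem_U_orth hk f).1 hU W hWc
  rw [h1, ← Qz_of_inv h2, h3]

theorem norm_Qz_le (Z : Finset X) (f : EuclideanSpace ℝ (Perm X)) : ‖Qz Z f‖ ≤ ‖f‖ := by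
  rw [Qz_apply, norm_smul, norm_inv, Real.norm_natCast]
  have h : ‖∑ g ∈ St Zᶜ, rt g f‖ ≤ (St Zᶜ).card * ‖f‖ := by
    refine (norm_sum_le _ _).trans ?_
    simp
  rw [inv_mul_le_iff₀ (card_St_pos _)]
  exact h

/-- main estimate -/
theorem norm_le {k : ℕ} (hk : 2 * (k + 1) ≤ Fintype.card X) : ∀ (j : ℕ) (Z₀ Z : Finset X),
    Z₀.card = k + 1 → Z.card = k + 1 → (Z₀ \ Z).card = j →
    ∀ f : EuclideanSpace ℝ (Perm X), Qz Z₀ f = f → f ∈ (U X k)ᗮ →
    ((Fintype.card X - (k + 1)).choose j : ℝ) * ‖Qz Z f‖ ≤ ‖f‖ := by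
  intro j
  induction j with
  | zero =>
    intro Z₀ Z _ _ _ f _ _
    simpa using norm_Qz_le Z f
  | succ j ih =>
    intro Z₀ Z h0 hZ hj f hf hU
    obtain ⟨z, hz⟩ : (Z₀ \ Z).Nonempty := by
      rw [← Finset.card_pos, hj]; omega
    rw [mem_sdiff] at hz
    have hj' : (Z \ Z₀).card = j + 1 := by
      have h1 := card_sdiff_add_card_inter Z₀ Z
      have h2 := card_sdiff_add_card_inter Z Z₀
      rw [inter_comm] at h2
      omega
    have hjk : j + 1 ≤ k + 1 := by
      rw [← hj, ← h0]; exact card_le_card sdiff_subset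
    have h1 := exchange (by omega) h0 hf hU hz.1
    have h2 := congrArg (Qz Z) h1
    have hsplit : (Z₀ᶜ : Finset X) = (Z \ Z₀) ∪ (Z ∪ Z₀)ᶜ := by
      ext x
      simp only [mem_compl, mem_union, mem_sdiff]
      tauto
    have hdisj : Disjoint (Z \ Z₀) (Z ∪ Z₀)ᶜ := by
      rw [Finset.disjoint_left]
      intro x hx
      simp only [mem_sdiff, mem_compl, mem_union] at *
      tauto
    have hcard : ((Z ∪ Z₀)ᶜ : Finset X).card + (j + 1) + (k + 1) = Fintype.card X := by
      have h3 := card_union_add_card_inter Z Z₀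
      have h4 := card_sdiff_add_card_inter Z Z₀
      have h5 := card_compl_add_card (Z ∪ Z₀)
      omega
    rw [map_add, map_sum, map_zero, hsplit, Finset.sum_union hdisj] at h2
    have h6 : ∑ y ∈ (Z ∪ Z₀)ᶜ, Qz Z (rt (swap z y) f) =
        (((Z ∪ Z₀)ᶜ : Finset X).card : ℝ) • Qz Z f := by
      rw [Finset.sum_congr rfl (g := fun _ => Qz Z f), Finset.sum_const,
        ← Nat.cast_smul_eq_nsmul ℝ]
      intro y hy
      simp only [mem_compl, mem_union] at hy
      exact Qz_rt_of_mem (swap_mem_St hz.2 (by tauto)) f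
    rw [h6] at h2
    have h7 : ((((Z ∪ Z₀)ᶜ : Finset X).card : ℝ) + 1) • Qz Z f =
        -∑ y ∈ Z \ Z₀, Qz Z (rt (swap z y) f) := by
      rw [add_smul, one_smul, eq_neg_iff_add_eq_zero, ← h2]
      abel
    have h8 : ((((Z ∪ Z₀)ᶜ : Finset X).card : ℝ) + 1) * ‖Qz Z f‖ =
        ‖∑ y ∈ Z \ Z₀, Qz Z (rt (swap z y) f)‖ := by
      rw [← norm_neg (∑ y ∈ Z \ Z₀, Qz Z (rt (swap z y) f)), ← h7, norm_smul,
        Real.norm_of_nonneg (by positivity)]
    obtain ⟨m, hm⟩ : ∃ m, m = Fintype.card X - (k + 1) := ⟨_, rfl⟩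
    have hc : ((Z ∪ Z₀)ᶜ : Finset X).card = m - (j + 1) := by omega
    have hmj : j + 1 ≤ m := by omega
    rw [← hm] at ih ⊢
    have hcp : (0 : ℝ) < (m.choose j : ℝ) := by exact_mod_cast Nat.choose_pos (by omega)
    have h9 : ∀ y ∈ Z \ Z₀, (m.choose j : ℝ) * ‖Qz Z (rt (swap z y) f)‖ ≤ ‖f‖ := by
      intro y hy
      rw [mem_sdiff] at hy
      have hzy : z ≠ y := fun h => hy.2 (h ▸ hz.1)
      have hmap : Z₀.map (swap z y : Perm X).toEmbedding = insert y (Z₀.erase z) := by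
        ext x
        rw [mem_map_equiv, symm_swap, mem_insert, mem_erase]
        by_cases hx1 : x = z
        · subst hx1; rw [swap_apply_left]; simp [hy.2, hzy]
        · by_cases hx2 : x = y
          · subst hx2; rw [swap_apply_right]; simp [hz.1]
          · rw [swap_apply_of_ne_of_ne hx1 hx2]; simp [hx1, hx2]
      have hI := ih (Z₀.map (swap z y : Perm X).toEmbedding) Z (by rw [card_map, h0]) hZ (by
        have e : Z₀.map (swap z y : Perm X).toEmbedding \ Z = (Z₀ \ Z).erase z := by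
          rw [hmap]
          ext x
          simp only [mem_sdiff, mem_insert, mem_erase]
          constructor
          · rintro ⟨rfl | h, h'⟩
            · exact absurd hy.1 h'
            · exact ⟨h.1, h.2, h'⟩
          · rintro ⟨h, h', h''⟩
            exact ⟨Or.inr ⟨h, h'⟩, h''⟩
        rw [e, card_erase_of_mem (mem_sdiff.2 hz), hj]
        rfl) (rt (swap z y) f) (by
          have e2 := map_map_inv (swap z y) Z₀
          rw [swap_inv] at e2
          rw [← rt_Qz2, e2, hf]) (rt_U_orth _ hU)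
      rwa [LinearIsometryEquiv.norm_map] at hI
    have h10 : (m.choose j : ℝ) * ((((Z ∪ Z₀)ᶜ : Finset X).card : ℝ) + 1) * ‖Qz Z f‖ ≤
        (j + 1) * ‖f‖ := by
      rw [mul_assoc, h8]
      calc (m.choose j : ℝ) * ‖∑ y ∈ Z \ Z₀, Qz Z (rt (swap z y) f)‖
          ≤ (m.choose j : ℝ) * ∑ y ∈ Z \ Z₀, ‖Qz Z (rt (swap z y) f)‖ :=
            mul_le_mul_of_nonneg_left (norm_sum_le _ _) hcp.le
        _ = ∑ y ∈ Z \ Z₀, (m.choose j : ℝ) * ‖Qz Z (rt (swap z y) f)‖ := Finset.mul_sum _ _ _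
        _ ≤ ∑ _y ∈ Z \ Z₀, ‖f‖ := Finset.sum_le_sum h9
        _ = (j + 1) * ‖f‖ := by rw [Finset.sum_const, hj', nsmul_eq_mul]; push_cast; ring
    have h11 : (m.choose (j + 1) : ℝ) * (j + 1) =
        (m.choose j : ℝ) * ((((Z ∪ Z₀)ᶜ : Finset X).card : ℝ) + 1) := by
      have h12 := Nat.choose_succ_right_eq m j
      have h13 : m - j = ((Z ∪ Z₀)ᶜ : Finset X).card + 1 := by omega
      rw [h13] at h12
      exact_mod_cast h12
    rw [← h11] at h10
    have h14 : (0 : ℝ) < (j : ℝ) + 1 := by positivity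
    have h15 : ((j : ℝ) + 1) * ((m.choose (j + 1) : ℝ) * ‖Qz Z f‖) ≤ ((j : ℝ) + 1) * ‖f‖ := by
      linarith
    exact le_of_mul_le_mul_left h15 h14

theorem choose_two_pow {K m : ℕ} (h : 2 * K ≤ m) (j : ℕ) :
    K.choose j * 2 ^ j ≤ m.choose j := by
  induction j with
  | zero => simp
  | succ j ih =>
    have h1 := Nat.choose_succ_right_eq K j
    have h2 := Nat.choose_succ_right_eq m j
    have h3 : 2 * (K - j) ≤ m - j := by omega
    have h4 : (K.choose (j + 1) * 2 ^ (j + 1)) * (j + 1) ≤ m.choose (j + 1) * (j + 1) := by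
      calc (K.choose (j + 1) * 2 ^ (j + 1)) * (j + 1)
          = (K.choose (j + 1) * (j + 1)) * 2 ^ (j + 1) := by ring
        _ = (K.choose j * 2 ^ j) * (2 * (K - j)) := by rw [h1, pow_succ]; ring
        _ ≤ m.choose j * (m - j) := Nat.mul_le_mul ih h3
        _ = m.choose (j + 1) * (j + 1) := h2.symm
    exact Nat.le_of_mul_le_mul_right h4 (Nat.succ_pos j)

theorem card_fiber_le {K : ℕ} (Z₀ : Finset X) (hZ₀ : Z₀.card = K) (j : ℕ) :
    ((powersetCard K (univ : Finset X)).filter (fun Z => (Z₀ \ Z).card = j)).card ≤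
      K.choose j * (Fintype.card X - K).choose j := by
  have e : K.choose j * (Fintype.card X - K).choose j =
      (powersetCard j Z₀ ×ˢ powersetCard j Z₀ᶜ).card := by
    rw [card_product, card_powersetCard, card_powersetCard, card_compl, hZ₀]
  rw [e]
  refine Finset.card_le_card_of_injOn (fun Z => (Z₀ \ Z, Z \ Z₀)) (fun Z hZ => ?_) ?_
  · simp only [mem_coe, mem_filter, mem_powersetCard] at hZ
    simp only [mem_coe, mem_product, mem_powersetCard]
    have h1 := card_sdiff_add_card_inter Z₀ Z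
    have h2 := card_sdiff_add_card_inter Z Z₀
    rw [inter_comm] at h2
    refine ⟨⟨sdiff_subset, hZ.2⟩, fun x hx => ?_, by omega⟩
    rw [mem_sdiff] at hx
    simpa using hx.2
  · intro Z _ Z' _ h
    simp only [Prod.mk.injEq] at h
    ext x
    have h1 := congrArg (fun s => x ∈ s) h.1
    have h2 := congrArg (fun s => x ∈ s) h.2
    simp only [mem_sdiff, eq_iff_iff] at h1 h2
    tauto

theorem sum_le {k : ℕ} (hk : 3 * (k + 1) ≤ Fintype.card X) (Z₀ : Finset X)
    (h0 : Z₀.card = k + 1) (f : EuclideanSpace ℝ (Perm X)) (hf : Qz Z₀ f = f)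
    (hU : f ∈ (U X k)ᗮ) :
    ∑ Z ∈ powersetCard (k + 1) (univ : Finset X), ‖Qz Z f‖ ^ 2 ≤ 2 * ‖f‖ ^ 2 := by
  obtain ⟨m, hm⟩ : ∃ m, m = Fintype.card X - (k + 1) := ⟨_, rfl⟩
  rw [← Finset.sum_fiberwise_of_maps_to (t := range (k + 2)) (g := fun Z => (Z₀ \ Z).card)
    (fun Z _ => by
      rw [mem_range]
      have := card_le_card (sdiff_subset (s := Z₀) (t := Z))
      omega)]
  have h1 : ∀ j ∈ range (k + 2),
      ∑ Z ∈ (powersetCard (k + 1) (univ : Finset X)).filter (fun Z => (Z₀ \ Z).card = j),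
        ‖Qz Z f‖ ^ 2 ≤ (1 / 2 : ℝ) ^ j * ‖f‖ ^ 2 := by
    intro j hj
    rw [mem_range] at hj
    have hcp : (0 : ℝ) < (m.choose j : ℝ) := by exact_mod_cast Nat.choose_pos (by omega)
    have h2 : ∀ Z ∈ (powersetCard (k + 1) (univ : Finset X)).filter
        (fun Z => (Z₀ \ Z).card = j), ‖Qz Z f‖ ^ 2 ≤ (‖f‖ / (m.choose j : ℝ)) ^ 2 := by
      intro Z hZ
      rw [mem_filter, mem_powersetCard] at hZ
      have h3 := norm_le (by omega) j Z₀ Z h0 hZ.1.2 hZ.2 f hf hU
      rw [← hm] at h3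
      have h4 : ‖Qz Z f‖ ≤ ‖f‖ / (m.choose j : ℝ) := by
        rw [le_div_iff₀ hcp]
        linarith
      exact pow_le_pow_left₀ (norm_nonneg _) h4 2
    refine (Finset.sum_le_card_nsmul _ _ _ h2).trans ?_
    rw [nsmul_eq_mul]
    have h5 : (((powersetCard (k + 1) (univ : Finset X)).filter
        (fun Z => (Z₀ \ Z).card = j)).card : ℝ) ≤
        ((k + 1).choose j : ℝ) * (m.choose j : ℝ) := by
      have := card_fiber_le (K := k + 1) Z₀ h0 j
      rw [← hm] at this
      exact_mod_cast this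
    have h6 : ((k + 1).choose j : ℝ) * 2 ^ j ≤ (m.choose j : ℝ) := by
      exact_mod_cast choose_two_pow (K := k + 1) (m := m) (by omega) j
    calc (((powersetCard (k + 1) (univ : Finset X)).filter
        (fun Z => (Z₀ \ Z).card = j)).card : ℝ) * (‖f‖ / (m.choose j : ℝ)) ^ 2
        ≤ (((k + 1).choose j : ℝ) * (m.choose j : ℝ)) * (‖f‖ / (m.choose j : ℝ)) ^ 2 :=
          mul_le_mul_of_nonneg_right h5 (by positivity)
      _ = (((k + 1).choose j : ℝ) / (m.choose j : ℝ)) * ‖f‖ ^ 2 := by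
          field_simp
      _ ≤ (1 / 2 : ℝ) ^ j * ‖f‖ ^ 2 := by
          refine mul_le_mul_of_nonneg_right ?_ (by positivity)
          rw [div_le_iff₀ hcp, one_div, inv_pow, ← div_eq_inv_mul, le_div_iff₀ (by positivity)]
          exact h6
  refine (Finset.sum_le_sum h1).trans ?_
  rw [← Finset.sum_mul]
  refine mul_le_mul_of_nonneg_right ?_ (by positivity)
  have h7 := sum_geometric_two_le (k + 2)
  simpa using h7

end E2Aux

open E2Aux

theorem E2 {k : ℕ} (hk : 3 * (k + 1) ≤ Fintype.card X) (v : EuclideanSpace ℝ (Perm X))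
    (h1 : v ∈ U X (k + 1)) (h2 : v ∈ (U X k)ᗮ) :
    ⟪Bk X (k + 1) v, v⟫ ≤ (2 / ((Fintype.card X).choose (k + 1) : ℝ)) * ‖v‖ ^ 2 := by
  refine ext_le (ι := {Z : Finset X // Z.card = k + 1}) (Bk X (k + 1)).toLinearMap
    (fun v w => Bk_symm (k + 1) v w) (U X (k + 1) ⊓ (U X k)ᗮ)
    (fun v hv => ⟨Bk_U _ hv.1, Bk_U_orth _ hv.2⟩)
    (fun Z => (Qz Z.1).toLinearMap) (fun Z v => Qz_Bk (k + 1) Z.1 v) (fun v hv h0 => ?_) _
    (fun v hv Z => ?_) v ⟨h1, h2⟩
  · have h1 : v ∈ (U X (k + 1))ᗮ := (mem_U_orth (by omega) v).2 fun Z hZ => h0 ⟨Z, hZ⟩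
    have h2 := (Submodule.mem_orthogonal _ _).1 h1 v hv.1
    exact inner_self_eq_zero.1 h2
  · obtain ⟨Z, hZ⟩ := Z
    show ⟪Bk X (k + 1) (Qz Z v), Qz Z v⟫ ≤
      (2 / ((Fintype.card X).choose (k + 1) : ℝ)) * ‖Qz Z v‖ ^ 2
    rw [inner_Bk, div_eq_inv_mul, mul_assoc]
    exact mul_le_mul_of_nonneg_left
      (sum_le hk Z hZ (Qz Z v) (Qz_idem Z v) (Qz_U_orth Z hv.2)) (by positivity)

end levels

end Vale.Agent.P162.Th
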