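import Vale.Agent.P162.ThPk
import Vale.Agent.P162.ThExt
import Vale.Agent.P162.ThE1
import Vale.Agent.P162.ThE2

/-!
# P162, `Θ(log n)`, module [G]: the level inequalities
-/

open Finset Equiv
open scoped BigOperators RealInnerProductSpace

namespace Vale.Agent.P162.Th

open DepthAux

section levels

variable {X : Type} [Fintype X] [DecidableEq X]

namespace GAux

theorem norm_Qz_sq (Z : Finset X) (v : EuclideanSpace ℝ (Perm X)) :
    ⟪Qz Z v, v⟫ = ‖Qz Z v‖ ^ 2 := by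
  rw [← real_inner_self_eq_norm_sq, ← Qz_symm, Qz_idem]

theorem Bk_inner (k : ℕ) (v : EuclideanSpace ℝ (Perm X)) :
    ⟪Bk X k v, v⟫ = ((Fintype.card X).choose k : ℝ)⁻¹ *
      ∑ Z ∈ powersetCard k (univ : Finset X), ‖Qz Z v‖ ^ 2 := by
  rw [QB.Bk_apply, real_inner_smul_left, sum_inner]
  congr 1
  exact Finset.sum_congr rfl fun Z _ => norm_Qz_sq Z v

theorem Bk_nonneg (k : ℕ) (v : EuclideanSpace ℝ (Perm X)) : 0 ≤ ⟪Bk X k v, v⟫ := by
  rw [Bk_inner]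
  positivity

theorem Bk_symm (k : ℕ) (v w : EuclideanSpace ℝ (Perm X)) :
    ⟪Bk X k v, w⟫ = ⟪v, Bk X k w⟫ := by
  rw [QB.Bk_apply, QB.Bk_apply, real_inner_smul_left, real_inner_smul_right, sum_inner, inner_sum]
  congr 1
  exact Finset.sum_congr rfl fun Z _ => Qz_symm Z v w

/-- two sets of the same cardinal are conjugate -/
theorem exists_perm {Z Z' : Finset X} (h : Z.card = Z'.card) :
    ∃ g : Perm X, Z.map g.toEmbedding = Z' := by
  have e : {x // x ∈ Z} ≃ {x // x ∈ Z'} :=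
    Fintype.equivOfCardEq (by rw [Fintype.card_coe, Fintype.card_coe, h])
  refine ⟨e.extendSubtype, ?_⟩
  apply Finset.eq_of_subset_of_card_le
  · intro y hy
    obtain ⟨x, hx, rfl⟩ := Finset.mem_map.1 hy
    exact e.extendSubtype_mem x hx
  · rw [card_map, h]

/-- the images of `Z` are equidistributed -/
theorem sum_map {k : ℕ} (φ : Finset X → ℝ) {Z₀ : Finset X} (hZ₀ : Z₀.card = k) :
    ((Fintype.card X).choose k : ℝ) * ∑ x : Perm X, φ (Z₀.map x.toEmbedding) =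
      ((Fintype.card X).factorial : ℝ) * ∑ Z ∈ powersetCard k (univ : Finset X), φ Z := by
  have h1 : ∀ Z ∈ powersetCard k (univ : Finset X),
      ∑ x : Perm X, φ (Z.map x.toEmbedding) = ∑ x : Perm X, φ (Z₀.map x.toEmbedding) := by
    intro Z hZ
    obtain ⟨g, hg⟩ := exists_perm (Z := Z₀) (Z' := Z) (by rw [hZ₀, (mem_powersetCard.1 hZ).2])
    rw [← hg]
    refine Fintype.sum_equiv (Equiv.mulRight g) _ _ fun x => ?_
    rw [Finset.map_map]
    rfl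
  have h2 : ∀ x : Perm X, ∑ Z ∈ powersetCard k (univ : Finset X), φ (Z.map x.toEmbedding) =
      ∑ Z ∈ powersetCard k (univ : Finset X), φ Z := by
    intro x
    refine Finset.sum_nbij' (fun Z => Z.map x.toEmbedding)
      (fun Z => Z.map (x⁻¹ : Perm X).toEmbedding) (fun Z hZ => ?_) (fun Z hZ => ?_)
      (fun Z _ => ?_) (fun Z _ => ?_) (fun Z _ => rfl)
    · rw [mem_powersetCard] at *
      exact ⟨subset_univ _, by rw [card_map]; exact hZ.2⟩
    · rw [mem_powersetCard] at *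
      exact ⟨subset_univ _, by rw [card_map]; exact hZ.2⟩
    · exact QB.map_inv_map x Z
    · exact QB.map_map_inv x Z
  calc ((Fintype.card X).choose k : ℝ) * ∑ x : Perm X, φ (Z₀.map x.toEmbedding)
      = ∑ Z ∈ powersetCard k (univ : Finset X), ∑ x : Perm X, φ (Z.map x.toEmbedding) := by
        rw [Finset.sum_congr rfl h1, Finset.sum_const, card_powersetCard, card_univ,
          nsmul_eq_mul]
    _ = ∑ x : Perm X, ∑ Z ∈ powersetCard k (univ : Finset X), φ (Z.map x.toEmbedding) :=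
        Finset.sum_comm
    _ = ((Fintype.card X).factorial : ℝ) * ∑ Z ∈ powersetCard k (univ : Finset X), φ Z := by
        rw [Finset.sum_congr rfl fun x _ => h2 x, Finset.sum_const, card_univ,
          Fintype.card_perm, nsmul_eq_mul]

theorem U_orth_right {k : ℕ} (h : Perm X) {v : EuclideanSpace ℝ (Perm X)} (hv : v ∈ (U X k)ᗮ) :
    rt h v ∈ (U X k)ᗮ := by
  rw [Submodule.mem_orthogonal]
  intro u hu
  rw [real_inner_comm, QB.inner_rt, real_inner_comm]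
  exact (Submodule.mem_orthogonal _ _).1 hv _ (U_right _ hu)

theorem Qz_orth {k : ℕ} (Z : Finset X) {v : EuclideanSpace ℝ (Perm X)} (hv : v ∈ (U X k)ᗮ) :
    Qz Z v ∈ (U X k)ᗮ := by
  rw [QB.Qz_apply]
  exact Submodule.smul_mem _ _ (Submodule.sum_mem _ fun g _ => U_orth_right g hv)

end GAux

open GAux

theorem G2 {k k' : ℕ} (h : k + 1 ≤ k') (h' : k' ≤ Fintype.card X)
    (v : EuclideanSpace ℝ (Perm X)) :
    ‖Pk X k v‖ ^ 2 ≤ (((Fintype.card X).choose (k + 1) : ℝ) / (k'.choose (k + 1) : ℝ)) *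
      ⟪Bk X k' v, v⟫ := by
  have h1 := E1 h h' (Pk X k v) (PkAux.Pk_mem k v)
  have hc : ∀ (g : Perm X) v, Bk X k' (rt g v) = rt g (Bk X k' v) :=
    fun g v => (rt_Bk g k' v).symm
  have h2 : ⟪Bk X k' (Pk X k v), Pk X k v⟫ ≤ ⟪Bk X k' v, v⟫ := by
    obtain ⟨w, hw⟩ : ∃ w, w = v - Pk X k v := ⟨_, rfl⟩
    have hv : v = Pk X k v + w := by rw [hw]; abel
    have hPw : Pk X k w = 0 := by
      rw [hw, map_sub, PkAux.Pk_idem, sub_self]
    have h3 : ⟪Bk X k' (Pk X k v), w⟫ = 0 := by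
      rw [← Pk_comm hc, Pk_symm, hPw, inner_zero_right]
    have h4 : ⟪Bk X k' w, Pk X k v⟫ = 0 := by
      rw [Bk_symm, real_inner_comm, h3]
    have h5 : ⟪Bk X k' v, v⟫ = ⟪Bk X k' (Pk X k v), Pk X k v⟫ + ⟪Bk X k' w, w⟫ := by
      conv_lhs => rw [hv]
      rw [map_add, inner_add_left, inner_add_right, inner_add_right, h3, h4]
      ring
    rw [h5]
    linarith [Bk_nonneg k' w]
  have hpos1 : (0 : ℝ) < ((Fintype.card X).choose (k + 1) : ℝ) := by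
    exact_mod_cast Nat.choose_pos (h.trans h')
  have hpos2 : (0 : ℝ) < (k'.choose (k + 1) : ℝ) := by
    exact_mod_cast Nat.choose_pos h
  have h6 := h1.trans h2
  rw [div_mul_eq_mul_div, div_le_iff₀ hpos1] at h6
  rw [div_mul_eq_mul_div, le_div_iff₀ hpos2]
  linarith

theorem G1 {k : ℕ} (hk : 3 * (k + 1) ≤ Fintype.card X)
    (M : EuclideanSpace ℝ (Perm X) →L[ℝ] EuclideanSpace ℝ (Perm X))
    (hM : ∀ (g : Perm X) v, M (rt g v) = rt g (M v)) (hs : ∀ v w, ⟪M v, w⟫ = ⟪v, M w⟫)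
    (w : EuclideanSpace ℝ (Perm X)) (h1 : w ∈ U X (k + 1)) (h2 : w ∈ (U X k)ᗮ) :
    ‖M w‖ ^ 2 ≤ (2 / ((Fintype.card X).choose (k + 1) : ℝ)) *
      ((Fintype.card X).factorial * ‖Pk X k (M (dl 1))‖ ^ 2) * ‖w‖ ^ 2 := by
  classical
  have hkc : k + 1 ≤ Fintype.card X := by omega
  obtain ⟨lam, hlam⟩ : ∃ lam : ℝ, lam = (2 / ((Fintype.card X).choose (k + 1) : ℝ)) *
      ((Fintype.card X).factorial * ‖Pk X k (M (dl 1))‖ ^ 2) := ⟨_, rfl⟩
  rw [← hlam]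
  have hpos1 : (0 : ℝ) < ((Fintype.card X).choose (k + 1) : ℝ) := by
    exact_mod_cast Nat.choose_pos hkc
  have hMM : ∀ v : EuclideanSpace ℝ (Perm X), ⟪(M * M) v, v⟫ = ‖M v‖ ^ 2 := by
    intro v
    show ⟪M (M v), v⟫ = ‖M v‖ ^ 2
    rw [hs, real_inner_self_eq_norm_sq]
  have hMMrt : ∀ (g : Perm X) v, (M * M) (rt g v) = rt g ((M * M) v) := by
    intro g v
    show M (M (rt g v)) = rt g (M (M v))
    rw [hM, hM]
  obtain ⟨u, hu⟩ : ∃ u, u = Pk X k (M (dl 1)) := ⟨_, rfl⟩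
  have hu1 : u ∈ U X (k + 1) := by rw [hu]; exact PkAux.Pk_mem k _
  have hu2 : u ∈ (U X k)ᗮ := by rw [hu]; exact PkAux.Pk_orth k _
  have key : ∀ v ∈ U X (k + 1) ⊓ (U X k)ᗮ, ∀ Z : {Z : Finset X // Z.card = k + 1},
      ‖M (Qz Z.1 v)‖ ^ 2 ≤ lam * ‖Qz Z.1 v‖ ^ 2 := by
    intro v hv Z
    obtain ⟨f, hf⟩ : ∃ f, f = Qz Z.1 v := ⟨_, rfl⟩
    rw [← hf]
    have hf1 : f ∈ U X (k + 1) := by rw [hf]; exact Qz_mem_U Z.2.le v
    have hf2 : f ∈ (U X k)ᗮ := by rw [hf]; exact Qz_orth _ hv.2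
    have hfQ : Qz Z.1 f = f := by rw [hf, Qz_idem]
    have hfP : Pk X k f = f := PkAux.Pk_eq_self hf1 hf2
    have hx : ∀ x : Perm X, (M f) x = ⟪f, Qz Z.1 (rt x u)⟫ := by
      intro x
      have e1 : (M f) x = ⟪dl x, M f⟫ := by
        rw [dl, EuclideanSpace.inner_single_left]
        simp
      rw [e1, real_inner_comm, hs, ← rt_dl x, hM]
      conv_lhs => rw [← hfP]
      rw [Pk_symm, PkAux.Pk_rt, ← hu]
      conv_lhs => rw [← hfQ]
      rw [Qz_symm]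
    have hn : ‖M f‖ ^ 2 ≤ ‖f‖ ^ 2 * ∑ x : Perm X, ‖Qz (Z.1.map x.toEmbedding) u‖ ^ 2 := by
      rw [EuclideanSpace.real_norm_sq_eq, Finset.mul_sum]
      refine Finset.sum_le_sum fun x _ => ?_
      rw [hx x, ← rt_Qz2]
      have h3 := abs_real_inner_le_norm f (rt x (Qz (Z.1.map x.toEmbedding) u))
      rw [LinearIsometryEquiv.norm_map] at h3
      rw [← sq_abs, ← mul_pow]
      exact pow_le_pow_left₀ (abs_nonneg _) h3 2
    have h4 := sum_map (fun Z => ‖Qz Z u‖ ^ 2) Z.2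
    have h5 := Bk_inner (k + 1) u
    have h6 := E2 hk u hu1 hu2
    have h7 : ∑ x : Perm X, ‖Qz (Z.1.map x.toEmbedding) u‖ ^ 2 =
        ((Fintype.card X).factorial : ℝ) * ⟪Bk X (k + 1) u, u⟫ := by
      rw [h5]
      field_simp
      linarith
    rw [h7] at hn
    refine hn.trans ?_
    rw [hlam, ← hu]
    have hf0 : (0 : ℝ) ≤ (Fintype.card X).factorial := Nat.cast_nonneg _
    calc ‖f‖ ^ 2 * (((Fintype.card X).factorial : ℝ) * ⟪Bk X (k + 1) u, u⟫)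
        ≤ ‖f‖ ^ 2 * (((Fintype.card X).factorial : ℝ) *
          ((2 / ((Fintype.card X).choose (k + 1) : ℝ)) * ‖u‖ ^ 2)) := by gcongr
      _ = _ := by ring
  have h3 := ext_le ((M * M : EuclideanSpace ℝ (Perm X) →L[ℝ] EuclideanSpace ℝ (Perm X)) :
      EuclideanSpace ℝ (Perm X) →ₗ[ℝ] EuclideanSpace ℝ (Perm X))
    (fun v w => by
      show ⟪M (M v), w⟫ = ⟪v, M (M w)⟫
      rw [hs, hs])
    (U X (k + 1) ⊓ (U X k)ᗮ)
    (fun v hv => ⟨PkAux.T_mem hMMrt hv.1, PkAux.T_orth hMMrt hv.2⟩)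
    (ι := {Z : Finset X // Z.card = k + 1})
    (fun Z => ((Qz Z.1 : EuclideanSpace ℝ (Perm X) →L[ℝ] EuclideanSpace ℝ (Perm X)) :
      EuclideanSpace ℝ (Perm X) →ₗ[ℝ] EuclideanSpace ℝ (Perm X)))
    (fun Z v => Qz_comm hMMrt Z.1 v)
    (fun v hv h0 => by
      have h8 : v ∈ (U X (k + 1))ᗮ := (mem_U_orth hkc v).2 fun Z hZ => h0 ⟨Z, hZ⟩
      have h9 := (Submodule.mem_orthogonal _ _).1 h8 v hv.1
      exact inner_self_eq_zero.1 h9)
    lam
    (fun v hv Z => by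
      show ⟪(M * M) (Qz Z.1 v), Qz Z.1 v⟫ ≤ lam * ‖Qz Z.1 v‖ ^ 2
      rw [hMM]
      exact key v hv Z) w ⟨h1, h2⟩
  have h4 : ⟪(M * M) w, w⟫ ≤ lam * ‖w‖ ^ 2 := h3
  rwa [hMM] at h4

end levels

end Vale.Agent.P162.Th
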