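import Mathlib

/-!
# P162, `Θ(log n)`: [SCHATTEN] a trace inequality for powers of a real matrix
-/

open Finset
open scoped BigOperators

namespace Vale.Agent.P162.Th

namespace SchattenAux

variable {ι : Type} [Fintype ι] [DecidableEq ι]

/-- cyclicity of the trace for powers of products -/
lemma trace_cyc (A B : Matrix ι ι ℝ) (m : ℕ) : ((A * B) ^ m).trace = ((B * A) ^ m).trace := by
  cases m with
  | zero => simp
  | succ m =>
    have h : ∀ m : ℕ, (A * B) ^ (m + 1) = A * ((B * A) ^ m * B) := by
      intro m
      induction m with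
      | zero => simp
      | succ m ih =>
        rw [pow_succ', ih, pow_succ' (B * A) m]
        simp only [mul_assoc]
    rw [h m, Matrix.trace_mul_comm, mul_assoc, ← pow_succ]

lemma trace_tmul_nonneg (X : Matrix ι ι ℝ) : 0 ≤ (X.transpose * X).trace := by
  unfold Matrix.trace
  refine Finset.sum_nonneg fun i _ => ?_
  simp only [Matrix.diag_apply, Matrix.mul_apply, Matrix.transpose_apply]
  exact Finset.sum_nonneg fun j _ => mul_self_nonneg _

lemma trace_sq_le (X : Matrix ι ι ℝ) : (X * X).trace ≤ (X.transpose * X).trace := by
  have h := trace_tmul_nonneg (X - X.transpose)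
  have h1 : ((X - X.transpose).transpose * (X - X.transpose)).trace =
      2 * (X.transpose * X).trace - 2 * (X * X).trace := by
    rw [Matrix.transpose_sub, Matrix.transpose_transpose, sub_mul, mul_sub, mul_sub]
    simp only [Matrix.trace_sub]
    have e1 : (X.transpose * X.transpose).trace = (X * X).trace := by
      rw [← Matrix.transpose_mul, Matrix.trace_transpose]
    have e2 : (X * X.transpose).trace = (X.transpose * X).trace := Matrix.trace_mul_comm _ _
    rw [e1, e2]
    ring
  linarith

lemma trace_mul_le (P Q : Matrix ι ι ℝ) (hP : P.transpose = P) (hQ : Q.transpose = Q)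
    (h : (P * P).trace = (Q * Q).trace) : (P * Q).trace ≤ (P * P).trace := by
  have h0 := trace_tmul_nonneg (P - Q)
  have h1 : ((P - Q).transpose * (P - Q)).trace =
      (P * P).trace + (Q * Q).trace - 2 * (P * Q).trace := by
    rw [Matrix.transpose_sub, hP, hQ, sub_mul, mul_sub, mul_sub]
    simp only [Matrix.trace_sub]
    have e2 : (Q * P).trace = (P * Q).trace := Matrix.trace_mul_comm _ _
    rw [e2]
    ring
  linarith

lemma key (j : ℕ) :
    (∀ X : Matrix ι ι ℝ, (X ^ (2 ^ (j + 1))).trace ≤ ((X.transpose * X) ^ (2 ^ j)).trace) ∧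
    (∀ A B : Matrix ι ι ℝ, A.transpose = A → B.transpose = B →
      ((A * B) ^ (2 ^ j)).trace ≤ (A ^ (2 ^ j) * B ^ (2 ^ j)).trace) := by
  induction j with
  | zero =>
    refine ⟨fun X => ?_, fun A B _ _ => by simp⟩
    have := trace_sq_le X
    simpa [pow_two] using this
  | succ j ih =>
    obtain ⟨hS, hT⟩ := ih
    constructor
    · intro X
      have h1 := hS (X * X)
      have e1 : (X * X) ^ (2 ^ (j + 1)) = X ^ (2 ^ (j + 1 + 1)) := by
        rw [← pow_two, ← pow_mul, ← pow_succ']
      have e2 : (((X * X).transpose * (X * X)) ^ (2 ^ j)).trace =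
          (((X.transpose * X) * (X * X.transpose)) ^ (2 ^ j)).trace := by
        rw [Matrix.transpose_mul,
          show X.transpose * X.transpose * (X * X) = X.transpose * (X.transpose * X * X) by
            simp only [mul_assoc], trace_cyc,
          show X.transpose * X * X * X.transpose = (X.transpose * X) * (X * X.transpose) by
            simp only [mul_assoc]]
      have hsA : (X.transpose * X).transpose = X.transpose * X := by
        rw [Matrix.transpose_mul, Matrix.transpose_transpose]
      have hsB : (X * X.transpose).transpose = X * X.transpose := by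
        rw [Matrix.transpose_mul, Matrix.transpose_transpose]
      have h2 := hT (X.transpose * X) (X * X.transpose) hsA hsB
      have h3 := trace_mul_le ((X.transpose * X) ^ (2 ^ j)) ((X * X.transpose) ^ (2 ^ j))
        (by rw [Matrix.transpose_pow, hsA]) (by rw [Matrix.transpose_pow, hsB]) (by
          rw [← pow_add, ← pow_add]
          exact trace_cyc _ _ _)
      have e3 : (X.transpose * X) ^ (2 ^ j) * (X.transpose * X) ^ (2 ^ j) =
          (X.transpose * X) ^ (2 ^ (j + 1)) := by
        rw [← pow_add, pow_succ]
        congr 1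
        ring
      rw [e1, e2] at h1
      rw [e3] at h3
      exact h1.trans (h2.trans h3)
    · intro A B hA hB
      have h1 := hS (A * B)
      have e2 : (((A * B).transpose * (A * B)) ^ (2 ^ j)).trace =
          (((A * A) * (B * B)) ^ (2 ^ j)).trace := by
        rw [Matrix.transpose_mul, hA, hB,
          show B * A * (A * B) = B * (A * A * B) by simp only [mul_assoc], trace_cyc,
          show A * A * B * B = (A * A) * (B * B) by simp only [mul_assoc]]
      have h2 := hT (A * A) (B * B) (by rw [Matrix.transpose_mul, hA])
        (by rw [Matrix.transpose_mul, hB])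
      have e3 : ∀ C : Matrix ι ι ℝ, (C * C) ^ (2 ^ j) = C ^ (2 ^ (j + 1)) := by
        intro C
        rw [← pow_two, ← pow_mul, ← pow_succ']
      rw [e3, e3] at h2
      rw [e2] at h1
      exact h1.trans h2

/-- one doubling step -/
lemma step (X : Matrix ι ι ℝ) (t : ℕ) :
    (((X * X).transpose * (X * X)) ^ (2 ^ t)).trace ≤
      ((X.transpose * X) ^ (2 ^ (t + 1))).trace := by
  have e2 : (((X * X).transpose * (X * X)) ^ (2 ^ t)).trace =
      (((X.transpose * X) * (X * X.transpose)) ^ (2 ^ t)).trace := by
    rw [Matrix.transpose_mul,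
      show X.transpose * X.transpose * (X * X) = X.transpose * (X.transpose * X * X) by
        simp only [mul_assoc], trace_cyc,
      show X.transpose * X * X * X.transpose = (X.transpose * X) * (X * X.transpose) by
        simp only [mul_assoc]]
  have hsA : (X.transpose * X).transpose = X.transpose * X := by
    rw [Matrix.transpose_mul, Matrix.transpose_transpose]
  have hsB : (X * X.transpose).transpose = X * X.transpose := by
    rw [Matrix.transpose_mul, Matrix.transpose_transpose]
  have h2 := (key t).2 (X.transpose * X) (X * X.transpose) hsA hsB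
  have h3 := trace_mul_le ((X.transpose * X) ^ (2 ^ t)) ((X * X.transpose) ^ (2 ^ t))
    (by rw [Matrix.transpose_pow, hsA]) (by rw [Matrix.transpose_pow, hsB]) (by
      rw [← pow_add, ← pow_add]
      exact trace_cyc _ _ _)
  have e3 : (X.transpose * X) ^ (2 ^ t) * (X.transpose * X) ^ (2 ^ t) =
      (X.transpose * X) ^ (2 ^ (t + 1)) := by
    rw [← pow_add, pow_succ]
    congr 1
    ring
  rw [e3] at h3
  rw [e2]
  exact h2.trans h3

end SchattenAux

open SchattenAux in
theorem schatten {ι : Type} [Fintype ι] [DecidableEq ι] (A : Matrix ι ι ℝ) (s : ℕ) :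
    ((A ^ (2 ^ s)).transpose * A ^ (2 ^ s)).trace ≤ ((A.transpose * A) ^ (2 ^ s)).trace := by
  have h : ∀ s t : ℕ, (((A ^ (2 ^ s)).transpose * A ^ (2 ^ s)) ^ (2 ^ t)).trace ≤
      ((A.transpose * A) ^ (2 ^ (s + t))).trace := by
    intro s
    induction s with
    | zero => intro t; simp
    | succ s ih =>
      intro t
      have h1 := step (A ^ (2 ^ s)) t
      have h2 := ih (t + 1)
      have e : A ^ (2 ^ (s + 1)) = A ^ (2 ^ s) * A ^ (2 ^ s) := by
        rw [← pow_add, pow_succ]
        congr 1
        ring
      rw [e]
      refine h1.trans (h2.trans (le_of_eq ?_))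
      rw [show s + (t + 1) = s + 1 + t by ring]
  have := h s 0
  simpa using this

end Vale.Agent.P162.Th
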