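import Vale.Agent.P162.ThPk
import Vale.Agent.P162.ThSchatten

/-!
# P162, `Θ(log n)`, module [SCOP]: the Schatten inequality on one level
-/

open Finset Equiv
open scoped BigOperators RealInnerProductSpace

namespace Vale.Agent.P162.Th

open DepthAux

namespace ScopAux

variable {X : Type} [Fintype X] [DecidableEq X]

/-- shorthand for the space -/
abbrev EE (X : Type) [Fintype X] [DecidableEq X] := EuclideanSpace ℝ (Perm X)

/-- matrix of an operator -/
noncomputable def mat (T : EE X →L[ℝ] EE X) : Matrix (Perm X) (Perm X) ℝ :=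
  fun i j => T (dl j) i

theorem inner_dl (g : Perm X) (v : EE X) : ⟪dl g, v⟫ = v g := by
  rw [dl, EuclideanSpace.inner_single_left]
  simp

theorem mat_mul (S T : EE X →L[ℝ] EE X) : mat (S * T) = mat S * mat T := by
  ext i j
  rw [Matrix.mul_apply]
  show S (T (dl j)) i = _
  conv_lhs => rw [QB.sum_dl (T (dl j)), map_sum]
  simp only [WithLp.ofLp_sum, Finset.sum_apply, map_smul, WithLp.ofLp_smul, Pi.smul_apply,
    smul_eq_mul]
  refine Finset.sum_congr rfl fun g _ => ?_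
  rw [mul_comm]
  rfl

theorem mat_one : mat (1 : EE X →L[ℝ] EE X) = 1 := by
  ext i j
  show (dl j : EE X) i = _
  rw [Matrix.one_apply]
  simp [dl, PiLp.single_apply]

theorem mat_pow (T : EE X →L[ℝ] EE X) (m : ℕ) : mat (T ^ m) = mat T ^ m := by
  induction m with
  | zero => rw [pow_zero, pow_zero, mat_one]
  | succ m ih => rw [pow_succ, pow_succ, mat_mul, ih]

theorem mat_transpose {T S : EE X →L[ℝ] EE X} (h : ∀ v w, ⟪T v, w⟫ = ⟪v, S w⟫) :
    (mat T).transpose = mat S := by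
  ext i j
  rw [Matrix.transpose_apply]
  show T (dl i) j = S (dl j) i
  rw [← inner_dl j, ← inner_dl i, real_inner_comm, h]

theorem mat_trace (T : EE X →L[ℝ] EE X) : (mat T).trace = ∑ g : Perm X, ⟪dl g, T (dl g)⟫ := by
  rw [Matrix.trace]
  refine Finset.sum_congr rfl fun g _ => ?_
  rw [inner_dl]
  rfl

/-- operators commuting with the right translations: all the diagonal entries are equal -/
theorem sum_norm {T : EE X →L[ℝ] EE X} (hT : ∀ (g : Perm X) v, T (rt g v) = rt g (T v)) :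
    ∑ g : Perm X, ‖T (dl g)‖ ^ 2 = (Fintype.card (Perm X) : ℝ) * ‖T (dl 1)‖ ^ 2 := by
  have h1 : ∀ g : Perm X, ‖T (dl g)‖ ^ 2 = ‖T (dl 1)‖ ^ 2 := by
    intro g
    rw [← rt_dl g, hT, LinearIsometryEquiv.norm_map]
  rw [Finset.sum_congr rfl fun g _ => h1 g, Finset.sum_const, nsmul_eq_mul, Finset.card_univ]

theorem reg_rt (g h : Perm X) (v : EE X) : regRep X g (rt h v) = rt h (regRep X g v) := by
  ext x
  rw [rt_apply, regRep_apply, regRep_apply, rt_apply, mul_assoc]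

theorem avg_rt {κ : Type} [Fintype κ] (f : κ → Perm X) (g : Perm X) (v : EE X) :
    avg (regRep X) f (rt g v) = rt g (avg (regRep X) f v) := by
  rw [avg_apply, avg_apply, map_smul, map_sum]
  rfl

theorem avg_adj {κ : Type} [Fintype κ] (f : κ → Perm X) (v w : EE X) :
    ⟪avg (regRep X) f v, w⟫ = ⟪v, avg (regRep X) (fun c => (f c)⁻¹) w⟫ := by
  rw [avg_apply, avg_apply, real_inner_smul_left, real_inner_smul_right, sum_inner, inner_sum]
  congr 1
  exact Finset.sum_congr rfl fun c _ => regRep_isom.inner_left _ _ _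

theorem mul_rt {S T : EE X →L[ℝ] EE X} (hS : ∀ (g : Perm X) v, S (rt g v) = rt g (S v))
    (hT : ∀ (g : Perm X) v, T (rt g v) = rt g (T v)) (g : Perm X) (v : EE X) :
    (S * T) (rt g v) = rt g ((S * T) v) := by
  show S (T (rt g v)) = rt g (S (T v))
  rw [hT, hS]

theorem pow_rt {T : EE X →L[ℝ] EE X} (hT : ∀ (g : Perm X) v, T (rt g v) = rt g (T v)) (m : ℕ) :
    ∀ (g : Perm X) (v : EE X), (T ^ m) (rt g v) = rt g ((T ^ m) v) := by
  induction m with
  | zero => intro g v; rfl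
  | succ m ih =>
    intro g v
    rw [pow_succ]
    exact mul_rt ih hT g v

theorem symm_pow {T : EE X →L[ℝ] EE X} (hT : ∀ v w, ⟪T v, w⟫ = ⟪v, T w⟫) (m : ℕ) :
    ∀ v w, ⟪(T ^ m) v, w⟫ = ⟪v, (T ^ m) w⟫ := by
  induction m with
  | zero => intro v w; rfl
  | succ m ih =>
    intro v w
    have e1 : (T ^ (m + 1)) v = (T ^ m) (T v) := by rw [pow_succ]; rfl
    have e2 : (T ^ (m + 1)) w = T ((T ^ m) w) := by rw [pow_succ']; rfl
    rw [e1, e2, ih, hT]

theorem trace_tmul (T : EE X →L[ℝ] EE X) :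
    ((mat T).transpose * mat T).trace = ∑ g : Perm X, ‖T (dl g)‖ ^ 2 := by
  rw [Matrix.trace]
  refine Finset.sum_congr rfl fun g _ => ?_
  rw [Matrix.diag_apply, Matrix.mul_apply, EuclideanSpace.real_norm_sq_eq]
  refine Finset.sum_congr rfl fun i _ => ?_
  rw [Matrix.transpose_apply, sq]
  rfl

end ScopAux

open ScopAux in
theorem schatten_level {X : Type} [Fintype X] [DecidableEq X] {κ : Type} [Fintype κ]
    [Nonempty κ] (f : κ → Perm X) (k s : ℕ) :
    ‖(avg (regRep X) f ^ (2 ^ (s + 1))) (Pk X k (dl 1))‖ ^ 2 ≤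
      ‖((avg (regRep X) (fun a : κ × κ => (f a.1)⁻¹ * f a.2)) ^ (2 ^ s)) (Pk X k (dl 1))‖ ^ 2 := by
  set R := avg (regRep X) f with hR
  set R' := avg (regRep X) (fun c => (f c)⁻¹) with hR'
  set K := avg (regRep X) (fun a : κ × κ => (f a.1)⁻¹ * f a.2) with hK
  set P := Pk X k with hP
  have hKR : K = R' * R := by
    rw [hK, hR, hR', avg_mul]
  have hRrt : ∀ (g : Perm X) v, R (rt g v) = rt g (R v) := avg_rt f
  have hR'rt : ∀ (g : Perm X) v, R' (rt g v) = rt g (R' v) := avg_rt _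
  have hKrt : ∀ (g : Perm X) v, K (rt g v) = rt g (K v) := avg_rt _
  have hPrt : ∀ (g : Perm X) v, P (rt g v) = rt g (P v) := PkAux.Pk_rt k
  have hadj : ∀ v w, ⟪R v, w⟫ = ⟪v, R' w⟫ := avg_adj f
  have hadj' : ∀ v w, ⟪R' v, w⟫ = ⟪v, R w⟫ := by
    intro v w
    rw [real_inner_comm, ← hadj, real_inner_comm]
  have hKs : ∀ v w, ⟪K v, w⟫ = ⟪v, K w⟫ := by
    intro v w
    rw [hKR]
    show ⟪R' (R v), w⟫ = ⟪v, R' (R w)⟫
    rw [hadj', hadj]
  have hPP : P * P = P := by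
    ext1 v
    exact PkAux.Pk_idem k v
  have hcR : Commute R P := by
    show R * P = P * R
    ext1 v
    exact (Pk_comm hRrt v).symm
  have hcK : Commute K P := by
    show K * P = P * K
    ext1 v
    exact (Pk_comm hKrt v).symm
  have hPpow : ∀ m : ℕ, P ^ (2 ^ m) = P := by
    intro m
    induction m with
    | zero => simp
    | succ m ih => rw [pow_succ, pow_mul, ih, sq, hPP]
  have h1 := schatten (mat (R * P)) (s + 1)
  have e1 : ((mat (R * P)) ^ (2 ^ (s + 1))).transpose * (mat (R * P)) ^ (2 ^ (s + 1)) =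
      (mat (R ^ (2 ^ (s + 1)) * P)).transpose * mat (R ^ (2 ^ (s + 1)) * P) := by
    rw [← mat_pow, hcR.mul_pow, hPpow]
  have e2 : (mat (R * P)).transpose = mat (P * R') := by
    refine mat_transpose fun v w => ?_
    show ⟪R (P v), w⟫ = ⟪v, P (R' w)⟫
    rw [hadj, hP, Pk_symm]
  have e3 : (mat (R * P)).transpose * mat (R * P) = mat (K * P) := by
    rw [e2, ← mat_mul]
    congr 1
    rw [hKR, mul_assoc P R', ← mul_assoc R' R P, ← hKR, hcK.eq, ← mul_assoc, hPP]
  rw [e1, e3, trace_tmul, ← mat_pow, hcK.mul_pow, hPpow, mat_trace,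
    sum_norm (mul_rt (pow_rt hRrt _) hPrt)] at h1
  have e4 : ∀ g : Perm X, ⟪dl g, (K ^ (2 ^ (s + 1)) * P) (dl g)⟫ =
      ‖(K ^ (2 ^ s) * P) (dl g)‖ ^ 2 := by
    intro g
    have e5 : K ^ (2 ^ (s + 1)) * P = P * K ^ (2 ^ s) * (K ^ (2 ^ s) * P) := by
      have h7 : Commute ((K ^ (2 ^ s)) ^ 2) P := (hcK.pow_left _).pow_left 2
      rw [pow_succ 2 s, pow_mul, mul_assoc P, ← mul_assoc (K ^ (2 ^ s)) _ P, ← sq,
        ← mul_assoc P, ← h7.eq, mul_assoc, hPP]
    rw [e5]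
    show ⟪dl g, P ((K ^ (2 ^ s)) ((K ^ (2 ^ s)) (P (dl g))))⟫ = ‖(K ^ (2 ^ s)) (P (dl g))‖ ^ 2
    rw [hP, ← Pk_symm, ← symm_pow hKs, real_inner_self_eq_norm_sq]
  rw [Finset.sum_congr rfl fun g _ => e4 g, sum_norm (mul_rt (pow_rt hKrt _) hPrt)] at h1
  have hc : (0 : ℝ) < (Fintype.card (Perm X) : ℝ) := by exact_mod_cast Fintype.card_pos
  exact le_of_mul_le_mul_left h1 hc

end Vale.Agent.P162.Th
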