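import Vale.Agent.P162.ThKer
import Vale.Agent.P162.ThG
import Vale.Agent.P162.ThScop
import Vale.Agent.P162.ThCalc

/-!
# P162, `Θ(log n)`: from the moments of the kernel to the `L²` distance
-/

open Finset Equiv
open scoped BigOperators RealInnerProductSpace

namespace Vale.Agent.P162.Th

open DepthAux

namespace AbsAux

variable {X : Type} [Fintype X] [DecidableEq X]

lemma reg_rt (g h : Perm X) (v : EuclideanSpace ℝ (Perm X)) :
    regRep X g (rt h v) = rt h (regRep X g v) := by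
  ext x
  rw [regRep_apply, rt_apply, rt_apply, regRep_apply, mul_assoc]

lemma avg_rt {κ : Type} [Fintype κ] (f : κ → Perm X) (h : Perm X)
    (v : EuclideanSpace ℝ (Perm X)) :
    avg (regRep X) f (rt h v) = rt h (avg (regRep X) f v) := by
  rw [avg_apply, avg_apply, map_smul, map_sum]
  simp only [reg_rt]

lemma pow_rt {T : EuclideanSpace ℝ (Perm X) →L[ℝ] EuclideanSpace ℝ (Perm X)}
    (hT : ∀ (g : Perm X) v, T (rt g v) = rt g (T v)) (m : ℕ) :
    ∀ (g : Perm X) v, (T ^ m) (rt g v) = rt g ((T ^ m) v) := by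
  induction m with
  | zero => intro g v; rfl
  | succ m ih =>
    intro g v
    rw [pow_succ']
    show T ((T ^ m) (rt g v)) = rt g (T ((T ^ m) v))
    rw [ih, hT]

section gen

variable {V : Type*} [NormedAddCommGroup V] [InnerProductSpace ℝ V]

lemma pow_symm {T : V →L[ℝ] V} (hT : ∀ v w, ⟪T v, w⟫ = ⟪v, T w⟫) (m : ℕ) :
    ∀ v w, ⟪(T ^ m) v, w⟫ = ⟪v, (T ^ m) w⟫ := by
  induction m with
  | zero => intro v w; rfl
  | succ m ih =>
    intro v w
    rw [pow_succ]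
    show ⟪(T ^ m) (T v), w⟫ = ⟪v, (T ^ m) (T w)⟫
    rw [ih, hT]
    have : T ((T ^ m) w) = (T ^ m) (T w) := by
      have h1 : T * T ^ m = T ^ m * T := by rw [← pow_succ', pow_succ]
      exact congrArg (fun S : V →L[ℝ] V => S w) h1
    rw [this]

/-- log-convexity of the moments -/
lemma moments {T : V →L[ℝ] V} (hT : ∀ v w, ⟪T v, w⟫ = ⟪v, T w⟫) (h0 : ∀ v, 0 ≤ ⟪T v, v⟫)
    (w : V) (j : ℕ) :
    ⟪T w, w⟫ ^ (2 ^ j) ≤ ‖(T ^ (2 ^ j)) w‖ * ‖w‖ ^ (2 ^ (j + 1) - 1) := by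
  induction j with
  | zero =>
    have h1 := real_inner_le_norm (T w) w
    simpa using h1
  | succ j ih =>
    have h1 : ‖(T ^ (2 ^ j)) w‖ ^ 2 ≤ ‖(T ^ (2 ^ (j + 1))) w‖ * ‖w‖ := by
      rw [← real_inner_self_eq_norm_sq, pow_symm hT]
      have h2 : (T ^ (2 ^ j)) ((T ^ (2 ^ j)) w) = (T ^ (2 ^ (j + 1))) w := by
        have h3 : T ^ (2 ^ j) * T ^ (2 ^ j) = T ^ (2 ^ (j + 1)) := by
          rw [← pow_add]
          congr 1
          rw [pow_succ]
          ring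
        exact congrArg (fun S : V →L[ℝ] V => S w) h3
      rw [h2, real_inner_comm]
      exact real_inner_le_norm _ _
    have h2 : (⟪T w, w⟫ ^ (2 ^ j)) ^ 2 ≤
        (‖(T ^ (2 ^ j)) w‖ * ‖w‖ ^ (2 ^ (j + 1) - 1)) ^ 2 :=
      pow_le_pow_left₀ (pow_nonneg (h0 w) _) ih 2
    have h3 : 1 ≤ 2 ^ (j + 1) := Nat.one_le_two_pow
    calc ⟪T w, w⟫ ^ (2 ^ (j + 1)) = (⟪T w, w⟫ ^ (2 ^ j)) ^ 2 := by
          rw [← pow_mul]
          congr 1
      _ ≤ _ := h2
      _ = ‖(T ^ (2 ^ j)) w‖ ^ 2 * (‖w‖ ^ (2 ^ (j + 1) - 1)) ^ 2 := by ring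
      _ ≤ (‖(T ^ (2 ^ (j + 1))) w‖ * ‖w‖) * (‖w‖ ^ (2 ^ (j + 1) - 1)) ^ 2 :=
          mul_le_mul_of_nonneg_right h1 (by positivity)
      _ = ‖(T ^ (2 ^ (j + 1))) w‖ * ‖w‖ ^ (2 ^ (j + 1 + 1) - 1) := by
          rw [mul_assoc, ← pow_mul, ← pow_succ']
          congr 2
          rw [pow_succ 2 (j + 1)]
          omega

end gen

variable {κ : Type} [Fintype κ] [Nonempty κ] (f : κ → Perm X)

/-- `K = R* R` -/
noncomputable def KK : EuclideanSpace ℝ (Perm X) →L[ℝ] EuclideanSpace ℝ (Perm X) :=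
  avg (regRep X) (fun a : κ × κ => (f a.1)⁻¹ * f a.2)

lemma KK_inner (v w : EuclideanSpace ℝ (Perm X)) :
    ⟪KK f v, w⟫ = ⟪avg (regRep X) f v, avg (regRep X) f w⟫ := by
  have h1 : KK f = avg (regRep X) (fun c => (f c)⁻¹) * avg (regRep X) f := by
    rw [avg_mul]
    rfl
  have h2 : ∀ x y : EuclideanSpace ℝ (Perm X),
      ⟪avg (regRep X) (fun c => (f c)⁻¹) x, y⟫ = ⟪x, avg (regRep X) f y⟫ := by
    intro x y
    rw [avg_apply, avg_apply, inner_smul_left, inner_smul_right, sum_inner, inner_sum]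
    simp only [conj_trivial]
    congr 1
    refine Finset.sum_congr rfl fun c _ => ?_
    rw [regRep_isom.inner_left, inv_inv]
  rw [h1]
  exact h2 _ _

lemma KK_symm (v w : EuclideanSpace ℝ (Perm X)) : ⟪KK f v, w⟫ = ⟪v, KK f w⟫ := by
  rw [KK_inner, real_inner_comm, ← KK_inner, real_inner_comm]

lemma KK_self (v : EuclideanSpace ℝ (Perm X)) : ⟪KK f v, v⟫ = ‖avg (regRep X) f v‖ ^ 2 := by
  rw [KK_inner, real_inner_self_eq_norm_sq]

lemma pow_split (T : EuclideanSpace ℝ (Perm X) →L[ℝ] EuclideanSpace ℝ (Perm X)) (a b : ℕ)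
    (v : EuclideanSpace ℝ (Perm X)) : (T ^ (a + b)) v = (T ^ a) ((T ^ b) v) := by
  rw [pow_add]; rfl

lemma norm_pow_le (c : ℕ) (v : EuclideanSpace ℝ (Perm X)) :
    ‖(avg (regRep X) f ^ c) v‖ ^ 2 ≤ ‖v‖ ^ 2 := by
  induction c with
  | zero => simp
  | succ c ih =>
    rw [pow_succ' (avg (regRep X) f)]
    show ‖avg (regRep X) f ((avg (regRep X) f ^ c) v)‖ ^ 2 ≤ _
    refine le_trans ?_ ih
    exact pow_le_pow_left₀ (norm_nonneg _) (avg_norm_le regRep_isom f _) 2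

/-- iterated contraction -/
lemma iter {k N : ℕ} {lam : ℝ} (hl : 0 ≤ lam)
    (h : ∀ w ∈ U X (k + 1), w ∈ (U X k)ᗮ →
      (‖avg (regRep X) f w‖ ^ 2) ^ N ≤ lam * (‖w‖ ^ 2) ^ N)
    (w : EuclideanSpace ℝ (Perm X)) (h1 : w ∈ U X (k + 1)) (h2 : w ∈ (U X k)ᗮ) (j : ℕ) :
    (‖(avg (regRep X) f ^ j) w‖ ^ 2) ^ N ≤ lam ^ j * (‖w‖ ^ 2) ^ N := by
  induction j with
  | zero => simp
  | succ j ih =>
    have h3 := h _ (Rpow_mem f j h1) (Rpow_orth f j h2)
    rw [pow_succ' (avg (regRep X) f)]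
    show (‖avg (regRep X) f ((avg (regRep X) f ^ j) w)‖ ^ 2) ^ N ≤ _
    refine h3.trans ?_
    rw [pow_succ' lam, mul_assoc]
    exact mul_le_mul_of_nonneg_left ih hl

lemma Pk_mem (k : ℕ) (v : EuclideanSpace ℝ (Perm X)) : Pk X k v ∈ U X (k + 1) := by
  unfold Pk
  exact Submodule.sub_mem _ (Submodule.starProjection_apply_mem _ _)
    (U_mono k (Submodule.starProjection_apply_mem _ _))

lemma Pk_orth (k : ℕ) (v : EuclideanSpace ℝ (Perm X)) : Pk X k v ∈ (U X k)ᗮ := by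
  have e : Pk X k v = (v - (U X k).starProjection v) - (v - (U X (k + 1)).starProjection v) := by
    unfold Pk
    show (U X (k + 1)).starProjection v - (U X k).starProjection v = _
    abel
  rw [e]
  refine Submodule.sub_mem _ (Submodule.sub_starProjection_mem_orthogonal _) ?_
  exact Submodule.orthogonal_le (U_mono k) (Submodule.sub_starProjection_mem_orthogonal _)

/-- orthogonal decomposition -/
lemma decomp (c : ℕ) (v : EuclideanSpace ℝ (Perm X)) (N : ℕ) :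
    ‖(avg (regRep X) f ^ c) ((U X N).starProjection v - (U X 0).starProjection v)‖ ^ 2 =
      ∑ k ∈ Finset.range N, ‖(avg (regRep X) f ^ c) (Pk X k v)‖ ^ 2 := by
  induction N with
  | zero => simp
  | succ N ih =>
    have e1 : (U X (N + 1)).starProjection v - (U X 0).starProjection v =
        ((U X N).starProjection v - (U X 0).starProjection v) + Pk X N v := by
      unfold Pk
      show _ = _ + ((U X (N + 1)).starProjection v - (U X N).starProjection v)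
      abel
    have hu : (U X N).starProjection v - (U X 0).starProjection v ∈ U X N :=
      Submodule.sub_mem _ (Submodule.starProjection_apply_mem _ _)
        (U_mono' (Nat.zero_le N) (Submodule.starProjection_apply_mem _ _))
    rw [e1, map_add, norm_add_sq_of_mem (Rpow_mem f c hu) (Rpow_orth f c (Pk_orth N v)), ih,
      Finset.sum_range_succ]

end AbsAux

open AbsAux

theorem core_abs (s : ℕ) (C : ℝ) (t₁ : ℕ) (X : Type) [Fintype X] [DecidableEq X]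
    (hcalc : ∀ a : ℕ → ℝ,
      (∀ k k' : ℕ, 1 ≤ k → 3 * k ≤ Fintype.card X → k ≤ k' → k' ≤ Fintype.card X →
        a k ≤ (((Fintype.card X).choose k : ℝ) / (k'.choose k : ℝ)) *
          Real.exp (C * (k' : ℝ) ^ 2 / Fintype.card X) *
          ((2 / (k'.choose k : ℝ)) * Real.exp (C * (k' : ℝ) ^ 2 / Fintype.card X)) ^ 3) →
      (∀ k : ℕ, 1 ≤ k → k ≤ Fintype.card X →
        a k ≤ Real.exp (C * Fintype.card X) * Real.exp (-(t₁ * k / 80))) →
      ∑ k ∈ Finset.Icc 1 (Fintype.card X), a k ≤ 1 / 4)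
    (hn1 : 1 ≤ Fintype.card X) (κ : Type) [Fintype κ] [Nonempty κ] (f : κ → Perm X) (β : ℝ)
    (hβ : 1 / 40 ≤ β) (hgood : Good f β)
    (htr : ∀ k ≤ Fintype.card X,
      ((kerM k (fun a : κ × κ => (f a.1)⁻¹ * f a.2)) ^ (2 * 2 ^ s)).trace ≤
      Real.exp (C * (k : ℝ) ^ 2 / Fintype.card X)) :
    ((Fintype.card X).factorial : ℝ) *
      ‖((avg (regRep X) f) ^ (t₁ + (2 ^ (s + 1) * 3 + 2 ^ (s + 1))))
        (EuclideanSpace.single (1 : Perm X) (1 : ℝ) -
        (WithLp.toLp 2 fun _ => (1 : ℝ) / (Fintype.card X).factorial))‖ ^ 2 ≤ 1 / 4 := by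
  set n := Fintype.card X with hn_def
  have hnR : (1 : ℝ) ≤ n := by exact_mod_cast hn1
  have hfac : (0 : ℝ) < n.factorial := by exact_mod_cast Nat.factorial_pos _
  obtain ⟨m, hm⟩ : ∃ m, m = 2 ^ s := ⟨_, rfl⟩
  obtain ⟨N, hN⟩ : ∃ N, N = 2 ^ (s + 1) := ⟨_, rfl⟩
  have hN2 : N = 2 * m := by rw [hN, hm, pow_succ]; ring
  have hN1 : 1 ≤ N := by rw [hN]; exact Nat.one_le_two_pow
  -- the basic estimate
  have key : ∀ k k' : ℕ, k + 1 ≤ k' → k' ≤ n →
      (n.factorial : ℝ) * ‖Pk X k ((KK f ^ m) (dl 1))‖ ^ 2 ≤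
        ((n.choose (k + 1) : ℝ) / (k'.choose (k + 1) : ℝ)) *
          Real.exp (C * (k' : ℝ) ^ 2 / n) := by
    intro k k' h h'
    have h1 := G2 h h' ((KK f ^ m) (dl 1))
    have h2 := trace_ker f k' m h'
    have h3 := htr k' h'
    have hc : (0 : ℝ) ≤ (n.choose (k + 1) : ℝ) / (k'.choose (k + 1) : ℝ) := by positivity
    calc (n.factorial : ℝ) * ‖Pk X k ((KK f ^ m) (dl 1))‖ ^ 2
        ≤ (n.factorial : ℝ) * (((n.choose (k + 1) : ℝ) / (k'.choose (k + 1) : ℝ)) *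
          ⟪Bk X k' ((KK f ^ m) (dl 1)), (KK f ^ m) (dl 1)⟫) :=
          mul_le_mul_of_nonneg_left h1 hfac.le
      _ = ((n.choose (k + 1) : ℝ) / (k'.choose (k + 1) : ℝ)) *
          ((n.factorial : ℝ) * ⟪Bk X k' ((KK f ^ m) (dl 1)), (KK f ^ m) (dl 1)⟫) := by ring
      _ ≤ _ := by
          apply mul_le_mul_of_nonneg_left _ hc
          have h4 : (n.factorial : ℝ) * ⟪Bk X k' ((KK f ^ m) (dl 1)), (KK f ^ m) (dl 1)⟫ =
            ((kerM k' (fun a : κ × κ => (f a.1)⁻¹ * f a.2)) ^ (2 * m)).trace := h2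
          rw [h4, hm]
          exact h3
  have hKrt : ∀ (g : Perm X) v, (KK f) (rt g v) = rt g ((KK f) v) := fun g v => avg_rt _ g v
  -- first `N` passes
  have first : ∀ k : ℕ, ‖(avg (regRep X) f ^ N) (Pk X k (dl 1))‖ ^ 2 ≤
      ‖Pk X k ((KK f ^ m) (dl 1))‖ ^ 2 := by
    intro k
    have h1 := schatten_level f k s
    rw [← hN, ← hm] at h1
    rw [Pk_comm (pow_rt hKrt m)]
    exact h1
  have h0 : (U X n).starProjection (dl 1) = dl 1 := by
    rw [Submodule.starProjection_eq_self_iff, hn_def, U_top]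
    trivial
  rw [← hN]
  have hdec := decomp f (t₁ + (N * 3 + N)) (dl 1) n
  rw [h0, P0_dl] at hdec
  have hdec2 : (n.factorial : ℝ) * ‖((avg (regRep X) f) ^ (t₁ + (N * 3 + N)))
      (EuclideanSpace.single (1 : Perm X) (1 : ℝ) -
        (WithLp.toLp 2 fun _ => (1 : ℝ) / n.factorial))‖ ^ 2 =
      ∑ k ∈ Finset.Icc 1 n, (n.factorial : ℝ) *
        ‖(avg (regRep X) f ^ (t₁ + (N * 3 + N))) (Pk X (k - 1) (dl 1))‖ ^ 2 := by
    rw [← Finset.mul_sum]
    congr 1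
    refine hdec.trans ?_
    have h5 : Finset.Icc 1 n = (Finset.range n).image (fun k => k + 1) := by
      ext k
      rw [Finset.mem_Icc, Finset.mem_image]
      constructor
      · intro h
        exact ⟨k - 1, Finset.mem_range.2 (by omega), by omega⟩
      · rintro ⟨j, hj, rfl⟩
        rw [Finset.mem_range] at hj
        omega
    rw [h5, Finset.sum_image (fun a _ b _ h => by simpa using h)]
    rfl
  rw [hdec2]
  apply hcalc
  · intro k k' hk1 hk3 hkk' hk'n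
    obtain ⟨k, rfl⟩ : ∃ j, k = j + 1 := ⟨k - 1, by omega⟩
    simp only [Nat.add_sub_cancel]
    set D : ℝ := (n.factorial : ℝ) * ‖Pk X k ((KK f ^ m) (dl 1))‖ ^ 2 with hD
    set lam : ℝ := (2 / (k'.choose (k + 1) : ℝ)) * Real.exp (C * (k' : ℝ) ^ 2 / n) with hlam
    have hlam0 : 0 ≤ lam := by positivity
    have hkey := key k k' hkk' hk'n
    have hch : (0 : ℝ) < (n.choose (k + 1) : ℝ) := by
      exact_mod_cast Nat.choose_pos (by omega)
    have hcon : ∀ w ∈ U X (k + 1), w ∈ (U X k)ᗮ →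
        (‖avg (regRep X) f w‖ ^ 2) ^ N ≤ lam * (‖w‖ ^ 2) ^ N := by
      intro w h1 h2
      have g1 := G1 hk3 (KK f ^ m) (pow_rt hKrt m) (pow_symm (KK_symm f) m) w h1 h2
      have g2 : ‖(KK f ^ m) w‖ ^ 2 ≤ lam * ‖w‖ ^ 2 := by
        refine g1.trans ?_
        apply mul_le_mul_of_nonneg_right _ (by positivity)
        calc (2 / (n.choose (k + 1) : ℝ)) * D
            ≤ (2 / (n.choose (k + 1) : ℝ)) * (((n.choose (k + 1) : ℝ) / (k'.choose (k + 1) : ℝ)) *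
              Real.exp (C * (k' : ℝ) ^ 2 / n)) :=
              mul_le_mul_of_nonneg_left hkey (by positivity)
          _ = lam := by
              rw [hlam]
              field_simp
      have g3 := moments (KK_symm f) (fun v => by rw [KK_self]; positivity) w s
      rw [KK_self, ← hN, ← hm] at g3
      have g4 : ((‖avg (regRep X) f w‖ ^ 2) ^ m) ^ 2 ≤ (‖(KK f ^ m) w‖ * ‖w‖ ^ (N - 1)) ^ 2 :=
        pow_le_pow_left₀ (by positivity) g3 2
      calc (‖avg (regRep X) f w‖ ^ 2) ^ N = ((‖avg (regRep X) f w‖ ^ 2) ^ m) ^ 2 := by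
            rw [← pow_mul _ m 2, hN2, mul_comm m 2]
        _ ≤ _ := g4
        _ = ‖(KK f ^ m) w‖ ^ 2 * (‖w‖ ^ (N - 1)) ^ 2 := by rw [mul_pow]
        _ ≤ (lam * ‖w‖ ^ 2) * (‖w‖ ^ (N - 1)) ^ 2 := mul_le_mul_of_nonneg_right g2 (by positivity)
        _ = lam * (‖w‖ ^ 2) ^ N := by
            rw [mul_assoc, ← mul_pow, ← pow_succ', Nat.sub_add_cancel hN1, ← pow_mul, ← pow_mul,
              mul_comm N 2]
    have hw1 := Rpow_mem f N (Pk_mem k (dl (1 : Perm X)))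
    have hw2 := Rpow_orth f N (Pk_orth k (dl (1 : Perm X)))
    have hit := iter f hlam0 hcon _ hw1 hw2 (N * 3)
    have h384 : ‖(avg (regRep X) f ^ (N * 3)) ((avg (regRep X) f ^ N) (Pk X k (dl 1)))‖ ^ 2 ≤
        lam ^ 3 * ‖(avg (regRep X) f ^ N) (Pk X k (dl 1))‖ ^ 2 := by
      have h5 : (‖(avg (regRep X) f ^ (N * 3)) ((avg (regRep X) f ^ N) (Pk X k (dl 1)))‖ ^ 2) ^ N ≤
          (lam ^ 3 * ‖(avg (regRep X) f ^ N) (Pk X k (dl 1))‖ ^ 2) ^ N := by
        refine hit.trans (le_of_eq ?_)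
        rw [mul_pow (lam ^ 3), ← pow_mul lam 3 N, mul_comm 3 N]
      exact le_of_pow_le_pow_left₀ (by omega) (by positivity) h5
    rw [pow_split, pow_split]
    calc (n.factorial : ℝ) * ‖(avg (regRep X) f ^ t₁)
          ((avg (regRep X) f ^ (N * 3)) ((avg (regRep X) f ^ N) (Pk X k (dl 1))))‖ ^ 2
        ≤ (n.factorial : ℝ) * ‖(avg (regRep X) f ^ (N * 3))
            ((avg (regRep X) f ^ N) (Pk X k (dl 1)))‖ ^ 2 :=
          mul_le_mul_of_nonneg_left (norm_pow_le f _ _) hfac.le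
      _ ≤ (n.factorial : ℝ) * (lam ^ 3 * ‖Pk X k ((KK f ^ m) (dl 1))‖ ^ 2) := by
          apply mul_le_mul_of_nonneg_left _ hfac.le
          exact h384.trans (mul_le_mul_of_nonneg_left (first k) (by positivity))
      _ = D * lam ^ 3 := by rw [hD]; ring
      _ ≤ _ := mul_le_mul_of_nonneg_right hkey (by positivity)
  · intro k hk1 hkn
    obtain ⟨k, rfl⟩ : ∃ j, k = j + 1 := ⟨k - 1, by omega⟩
    simp only [Nat.add_sub_cancel]
    have hkey := key k n hkn le_rfl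
    have hch : (0 : ℝ) < (n.choose (k + 1) : ℝ) := by
      exact_mod_cast Nat.choose_pos (by omega)
    rw [div_self hch.ne', one_mul] at hkey
    have e1 : C * (n : ℝ) ^ 2 / n = C * n := by
      field_simp
    rw [e1] at hkey
    have hw1 := Rpow_mem f (N * 3) (Rpow_mem f N (Pk_mem k (dl (1 : Perm X))))
    have hw2 := Rpow_orth f (N * 3) (Rpow_orth f N (Pk_orth k (dl (1 : Perm X))))
    have hcon := contr_pow (by linarith) hgood hkn t₁ hw1 hw2
    rw [pow_split, pow_split]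
    have h6 : ‖(avg (regRep X) f ^ (N * 3)) ((avg (regRep X) f ^ N) (Pk X k (dl 1)))‖ ^ 2 ≤
        ‖Pk X k ((KK f ^ m) (dl 1))‖ ^ 2 := (norm_pow_le f _ _).trans (first k)
    have h7 : Real.exp (-(t₁ * β * (k + 1) / 2)) ≤ Real.exp (-(t₁ * ((k + 1 : ℕ) : ℝ) / 80)) := by
      apply Real.exp_le_exp.2
      push_cast
      have h8 : (0 : ℝ) ≤ t₁ * (k + 1) := by positivity
      have h9 : (t₁ : ℝ) * (k + 1) / 80 ≤ t₁ * β * (k + 1) / 2 := by
        have : (t₁ : ℝ) * β * (k + 1) / 2 = (t₁ * (k + 1)) * (β / 2) := by ring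
        rw [this]
        have h10 : (t₁ : ℝ) * (k + 1) / 80 = (t₁ * (k + 1)) * (1 / 80) := by ring
        rw [h10]
        apply mul_le_mul_of_nonneg_left _ h8
        linarith
      linarith
    calc (n.factorial : ℝ) * ‖(avg (regRep X) f ^ t₁)
          ((avg (regRep X) f ^ (N * 3)) ((avg (regRep X) f ^ N) (Pk X k (dl 1))))‖ ^ 2
        ≤ (n.factorial : ℝ) * (Real.exp (-(t₁ * β * (k + 1) / 2)) *
          ‖Pk X k ((KK f ^ m) (dl 1))‖ ^ 2) := by
          apply mul_le_mul_of_nonneg_left _ hfac.le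
          exact hcon.trans (mul_le_mul_of_nonneg_left h6 (Real.exp_pos _).le)
      _ = ((n.factorial : ℝ) * ‖Pk X k ((KK f ^ m) (dl 1))‖ ^ 2) *
          Real.exp (-(t₁ * β * (k + 1) / 2)) := by ring
      _ ≤ Real.exp (C * n) * Real.exp (-(t₁ * ((k + 1 : ℕ) : ℝ) / 80)) :=
          mul_le_mul hkey h7 (Real.exp_pos _).le (Real.exp_pos _).le

theorem final_abs (C : ℝ) (hC : 0 ≤ C) : ∃ t₀ n₀ : ℕ, ∀ (X : Type) [Fintype X] [DecidableEq X],
    n₀ ≤ Fintype.card X → ∀ (κ : Type) [Fintype κ] [Nonempty κ] (f : κ → Perm X) (β : ℝ),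
    1 / 40 ≤ β → Good f β →
    (∀ k ≤ Fintype.card X, ((kerM k (fun a : κ × κ => (f a.1)⁻¹ * f a.2)) ^ 128).trace ≤
      Real.exp (C * (k : ℝ) ^ 2 / Fintype.card X)) →
    ((Fintype.card X).factorial : ℝ) *
      ‖((avg (regRep X) f) ^ t₀) (EuclideanSpace.single (1 : Perm X) (1 : ℝ) -
        (WithLp.toLp 2 fun _ => (1 : ℝ) / (Fintype.card X).factorial))‖ ^ 2 ≤ 1 / 4 := by
  obtain ⟨t₁, n₀, hcalc⟩ := final_calc C hC
  refine ⟨t₁ + (2 ^ (6 + 1) * 3 + 2 ^ (6 + 1)), max n₀ 1, ?_⟩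
  intro X _ _ hn κ _ _ f β hβ hgood htr
  have h128 : (2 * 2 ^ 6 : ℕ) = 128 := by norm_num
  refine core_abs 6 C t₁ X (hcalc _ (le_trans (le_max_left _ _) hn))
    (le_trans (le_max_right _ _) hn) κ f β hβ hgood ?_
  rw [h128]
  exact htr

end Vale.Agent.P162.Th
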