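import Vale.Agent.P162.ThDefs

set_option linter.unusedSectionVars false

/-!
# P162, `Θ(log n)`: proper 2-colourings of the switch graph
-/

open Finset
open scoped BigOperators

namespace Vale.Agent.P162.Th

namespace ColorAux

variable {ι α β : Type} [Fintype ι] (f : ι → α) (g : ι → β)

open Classical in
/-- the members of a component -/
noncomputable def cp (q : Quotient (cs f g)) : Finset ι :=
  univ.filter (fun i => Quotient.mk (cs f g) i = q)

variable {f g}

lemma mem_cp {q : Quotient (cs f g)} {i : ι} : i ∈ cp f g q ↔ Quotient.mk (cs f g) i = q := by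
  classical
  unfold cp
  simp

lemma mk_f {i j : ι} (h : f i = f j) : Quotient.mk (cs f g) i = Quotient.mk (cs f g) j :=
  Quotient.sound (Relation.EqvGen.rel _ _ (Or.inl h))

lemma mk_g {i j : ι} (h : g i = g j) : Quotient.mk (cs f g) i = Quotient.mk (cs f g) j :=
  Quotient.sound (Relation.EqvGen.rel _ _ (Or.inr h))

open Classical in
noncomputable instance : Fintype (Quotient (cs f g)) :=
  Fintype.ofSurjective (Quotient.mk (cs f g)) Quotient.mk_surjective

lemma sum_card : ∑ q : Quotient (cs f g), (cp f g q).card = Fintype.card ι := by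
  classical
  rw [← Finset.card_univ (α := ι)]
  have := Finset.card_eq_sum_card_fiberwise (f := fun i => Quotient.mk (cs f g) i)
    (s := (univ : Finset ι)) (t := (univ : Finset (Quotient (cs f g)))) (fun _ _ => mem_univ _)
  rw [this]
  apply Finset.sum_congr rfl
  intro q _
  congr 1

lemma sum_image {γ : Type} [DecidableEq γ] (h : ι → γ)
    (hh : ∀ i j, h i = h j → Quotient.mk (cs f g) i = Quotient.mk (cs f g) j) :
    ∑ q : Quotient (cs f g), ((cp f g q).image h).card = (univ.image h).card := by
  classical
  rw [← Finset.card_biUnion]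
  · congr 1
    ext a
    simp only [mem_biUnion, mem_univ, true_and, mem_image]
    constructor
    · rintro ⟨q, i, _, rfl⟩
      exact ⟨i, rfl⟩
    · rintro ⟨i, rfl⟩
      exact ⟨Quotient.mk (cs f g) i, i, mem_cp.2 rfl, rfl⟩
  · intro q _ q' _ hne
    rw [Function.onFun, Finset.disjoint_left]
    intro a ha ha'
    rw [mem_image] at ha ha'
    obtain ⟨i, hi, rfl⟩ := ha
    obtain ⟨j, hj, hij⟩ := ha'
    apply hne
    rw [← mem_cp.1 hi, ← mem_cp.1 hj]
    exact (hh _ _ hij).symm

/-- fibres of size at most two -/
lemma card_le_two {γ : Type} [DecidableEq γ] (h : ι → γ) {b : ι → Bool}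
    (hb : ∀ i j, i ≠ j → h i = h j → b i ≠ b j) (C : Finset ι) :
    C.card ≤ 2 * (C.image h).card := by
  classical
  apply Finset.card_le_mul_card_image
  intro a _
  by_contra hcon
  push Not at hcon
  obtain ⟨x, y, z, hx, hy, hz, hxy, hxz, hyz⟩ := Finset.two_lt_card_iff.1 hcon
  rw [mem_filter] at hx hy hz
  have h1 := hb x y hxy (hx.2.trans hy.2.symm)
  have h2 := hb x z hxz (hx.2.trans hz.2.symm)
  have h3 := hb y z hyz (hy.2.trans hz.2.symm)
  revert h1 h2 h3
  generalize b x = x'
  generalize b y = y'
  generalize b z = z'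
  cases x' <;> cases y' <;> cases z' <;> simp

lemma card_lt_two {γ : Type} [DecidableEq γ] (h : ι → γ) {b : ι → Bool}
    (hb : ∀ i j, i ≠ j → h i = h j → b i ≠ b j) (C : Finset ι) {i : ι} (hi : i ∈ C)
    (hs : ¬ ∃ j, j ≠ i ∧ h j = h i) :
    C.card + 1 ≤ 2 * (C.image h).card := by
  classical
  have h1 := card_le_two h hb (C.erase i)
  have h2 : ((C.erase i).image h).card + 1 ≤ (C.image h).card := by
    have h3 : (C.erase i).image h ⊆ (C.image h).erase (h i) := by
      intro a ha
      rw [mem_image] at ha
      obtain ⟨j, hj, rfl⟩ := ha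
      rw [mem_erase] at hj
      rw [mem_erase]
      exact ⟨fun e => hs ⟨j, hj.1, e⟩, mem_image_of_mem _ hj.2⟩
    have h4 := Finset.card_le_card h3
    have h5 : h i ∈ C.image h := mem_image_of_mem _ hi
    rw [Finset.card_erase_of_mem h5] at h4
    have h6 : 0 < (C.image h).card := Finset.card_pos.2 ⟨_, h5⟩
    omega
  have h3 := Finset.card_erase_of_mem hi
  have h4 : 0 < C.card := Finset.card_pos.2 ⟨_, hi⟩
  omega

end ColorAux

open ColorAux

open Classical in
theorem coloring {ι α β : Type} [Fintype ι] [DecidableEq α] [DecidableEq β] (f : ι → α)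
    (g : ι → β) :
    (univ.filter (fun b : ι → Bool => (∀ i j, i ≠ j → f i = f j → b i ≠ b j) ∧
      (∀ i j, i ≠ j → g i = g j → b i ≠ b j))).card * 2 ^ Fintype.card ι ≤
      2 ^ ((univ.image f).card + (univ.image g).card + cyc f g) := by
  by_cases hex : ∃ b : ι → Bool, (∀ i j, i ≠ j → f i = f j → b i ≠ b j) ∧
      (∀ i j, i ≠ j → g i = g j → b i ≠ b j)
  swap
  · have : (univ.filter (fun b : ι → Bool => (∀ i j, i ≠ j → f i = f j → b i ≠ b j) ∧
      (∀ i j, i ≠ j → g i = g j → b i ≠ b j))) = ∅ := by
      rw [Finset.filter_eq_empty_iff]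
      intro b _ hb
      exact hex ⟨b, hb⟩
    rw [this]
    simp
  obtain ⟨b₀, hb₀f, hb₀g⟩ := hex
  -- (1) at most `2 ^ #components` colourings
  have h1 : (univ.filter (fun b : ι → Bool => (∀ i j, i ≠ j → f i = f j → b i ≠ b j) ∧
      (∀ i j, i ≠ j → g i = g j → b i ≠ b j))).card ≤ 2 ^ Fintype.card (Quotient (cs f g)) := by
    have h2 : 2 ^ Fintype.card (Quotient (cs f g)) =
        (univ : Finset (Quotient (cs f g) → Bool)).card := by
      rw [Finset.card_univ, Fintype.card_fun, Fintype.card_bool]
    rw [h2]
    apply Finset.card_le_card_of_injOn (fun b q => b (Quotient.out q))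
    · intro b _
      exact mem_coe.2 (mem_univ _)
    · intro b hb b' hb' heq
      rw [mem_coe, mem_filter] at hb hb'
      have key : ∀ i j, Relation.EqvGen (fun i j => f i = f j ∨ g i = g j) i j →
          (b i = b' i ↔ b j = b' j) := by
        intro i j hij
        induction hij with
        | rel i j h =>
          by_cases hne : i = j
          · rw [hne]
          · have hb1 : b i ≠ b j := by
              rcases h with h | h
              · exact hb.2.1 i j hne h
              · exact hb.2.2 i j hne h
            have hb2 : b' i ≠ b' j := by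
              rcases h with h | h
              · exact hb'.2.1 i j hne h
              · exact hb'.2.2 i j hne h
            revert hb1 hb2
            generalize b i = x
            generalize b j = y
            generalize b' i = x'
            generalize b' j = y'
            cases x <;> cases y <;> cases x' <;> cases y' <;> simp
        | refl i => exact Iff.rfl
        | symm i j _ ih => exact ih.symm
        | trans i j l _ _ ih1 ih2 => exact ih1.trans ih2
      funext i
      have h3 : (cs f g).r (Quotient.out (Quotient.mk (cs f g) i)) i := Quotient.mk_out i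
      exact (key _ _ h3).1 (congrFun heq (Quotient.mk (cs f g) i))
  -- (2) counting
  have h2 : Fintype.card (Quotient (cs f g)) + Fintype.card ι ≤
      (univ.image f).card + (univ.image g).card + cyc f g := by
    have e1 := sum_card (f := f) (g := g)
    have e2 := sum_image (f := f) (g := g) f (fun i j h => mk_f h)
    have e3 := sum_image (f := f) (g := g) g (fun i j h => mk_g h)
    have e4 : cyc f g = ∑ q : Quotient (cs f g), if IsFull f g q then 1 else 0 := by
      unfold cyc
      rw [Nat.card_eq_fintype_card, Fintype.card_subtype, Finset.card_filter]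
    have e5 : Fintype.card (Quotient (cs f g)) = ∑ q : Quotient (cs f g), 1 := by
      simp
    rw [← e1, ← e2, ← e3, e4, e5, ← Finset.sum_add_distrib, ← Finset.sum_add_distrib,
      ← Finset.sum_add_distrib]
    apply Finset.sum_le_sum
    intro q _
    have k1 := card_le_two f hb₀f (cp f g q)
    have k2 := card_le_two g hb₀g (cp f g q)
    by_cases hq : IsFull f g q
    · rw [if_pos hq]; omega
    · rw [if_neg hq]
      unfold IsFull at hq
      push Not at hq
      obtain ⟨i, hi, hq⟩ := hq
      have hi' : i ∈ cp f g q := mem_cp.2 hi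
      by_cases hf : ∃ j, j ≠ i ∧ f j = f i
      · have hg : ¬ ∃ j, j ≠ i ∧ g j = g i := by
          rintro ⟨j, hj, hgj⟩
          exact hq hf j hj hgj
        have := card_lt_two g hb₀g (cp f g q) hi' hg
        omega
      · have := card_lt_two f hb₀f (cp f g q) hi' hf
        omega
  calc _ ≤ 2 ^ Fintype.card (Quotient (cs f g)) * 2 ^ Fintype.card ι :=
        Nat.mul_le_mul_right _ h1
    _ = 2 ^ (Fintype.card (Quotient (cs f g)) + Fintype.card ι) := by rw [pow_add]
    _ ≤ _ := Nat.pow_le_pow_right (by norm_num) h2

theorem cyc_le {ι α β : Type} [Fintype ι] [DecidableEq α] (f : ι → α) (g : ι → β) :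
    cyc f g ≤ Fintype.card ι - (univ.image f).card := by
  classical
  have e1 := sum_card (f := f) (g := g)
  have e2 := sum_image (f := f) (g := g) f (fun i j h => mk_f h)
  have e4 : cyc f g = ∑ q : Quotient (cs f g), if IsFull f g q then 1 else 0 := by
    unfold cyc
    rw [Nat.card_eq_fintype_card, Fintype.card_subtype, Finset.card_filter]
  have key : cyc f g + (univ.image f).card ≤ Fintype.card ι := by
    rw [← e1, ← e2, e4, ← Finset.sum_add_distrib]
    apply Finset.sum_le_sum
    intro q _
    by_cases hq : IsFull f g q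
    · rw [if_pos hq]
      obtain ⟨i, hi⟩ := Quotient.exists_rep q
      obtain ⟨⟨j, hj, hfj⟩, _⟩ := hq i hi
      have hi' : i ∈ cp f g q := mem_cp.2 hi
      have hj' : j ∈ cp f g q := mem_cp.2 ((mk_f hfj).trans hi)
      have h1 : (cp f g q).image f ⊆ ((cp f g q).erase i).image f := by
        intro a ha
        rw [mem_image] at ha ⊢
        obtain ⟨l, hl, rfl⟩ := ha
        by_cases hli : l = i
        · subst hli
          exact ⟨j, mem_erase.2 ⟨hj, hj'⟩, hfj⟩
        · exact ⟨l, mem_erase.2 ⟨hli, hl⟩, rfl⟩
      have h2 := (Finset.card_le_card h1).trans Finset.card_image_le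
      rw [Finset.card_erase_of_mem hi'] at h2
      have h3 : 0 < (cp f g q).card := Finset.card_pos.2 ⟨_, hi'⟩
      omega
    · rw [if_neg hq, zero_add]
      exact Finset.card_image_le
  omega

end Vale.Agent.P162.Th
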