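import Vale.Agent.P162.ThDefs

/-!
# P162, `Θ(log n)`: basic facts on the flat model
-/

open Finset
open scoped BigOperators

namespace Vale.Agent.P162.Th

variable {d : ℕ}

lemma lay_lay (ω : Om d) (r : Fin d) (z : Q d) : lay ω r (lay ω r z) = z := by
  unfold lay sw
  simp

lemma lay_inj (ω : Om d) (r : Fin d) : Function.Injective (lay ω r) :=
  fun a b h => by rw [← lay_lay ω r a, h, lay_lay]

lemma lay_ne (ω : Om d) (r : Fin d) (z : Q d) {j : Fin d} (h : j ≠ r) : lay ω r z j = z j := by
  unfold lay
  rw [Function.update_of_ne h]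

lemma lay_self (ω : Om d) (r : Fin d) (z : Q d) : lay ω r z r = xor (z r) (ω (sw r z)) := by
  unfold lay
  rw [Function.update_self]

lemma upTo_zero (ω : Om d) (z : Q d) : upTo ω 0 z = z := rfl

lemma upTo_succ (ω : Om d) (r : Fin d) (z : Q d) : upTo ω (r + 1) z = lay ω r (upTo ω r z) := by
  rw [upTo, dif_pos r.2]

lemma upTo_succ_of_ge (ω : Om d) {r : ℕ} (h : d ≤ r) (z : Q d) :
    upTo ω (r + 1) z = upTo ω r z := by
  rw [upTo, dif_neg (by omega)]

lemma upTo_inj (ω : Om d) (r : ℕ) : Function.Injective (upTo ω r) := by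
  induction r with
  | zero => intro a b h; exact h
  | succ r ih =>
    intro a b h
    by_cases hr : r < d
    · have h1 := upTo_succ ω ⟨r, hr⟩ a
      have h2 := upTo_succ ω ⟨r, hr⟩ b
      simp only at h1 h2
      rw [h1, h2] at h
      exact ih (lay_inj ω _ h)
    · rw [upTo_succ_of_ge ω (by omega), upTo_succ_of_ge ω (by omega)] at h
      exact ih h

/-- layers `< r` do not change the coordinates `≥ r` -/
lemma upTo_ge (ω : Om d) (r : ℕ) (z : Q d) (j : Fin d) (h : r ≤ (j : ℕ)) :
    upTo ω r z j = z j := by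
  induction r with
  | zero => rfl
  | succ r ih =>
    have hr : r < d := by omega
    have h1 := upTo_succ ω ⟨r, hr⟩ z
    simp only at h1
    rw [h1, lay_ne _ _ _ (by intro e; rw [e] at h; simp at h), ih (by omega)]

/-- the coordinate `j` does not change after layer `j` -/
lemma upTo_lt (ω : Om d) {r s : ℕ} (hrs : r ≤ s) (z : Q d) (j : Fin d) (h : (j : ℕ) < r) :
    upTo ω s z j = upTo ω r z j := by
  induction s, hrs using Nat.le_induction with
  | base => rfl
  | succ s hs ih =>
    by_cases hr : s < d
    · have h1 := upTo_succ ω ⟨s, hr⟩ z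
      simp only at h1
      rw [h1, lay_ne _ _ _ (by intro e; rw [e] at h; simp at h; omega), ih]
    · rw [upTo_succ_of_ge ω (by omega), ih]

/-- the position before layer `r` of the card going from `z` to `upTo ω d z` -/
lemma upTo_eq_mix (ω : Om d) {r s : ℕ} (hrs : r ≤ s) (z : Q d) :
    upTo ω r z = mix r (upTo ω s z) z := by
  funext j
  unfold mix
  split_ifs with h
  · rw [upTo_lt ω hrs z j h]
  · exact upTo_ge ω r z j (by omega)

lemma mix_zero (y c : Q d) : mix 0 y c = c := by
  funext j; simp [mix]

lemma mix_ge {r : ℕ} (h : d ≤ r) (y c : Q d) : mix r y c = y := by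
  funext j; simp [mix, show (j : ℕ) < r by omega]

lemma mix_self {r : Fin d} (y c : Q d) : mix (r : ℕ) y c r = c r := by
  simp [mix]

lemma mix_succ (r : Fin d) (y c : Q d) :
    mix ((r : ℕ) + 1) y c = Function.update (mix (r : ℕ) y c) r (y r) := by
  funext j
  by_cases h : j = r
  · subst h; simp [mix]
  · rw [Function.update_of_ne h]
    have h' : (j : ℕ) ≠ r := fun e => h (Fin.ext e)
    unfold mix
    by_cases h1 : (j : ℕ) < r
    · rw [if_pos (by omega), if_pos h1]
    · rw [if_neg (by omega), if_neg h1]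

/-- a card goes from `c` to `y` iff in each layer its switch is set correctly -/
lemma route (ω : Om d) (c y : Q d) :
    upTo ω d c = y ↔ ∀ r : Fin d, ω (sw r (mix (r : ℕ) y c)) = xor (c r) (y r) := by
  constructor
  · intro h r
    have h1 := upTo_eq_mix ω (le_of_lt r.2) c
    rw [h] at h1
    have h2 := upTo_succ ω r c
    have h3 : upTo ω (r + 1) c r = y r := by
      rw [← h]; exact (upTo_lt ω (by omega) c r (by omega)).symm
    rw [h2, lay_self, h1, mix_self] at h3
    rw [← h3]
    simp
  · intro h
    have key : ∀ r : ℕ, r ≤ d → upTo ω r c = mix r y c := by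
      intro r
      induction r with
      | zero => intro _; rw [mix_zero]; rfl
      | succ r ih =>
        intro hr
        have hr' : r < d := by omega
        have h1 := upTo_succ ω ⟨r, hr'⟩ c
        have h2 := mix_succ ⟨r, hr'⟩ y c
        simp only at h1 h2
        rw [h1, ih (by omega), h2, lay]
        congr 1
        have h3 := h ⟨r, hr'⟩
        simp only at h3
        rw [h3]
        have h4 : mix r y c ⟨r, hr'⟩ = c ⟨r, hr'⟩ := mix_self (r := ⟨r, hr'⟩) y c
        rw [h4]
        simp
    rw [key d le_rfl, mix_ge le_rfl]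

/-- the first `r` layers only depend on their own coins -/
lemma upTo_congr {ω ω' : Om d} {r : ℕ} (h : ∀ v : Fin d × Q d, (v.1 : ℕ) < r → ω v = ω' v)
    (z : Q d) : upTo ω r z = upTo ω' r z := by
  induction r with
  | zero => rfl
  | succ r ih =>
    by_cases hr : r < d
    · have h1 := upTo_succ ω ⟨r, hr⟩ z
      have h2 := upTo_succ ω' ⟨r, hr⟩ z
      simp only at h1 h2
      rw [h1, h2, ih (fun v hv => h v (by omega)), lay, lay, h (sw ⟨r, hr⟩ _) (by simp [sw])]
    · rw [upTo_succ_of_ge ω (by omega), upTo_succ_of_ge ω' (by omega)]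
      exact ih (fun v hv => h v (by omega))

/-- `fs` for the actual end positions -/
lemma fs_up {k : ℕ} (ω : Om d) (c : Fin k → Q d) (r : Fin d) (i : Fin k) :
    fs (fun i => upTo ω d (c i)) c r i = sw r (upTo ω r (c i)) := by
  unfold fs
  rw [← upTo_eq_mix ω (le_of_lt r.2) (c i)]

/-- two positions in the same switch -/
lemma sw_eq_iff {r : Fin d} {z z' : Q d} : sw r z = sw r z' ↔ ∀ j, j ≠ r → z j = z' j := by
  unfold sw
  constructor
  · intro h j hj
    have h1 := congrFun (congrArg Prod.snd h) j
    simpa [Function.update_of_ne hj] using h1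
  · intro h
    refine Prod.ext rfl ?_
    funext j
    by_cases hj : j = r
    · subst hj; simp
    · simp [Function.update_of_ne hj, h j hj]

lemma eq_of_sw_eq {r : Fin d} {z z' : Q d} (h : sw r z = sw r z') (h2 : z r = z' r) : z = z' := by
  funext j
  by_cases hj : j = r
  · subst hj; exact h2
  · exact sw_eq_iff.1 h j hj

/-- the whole pass as a permutation -/
noncomputable def upP (ω : Om d) : Equiv.Perm (Q d) :=
  Equiv.ofBijective (upTo ω d) (Finite.injective_iff_bijective.1 (upTo_inj ω d))

lemma upP_apply (ω : Om d) (z : Q d) : upP ω z = upTo ω d z := rfl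

/-- the first `r` layers as a permutation -/
noncomputable def upPr (ω : Om d) (r : ℕ) : Equiv.Perm (Q d) :=
  Equiv.ofBijective (upTo ω r) (Finite.injective_iff_bijective.1 (upTo_inj ω r))

lemma upPr_apply (ω : Om d) (r : ℕ) (z : Q d) : upPr ω r z = upTo ω r z := rfl

lemma pr_nonneg {k : ℕ} (c x : Fin k → Q d) : 0 ≤ pr c x := by
  unfold pr; positivity

end Vale.Agent.P162.Th
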