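import Vale.Agent.P162.ThDefs2
import Vale.Agent.P162.ThFlat

/-!
# P162, `Θ(log n)`: the coding lemma
-/

open Finset
open scoped BigOperators

namespace Vale.Agent.P162.Th

variable {d k : ℕ}

lemma card_Off (S : Finset (Fin d × Q d)) (ω : Om d) : (Off S ω).card = 2 ^ S.card := by
  classical
  have h : Off S ω = Fintype.piFinset
      (fun v => if v ∈ S then (univ : Finset Bool) else {ω v}) := by
    ext η
    simp only [Off, mem_filter, mem_univ, true_and, Fintype.mem_piFinset]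
    constructor
    · intro h v
      by_cases hv : v ∈ S
      · simp [hv]
      · simp [hv, h v hv]
    · intro h v hv
      have := h v
      simpa [hv] using this
  rw [h, Fintype.card_piFinset]
  have : ∀ v, (if v ∈ S then (univ : Finset Bool) else {ω v}).card = if v ∈ S then 2 else 1 := by
    intro v; split_ifs <;> simp
  simp only [this]
  rw [Finset.prod_ite]
  simp

/-- same bits on the switches met by both: same path -/
lemma path_same {r : Fin d} {η η' : Om d} {z : Q d}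
    (h : ∀ v : Fin d × Q d, v.1 < r → sw v.1 (upTo η v.1 z) = v → sw v.1 (upTo η' v.1 z) = v →
      η v = η' v) : ∀ s : ℕ, s ≤ r → upTo η s z = upTo η' s z := by
  intro s
  induction s with
  | zero => intro _; rfl
  | succ s ih =>
    intro hs
    have hs' : s < d := by omega
    have ih := ih (by omega)
    have h1 := upTo_succ η ⟨s, hs'⟩ z
    have h2 := upTo_succ η' ⟨s, hs'⟩ z
    simp only at h1 h2
    rw [h1, h2, lay, lay, ← ih]
    have h3 : η (sw ⟨s, hs'⟩ (upTo η s z)) = η' (sw ⟨s, hs'⟩ (upTo η s z)) := by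
      apply h
      · show (⟨s, hs'⟩ : Fin d) < r
        rw [Fin.lt_def]
        simp only
        omega
      · rfl
      · show sw _ (upTo η' s z) = _
        rw [← ih]
        rfl
    rw [h3]

/-- same end: same path -/
lemma path_end {r : Fin d} {η η' : Om d} {z : Q d} (h : upTo η r z = upTo η' r z) :
    ∀ s : ℕ, s ≤ r → upTo η s z = upTo η' s z := by
  intro s hs
  rw [upTo_eq_mix η hs z, upTo_eq_mix η' hs z, h]

/-- same path: same bits -/
lemma bits_same {r : Fin d} {η η' : Om d} {z : Q d}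
    (h : ∀ s : ℕ, s ≤ r → upTo η s z = upTo η' s z) {v : Fin d × Q d} (hv : v.1 < r)
    (hu : sw v.1 (upTo η v.1 z) = v) : η v = η' v := by
  have h1 := upTo_succ η v.1 z
  have h2 := upTo_succ η' v.1 z
  have hv' : (v.1 : ℕ) < r := hv
  rw [h _ (by omega)] at h1
  rw [h1] at h2
  have h3 := congrFun h2 v.1
  rw [lay_self, lay_self, h v.1 (by omega)] at h3
  have h4 : η (sw v.1 (upTo η' v.1 z)) = η' (sw v.1 (upTo η' v.1 z)) := by
    simpa using h3
  rw [← h v.1 (by omega), hu] at h4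
  exact h4

lemma hh_congr (r : Fin d) (c tgt : Fin k → Q d) (L : Finset (Fin k)) {η η' : Om d} {i : Fin k}
    (h : upTo η r (c i) = upTo η' r (c i)) : hh r c tgt L η i = hh r c tgt L η' i := by
  unfold hh
  rw [h]

section

variable (r : Fin d) (W : Finset (Fin d)) (c tgt : Fin k → Q d) (L : Finset (Fin k))
  (Λ : Finset (Fin k)) (m : Fin k → ℕ)

/-- card `i` uses the window switch `v` -/
def Us (η : Om d) (i : Fin k) (v : Fin d × Q d) : Prop :=
  sw v.1 (upTo η v.1 (c i)) = v

/-- the `l`-th card of the cycle led by `j` -/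
noncomputable def cd (η : Om d) (j : Fin k) (l : ℕ) : Fin k := (hh r c tgt L η)^[l] j

/-- no card earlier than the closing card of `j` uses `v` -/
def Fst (rk : Fin k → ℕ) (η : Om d) (j : Fin k) (v : Fin d × Q d) : Prop :=
  ∀ j' ∈ Λ, ∀ l' < m j', (rk j' < rk j ∨ (j' = j ∧ l' + 1 < m j)) →
    ¬ Us c η (cd r c tgt L η j' l') v

open Classical in
/-- window switches first used by the closing card of `j` -/
noncomputable def Aj (rk : Fin k → ℕ) (η : Om d) (j : Fin k) : Finset (Fin d × Q d) :=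
  (Sb r W).filter (fun v => Us c η (cd r c tgt L η j (m j - 1)) v ∧ Fst r c tgt L Λ m rk η j v)

open Classical in
/-- all the window switches first used by closing cards -/
noncomputable def Aa (rk : Fin k → ℕ) (η : Om d) : Finset (Fin d × Q d) :=
  Λ.biUnion (Aj r W c tgt L Λ m rk η)

/-- the event of the coding lemma -/
def Ev (ω₀ η : Om d) : Prop :=
  (∀ v, v ∉ Sb r W → η v = ω₀ v) ∧ (∀ j ∈ Λ, Lead r c tgt L W η j (m j)) ∧
    ∀ j ∈ Λ, ∀ j' ∈ Λ, j ≠ j' → ∀ l < m j, ∀ l' < m j',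
        (hh r c tgt L η)^[l] j ≠ (hh r c tgt L η)^[l'] j'

/-- agreement of `η` and `η'` on a card -/
def Agr (η η' : Om d) (j : Fin k) (l : ℕ) : Prop :=
  cd r c tgt L η j l = cd r c tgt L η' j l ∧
  (∀ s : ℕ, s ≤ r → upTo η s (c (cd r c tgt L η j l)) = upTo η' s (c (cd r c tgt L η j l))) ∧
  ∀ v ∈ Sb r W, Us c η (cd r c tgt L η j l) v → η v = η' v

variable {r W c tgt L Λ m}

lemma mem_Sb {v : Fin d × Q d} : v ∈ Sb r W ↔ v.1 ∈ W ∧ v.2 r = true := by
  simp [Sb]

lemma Agr.us (hW : ∀ s ∈ W, s < r) {η η' : Om d} {j : Fin k} {l : ℕ} (h : Agr r W c tgt L η η' j l)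
    {v : Fin d × Q d} (hv : v ∈ Sb r W) :
    Us c η' (cd r c tgt L η' j l) v ↔ Us c η (cd r c tgt L η j l) v := by
  have hv1 : (v.1 : ℕ) < r := hW _ (mem_Sb.1 hv).1
  unfold Us
  rw [← h.1, h.2.1 v.1 (by omega)]

lemma agr_all (hW : ∀ s ∈ W, s < r) (rk : Fin k → ℕ) (hrk : Set.InjOn rk (Λ : Set (Fin k)))
    {ω₀ η η' ζ : Om d}
    (h : Ev r W c tgt L Λ m ω₀ η) (h' : Ev r W c tgt L Λ m ω₀ η')
    (hζ : ∀ v, v ∉ Aa r W c tgt L Λ m rk η → ζ v = η v)
    (hζ' : ∀ v, v ∉ Aa r W c tgt L Λ m rk η' → ζ v = η' v) :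
    ∀ N : ℕ, ∀ j ∈ Λ, rk j = N → ∀ l < m j, Agr r W c tgt L η η' j l := by
  intro N
  induction N using Nat.strong_induction_on with
  | _ N ihN =>
  intro j hj hN l
  induction l using Nat.strong_induction_on with
  | _ l ihl =>
  intro hl
  -- earlier cards agree
  have IH1 : ∀ j' ∈ Λ, ∀ l' < m j', (rk j' < rk j ∨ (j' = j ∧ l' < l)) →
      Agr r W c tgt L η η' j' l' := by
    intro j' hj' l' hl' hc
    rcases hc with hc | ⟨rfl, hc⟩
    · exact ihN (rk j') (by omega) j' hj' rfl l' hl'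
    · exact ihl l' hc hl'
  -- same card
  have hcard : cd r c tgt L η j l = cd r c tgt L η' j l := by
    rcases l with _ | l
    · rfl
    · have h1 := ihl l (by omega) (by omega)
      unfold cd
      rw [Function.iterate_succ_apply', Function.iterate_succ_apply']
      change hh r c tgt L η (cd r c tgt L η j l) = hh r c tgt L η' (cd r c tgt L η' j l)
      rw [← h1.1]
      exact hh_congr r c tgt L (h1.2.1 r le_rfl)
  have hmain : (∀ s : ℕ, s ≤ r → upTo η s (c (cd r c tgt L η j l)) =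
      upTo η' s (c (cd r c tgt L η j l))) := by
    by_cases hcl : l + 1 < m j
    · -- not the closing card
      apply path_same
      intro v hv hu hu'
      by_cases hS : v ∈ Sb r W
      · by_cases hex : ∃ j' ∈ Λ, ∃ l' < m j', (rk j' < rk j ∨ (j' = j ∧ l' < l)) ∧
          Us c η (cd r c tgt L η j' l') v
        · obtain ⟨j', hj', l', hl', hc, hus⟩ := hex
          exact (IH1 j' hj' l' hl' hc).2.2 v hS hus
        · push Not at hex
          have hA : v ∉ Aa r W c tgt L Λ m rk η := by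
            classical
            intro hA
            unfold Aa at hA
            rw [mem_biUnion] at hA
            obtain ⟨j1, hj1, hA⟩ := hA
            unfold Aj at hA
            rw [mem_filter] at hA
            obtain ⟨_, hus1, hfst⟩ := hA
            rcases lt_trichotomy (rk j) (rk j1) with hlt | heq | hgt
            · exact hfst j hj l hl (Or.inl hlt) hu
            · have : j = j1 := hrk hj hj1 heq
              subst this
              exact hfst j hj l hl (Or.inr ⟨rfl, hcl⟩) hu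
            · have hpos := (h.2.1 j1 hj1).pos
              exact hex j1 hj1 (m j1 - 1) (by omega) (Or.inl hgt) hus1
          have hA' : v ∉ Aa r W c tgt L Λ m rk η' := by
            classical
            intro hA
            unfold Aa at hA
            rw [mem_biUnion] at hA
            obtain ⟨j1, hj1, hA⟩ := hA
            unfold Aj at hA
            rw [mem_filter] at hA
            obtain ⟨_, hus1, hfst⟩ := hA
            rw [hcard] at hu'
            rcases lt_trichotomy (rk j) (rk j1) with hlt | heq | hgt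
            · exact hfst j hj l hl (Or.inl hlt) hu'
            · have : j = j1 := hrk hj hj1 heq
              subst this
              exact hfst j hj l hl (Or.inr ⟨rfl, hcl⟩) hu'
            · have hpos := (h'.2.1 j1 hj1).pos
              have hag := IH1 j1 hj1 (m j1 - 1) (by omega) (Or.inl hgt)
              exact hex j1 hj1 (m j1 - 1) (by omega) (Or.inl hgt) ((hag.us hW hS).1 hus1)
          rw [← hζ v hA, hζ' v hA']
      · rw [h.1 v hS, h'.1 v hS]
    · -- the closing card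
      have hl' : l = m j - 1 := by omega
      apply path_end
      have h1 : upTo η r (c (cd r c tgt L η j l)) = tgt j := by
        rw [hl']; exact (h.2.1 j hj).close
      have h2 : upTo η' r (c (cd r c tgt L η' j l)) = tgt j := by
        rw [hl']; exact (h'.2.1 j hj).close
      rw [h1, hcard, h2]
  exact ⟨hcard, hmain, fun v hv hu => bits_same hmain (hW _ (mem_Sb.1 hv).1) hu⟩

/-- Kraft: decoding -/
lemma decode_eq (hW : ∀ s ∈ W, s < r) (rk : Fin k → ℕ) (hrk : Set.InjOn rk (Λ : Set (Fin k)))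
    {ω₀ η η' ζ : Om d}
    (h : Ev r W c tgt L Λ m ω₀ η) (h' : Ev r W c tgt L Λ m ω₀ η')
    (hζ : ∀ v, v ∉ Aa r W c tgt L Λ m rk η → ζ v = η v)
    (hζ' : ∀ v, v ∉ Aa r W c tgt L Λ m rk η' → ζ v = η' v) : η = η' := by
  classical
  have hall := agr_all hW rk hrk h h' hζ hζ'
  funext v
  by_cases hS : v ∈ Sb r W
  · by_cases hex : ∃ j ∈ Λ, ∃ l < m j, Us c η (cd r c tgt L η j l) v
    · obtain ⟨j, hj, l, hl, hus⟩ := hex
      exact (hall _ j hj rfl l hl).2.2 v hS hus
    · push Not at hex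
      have hA : v ∉ Aa r W c tgt L Λ m rk η := by
        intro hA
        unfold Aa at hA
        rw [mem_biUnion] at hA
        obtain ⟨j1, hj1, hA⟩ := hA
        unfold Aj at hA
        rw [mem_filter] at hA
        have hpos := (h.2.1 j1 hj1).pos
        exact hex j1 hj1 (m j1 - 1) (by omega) hA.2.1
      have hA' : v ∉ Aa r W c tgt L Λ m rk η' := by
        intro hA
        unfold Aa at hA
        rw [mem_biUnion] at hA
        obtain ⟨j1, hj1, hA⟩ := hA
        unfold Aj at hA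
        rw [mem_filter] at hA
        have hpos := (h'.2.1 j1 hj1).pos
        exact hex j1 hj1 (m j1 - 1) (by omega)
          (((hall _ j1 hj1 rfl (m j1 - 1) (by omega)).us hW hS).1 hA.2.1)
      rw [← hζ v hA, hζ' v hA']
  · rw [h.1 v hS, h'.1 v hS]

lemma Aa_sub (rk : Fin k → ℕ) (η : Om d) : Aa r W c tgt L Λ m rk η ⊆ Sb r W := by
  classical
  intro v hv
  unfold Aa at hv
  rw [mem_biUnion] at hv
  obtain ⟨j, _, hv⟩ := hv
  unfold Aj at hv
  exact (mem_filter.1 hv).1

open Classical in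
/-- Kraft's inequality -/
lemma kraft (hW : ∀ s ∈ W, s < r) (rk : Fin k → ℕ) (hrk : Set.InjOn rk (Λ : Set (Fin k)))
    (ω₀ : Om d) :
    ∑ η ∈ univ.filter (fun η => Ev r W c tgt L Λ m ω₀ η), (2 : ℝ) ^
      (Aa r W c tgt L Λ m rk η).card ≤ 2 ^ (Sb r W).card := by
  have h1 : ∀ η : Om d, (2 : ℝ) ^ (Aa r W c tgt L Λ m rk η).card =
      ((Off (Aa r W c tgt L Λ m rk η) η).card : ℝ) := by
    intro η; rw [card_Off]; push_cast; rfl
  have h2 : (2 : ℝ) ^ (Sb r W).card = ((Off (Sb r W) ω₀).card : ℝ) := by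
    rw [card_Off]; push_cast; rfl
  simp only [h1]
  rw [h2, ← Nat.cast_sum]
  rw [← Finset.card_biUnion]
  · apply Nat.cast_le.2
    apply Finset.card_le_card
    intro ζ hζ
    rw [mem_biUnion] at hζ
    obtain ⟨η, hη, hζ⟩ := hζ
    rw [mem_filter] at hη
    unfold Off at hζ ⊢
    rw [mem_filter] at hζ ⊢
    refine ⟨mem_univ _, fun v hv => ?_⟩
    rw [hζ.2 v (fun h => hv (Aa_sub rk η h)), hη.2.1 v hv]
  · intro η hη η' hη' hne
    rw [mem_coe, mem_filter] at hη hη'
    rw [Function.onFun, Finset.disjoint_left]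
    intro ζ hζ hζ'
    unfold Off at hζ hζ'
    rw [mem_filter] at hζ hζ'
    exact hne (decode_eq hW rk hrk hη.2 hη'.2 hζ.2 hζ'.2)

lemma Aj_disj (rk : Fin k → ℕ) (hrk : Set.InjOn rk (Λ : Set (Fin k))) {ω₀ η : Om d}
    (h : Ev r W c tgt L Λ m ω₀ η) :
    ∀ j ∈ Λ, ∀ j' ∈ Λ, j ≠ j' → Disjoint (Aj r W c tgt L Λ m rk η j)
      (Aj r W c tgt L Λ m rk η j') := by
  classical
  have key : ∀ j ∈ Λ, ∀ j' ∈ Λ, rk j < rk j' → ∀ v, v ∈ Aj r W c tgt L Λ m rk η j →
      v ∉ Aj r W c tgt L Λ m rk η j' := by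
    intro j hj j' hj' hlt v hv hv'
    unfold Aj at hv hv'
    rw [mem_filter] at hv hv'
    have hpos := (h.2.1 j hj).pos
    exact hv'.2.2 j hj (m j - 1) (by omega) (Or.inl hlt) hv.2.1
  intro j hj j' hj' hne
  rw [Finset.disjoint_left]
  intro v hv hv'
  rcases lt_trichotomy (rk j) (rk j') with hlt | heq | hgt
  · exact key j hj j' hj' hlt v hv hv'
  · exact hne (hrk hj hj' heq)
  · exact key j' hj' j hj hgt v hv' hv

/-- at most two cards use a switch -/
lemma three_cards (hc : Function.Injective c) {η : Om d} {v : Fin d × Q d} {i₁ i₂ i₃ : Fin k}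
    (h12 : i₁ ≠ i₂) (h13 : i₁ ≠ i₃) (h23 : i₂ ≠ i₃) (h1 : Us c η i₁ v) (h2 : Us c η i₂ v)
    (h3 : Us c η i₃ v) : False := by
  unfold Us at h1 h2 h3
  have e12 : upTo η v.1 (c i₁) v.1 ≠ upTo η v.1 (c i₂) v.1 := fun e =>
    h12 (hc (upTo_inj η _ (eq_of_sw_eq (h1.trans h2.symm) e)))
  have e13 : upTo η v.1 (c i₁) v.1 ≠ upTo η v.1 (c i₃) v.1 := fun e =>
    h13 (hc (upTo_inj η _ (eq_of_sw_eq (h1.trans h3.symm) e)))
  have e23 : upTo η v.1 (c i₂) v.1 ≠ upTo η v.1 (c i₃) v.1 := fun e =>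
    h23 (hc (upTo_inj η _ (eq_of_sw_eq (h2.trans h3.symm) e)))
  revert e12 e13 e23
  generalize upTo η v.1 (c i₁) v.1 = a
  generalize upTo η v.1 (c i₂) v.1 = b
  generalize upTo η v.1 (c i₃) v.1 = e
  cases a <;> cases b <;> cases e <;> simp

open Classical in
/-- the window layers in which the closing card of `j` meets no card of its cycle are covered by
the two orders -/
lemma two_orders (hW : ∀ s ∈ W, s < r) (hc : Function.Injective c)
    (hL : ∀ i ∈ L, c i r = true) {ω₀ η : Om d} (h : Ev r W c tgt L Λ m ω₀ η)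
    (rk rk' : Fin k → ℕ) (hop : ∀ i j, rk i < rk j → ¬ rk' i < rk' j) {j : Fin k} (hj : j ∈ Λ) :
    (W.card : ℝ) - Real.logb 2 (m j) ≤ ((Aj r W c tgt L Λ m rk η j).card : ℝ) +
      ((Aj r W c tgt L Λ m rk' η j).card : ℝ) := by
  have hlead := h.2.1 j hj
  have hpos := hlead.pos
  have hgood := hlead.good
  set e := (hh r c tgt L η)^[m j - 1] j with he
  set B := W.filter (fun s => ∃ l < m j, (hh r c tgt L η)^[l] j ≠ e ∧
    sw s (upTo η s (c ((hh r c tgt L η)^[l] j))) = sw s (upTo η s (c e))) with hB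
  have hBW : B ⊆ W := Finset.filter_subset _ _
  have h1 : ((W \ B).card : ℝ) = (W.card : ℝ) - B.card := by
    rw [Finset.card_sdiff_of_subset hBW, Nat.cast_sub (Finset.card_le_card hBW)]
  have h2 : (W \ B).card ≤ (Aj r W c tgt L Λ m rk η j).card +
      (Aj r W c tgt L Λ m rk' η j).card := by
    refine le_trans ?_ (Finset.card_union_le _ _)
    apply Finset.card_le_card_of_injOn (fun s => sw s (upTo η s (c e)))
    · intro s hs
      rw [mem_coe, mem_sdiff] at hs
      obtain ⟨hsW, hsB⟩ := hs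
      have hsr : (s : ℕ) < r := hW s hsW
      have hmem : sw s (upTo η s (c e)) ∈ Sb r W := by
        rw [mem_Sb]
        refine ⟨hsW, ?_⟩
        have hne : r ≠ s := by
          intro e'
          rw [e'] at hsr
          exact absurd hsr (lt_irrefl _)
        show Function.update (upTo η s (c e)) s false r = true
        rw [Function.update_of_ne hne, upTo_ge η s (c e) r (by omega)]
        exact hL e (hlead.mem _ (by omega))
      have hus : Us c η e (sw s (upTo η s (c e))) := rfl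
      have hself : ∀ l < m j, l + 1 < m j →
          ¬ Us c η (cd r c tgt L η j l) (sw s (upTo η s (c e))) := by
        intro l hl hl1 hu
        apply hsB
        rw [hB, mem_filter]
        refine ⟨hsW, l, hl, ?_, hu⟩
        intro e1
        have := hlead.inj l hl (m j - 1) (by omega) e1
        omega
      show sw s (upTo η s (c e)) ∈ ((Aj r W c tgt L Λ m rk η j ∪ Aj r W c tgt L Λ m rk' η j :
        Finset _) : Set _)
      rw [mem_coe, mem_union]
      by_contra hcon
      push Not at hcon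
      obtain ⟨hn1, hn2⟩ := hcon
      have hex : ∀ rk'' : Fin k → ℕ, sw s (upTo η s (c e)) ∉ Aj r W c tgt L Λ m rk'' η j →
          ∃ j' ∈ Λ, ∃ l' < m j', rk'' j' < rk'' j ∧
            Us c η (cd r c tgt L η j' l') (sw s (upTo η s (c e))) := by
        intro rk'' hn
        unfold Aj at hn
        rw [mem_filter] at hn
        push Not at hn
        have h3 := hn hmem hus
        unfold Fst at h3
        push Not at h3
        obtain ⟨j', hj', l', hl', hcase, hu⟩ := h3
        rcases hcase with hlt | ⟨rfl, hlt⟩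
        · exact ⟨j', hj', l', hl', hlt, hu⟩
        · exact absurd hu (hself l' hl' hlt)
      obtain ⟨j1, hj1, l1, hl1, hlt1, hu1⟩ := hex rk hn1
      obtain ⟨j2, hj2, l2, hl2, hlt2, hu2⟩ := hex rk' hn2
      have hj1j : j1 ≠ j := by rintro rfl; exact absurd hlt1 (lt_irrefl _)
      have hj2j : j2 ≠ j := by rintro rfl; exact absurd hlt2 (lt_irrefl _)
      have hj12 : j1 ≠ j2 := by
        rintro rfl
        exact hop _ _ hlt1 hlt2
      refine three_cards hc (i₁ := cd r c tgt L η j1 l1) (i₂ := cd r c tgt L η j2 l2) (i₃ := e)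
        (h.2.2 j1 hj1 j2 hj2 hj12 l1 hl1 l2 hl2)
        (h.2.2 j1 hj1 j hj hj1j l1 hl1 (m j - 1) (by omega))
        (h.2.2 j2 hj2 j hj hj2j l2 hl2 (m j - 1) (by omega)) hu1 hu2 hus
    · intro s _ s' _ hss
      exact congrArg Prod.fst hss
  have h3 : ((W \ B).card : ℝ) ≤ ((Aj r W c tgt L Λ m rk η j).card : ℝ) +
      ((Aj r W c tgt L Λ m rk' η j).card : ℝ) := by exact_mod_cast h2
  have h4 : (B.card : ℝ) ≤ Real.logb 2 (m j) := by
    convert hgood using 2
  linarith

end

open Classical in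
theorem decode {d k : ℕ} (r : Fin d) (W : Finset (Fin d)) (hW : ∀ s ∈ W, s < r)
    (c : Fin k → Q d) (hc : Function.Injective c) (tgt : Fin k → Q d) (L : Finset (Fin k))
    (hL : ∀ i ∈ L, c i r = true) (htgt : Set.InjOn tgt (L : Set (Fin k))) (ω₀ : Om d)
    (Λ : Finset (Fin k)) (hΛ : Λ ⊆ L) (m : Fin k → ℕ) :
    (((Off (Sb r W) ω₀).filter (fun η => (∀ j ∈ Λ, Lead r c tgt L W η j (m j)) ∧
      ∀ j ∈ Λ, ∀ j' ∈ Λ, j ≠ j' → ∀ l < m j, ∀ l' < m j',
        (hh r c tgt L η)^[l] j ≠ (hh r c tgt L η)^[l'] j')).card : ℝ) *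
      ∏ j ∈ Λ, (2 : ℝ) ^ (((W.card : ℝ) - Real.logb 2 (m j)) / 2) ≤ 2 ^ (Sb r W).card := by
  set rk : Fin k → ℕ := fun i => (i : ℕ) with hrk
  set rk' : Fin k → ℕ := fun i => k - (i : ℕ) with hrk'
  have hop : ∀ i j, rk i < rk j → ¬ rk' i < rk' j := by
    intro i j h1 h2
    simp only [hrk, hrk'] at h1 h2
    have := i.2
    have := j.2
    omega
  have hI : Set.InjOn rk (Λ : Set (Fin k)) := by
    intro i _ j _ h
    exact Fin.ext h
  have hI' : Set.InjOn rk' (Λ : Set (Fin k)) := by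
    intro i _ j _ h
    simp only [hrk'] at h
    have := i.2
    have := j.2
    exact Fin.ext (by omega)
  have hset : (Off (Sb r W) ω₀).filter (fun η => (∀ j ∈ Λ, Lead r c tgt L W η j (m j)) ∧
      ∀ j ∈ Λ, ∀ j' ∈ Λ, j ≠ j' → ∀ l < m j, ∀ l' < m j',
        (hh r c tgt L η)^[l] j ≠ (hh r c tgt L η)^[l'] j') =
      univ.filter (fun η => Ev r W c tgt L Λ m ω₀ η) := by
    ext η
    rw [mem_filter, mem_filter]
    constructor
    · rintro ⟨h0, h2, h3⟩
      unfold Off at h0
      exact ⟨mem_univ _, (mem_filter.1 h0).2, h2, h3⟩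
    · rintro ⟨_, h⟩
      refine ⟨?_, h.2.1, h.2.2⟩
      unfold Off
      exact mem_filter.2 ⟨mem_univ _, h.1⟩
  rw [hset]
  have k1 := kraft (tgt := tgt) (L := L) (Λ := Λ) (m := m) (c := c) hW rk hI ω₀
  have k2 := kraft (tgt := tgt) (L := L) (Λ := Λ) (m := m) (c := c) hW rk' hI' ω₀
  have key : ∀ η ∈ univ.filter (fun η => Ev r W c tgt L Λ m ω₀ η),
      ∏ j ∈ Λ, (2 : ℝ) ^ (((W.card : ℝ) - Real.logb 2 (m j)) / 2) ≤
        (1 / 2) * (2 : ℝ) ^ (Aa r W c tgt L Λ m rk η).card +
        (1 / 2) * (2 : ℝ) ^ (Aa r W c tgt L Λ m rk' η).card := by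
    intro η hη
    have hη := (mem_filter.1 hη).2
    have h1 : ((Aa r W c tgt L Λ m rk η).card : ℝ) =
        ∑ j ∈ Λ, ((Aj r W c tgt L Λ m rk η j).card : ℝ) := by
      unfold Aa
      rw [Finset.card_biUnion (Aj_disj rk hI hη)]
      push_cast
      rfl
    have h2 : ((Aa r W c tgt L Λ m rk' η).card : ℝ) =
        ∑ j ∈ Λ, ((Aj r W c tgt L Λ m rk' η j).card : ℝ) := by
      unfold Aa
      rw [Finset.card_biUnion (Aj_disj rk' hI' hη)]
      push_cast
      rfl
    rw [← Real.rpow_sum_of_pos (by norm_num : (0 : ℝ) < 2)]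
    have h3 : ∑ j ∈ Λ, ((W.card : ℝ) - Real.logb 2 (m j)) / 2 ≤
        (((Aa r W c tgt L Λ m rk η).card : ℝ) + ((Aa r W c tgt L Λ m rk' η).card : ℝ)) / 2 := by
      rw [h1, h2, ← Finset.sum_add_distrib, ← Finset.sum_div]
      apply div_le_div_of_nonneg_right _ (by norm_num)
      exact Finset.sum_le_sum fun j hj => two_orders hW hc hL hη rk rk' hop hj
    refine (Real.rpow_le_rpow_of_exponent_le (by norm_num) h3).trans ?_
    have h4 : ∀ a b : ℝ, (2 : ℝ) ^ ((a + b) / 2) ≤ (1 / 2) * (2 : ℝ) ^ a + (1 / 2) * 2 ^ b := by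
      intro a b
      have e1 : (2 : ℝ) ^ ((a + b) / 2) = (2 : ℝ) ^ (a / 2) * 2 ^ (b / 2) := by
        rw [← Real.rpow_add (by norm_num)]
        congr 1
        ring
      have e2 : ∀ t : ℝ, (2 : ℝ) ^ t = (2 : ℝ) ^ (t / 2) * 2 ^ (t / 2) := by
        intro t
        rw [← Real.rpow_add (by norm_num)]
        congr 1
        ring
      rw [e1, e2 a, e2 b]
      nlinarith [sq_nonneg ((2 : ℝ) ^ (a / 2) - 2 ^ (b / 2))]
    have h5 := h4 ((Aa r W c tgt L Λ m rk η).card : ℝ) ((Aa r W c tgt L Λ m rk' η).card : ℝ)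
    rw [Real.rpow_natCast, Real.rpow_natCast] at h5
    exact h5
  calc ((univ.filter (fun η => Ev r W c tgt L Λ m ω₀ η)).card : ℝ) *
      ∏ j ∈ Λ, (2 : ℝ) ^ (((W.card : ℝ) - Real.logb 2 (m j)) / 2)
      = ∑ η ∈ univ.filter (fun η => Ev r W c tgt L Λ m ω₀ η),
          ∏ j ∈ Λ, (2 : ℝ) ^ (((W.card : ℝ) - Real.logb 2 (m j)) / 2) := by
        rw [Finset.sum_const, nsmul_eq_mul]
    _ ≤ ∑ η ∈ univ.filter (fun η => Ev r W c tgt L Λ m ω₀ η),
          ((1 / 2) * (2 : ℝ) ^ (Aa r W c tgt L Λ m rk η).card +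
            (1 / 2) * (2 : ℝ) ^ (Aa r W c tgt L Λ m rk' η).card) := Finset.sum_le_sum key
    _ ≤ 2 ^ (Sb r W).card := by
        rw [Finset.sum_add_distrib, ← Finset.mul_sum, ← Finset.mul_sum]
        linarith

end Vale.Agent.P162.Th
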