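import Mathlib

/-!
# P162, `Θ(log n)`: shared definitions (flat butterfly model)

Positions are bit vectors `Q d = Fin d → Bool`.  Layer `r` acts on coordinate `r`; the switch of
layer `r` containing `z` is `sw r z`.  `upTo ω r` runs the layers `0, 1, …, r-1`.
-/

open Finset
open scoped BigOperators

namespace Vale.Agent.P162.Th

/-- positions of the flat model -/
abbrev Q (d : ℕ) := Fin d → Bool

/-- coins: one bit per layer and position (only the positions with `z r = false` are used) -/
abbrev Om (d : ℕ) := Fin d × Q d → Bool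

/-- the switch of layer `r` containing position `z` -/
def sw {d : ℕ} (r : Fin d) (z : Q d) : Fin d × Q d := (r, Function.update z r false)

/-- layer `r` -/
def lay {d : ℕ} (ω : Om d) (r : Fin d) (z : Q d) : Q d :=
  Function.update z r (xor (z r) (ω (sw r z)))

/-- position after the layers `0, …, r-1` -/
def upTo {d : ℕ} (ω : Om d) : ℕ → Q d → Q d
  | 0, z => z
  | r + 1, z => if h : r < d then lay ω ⟨r, h⟩ (upTo ω r z) else upTo ω r z

/-- `y` on the coordinates `< r`, `c` on the others: position before layer `r` of the card going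
from `c` to `y` -/
def mix {d : ℕ} (r : ℕ) (y c : Q d) : Q d := fun j => if (j : ℕ) < r then y j else c j

/-- switches used in layer `r` by the cards `i`, going from `c i` to `x i` -/
def fs {d k : ℕ} (x c : Fin k → Q d) (r : Fin d) (i : Fin k) : Fin d × Q d :=
  sw r (mix (r : ℕ) (x i) (c i))

/-- number of pairs of cards sharing a switch in layer `r` -/
def pp {d k : ℕ} (x c : Fin k → Q d) (r : Fin d) : ℕ :=
  k - (univ.image (fs x c r)).card

/-- the equivalence relation generated by `f i = f j` or `g i = g j` -/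
def cs {ι α β : Type} (f : ι → α) (g : ι → β) : Setoid ι :=
  Relation.EqvGen.setoid (fun i j => f i = f j ∨ g i = g j)

/-- a component is full if each of its members has an `f`-partner and a `g`-partner -/
def IsFull {ι α β : Type} (f : ι → α) (g : ι → β) (s : Quotient (cs f g)) : Prop :=
  ∀ i : ι, Quotient.mk (cs f g) i = s → (∃ j, j ≠ i ∧ f j = f i) ∧ (∃ j, j ≠ i ∧ g j = g i)

/-- the number of full components -/
noncomputable def cyc {ι α β : Type} (f : ι → α) (g : ι → β) : ℕ :=
  Nat.card {s : Quotient (cs f g) // IsFull f g s}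

/-- total number of full components over all layers -/
noncomputable def Cyc {d k : ℕ} (x c y : Fin k → Q d) : ℕ :=
  ∑ r : Fin d, cyc (fs x c r) (fs y c r)

open Classical in
/-- probability that the cards go from `c` to `x` -/
noncomputable def pr {d k : ℕ} (c x : Fin k → Q d) : ℝ :=
  ((univ.filter (fun ω : Om d => ∀ i, upTo ω d (c i) = x i)).card : ℝ) /
    (Fintype.card (Om d) : ℝ)

/-- the Beneš kernel `x → c → y` on injective `k`-tuples -/
noncomputable def Kk (d k : ℕ) : Matrix (Fin k ↪ Q d) (Fin k ↪ Q d) ℝ :=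
  fun x y => ∑ c : Fin k ↪ Q d, pr (c : Fin k → Q d) x * pr (c : Fin k → Q d) y

/-- the kernel weighted by `2 ^ (δ Cyc)` -/
noncomputable def Lk (δ : ℝ) (d k : ℕ) : Matrix (Fin k ↪ Q d) (Fin k ↪ Q d) ℝ :=
  fun x y => ∑ c : Fin k ↪ Q d, pr (c : Fin k → Q d) x * pr (c : Fin k → Q d) y *
    (2 : ℝ) ^ (δ * (Cyc (x : Fin k → Q d) c y : ℝ))

/-- the bits of the layers in `W` on the side `{z r = true}` -/
def Sb {d : ℕ} (r : Fin d) (W : Finset (Fin d)) : Finset (Fin d × Q d) :=
  univ.filter (fun v => v.1 ∈ W ∧ v.2 r = true)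

/-- the coin vectors equal to `ω` outside of `S` -/
def Off {d : ℕ} (S : Finset (Fin d × Q d)) (ω : Om d) : Finset (Om d) :=
  univ.filter (fun η => ∀ v, v ∉ S → η v = ω v)

end Vale.Agent.P162.Th
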