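import Vale.Agent.P162.ThDefs
import Vale.Agent.P162.Depth

/-!
# P162, `Θ(log n)`: shared definitions (cycles of cards; levels of `L²(S_n)`)
-/

open Finset Equiv
open scoped BigOperators RealInnerProductSpace

namespace Vale.Agent.P162.Th

section cards

variable {d k : ℕ}

open Classical in
/-- next card of `i`: the card of `L` whose target is the position of card `i` before layer `r`
(default value `i`) -/
noncomputable def hh (r : Fin d) (c tgt : Fin k → Q d) (L : Finset (Fin k)) (ω : Om d)
    (i : Fin k) : Fin k :=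
  if h : ∃ j ∈ L, upTo ω r (c i) = tgt j then h.choose else i

open Classical in
/-- `j` is a good leader of a cycle `j, hh j, …, hh^[m-1] j` of length `m` : the closing card
`hh^[m-1] j` shares at most `log₂ m` switches of the window `W` with cards of the same cycle -/
structure Lead (r : Fin d) (c tgt : Fin k → Q d) (L : Finset (Fin k)) (W : Finset (Fin d))
    (ω : Om d) (j : Fin k) (m : ℕ) : Prop where
  pos : 0 < m
  mem : ∀ l < m, (hh r c tgt L ω)^[l] j ∈ L
  step : ∀ l, l + 1 < m → upTo ω r (c ((hh r c tgt L ω)^[l] j)) = tgt ((hh r c tgt L ω)^[l + 1] j)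
  close : upTo ω r (c ((hh r c tgt L ω)^[m - 1] j)) = tgt j
  inj : ∀ l < m, ∀ l' < m, (hh r c tgt L ω)^[l] j = (hh r c tgt L ω)^[l'] j → l = l'
  good : ((W.filter (fun s => ∃ l < m, (hh r c tgt L ω)^[l] j ≠ (hh r c tgt L ω)^[m - 1] j ∧
    sw s (upTo ω s (c ((hh r c tgt L ω)^[l] j))) =
      sw s (upTo ω s (c ((hh r c tgt L ω)^[m - 1] j))))).card : ℝ) ≤ Real.logb 2 m

end cards

section levels

open DepthAux

variable {X : Type} [Fintype X] [DecidableEq X]

/-- projection on the functions of `σ|_Z`: right average over the permutations fixing `Z`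
pointwise -/
noncomputable def Qz (Z : Finset X) :
    EuclideanSpace ℝ (Perm X) →L[ℝ] EuclideanSpace ℝ (Perm X) :=
  ((St Zᶜ).card : ℝ)⁻¹ • ∑ g ∈ St Zᶜ, ((rt g).toContinuousLinearEquiv :
    EuclideanSpace ℝ (Perm X) →L[ℝ] EuclideanSpace ℝ (Perm X))

/-- mean of `Qz Z` over all `Z` of cardinality `k` -/
noncomputable def Bk (X : Type) [Fintype X] [DecidableEq X] (k : ℕ) :
    EuclideanSpace ℝ (Perm X) →L[ℝ] EuclideanSpace ℝ (Perm X) :=
  ((Fintype.card X).choose k : ℝ)⁻¹ • ∑ Z ∈ powersetCard k (univ : Finset X), Qz Z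

/-- projection on level `k + 1` -/
noncomputable def Pk (X : Type) [Fintype X] [DecidableEq X] (k : ℕ) :
    EuclideanSpace ℝ (Perm X) →L[ℝ] EuclideanSpace ℝ (Perm X) :=
  (U X (k + 1)).starProjection - (U X k).starProjection

open Classical in
/-- the kernel of a random permutation on injective `k`-tuples -/
noncomputable def kerM {κ : Type} [Fintype κ] (k : ℕ) (F : κ → Perm X) :
    Matrix (Fin k ↪ X) (Fin k ↪ X) ℝ :=
  fun x y => (Fintype.card κ : ℝ)⁻¹ *
    ((univ.filter (fun a : κ => ∀ i, F a (x i) = y i)).card : ℝ)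

end levels

end Vale.Agent.P162.Th
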