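import Vale.Agent.P162.ThDefs2

/-!
# P162, `Θ(log n)`, module [E3]
-/

open Finset Equiv
open scoped BigOperators RealInnerProductSpace

namespace Vale.Agent.P162.Th

open DepthAux

namespace E3Aux

variable {X : Type} [Fintype X] [DecidableEq X]

/-- the number of embeddings with a given image -/
theorem card_emb_image {k : ℕ} {Z : Finset X} (hZ : Z.card = k) :
    (univ.filter (fun z : Fin k ↪ X => univ.map z = Z)).card = k.factorial := by
  classical
  have hmem : ∀ z : {z : Fin k ↪ X // univ.map z = Z}, ∀ i, z.1 i ∈ Z := by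
    rintro ⟨z, hz⟩ i
    have h1 : z i ∈ univ.map z := mem_map_of_mem _ (mem_univ i)
    rw [hz] at h1
    exact h1
  have e : {z : Fin k ↪ X // univ.map z = Z} ≃ (Fin k ≃ Z) :=
    { toFun := fun z => Equiv.ofBijective (fun i => (⟨z.1 i, hmem z i⟩ : Z))
          (by
            rw [Fintype.bijective_iff_injective_and_card]
            refine ⟨fun i j h => z.1.injective (congrArg Subtype.val h), ?_⟩
            rw [Fintype.card_fin, Fintype.card_coe, hZ])
      invFun := fun e => ⟨e.toEmbedding.trans (Function.Embedding.subtype _), by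
        ext x
        simp only [mem_map, mem_univ, true_and, Function.Embedding.trans_apply,
          Equiv.coe_toEmbedding, Function.Embedding.subtype_apply]
        constructor
        · rintro ⟨i, rfl⟩; exact (e i).2
        · intro hx; exact ⟨e.symm ⟨x, hx⟩, by simp⟩⟩
      left_inv := fun z => by
        apply Subtype.ext
        ext i
        rfl
      right_inv := fun e => by
        ext i
        rfl }
  rw [← Fintype.card_subtype, Fintype.card_congr e, Fintype.card_equiv
    (Fintype.equivOfCardEq (by rw [Fintype.card_fin, Fintype.card_coe, hZ])), Fintype.card_fin]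

theorem sum_emb {k : ℕ} (φ : Finset X → ℝ) :
    ∑ z : Fin k ↪ X, φ (univ.map z) =
      (k.factorial : ℝ) * ∑ Z ∈ powersetCard k (univ : Finset X), φ Z := by
  classical
  rw [← Finset.sum_fiberwise_of_maps_to (s := univ) (t := powersetCard k (univ : Finset X))
    (g := fun z : Fin k ↪ X => univ.map z)
    (fun z _ => mem_powersetCard.2 ⟨subset_univ _, by simp⟩), Finset.mul_sum]
  refine Finset.sum_congr rfl fun Z hZ => ?_
  rw [Finset.sum_congr rfl (g := fun _ => φ Z) (fun z hz => by
    rw [(mem_filter.1 hz).2]), Finset.sum_const, card_emb_image (mem_powersetCard.1 hZ).2,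
    nsmul_eq_mul]

theorem card_St (B : Finset X) : (St B).card = B.card.factorial := by
  classical
  rw [St, ← Fintype.card_subtype, ← Fintype.card_congr
    (Equiv.Perm.subtypeEquivSubtypePerm (fun x => x ∈ B)), Fintype.card_perm, Fintype.card_coe]

open Classical in
/-- fixed `z` -/
theorem fixed_z {k : ℕ} (z : Fin k ↪ X) (v : EuclideanSpace ℝ (Perm X)) :
    ∑ y : Fin k ↪ X, (∑ g ∈ univ.filter (fun g : Perm X => ∀ i, g (z i) = y i), v g) ^ 2 =
      ((St (univ.map z)ᶜ).card : ℝ) * ⟪Qz (univ.map z) v, v⟫ := by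
  have h1 : ∀ y : Fin k ↪ X,
      (∑ g ∈ univ.filter (fun g : Perm X => ∀ i, g (z i) = y i), v g) ^ 2 =
      ∑ g ∈ univ.filter (fun g : Perm X => ∀ i, g (z i) = y i),
        ∑ g' ∈ univ.filter (fun g' : Perm X => ∀ i, g' (z i) = g (z i)), v g * v g' := by
    intro y
    rw [sq, Finset.sum_mul]
    refine Finset.sum_congr rfl fun g hg => ?_
    rw [Finset.mul_sum]
    have hg' := (mem_filter.1 hg).2
    simp only [hg']
  have h2 : ∑ y : Fin k ↪ X,
      (∑ g ∈ univ.filter (fun g : Perm X => ∀ i, g (z i) = y i), v g) ^ 2 =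
      ∑ g : Perm X,
        ∑ g' ∈ univ.filter (fun g' : Perm X => ∀ i, g' (z i) = g (z i)), v g * v g' := by
    simp only [h1]
    rw [← Finset.sum_fiberwise (s := univ)
      (g := fun g : Perm X => z.trans g.toEmbedding)
      (f := fun g => ∑ g' ∈ univ.filter (fun g' : Perm X => ∀ i, g' (z i) = g (z i)), v g * v g')]
    refine Finset.sum_congr rfl fun y _ => ?_
    refine Finset.sum_congr ?_ fun _ _ => rfl
    ext g
    simp only [mem_filter, mem_univ, true_and]
    constructor
    · intro h; ext i; exact h i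
    · intro h i; rw [← h]; rfl
  have h3 : ⟪Qz (univ.map z) v, v⟫ = ((St (univ.map z)ᶜ).card : ℝ)⁻¹ *
      ∑ h ∈ St (univ.map z)ᶜ, ∑ g : Perm X, v g * v (g * h⁻¹) := by
    have e1 : Qz (univ.map z) v = ((St (univ.map z)ᶜ).card : ℝ)⁻¹ •
        ∑ h ∈ St (univ.map z)ᶜ, rt h v := by
      simp [Qz]
    rw [e1, inner_smul_left, sum_inner]
    have e2 : ∀ h : Perm X, ⟪rt h v, v⟫ = ∑ g : Perm X, v g * v (g * h⁻¹) := by
      intro h
      rw [PiLp.inner_apply]
      refine Finset.sum_congr rfl fun g _ => ?_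
      rw [rt_apply]
      simp
    rw [Finset.sum_congr rfl fun h _ => e2 h]
    simp
  rw [h2, h3, ← mul_assoc, mul_inv_cancel₀ (card_St_pos _).ne', one_mul, Finset.sum_comm]
  refine Finset.sum_congr rfl fun g _ => ?_
  refine Finset.sum_nbij' (fun g' => g'⁻¹ * g) (fun h => g * h⁻¹) ?_ ?_ ?_ ?_ ?_
  · intro g' hg'
    have hg'' := (mem_filter.1 hg').2
    rw [mem_St]
    intro x hx
    simp only [mem_compl, not_not, mem_map, mem_univ, true_and] at hx
    obtain ⟨i, rfl⟩ := hx
    rw [Perm.mul_apply, ← hg'' i]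
    simp
  · intro h hh
    rw [mem_St] at hh
    rw [mem_filter]
    refine ⟨mem_univ _, fun i => ?_⟩
    have h4 := hh (z i) (by simp)
    rw [Perm.mul_apply]
    congr 1
    rw [Perm.inv_eq_iff_eq, h4]
  · intro g' _; group
  · intro h _; group
  · intro g' _
    have e3 : g * (g'⁻¹ * g)⁻¹ = g' := by group
    rw [e3]

end E3Aux

section levels

variable {X : Type} [Fintype X] [DecidableEq X]

open Classical in
theorem E3 {k : ℕ} (hk : k ≤ Fintype.card X) (v : EuclideanSpace ℝ (Perm X)) :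
    ((Fintype.card X).factorial : ℝ) * ⟪Bk X k v, v⟫ =
      ∑ z : Fin k ↪ X, ∑ y : Fin k ↪ X,
        (∑ g ∈ univ.filter (fun g : Perm X => ∀ i, g (z i) = y i), v g) ^ 2 := by
  have h1 : ∑ z : Fin k ↪ X, ∑ y : Fin k ↪ X,
        (∑ g ∈ univ.filter (fun g : Perm X => ∀ i, g (z i) = y i), v g) ^ 2 =
      (k.factorial : ℝ) * ∑ Z ∈ powersetCard k (univ : Finset X),
        ((St Zᶜ).card : ℝ) * ⟪Qz Z v, v⟫ := by
    rw [← E3Aux.sum_emb (fun Z => ((St Zᶜ).card : ℝ) * ⟪Qz Z v, v⟫)]
    exact Finset.sum_congr rfl fun z _ => E3Aux.fixed_z z v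
  have h2 : ∑ Z ∈ powersetCard k (univ : Finset X), ((St Zᶜ).card : ℝ) * ⟪Qz Z v, v⟫ =
      ((Fintype.card X - k).factorial : ℝ) * ∑ Z ∈ powersetCard k (univ : Finset X),
        ⟪Qz Z v, v⟫ := by
    rw [Finset.mul_sum]
    refine Finset.sum_congr rfl fun Z hZ => ?_
    rw [E3Aux.card_St, card_compl, (mem_powersetCard.1 hZ).2]
  have h3 : ⟪Bk X k v, v⟫ = ((Fintype.card X).choose k : ℝ)⁻¹ *
      ∑ Z ∈ powersetCard k (univ : Finset X), ⟪Qz Z v, v⟫ := by
    have e1 : Bk X k v = ((Fintype.card X).choose k : ℝ)⁻¹ •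
        ∑ Z ∈ powersetCard k (univ : Finset X), Qz Z v := by
      simp [Bk]
    rw [e1, inner_smul_left, sum_inner]
    simp
  rw [h1, h2, h3]
  have h4 : ((Fintype.card X).choose k : ℝ) ≠ 0 := by
    exact_mod_cast (Nat.choose_pos hk).ne'
  have h5 : ((Fintype.card X).factorial : ℝ) =
      ((Fintype.card X).choose k : ℝ) * (k.factorial : ℝ) * ((Fintype.card X - k).factorial : ℝ) := by
    exact_mod_cast (Nat.choose_mul_factorial_mul_factorial hk).symm
  rw [h5]
  field_simp

end levels

end Vale.Agent.P162.Th
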