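import Vale.Agent.P162.ThSL

/-!
# P162, `Θ(log n)`: one layer, exponential moment of the number of full components
-/

open Finset
open scoped BigOperators

namespace Vale.Agent.P162.Th

namespace FullAux

variable {d k : ℕ}

/-- the other position of the switch -/
def flp (r : Fin d) (z : Q d) : Q d := Function.update z r (!z r)

lemma flp_inj (r : Fin d) : Function.Injective (flp r) := by
  intro a b h
  unfold flp at h
  funext j
  have h1 := congrFun h j
  by_cases hj : j = r
  · subst hj
    simpa using h1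
  · simpa [Function.update_of_ne hj] using h1

open Classical in
/-- cards on the true side having an `f`-partner -/
noncomputable def Lf (x c : Fin k → Q d) (r : Fin d) : Finset (Fin k) :=
  univ.filter (fun i => c i r = true ∧ ∃ j, j ≠ i ∧ fs x c r j = fs x c r i)

open Classical in
/-- targets -/
noncomputable def tg (x c : Fin k → Q d) (r : Fin d) (ω₀ : Om d) (l : Fin k) : Q d :=
  if h : ∃ j, j ≠ l ∧ fs x c r j = fs x c r l then flp r (upTo ω₀ r (c h.choose)) else c l

lemma mem_Lf {x c : Fin k → Q d} {r : Fin d} {i : Fin k} :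
    i ∈ Lf x c r ↔ c i r = true ∧ ∃ j, j ≠ i ∧ fs x c r j = fs x c r i := by
  classical
  unfold Lf
  rw [mem_filter]
  simp

variable {x c : Fin k → Q d} {r : Fin d}

lemma tg_eq (hp : ∀ i j, i ≠ j → fs x c r i = fs x c r j → c i r ≠ c j r) (ω₀ : Om d)
    {l j : Fin k} (hj : j ≠ l) (hf : fs x c r j = fs x c r l) (hl : c l r = true)
    (hcj : c j r = false) : tg x c r ω₀ l = flp r (upTo ω₀ r (c j)) := by
  have h : ∃ j, j ≠ l ∧ fs x c r j = fs x c r l := ⟨j, hj, hf⟩
  unfold tg
  rw [dif_pos h]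
  have h1 := h.choose_spec
  have h2 : h.choose = j := by
    by_contra hne
    have h3 := hp _ _ hne (h1.2.trans hf.symm)
    have h4 := hp _ _ h1.1 h1.2
    rw [hcj] at h3
    rw [hl] at h4
    revert h3 h4
    generalize c (h.choose) r = b
    cases b <;> simp
  rw [h2]

lemma tg_injOn (hc : Function.Injective c)
    (hp : ∀ i j, i ≠ j → fs x c r i = fs x c r j → c i r ≠ c j r) (ω₀ : Om d) :
    Set.InjOn (tg x c r ω₀) (Lf x c r : Set (Fin k)) := by
  intro l hl l' hl' heq
  rw [mem_coe, mem_Lf] at hl hl'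
  obtain ⟨h1, j, hj, hf⟩ := hl
  obtain ⟨h1', j', hj', hf'⟩ := hl'
  have hcj : c j r = false := by
    have := hp _ _ hj hf
    rw [h1] at this
    simpa using this
  have hcj' : c j' r = false := by
    have := hp _ _ hj' hf'
    rw [h1'] at this
    simpa using this
  rw [tg_eq hp ω₀ hj hf h1 hcj, tg_eq hp ω₀ hj' hf' h1' hcj'] at heq
  have h2 : j = j' := hc (upTo_inj ω₀ _ (flp_inj r heq))
  subst h2
  by_contra hne
  exact hp _ _ hne (hf.symm.trans hf') (h1.trans h1'.symm)

lemma card_Lf (hp : ∀ i j, i ≠ j → fs x c r i = fs x c r j → c i r ≠ c j r) :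
    (Lf x c r).card ≤ pp x c r := by
  classical
  have h1 : univ.image (fs x c r) = (univ \ Lf x c r).image (fs x c r) := by
    apply Finset.Subset.antisymm
    · intro v hv
      rw [mem_image] at hv ⊢
      obtain ⟨i, _, rfl⟩ := hv
      by_cases hi : i ∈ Lf x c r
      · obtain ⟨h1, j, hj, hf⟩ := mem_Lf.1 hi
        refine ⟨j, ?_, hf⟩
        rw [mem_sdiff]
        refine ⟨mem_univ _, fun hjL => ?_⟩
        have h2 := hp _ _ hj hf
        rw [(mem_Lf.1 hjL).1, h1] at h2
        exact h2 rfl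
      · exact ⟨i, mem_sdiff.2 ⟨mem_univ _, hi⟩, rfl⟩
    · exact Finset.image_subset_image (Finset.sdiff_subset)
  have h2 : (univ.image (fs x c r)).card ≤ k - (Lf x c r).card := by
    rw [h1]
    refine Finset.card_image_le.trans ?_
    rw [Finset.card_sdiff_of_subset (subset_univ _), card_univ, Fintype.card_fin]
  have h3 : (Lf x c r).card ≤ k := by
    have := Finset.card_le_univ (Lf x c r)
    rwa [Fintype.card_fin] at this
  unfold pp
  omega

/-- cards of the false side do not see the bits of `Sb` -/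
lemma up_false {W : Finset (Fin d)} (hW : ∀ s ∈ W, s < r) {ω₀ η : Om d}
    (hη : η ∈ Off (Sb r W) ω₀) {z : Q d} (hz : z r = false) : upTo η r z = upTo ω₀ r z := by
  refine path_same (r := r) ?_ r le_rfl
  intro v hv hu _
  unfold Off at hη
  refine (mem_filter.1 hη).2 v ?_
  intro hS
  have h1 := (mem_Sb.1 hS).2
  have hne : r ≠ v.1 := by
    intro e
    rw [← e] at hv
    exact absurd hv (lt_irrefl _)
  have h2 : v.2 r = z r := by
    rw [← hu]
    show Function.update (upTo η v.1 z) v.1 false r = z r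
    have hv' : (v.1 : ℕ) < r := hv
    rw [Function.update_of_ne hne, upTo_ge η _ z r (by omega)]
  rw [h2, hz] at h1
  exact absurd h1 (by simp)

open Classical in
/-- true side of a component -/
noncomputable def Ps (g : Fin k → Fin d × Q d) (x c : Fin k → Q d) (r : Fin d)
    (s : Quotient (cs (fs x c r) g)) : Finset (Fin k) :=
  univ.filter (fun i => c i r = true ∧ Quotient.mk (cs (fs x c r) g) i = s)

lemma mem_Ps {g : Fin k → Fin d × Q d} {s : Quotient (cs (fs x c r) g)} {i : Fin k} :
    i ∈ Ps g x c r s ↔ c i r = true ∧ Quotient.mk (cs (fs x c r) g) i = s := by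
  classical
  unfold Ps
  rw [mem_filter]
  simp

lemma mk_f {g : Fin k → Fin d × Q d} {i j : Fin k} (h : fs x c r i = fs x c r j) :
    Quotient.mk (cs (fs x c r) g) i = Quotient.mk (cs (fs x c r) g) j :=
  Quotient.sound (Relation.EqvGen.rel _ _ (Or.inl h))

lemma mk_g {g : Fin k → Fin d × Q d} {i j : Fin k} (h : g i = g j) :
    Quotient.mk (cs (fs x c r) g) i = Quotient.mk (cs (fs x c r) g) j :=
  Quotient.sound (Relation.EqvGen.rel _ _ (Or.inr h))

lemma Ps_nonempty (hp : ∀ i j, i ≠ j → fs x c r i = fs x c r j → c i r ≠ c j r)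
    {g : Fin k → Fin d × Q d} {s : Quotient (cs (fs x c r) g)} (hs : IsFull (fs x c r) g s) :
    (Ps g x c r s).Nonempty := by
  obtain ⟨i, hi⟩ := Quotient.exists_rep s
  obtain ⟨⟨j, hj, hf⟩, _⟩ := hs i hi
  have h1 := hp _ _ hj hf
  by_cases h : c i r = true
  · exact ⟨i, mem_Ps.2 ⟨h, hi⟩⟩
  · refine ⟨j, mem_Ps.2 ⟨?_, (mk_f hf).trans hi⟩⟩
    have h' : c i r = false := by simpa using h
    rw [h'] at h1
    simpa using h1

end FullAux

open FullAux

open Classical in
/-- the true sides of the full components -/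
noncomputable def PP {d k : ℕ} (W : Finset (Fin d)) (x c : Fin k → Q d) (r : Fin d) (ω₀ η : Om d) :
    Finset (Finset (Fin k)) :=
  if η ∈ Off (Sb r W) ω₀ then
    (univ.filter (fun s : Quotient (cs (fs x c r) (fun i => sw r (upTo η r (c i)))) =>
      IsFull _ _ s)).image (Ps _ x c r)
  else ∅

theorem SLcyc {d k : ℕ} (r : Fin d) (W : Finset (Fin d)) (hW : ∀ s ∈ W, s < r) (u : ℕ)
    (hu : 1 ≤ u) (hw : W.card = 8 * u) (x c : Fin k → Q d) (hc : Function.Injective c)
    (hp : ∀ i j, i ≠ j → fs x c r i = fs x c r j → c i r ≠ c j r) (ω₀ : Om d) :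
    ∑ η ∈ Off (Sb r W) ω₀,
      (2 : ℝ) ^ (u * cyc (fs x c r) (fun i => sw r (upTo η r (c i)))) ≤
      2 ^ (Sb r W).card * Real.exp ((2 * u / 2 ^ u) * (pp x c r : ℝ)) := by
  classical
  have hP : ∀ η, ∀ P ∈ PP W x c r ω₀ η, P.Nonempty ∧ P ⊆ Lf x c r ∧
      ∀ i ∈ P, ∃ j ∈ P, upTo η r (c i) = tg x c r ω₀ j := by
    intro η P hP
    unfold PP at hP
    by_cases hη : η ∈ Off (Sb r W) ω₀
    · rw [if_pos hη, mem_image] at hP
      obtain ⟨s, hs, rfl⟩ := hP
      have hs := (mem_filter.1 hs).2
      refine ⟨Ps_nonempty hp hs, ?_, ?_⟩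
      · intro i hi
        obtain ⟨h1, h2⟩ := mem_Ps.1 hi
        exact mem_Lf.2 ⟨h1, (hs i h2).1⟩
      · intro i hi
        obtain ⟨h1, h2⟩ := mem_Ps.1 hi
        obtain ⟨_, j, hj, hg⟩ := hs i h2
        have hmj := (mk_g (x := x) (c := c) (r := r) hg).trans h2
        obtain ⟨⟨l, hl, hf⟩, _⟩ := hs j hmj
        have hml := (mk_f (g := fun i => sw r (upTo η r (c i))) hf).trans hmj
        have hne : upTo η r (c j) r ≠ upTo η r (c i) r := fun e =>
          hj (hc (upTo_inj η _ (eq_of_sw_eq hg e)))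
        rw [upTo_ge η r (c j) r le_rfl, upTo_ge η r (c i) r le_rfl, h1] at hne
        have hcj : c j r = false := by simpa using hne
        have hcl : c l r = true := by
          have := hp _ _ hl hf
          rw [hcj] at this
          simpa using this
        refine ⟨l, mem_Ps.2 ⟨hcl, hml⟩, ?_⟩
        rw [tg_eq hp ω₀ hl.symm hf.symm hcl hcj, ← up_false hW hη hcj]
        funext a
        unfold flp
        by_cases ha : a = r
        · subst ha
          rw [Function.update_self, upTo_ge η a (c i) a le_rfl, upTo_ge η a (c j) a le_rfl, h1,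
            hcj]
          rfl
        · rw [Function.update_of_ne ha]
          exact ((sw_eq_iff.1 hg) a ha).symm
    · rw [if_neg hη] at hP
      simp at hP
  have hdis : ∀ η, ∀ P ∈ PP W x c r ω₀ η, ∀ P' ∈ PP W x c r ω₀ η, P ≠ P' → Disjoint P P' := by
    intro η P hP P' hP' hne
    unfold PP at hP hP'
    by_cases hη : η ∈ Off (Sb r W) ω₀
    · rw [if_pos hη, mem_image] at hP hP'
      obtain ⟨s, _, rfl⟩ := hP
      obtain ⟨s', _, rfl⟩ := hP'
      rw [Finset.disjoint_left]
      intro i hi hi'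
      apply hne
      rw [← (mem_Ps.1 hi).2, ← (mem_Ps.1 hi').2]
    · rw [if_neg hη] at hP
      simp at hP
  have hcyc : ∀ η ∈ Off (Sb r W) ω₀, cyc (fs x c r) (fun i => sw r (upTo η r (c i))) =
      (PP W x c r ω₀ η).card := by
    intro η hη
    unfold PP
    rw [if_pos hη, Finset.card_image_of_injOn]
    · unfold cyc
      rw [Nat.card_eq_fintype_card, Fintype.card_subtype]
    · intro s hs s' hs' heq
      rw [mem_coe, mem_filter] at hs hs'
      obtain ⟨i, hi⟩ := Ps_nonempty hp hs.2
      have hi' := hi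
      rw [heq] at hi'
      rw [← (mem_Ps.1 hi).2, ← (mem_Ps.1 hi').2]
  have h := SL r W hW u hu hw c hc (tg x c r ω₀) (Lf x c r) (fun i hi => (mem_Lf.1 hi).1)
    (tg_injOn hc hp ω₀) ω₀ (PP W x c r ω₀) hP hdis
  rw [Finset.sum_congr rfl (fun η hη => by rw [hcyc η hη])]
  refine h.trans ?_
  apply mul_le_mul_of_nonneg_left _ (by positivity)
  apply Real.exp_le_exp.2
  apply mul_le_mul_of_nonneg_left _ (by positivity)
  exact_mod_cast card_Lf hp

end Vale.Agent.P162.Th
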