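import Mathlib

/-!
# P162, `Θ(log n)`, module [GEN]: a triangular sum of products
-/

open Finset
open scoped BigOperators

namespace Vale.Agent.P162.Th

theorem genSum {d : ℕ} {B : Type} [Fintype B] (F : Fin d → (Fin d → B) → ℝ)
    (h0 : ∀ r a, 0 ≤ F r a)
    (hdep : ∀ r a a', (∀ s, r ≤ s → a s = a' s) → F r a = F r a')
    (hsum : ∀ r a, ∑ b : B, F r (Function.update a r b) ≤ 1) :
    ∑ a : Fin d → B, ∏ r, F r a ≤ 1 := by
  induction d with
  | zero =>
    simp
  | succ d ih =>
    rcases isEmpty_or_nonempty B with hB | ⟨⟨b0⟩⟩
    · have : IsEmpty (Fin (d + 1) → B) := ⟨fun f => hB.false (f 0)⟩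
      simp
    · rw [← (Fin.consEquiv (fun _ : Fin (d + 1) => B)).sum_comp, Fintype.sum_prod_type,
        Finset.sum_comm]
      have key : ∀ (a : Fin d → B) (b : B),
          (∏ r, F r ((Fin.consEquiv (fun _ : Fin (d + 1) => B)) (b, a))) =
            F 0 (Function.update (Fin.cons b0 a : Fin (d + 1) → B) 0 b) *
              ∏ s : Fin d, F s.succ (Fin.cons b0 a : Fin (d + 1) → B) := by
        intro a b
        rw [Fin.prod_univ_succ]
        have e1 : (Fin.consEquiv (fun _ : Fin (d + 1) => B)) (b, a) =
            Function.update (Fin.cons b0 a : Fin (d + 1) → B) 0 b := by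
          funext j
          refine Fin.cases ?_ (fun s => ?_) j
          · simp [Fin.consEquiv]
          · simp [Fin.consEquiv, Fin.succ_ne_zero]
        rw [e1]
        congr 1
        refine Finset.prod_congr rfl fun s _ => hdep _ _ _ fun j hj => ?_
        have hj0 : j ≠ 0 := by
          rintro rfl
          simp at hj
        rw [Function.update_of_ne hj0]
      calc ∑ a : Fin d → B, ∑ b : B,
            (∏ r, F r ((Fin.consEquiv (fun _ : Fin (d + 1) => B)) (b, a)))
          = ∑ a : Fin d → B, (∑ b : B, F 0 (Function.update
              (Fin.cons b0 a : Fin (d + 1) → B) 0 b)) *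
              ∏ s : Fin d, F s.succ (Fin.cons b0 a : Fin (d + 1) → B) := by
            refine Finset.sum_congr rfl fun a _ => ?_
            rw [Finset.sum_mul]
            exact Finset.sum_congr rfl fun b _ => key a b
        _ ≤ ∑ a : Fin d → B, ∏ s : Fin d, F s.succ (Fin.cons b0 a : Fin (d + 1) → B) := by
            refine Finset.sum_le_sum fun a _ => ?_
            have h1 : 0 ≤ ∏ s : Fin d, F s.succ (Fin.cons b0 a : Fin (d + 1) → B) :=
              Finset.prod_nonneg fun s _ => h0 _ _
            have h2 := hsum 0 (Fin.cons b0 a : Fin (d + 1) → B)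
            nlinarith
        _ ≤ 1 := by
            refine ih (fun s a => F s.succ (Fin.cons b0 a : Fin (d + 1) → B))
              (fun _ _ => h0 _ _) ?_ ?_
            · intro r a a' h
              refine hdep _ _ _ fun j hj => ?_
              refine Fin.cases (fun hj => ?_) (fun s hs => ?_) j hj
              · simp
              · simp only [Fin.cons_succ]
                exact h s (Fin.succ_le_succ_iff.1 hs)
            · intro r a
              refine le_trans (le_of_eq ?_) (hsum r.succ (Fin.cons b0 a : Fin (d + 1) → B))
              refine Finset.sum_congr rfl fun b _ => ?_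
              rw [Fin.cons_update]

end Vale.Agent.P162.Th
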