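import Vale.Agent.P162.ThFlat

/-!
# P162, `Θ(log n)`: edge isoperimetric inequality for the butterfly
-/

open Finset
open scoped BigOperators

namespace Vale.Agent.P162.Th

namespace IsoAux

lemma logb_one_add {x : ℝ} (h0 : 0 ≤ x) (h1 : x ≤ 1) : x ≤ Real.logb 2 (1 + x) := by
  rw [Real.le_logb_iff_rpow_le (by norm_num) (by linarith)]
  have h := rpow_one_add_le_one_add_mul_self (s := 1) (by norm_num) h0 h1
  norm_num at h
  linarith

lemma two_min_aux {a b : ℝ} (ha : 0 < a) (hab : a ≤ b) :
    a * Real.logb 2 a + b * Real.logb 2 b + 2 * a ≤ (a + b) * Real.logb 2 (a + b) := by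
  have hb : 0 < b := by linarith
  have h1 : 1 ≤ Real.logb 2 ((a + b) / a) := by
    rw [Real.le_logb_iff_rpow_le (by norm_num) (by positivity), Real.rpow_one, le_div_iff₀ ha]
    linarith
  have h2 : a / b ≤ Real.logb 2 ((a + b) / b) := by
    have h3 := logb_one_add (x := a / b) (by positivity) (by rw [div_le_one hb]; exact hab)
    have h4 : 1 + a / b = (a + b) / b := by field_simp; ring
    rwa [h4] at h3
  rw [Real.logb_div (by positivity) (by positivity)] at h1 h2
  have h5 : a ≤ b * (Real.logb 2 (a + b) - Real.logb 2 b) := by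
    have := mul_le_mul_of_nonneg_left h2 hb.le
    rwa [mul_div_cancel₀ _ hb.ne'] at this
  nlinarith

lemma two_min (a b : ℕ) :
    (a : ℝ) * Real.logb 2 a + b * Real.logb 2 b + 2 * (min a b : ℕ) ≤
      ((a + b : ℕ) : ℝ) * Real.logb 2 ((a + b : ℕ) : ℝ) := by
  push_cast
  rcases Nat.eq_zero_or_pos a with ha | ha
  · subst ha; simp
  rcases Nat.eq_zero_or_pos b with hb | hb
  · subst hb; simp
  have ha' : (0 : ℝ) < a := by exact_mod_cast ha
  have hb' : (0 : ℝ) < b := by exact_mod_cast hb
  rcases le_total a b with h | h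
  · have h' : (a : ℝ) ≤ b := by exact_mod_cast h
    rw [min_eq_left h']
    exact two_min_aux ha' h'
  · have h' : (b : ℝ) ≤ a := by exact_mod_cast h
    rw [min_eq_right h']
    have := two_min_aux hb' h'
    rw [add_comm (b : ℝ) a] at this
    linarith

variable {d : ℕ}

/-- ordered pairs of `T` sharing a switch in layer `s` -/
def prs (ω : Om d) (s : Fin d) (T : Finset (Q d)) : Finset (Q d × Q d) :=
  (T ×ˢ T).filter (fun p : Q d × Q d => p.1 ≠ p.2 ∧
        sw s (upTo ω s p.1) = sw s (upTo ω s p.2))

lemma prs_same (ω : Om d) {s s0 : Fin d} (h : s < s0) {p q : Q d}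
    (hh : sw s (upTo ω s p) = sw s (upTo ω s q)) : p s0 = q s0 := by
  have h1 := sw_eq_iff.1 hh s0 (ne_of_gt h)
  rwa [upTo_ge ω s p s0 (le_of_lt h), upTo_ge ω s q s0 (le_of_lt h)] at h1

lemma prs_diff (ω : Om d) {s : Fin d} {p q : Q d} (hne : p ≠ q)
    (hh : sw s (upTo ω s p) = sw s (upTo ω s q)) : p s ≠ q s := by
  intro h
  apply hne
  apply upTo_inj ω s
  apply eq_of_sw_eq hh
  rw [upTo_ge ω s p s le_rfl, upTo_ge ω s q s le_rfl, h]

lemma prs_split (ω : Om d) {s s0 : Fin d} (h : s < s0) (T : Finset (Q d)) :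
    (prs ω s T).card = (prs ω s (T.filter (fun p => p s0 = true))).card +
      (prs ω s (T.filter (fun p => ¬ p s0 = true))).card := by
  rw [← card_union_of_disjoint]
  · congr 1
    ext ⟨p, q⟩
    simp only [prs, mem_filter, mem_product, mem_union]
    constructor
    · rintro ⟨⟨hp, hq⟩, hne, hs⟩
      have := prs_same ω h hs
      by_cases hb : p s0 = true
      · left; exact ⟨⟨⟨hp, hb⟩, hq, by rw [← this]; exact hb⟩, hne, hs⟩
      · right; exact ⟨⟨⟨hp, hb⟩, hq, by rw [← this]; exact hb⟩, hne, hs⟩
    · rintro (⟨⟨⟨hp, _⟩, hq, _⟩, hne, hs⟩ | ⟨⟨⟨hp, _⟩, hq, _⟩, hne, hs⟩) <;>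
        exact ⟨⟨hp, hq⟩, hne, hs⟩
  · rw [disjoint_left]
    rintro ⟨p, q⟩ h1 h2
    simp only [prs, mem_filter, mem_product] at h1 h2
    exact h2.1.1.2 h1.1.1.2

/-- determination of the partner -/
lemma partner_unique (ω : Om d) {s : Fin d} {p q q' : Q d} (hpq : p ≠ q) (hpq' : p ≠ q')
    (h : sw s (upTo ω s p) = sw s (upTo ω s q)) (h' : sw s (upTo ω s p) = sw s (upTo ω s q')) :
    q = q' := by
  have h1 := prs_diff ω hpq h
  have h2 := prs_diff ω hpq' h'
  have h3 : q s = q' s := by
    revert h1 h2
    cases p s <;> cases q s <;> cases q' s <;> simp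
  by_contra hne
  exact prs_diff ω hne (h.symm.trans h') h3

lemma prs_last_aux (ω : Om d) (s : Fin d) (T : Finset (Q d)) (b : Bool) :
    ((prs ω s T).filter (fun p => p.1 s = b)).card ≤ (T.filter (fun p => p s = b)).card ∧
    ((prs ω s T).filter (fun p => p.1 s = b)).card ≤ (T.filter (fun p => ¬ p s = b)).card := by
  constructor
  · apply card_le_card_of_injOn Prod.fst
    · rintro ⟨p, q⟩ hp
      simp only [prs, coe_filter, mem_filter, mem_product, Set.mem_ofPred_eq] at hp ⊢
      exact ⟨hp.1.1.1, hp.2⟩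
    · rintro ⟨p, q⟩ hp ⟨p', q'⟩ hp' he
      simp only [prs, coe_filter, mem_filter, mem_product, Set.mem_ofPred_eq] at hp hp' he
      subst he
      rw [partner_unique ω hp.1.2.1 hp'.1.2.1 hp.1.2.2 hp'.1.2.2]
  · apply card_le_card_of_injOn Prod.snd
    · rintro ⟨p, q⟩ hp
      simp only [prs, coe_filter, mem_filter, mem_product, Set.mem_ofPred_eq] at hp ⊢
      refine ⟨hp.1.1.2, ?_⟩
      have := prs_diff ω hp.1.2.1 hp.1.2.2
      rw [hp.2] at this
      exact fun h => this h.symm
    · rintro ⟨p, q⟩ hp ⟨p', q'⟩ hp' he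
      simp only [prs, coe_filter, mem_filter, mem_product, Set.mem_ofPred_eq] at hp hp' he
      subst he
      rw [partner_unique ω hp.1.2.1.symm hp'.1.2.1.symm hp.1.2.2.symm hp'.1.2.2.symm]

lemma prs_last (ω : Om d) (s : Fin d) (T : Finset (Q d)) :
    (prs ω s T).card ≤ 2 * min (T.filter (fun p => p s = true)).card
      (T.filter (fun p => ¬ p s = true)).card := by
  have h1 := prs_last_aux ω s T true
  have h2 := prs_last_aux ω s T false
  have e1 : (T.filter (fun p => p s = false)) = (T.filter (fun p => ¬ p s = true)) := by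
    congr 1; funext p; simp
  have e2 : (T.filter (fun p => ¬ p s = false)) = (T.filter (fun p => p s = true)) := by
    congr 1; funext p; simp
  have e3 : (prs ω s T).card = ((prs ω s T).filter (fun p => p.1 s = true)).card +
      ((prs ω s T).filter (fun p => p.1 s = false)).card := by
    rw [← card_filter_add_card_filter_not (s := prs ω s T) (fun p => p.1 s = true)]
    congr 2
    ext p; simp
  rw [e1, e2] at h2
  rw [e3]
  omega

end IsoAux

open IsoAux

theorem iso {d : ℕ} (ω : Om d) (r : ℕ) (T : Finset (Q d)) :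
    ∑ s ∈ univ.filter (fun s : Fin d => (s : ℕ) < r),
      (((T ×ˢ T).filter (fun p : Q d × Q d => p.1 ≠ p.2 ∧
        sw s (upTo ω s p.1) = sw s (upTo ω s p.2))).card : ℝ) ≤
      T.card * Real.logb 2 T.card := by
  induction r generalizing T with
  | zero =>
    simp only [Nat.not_lt_zero, filter_false, sum_empty]
    rcases Nat.eq_zero_or_pos T.card with h | h
    · rw [h]; simp
    · have : (1 : ℝ) ≤ T.card := by exact_mod_cast h
      exact mul_nonneg (by positivity) (Real.logb_nonneg (by norm_num) this)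
  | succ r ih =>
    by_cases hr : r < d
    · set s0 : Fin d := ⟨r, hr⟩ with hs0
      have hfil : univ.filter (fun s : Fin d => (s : ℕ) < r + 1) =
          insert s0 (univ.filter (fun s : Fin d => (s : ℕ) < r)) := by
        ext s
        simp only [mem_filter, mem_univ, true_and, mem_insert, Fin.ext_iff, hs0]
        omega
      rw [hfil, sum_insert (by simp [hs0])]
      set T1 := T.filter (fun p => p s0 = true) with hT1
      set T0 := T.filter (fun p => ¬ p s0 = true) with hT0
      have h1 := ih T1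
      have h0 := ih T0
      have hsum : ∑ s ∈ univ.filter (fun s : Fin d => (s : ℕ) < r), ((prs ω s T).card : ℝ) =
          ∑ s ∈ univ.filter (fun s : Fin d => (s : ℕ) < r), ((prs ω s T1).card : ℝ) +
          ∑ s ∈ univ.filter (fun s : Fin d => (s : ℕ) < r), ((prs ω s T0).card : ℝ) := by
        rw [← sum_add_distrib]
        refine sum_congr rfl fun s hs => ?_
        have hs' : s < s0 := by
          simp only [mem_filter, mem_univ, true_and] at hs
          exact Fin.lt_def.2 hs
        rw [prs_split ω hs' T]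
        push_cast; rfl
      have hlast : ((prs ω s0 T).card : ℝ) ≤ 2 * (min T1.card T0.card : ℕ) := by
        exact_mod_cast prs_last ω s0 T
      have hcard : T.card = T1.card + T0.card := by
        rw [hT1, hT0, card_filter_add_card_filter_not]
      have hmin := two_min T1.card T0.card
      rw [← hcard] at hmin
      change ((prs ω s0 T).card : ℝ) + ∑ s ∈ univ.filter (fun s : Fin d => (s : ℕ) < r),
        ((prs ω s T).card : ℝ) ≤ _
      rw [hsum]
      change ∑ s ∈ univ.filter (fun s : Fin d => (s : ℕ) < r), ((prs ω s T1).card : ℝ) ≤ _ at h1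
      change ∑ s ∈ univ.filter (fun s : Fin d => (s : ℕ) < r), ((prs ω s T0).card : ℝ) ≤ _ at h0
      linarith
    · have hfil : univ.filter (fun s : Fin d => (s : ℕ) < r + 1) =
          univ.filter (fun s : Fin d => (s : ℕ) < r) := by
        ext s
        simp only [mem_filter, mem_univ, true_and]
        omega
      rw [hfil]
      exact ih T

end Vale.Agent.P162.Th
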