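import Vale.Agent.P162.ThProb
import Vale.Agent.P162.ThColor
import Vale.Agent.P162.ThGen

/-!
# P162, `Θ(log n)`: the Jensen step for the Beneš kernel
-/

open Finset Equiv
open scoped BigOperators RealInnerProductSpace

namespace Vale.Agent.P162.Th

namespace JensenAux

variable {d k : ℕ}

lemma card_filter_inst {α : Type} (i1 i2 : Fintype α) (p q : α → Prop) (d1 : DecidablePred p)
    (d2 : DecidablePred q) (h : ∀ b, p b ↔ q b) :
    (@Finset.filter α p d1 (@Finset.univ α i1)).card =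
      (@Finset.filter α q d2 (@Finset.univ α i2)).card := by
  have h1 : p = q := funext fun b => propext (h b)
  subst h1
  have h2 : i1 = i2 := Subsingleton.elim _ _
  subst h2
  have h3 : d1 = d2 := Subsingleton.elim _ _
  subst h3
  rfl

/-- transpose -/
def tr' (a : Fin d → (Fin k → Bool)) : Fin k → Q d := fun i r => a r i

/-- properness of the coordinate `r` of `c` for the partition `f` -/
def Prp {α : Type} (f : Fin k → α) (b : Fin k → Bool) : Prop :=
  ∀ i j, i ≠ j → f i = f j → b i ≠ b j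

open Classical in
/-- the factor of layer `r` -/
noncomputable def Ff (x y : Fin k → Q d) (r : Fin d) (c : Fin k → Q d) : ℝ :=
  if Prp (fs x c r) (fun i => c i r) ∧ Prp (fs y c r) (fun i => c i r) then
    2 ^ k * (1 / 2 : ℝ) ^ (univ.image (fs x c r)).card * (1 / 2 : ℝ) ^ (univ.image (fs y c r)).card /
      2 ^ (cyc (fs x c r) (fs y c r)) else 0

lemma Ff_nonneg (x y : Fin k → Q d) (r : Fin d) (c : Fin k → Q d) : 0 ≤ Ff x y r c := by
  unfold Ff
  split_ifs
  · positivity
  · exact le_rfl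

lemma fs_congr (x : Fin k → Q d) (r : Fin d) {c c' : Fin k → Q d}
    (h : ∀ i s, r < s → c i s = c' i s) : fs x c r = fs x c' r := by
  funext i
  unfold fs
  rw [sw_eq_iff]
  intro j hj
  unfold mix
  split_ifs with h1
  · rfl
  · apply h i j
    rcases lt_trichotomy r j with h2 | h2 | h2
    · exact h2
    · exact absurd h2.symm hj
    · exact absurd (Fin.lt_def.1 h2) h1

open Classical in
lemma sum_Ff (x y : Fin k → Q d) (r : Fin d) (a : Fin d → (Fin k → Bool)) :
    ∑ b : Fin k → Bool, Ff x y r (tr' (Function.update a r b)) ≤ 1 := by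
  set c0 : Fin k → Q d := tr' a with hc0
  set f := fs x c0 r with hf
  set g := fs y c0 r with hg
  have h1 : ∀ b, fs x (tr' (Function.update a r b)) r = f := by
    intro b
    apply fs_congr
    intro i s hs
    simp [tr', hc0, Function.update_of_ne (ne_of_gt hs)]
  have h2 : ∀ b, fs y (tr' (Function.update a r b)) r = g := by
    intro b
    apply fs_congr
    intro i s hs
    simp [tr', hc0, Function.update_of_ne (ne_of_gt hs)]
  have h3 : ∀ b, (fun i => tr' (Function.update a r b) i r) = b := by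
    intro b; funext i; simp [tr']
  have h4 : ∀ b, Ff x y r (tr' (Function.update a r b)) = if Prp f b ∧ Prp g b then
      2 ^ k * (1 / 2 : ℝ) ^ (univ.image f).card * (1 / 2 : ℝ) ^ (univ.image g).card /
      2 ^ (cyc f g) else 0 := by
    intro b
    unfold Ff
    rw [h1, h2, h3]
  simp only [h4]
  rw [← sum_filter, sum_const, nsmul_eq_mul]
  have h5 := coloring f g
  rw [Fintype.card_fin] at h5
  have h6 : ((univ.filter (fun b : Fin k → Bool => Prp f b ∧ Prp g b)).card : ℝ) * 2 ^ k ≤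
      2 ^ ((univ.image f).card + (univ.image g).card + cyc f g) := by
    have h8 : (univ.filter (fun b : Fin k → Bool => Prp f b ∧ Prp g b)).card * 2 ^ k ≤
        2 ^ ((univ.image f).card + (univ.image g).card + cyc f g) := by
      refine le_trans (le_of_eq ?_) h5
      rw [Nat.mul_left_inj (by positivity)]
      exact card_filter_inst _ _ _ _ _ _ (fun b => Iff.rfl)
    exact_mod_cast h8
  have h7 : ((univ.filter (fun b : Fin k → Bool => Prp f b ∧ Prp g b)).card : ℝ) *
      (2 ^ k * (1 / 2 : ℝ) ^ (univ.image f).card * (1 / 2 : ℝ) ^ (univ.image g).card /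
      2 ^ (cyc f g)) =
      ((univ.filter (fun b : Fin k → Bool => Prp f b ∧ Prp g b)).card : ℝ) * 2 ^ k /
      2 ^ ((univ.image f).card + (univ.image g).card + cyc f g) := by
    rw [pow_add, pow_add, one_div, inv_pow, inv_pow]
    field_simp
  rw [h7, div_le_one (by positivity)]
  exact h6

lemma term_le (x y c : Fin k → Q d) (hc : Function.Injective c) :
    (2 : ℝ) ^ (d * k) * (pr c x * pr c y) / (2 : ℝ) ^ (Cyc x c y) ≤ ∏ r : Fin d, Ff x y r c := by
  classical
  have h1 := pr_le c x hc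
  have h2 := pr_le c y hc
  have h3 : pr c x * pr c y ≤
      (∏ r : Fin d, (if (∀ i j, i ≠ j → fs x c r i = fs x c r j → c i r ≠ c j r) then
      (1 / 2 : ℝ) ^ (univ.image (fs x c r)).card else 0)) *
      (∏ r : Fin d, (if (∀ i j, i ≠ j → fs y c r i = fs y c r j → c i r ≠ c j r) then
      (1 / 2 : ℝ) ^ (univ.image (fs y c r)).card else 0)) :=
    mul_le_mul h1 h2 (pr_nonneg _ _) (prod_nonneg fun r _ => by split_ifs <;> positivity)
  have h4 : ∏ r : Fin d, Ff x y r c = (2 : ℝ) ^ (d * k) *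
      ((∏ r : Fin d, (if (∀ i j, i ≠ j → fs x c r i = fs x c r j → c i r ≠ c j r) then
      (1 / 2 : ℝ) ^ (univ.image (fs x c r)).card else 0)) *
      (∏ r : Fin d, (if (∀ i j, i ≠ j → fs y c r i = fs y c r j → c i r ≠ c j r) then
      (1 / 2 : ℝ) ^ (univ.image (fs y c r)).card else 0))) / (2 : ℝ) ^ (Cyc x c y) := by
    have e1 : (2 : ℝ) ^ (d * k) = ∏ _r : Fin d, (2 : ℝ) ^ k := by
      rw [prod_const, card_univ, Fintype.card_fin, ← pow_mul, mul_comm]
    have e2 : (2 : ℝ) ^ (Cyc x c y) = ∏ r : Fin d, (2 : ℝ) ^ (cyc (fs x c r) (fs y c r)) := by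
      unfold Cyc; rw [prod_pow_eq_pow_sum]
    rw [e1, e2, ← prod_mul_distrib, ← prod_mul_distrib, ← prod_div_distrib]
    refine prod_congr rfl fun r _ => ?_
    unfold Ff Prp
    by_cases ha : (∀ i j, i ≠ j → fs x c r i = fs x c r j → c i r ≠ c j r)
    · by_cases hb : (∀ i j, i ≠ j → fs y c r i = fs y c r j → c i r ≠ c j r)
      · rw [if_pos ⟨ha, hb⟩, if_pos ha, if_pos hb]; ring
      · rw [if_neg (fun h => hb h.2), if_neg hb]; simp
    · rw [if_neg (fun h => ha h.1), if_neg ha]; simp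
  rw [h4]
  gcongr

end JensenAux

open JensenAux

theorem U_sum {d k : ℕ} (x y : Fin k ↪ Q d) :
    ∑ c : Fin k ↪ Q d, (2 : ℝ) ^ (d * k) * (pr (c : Fin k → Q d) x * pr (c : Fin k → Q d) y) /
      (2 : ℝ) ^ (Cyc (x : Fin k → Q d) c y) ≤ 1 := by
  classical
  calc ∑ c : Fin k ↪ Q d, (2 : ℝ) ^ (d * k) * (pr (c : Fin k → Q d) x * pr (c : Fin k → Q d) y) /
      (2 : ℝ) ^ (Cyc (x : Fin k → Q d) c y)
      ≤ ∑ c : Fin k ↪ Q d, ∏ r : Fin d, Ff (x : Fin k → Q d) y r c :=
        sum_le_sum fun c _ => term_le _ _ _ c.injective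
    _ = ∑ c ∈ (univ : Finset (Fin k ↪ Q d)).map
          ⟨fun c : Fin k ↪ Q d => (c : Fin k → Q d), DFunLike.coe_injective⟩,
          ∏ r : Fin d, Ff (x : Fin k → Q d) y r c := by
        rw [sum_map]; rfl
    _ ≤ ∑ c : Fin k → Q d, ∏ r : Fin d, Ff (x : Fin k → Q d) y r c :=
        sum_le_sum_of_subset_of_nonneg (subset_univ _)
          fun c _ _ => prod_nonneg fun r _ => Ff_nonneg _ _ _ _
    _ = ∑ a : Fin d → (Fin k → Bool), ∏ r : Fin d, Ff (x : Fin k → Q d) y r (tr' a) := by
        symm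
        apply Fintype.sum_equiv (Equiv.piComm fun (_ : Fin d) (_ : Fin k) => Bool)
        intro a; rfl
    _ ≤ 1 := by
        apply genSum (fun r a => Ff (x : Fin k → Q d) y r (tr' a))
        · intro r a; exact Ff_nonneg _ _ _ _
        · intro r a a' haa
          have h1 : fs (x : Fin k → Q d) (tr' a) r = fs (x : Fin k → Q d) (tr' a') r :=
            fs_congr _ _ fun i s hs => by simp only [tr']; rw [haa s hs.le]
          have h2 : fs (y : Fin k → Q d) (tr' a) r = fs (y : Fin k → Q d) (tr' a') r :=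
            fs_congr _ _ fun i s hs => by simp only [tr']; rw [haa s hs.le]
          have h3 : (fun i => tr' a i r) = fun i => tr' a' i r := by
            funext i; simp only [tr']; rw [haa r le_rfl]
          simp only [Ff]
          rw [h1, h2, h3]
        · intro r a; exact sum_Ff _ _ r a

theorem jensen {d k : ℕ} (x y : Fin k ↪ Q d) {δ : ℝ} (hδ : 0 ≤ δ) :
    (Kk d k x y) ^ (1 + δ) * ((2 : ℝ) ^ (d * k)) ^ δ ≤ Lk δ d k x y := by
  set N : ℝ := (2 : ℝ) ^ (d * k) with hN
  have hNpos : 0 < N := by rw [hN]; positivity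
  set p : (Fin k ↪ Q d) → ℝ := fun c => pr (c : Fin k → Q d) x * pr (c : Fin k → Q d) y with hp
  have hp0 : ∀ c, 0 ≤ p c := fun c => mul_nonneg (pr_nonneg _ _) (pr_nonneg _ _)
  set Z : (Fin k ↪ Q d) → ℝ := fun c => (2 : ℝ) ^ (Cyc (x : Fin k → Q d) c y) with hZ
  have hZ0 : ∀ c, 0 < Z c := fun c => by simp only [hZ]; positivity
  set U : (Fin k ↪ Q d) → ℝ := fun c => N * p c / Z c with hU
  have hU0 : ∀ c, 0 ≤ U c := fun c => div_nonneg (mul_nonneg hNpos.le (hp0 c)) (hZ0 c).le
  have hUs : ∑ c, U c ≤ 1 := U_sum x y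
  have hK : N * Kk d k x y = ∑ c, U c * Z c := by
    unfold Kk
    rw [mul_sum]
    refine sum_congr rfl fun c _ => ?_
    simp only [hU]
    rw [div_mul_cancel₀ _ (hZ0 c).ne']
  have hL : N * Lk δ d k x y = ∑ c, U c * Z c ^ (1 + δ) := by
    unfold Lk
    rw [mul_sum]
    refine sum_congr rfl fun c _ => ?_
    simp only [hU]
    rw [Real.rpow_add (hZ0 c), Real.rpow_one]
    have h1 : Z c ^ δ = (2 : ℝ) ^ (δ * (Cyc (x : Fin k → Q d) c y : ℝ)) := by
      simp only [hZ]
      rw [← Real.rpow_natCast, ← Real.rpow_mul (by norm_num), mul_comm]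
    rw [← h1]
    have := (hZ0 c).ne'
    field_simp
    simp only [hp]
    ring
  have hkey : (N * Kk d k x y) ^ (1 + δ) ≤ N * Lk δ d k x y := by
    rw [hK, hL]
    set S := ∑ c, U c with hS
    have hS0 : 0 ≤ S := sum_nonneg fun c _ => hU0 c
    rcases eq_or_lt_of_le hS0 with h0 | h0
    · have hz : ∀ c, U c = 0 := by
        intro c
        have := (sum_eq_zero_iff_of_nonneg fun c _ => hU0 c).1 h0.symm c (mem_univ c)
        exact this
      simp only [hz, zero_mul, sum_const_zero]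
      rw [Real.zero_rpow (by linarith)]
    · have h1 := Real.rpow_arith_mean_le_arith_mean_rpow univ (fun c => U c / S) Z
        (fun c _ => div_nonneg (hU0 c) hS0) (by rw [← sum_div]; exact div_self h0.ne')
        (fun c _ => (hZ0 c).le) (p := 1 + δ) (by linarith)
      have h2 : ∑ c, U c / S * Z c = (∑ c, U c * Z c) / S := by
        rw [sum_div]; exact sum_congr rfl fun c _ => by ring
      have h3 : ∑ c, U c / S * Z c ^ (1 + δ) = (∑ c, U c * Z c ^ (1 + δ)) / S := by
        rw [sum_div]; exact sum_congr rfl fun c _ => by ring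
      rw [h2, h3, Real.div_rpow (sum_nonneg fun c _ => mul_nonneg (hU0 c) (hZ0 c).le) hS0,
        div_le_div_iff₀ (Real.rpow_pos_of_pos h0 _) h0, Real.rpow_add h0, Real.rpow_one] at h1
      have h4 : S ^ δ ≤ 1 := Real.rpow_le_one hS0 hUs hδ
      have h5 : 0 ≤ ∑ c, U c * Z c ^ (1 + δ) :=
        sum_nonneg fun c _ => mul_nonneg (hU0 c) (Real.rpow_nonneg (hZ0 c).le _)
      have h6 : (∑ c, U c * Z c) ^ (1 + δ) ≤ (∑ c, U c * Z c ^ (1 + δ)) * S ^ δ := by
        have : (∑ c, U c * Z c) ^ (1 + δ) * S ≤ ((∑ c, U c * Z c ^ (1 + δ)) * S ^ δ) * S := by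
          linarith
        exact le_of_mul_le_mul_right this h0
      refine h6.trans ?_
      exact mul_le_of_le_one_right h5 h4
  have hK0 : 0 ≤ Kk d k x y := by
    unfold Kk; exact sum_nonneg fun c _ => hp0 c
  rw [Real.mul_rpow hNpos.le hK0, Real.rpow_add hNpos, Real.rpow_one] at hkey
  have : N * (Kk d k x y ^ (1 + δ) * N ^ δ) ≤ N * Lk δ d k x y := by linarith
  exact le_of_mul_le_mul_left this hNpos

end Vale.Agent.P162.Th
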