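import Vale.Agent.P162.ThE3

/-!
# P162, `Θ(log n)`, module [KER]
-/

open Finset Equiv
open scoped BigOperators RealInnerProductSpace

namespace Vale.Agent.P162.Th

open DepthAux

namespace KerAux

variable {X : Type} [Fintype X] [DecidableEq X]

open Classical in
/-- mass of `{g : g z = y}` -/
noncomputable def mass {k : ℕ} (v : EuclideanSpace ℝ (Perm X)) :
    Matrix (Fin k ↪ X) (Fin k ↪ X) ℝ :=
  fun z y => ∑ g ∈ univ.filter (fun g : Perm X => ∀ i, g (z i) = y i), v g

theorem mass_dl (k : ℕ) : mass (k := k) (dl (1 : Perm X)) = 1 := by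
  classical
  ext z y
  unfold mass
  rw [Finset.sum_filter, Finset.sum_eq_single (1 : Perm X)]
  · rw [Matrix.one_apply]
    by_cases h : z = y
    · subst h
      simp [dl]
    · rw [if_neg h, if_neg]
      intro h'
      apply h
      ext i
      exact h' i
  · intro g _ hg
    simp [dl, PiLp.single_apply, hg]
  · simp

theorem mass_avg {κ : Type} [Fintype κ] (F : κ → Perm X) (k : ℕ)
    (v : EuclideanSpace ℝ (Perm X)) :
    mass (k := k) (avg (regRep X) F v) = mass v * kerM k F := by
  classical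
  ext z y
  rw [Matrix.mul_apply]
  have h1 : mass (k := k) (avg (regRep X) F v) z y = (Fintype.card κ : ℝ)⁻¹ *
      ∑ a : κ, ∑ g ∈ univ.filter (fun g : Perm X => ∀ i, F a (g (z i)) = y i), v g := by
    unfold mass
    have e1 : ∀ g : Perm X, avg (regRep X) F v g = (Fintype.card κ : ℝ)⁻¹ *
        ∑ a : κ, v ((F a)⁻¹ * g) := by
      intro g
      rw [avg_apply]
      simp [regRep_apply]
    simp only [e1]
    rw [← Finset.mul_sum, Finset.sum_comm]
    congr 1
    refine Finset.sum_congr rfl fun a _ => ?_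
    refine Finset.sum_nbij' (fun g => (F a)⁻¹ * g) (fun g => F a * g) ?_ ?_ ?_ ?_ ?_
    · intro g hg
      rw [mem_filter] at hg ⊢
      refine ⟨mem_univ _, fun i => ?_⟩
      rw [Perm.mul_apply, ← hg.2 i]
      simp
    · intro g hg
      rw [mem_filter] at hg ⊢
      exact ⟨mem_univ _, fun i => hg.2 i⟩
    · intro g _; group
    · intro g _; group
    · intro g _; rfl
  rw [h1]
  have h2 : ∀ w : Fin k ↪ X, mass v z w * kerM k F w y = (Fintype.card κ : ℝ)⁻¹ *
      ∑ a : κ, (if (∀ i, F a (w i) = y i) then mass v z w else 0) := by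
    intro w
    unfold kerM
    rw [← Finset.sum_filter, Finset.sum_const, nsmul_eq_mul]
    ring
  simp only [h2]
  rw [← Finset.mul_sum, Finset.sum_comm]
  congr 1
  refine Finset.sum_congr rfl fun a _ => ?_
  -- the only `w` is `(F a)⁻¹ ∘ y`
  rw [Finset.sum_eq_single (y.trans ((F a)⁻¹).toEmbedding)]
  · rw [if_pos (by intro i; simp)]
    unfold mass
    refine Finset.sum_congr ?_ fun _ _ => rfl
    ext g
    simp only [mem_filter, mem_univ, true_and, Function.Embedding.trans_apply,
      Equiv.coe_toEmbedding]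
    constructor
    · intro h i; rw [← h i]; simp
    · intro h i; rw [h i]; simp
  · intro w _ hw
    rw [if_neg]
    intro h
    apply hw
    ext i
    simp [← h i]
  · simp

theorem mass_pow {κ : Type} [Fintype κ] (F : κ → Perm X) (k m : ℕ) :
    mass (k := k) ((avg (regRep X) F ^ m) (dl 1)) = kerM k F ^ m := by
  induction m with
  | zero => rw [pow_zero, pow_zero, ← mass_dl]; rfl
  | succ m ih =>
    rw [pow_succ', pow_succ, ← ih, ← mass_avg]
    rfl

theorem kerM_symm {κ : Type} [Fintype κ] (f : κ → Perm X) (k : ℕ) :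
    (kerM k (fun a : κ × κ => (f a.1)⁻¹ * f a.2)).transpose =
      kerM k (fun a : κ × κ => (f a.1)⁻¹ * f a.2) := by
  classical
  ext x y
  rw [Matrix.transpose_apply]
  unfold kerM
  congr 2
  refine Finset.card_bij' (fun a _ => a.swap) (fun a _ => a.swap) ?_ ?_ ?_ ?_
  · intro a ha
    rw [mem_filter] at ha ⊢
    refine ⟨mem_univ _, fun i => ?_⟩
    have h1 := ha.2 i
    simp only [Perm.mul_apply, Prod.fst_swap, Prod.snd_swap] at h1 ⊢
    rw [Perm.inv_eq_iff_eq] at h1 ⊢
    exact h1.symm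
  · intro a ha
    rw [mem_filter] at ha ⊢
    refine ⟨mem_univ _, fun i => ?_⟩
    have h1 := ha.2 i
    simp only [Perm.mul_apply, Prod.fst_swap, Prod.snd_swap] at h1 ⊢
    rw [Perm.inv_eq_iff_eq] at h1 ⊢
    exact h1.symm
  · intro a _; rfl
  · intro a _; rfl

end KerAux

section levels

variable {X : Type} [Fintype X] [DecidableEq X]

/-- `K = R* R`, `R` the averaging operator of `f` -/
theorem trace_ker {κ : Type} [Fintype κ] [Nonempty κ] (f : κ → Perm X) (k m : ℕ)
    (hk : k ≤ Fintype.card X) :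
    ((Fintype.card X).factorial : ℝ) *
      ⟪Bk X k (((avg (regRep X) (fun a : κ × κ => (f a.1)⁻¹ * f a.2)) ^ m) (dl 1)),
        ((avg (regRep X) (fun a : κ × κ => (f a.1)⁻¹ * f a.2)) ^ m) (dl 1)⟫ =
      ((kerM k (fun a : κ × κ => (f a.1)⁻¹ * f a.2)) ^ (2 * m)).trace := by
  classical
  rw [E3 hk]
  set K := kerM k (fun a : κ × κ => (f a.1)⁻¹ * f a.2) with hK
  have h1 : ∀ z y : Fin k ↪ X, (∑ g ∈ univ.filter (fun g : Perm X => ∀ i, g (z i) = y i),
      ((avg (regRep X) (fun a : κ × κ => (f a.1)⁻¹ * f a.2)) ^ m) (dl 1) g) = (K ^ m) z y := by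
    intro z y
    rw [hK, ← KerAux.mass_pow]
    rfl
  simp only [h1]
  have hT : (K ^ m).transpose = K ^ m := by
    rw [Matrix.transpose_pow, hK, KerAux.kerM_symm]
  rw [two_mul, pow_add, Matrix.trace]
  refine Finset.sum_congr rfl fun z _ => ?_
  rw [Matrix.diag_apply, Matrix.mul_apply]
  refine Finset.sum_congr rfl fun y _ => ?_
  have h2 : (K ^ m) y z = (K ^ m) z y := by
    conv_lhs => rw [← hT]
    rfl
  rw [h2, sq]

end levels

end Vale.Agent.P162.Th
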