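import Vale.Agent.P162.ThDefs2
import Vale.Agent.P162.ThIso

/-!
# P162, `Θ(log n)`: every closed set of cards contains a good leader
-/

open Finset
open scoped BigOperators

namespace Vale.Agent.P162.Th

theorem exists_leader {d k : ℕ} (r : Fin d) (W : Finset (Fin d)) (hW : ∀ s ∈ W, s < r)
    (c : Fin k → Q d) (hc : Function.Injective c) (tgt : Fin k → Q d) (L : Finset (Fin k))
    (htgt : Set.InjOn tgt (L : Set (Fin k))) (ω : Om d) (P : Finset (Fin k)) (hP : P.Nonempty)
    (hPL : P ⊆ L) (hcl : ∀ i ∈ P, ∃ j ∈ P, upTo ω r (c i) = tgt j) :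
    ∃ j ∈ P, ∃ m : ℕ, m ≤ P.card ∧ Lead r c tgt L W ω j m ∧
      ∀ l, (hh r c tgt L ω)^[l] j ∈ P := by
  classical
  set h := hh r c tgt L ω with hh_def
  -- basic property of the successor map on `P`
  have hspec : ∀ i ∈ P, upTo ω r (c i) = tgt (h i) ∧ h i ∈ P := by
    intro i hi
    obtain ⟨j, hj, hji⟩ := hcl i hi
    have hex : ∃ j ∈ L, upTo ω r (c i) = tgt j := ⟨j, hPL hj, hji⟩
    have h1 : h i = hex.choose := by rw [hh_def]; unfold hh; rw [dif_pos hex]
    have h2 := hex.choose_spec
    have h3 : hex.choose = j := by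
      apply htgt h2.1 (hPL hj)
      rw [← h2.2, hji]
    rw [h1]
    refine ⟨h2.2, ?_⟩
    rw [h3]; exact hj
  have hinjP : ∀ i ∈ P, ∀ i' ∈ P, h i = h i' → i = i' := by
    intro i hi i' hi' he
    apply hc
    apply upTo_inj ω r
    rw [(hspec i hi).1, (hspec i' hi').1, he]
  let g : {x // x ∈ P} → {x // x ∈ P} := fun x => ⟨h x.1, (hspec x.1 x.2).2⟩
  have hg : Function.Injective g := by
    intro x y hxy
    apply Subtype.ext
    exact hinjP _ x.2 _ y.2 (congrArg Subtype.val hxy)
  have hgit : ∀ (n : ℕ) (x : {x // x ∈ P}), ((g^[n] x : {x // x ∈ P}) : Fin k) = h^[n] x.1 := by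
    intro n
    induction n with
    | zero => intro x; rfl
    | succ n ih => intro x; rw [Function.iterate_succ_apply, ih, Function.iterate_succ_apply]
  obtain ⟨i0, hi0⟩ := hP
  let x0 : {x // x ∈ P} := ⟨i0, hi0⟩
  set m := Function.minimalPeriod g x0 with hm
  have hper : x0 ∈ Function.periodicPts g := hg.mem_periodicPts x0
  have hmpos : 0 < m := Function.minimalPeriod_pos_of_mem_periodicPts hper
  have hinj0 : ∀ l < m, ∀ l' < m, g^[l] x0 = g^[l'] x0 → l = l' := by
    intro l hl l' hl' he
    exact Function.iterate_injOn_Iio_minimalPeriod hl hl' he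
  -- the cards of the cycle and the set of their starting points
  let e : ℕ → Fin k := fun l => (g^[l] x0 : {x // x ∈ P})
  have heinj : ∀ l < m, ∀ l' < m, e l = e l' → l = l' := by
    intro l hl l' hl' he
    exact hinj0 l hl l' hl' (Subtype.ext he)
  set T : Finset (Q d) := (range m).image (fun l => c (e l)) with hT
  have hTcard : T.card = m := by
    rw [hT, card_image_of_injOn, card_range]
    intro l hl l' hl' he
    exact heinj l (by simpa using hl) l' (by simpa using hl') (hc he)
  -- number of shared window layers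
  let N : ℕ → ℕ := fun l => (W.filter (fun s => ∃ l' < m, e l' ≠ e l ∧
    sw s (upTo ω s (c (e l'))) = sw s (upTo ω s (c (e l))))).card
  have hsumN : ((∑ l ∈ range m, N l : ℕ) : ℝ) ≤ m * Real.logb 2 m := by
    have h1 : ∑ l ∈ range m, N l = ∑ s ∈ W, ((range m).filter (fun l => ∃ l' < m, e l' ≠ e l ∧
        sw s (upTo ω s (c (e l'))) = sw s (upTo ω s (c (e l))))).card := by
      simp only [N, card_filter]
      rw [sum_comm]
    have h2 : ∀ s ∈ W, ((range m).filter (fun l => ∃ l' < m, e l' ≠ e l ∧
        sw s (upTo ω s (c (e l'))) = sw s (upTo ω s (c (e l))))).card ≤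
        ((T ×ˢ T).filter (fun p : Q d × Q d => p.1 ≠ p.2 ∧
          sw s (upTo ω s p.1) = sw s (upTo ω s p.2))).card := by
      intro s _
      let φ : ℕ → Q d × Q d := fun l =>
        if hx : ∃ l' < m, e l' ≠ e l ∧
          sw s (upTo ω s (c (e l'))) = sw s (upTo ω s (c (e l))) then
          (c (e l), c (e hx.choose)) else (c (e l), c (e l))
      have hφ1 : ∀ l, (φ l).1 = c (e l) := by
        intro l
        simp only [φ]
        split_ifs <;> rfl
      apply card_le_card_of_injOn φ
      · intro l hl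
        simp only [coe_filter, mem_range, Set.mem_ofPred_eq] at hl
        have hx := hl.2
        have hsp := hx.choose_spec
        simp only [coe_filter, mem_product, Set.mem_ofPred_eq, φ]
        rw [dif_pos hx]
        refine ⟨⟨?_, ?_⟩, ?_, ?_⟩
        · rw [hT]; exact mem_image_of_mem _ (mem_range.2 hl.1)
        · rw [hT]; exact mem_image_of_mem _ (mem_range.2 hsp.1)
        · intro he
          exact hsp.2.1 (hc he).symm
        · exact hsp.2.2.symm
      · intro l hl l' hl' he
        simp only [coe_filter, mem_range, Set.mem_ofPred_eq] at hl hl'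
        have h3 := congrArg Prod.fst he
        rw [hφ1, hφ1] at h3
        exact heinj l hl.1 l' hl'.1 (hc h3)
    have h3 := iso ω r T
    rw [hTcard] at h3
    refine le_trans ?_ h3
    rw [h1]
    push_cast
    calc ∑ s ∈ W, (((range m).filter (fun l => ∃ l' < m, e l' ≠ e l ∧
        sw s (upTo ω s (c (e l'))) = sw s (upTo ω s (c (e l))))).card : ℝ)
        ≤ ∑ s ∈ W, (((T ×ˢ T).filter (fun p : Q d × Q d => p.1 ≠ p.2 ∧
          sw s (upTo ω s p.1) = sw s (upTo ω s p.2))).card : ℝ) :=
          sum_le_sum fun s hs => by exact_mod_cast h2 s hs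
      _ ≤ _ := by
          apply sum_le_sum_of_subset_of_nonneg
          · intro s hs
            simp only [mem_filter, mem_univ, true_and]
            exact hW s hs
          · intro s _ _; positivity
  obtain ⟨l0, hl0, hN⟩ : ∃ l0 < m, (N l0 : ℝ) ≤ Real.logb 2 m := by
    by_contra hcon
    push Not at hcon
    have h1 : ∑ l ∈ range m, Real.logb 2 (m : ℝ) < ∑ l ∈ range m, (N l : ℝ) := by
      apply sum_lt_sum_of_nonempty
      · exact ⟨0, mem_range.2 hmpos⟩
      · intro l hl; exact hcon l (mem_range.1 hl)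
    rw [sum_const, card_range, nsmul_eq_mul] at h1
    push_cast at hsumN
    linarith
  -- the leader
  set j : {x // x ∈ P} := g^[l0 + 1] x0 with hj
  have hjper : Function.minimalPeriod g j = m := by
    rw [hj, Function.minimalPeriod_apply_iterate hper]
  have hjit : ∀ l, g^[l] j = g^[(l + (l0 + 1))] x0 := by
    intro l; rw [hj, ← Function.iterate_add_apply]
  have hclose : g^[m - 1] j = g^[l0] x0 := by
    rw [hjit, show m - 1 + (l0 + 1) = l0 + m by omega, Function.iterate_add_apply,
      hm, Function.iterate_minimalPeriod]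
  refine ⟨j, j.2, m, ?_, ?_, ?_⟩
  · have h1 : (range m).card ≤ P.card := by
      apply card_le_card_of_injOn e
      · intro l _; exact (g^[l] x0).2
      · intro l hl l' hl' he
        exact heinj l (by simpa using hl) l' (by simpa using hl') he
    simpa using h1
  · have hcoe : ∀ l, h^[l] (j : Fin k) = ((g^[l] j : {x // x ∈ P}) : Fin k) :=
      fun l => (hgit l j).symm
    refine ⟨hmpos, ?_, ?_, ?_, ?_, ?_⟩
    · intro l _
      rw [← hh_def, hcoe]; exact hPL (g^[l] j).2
    · intro l _
      rw [← hh_def, Function.iterate_succ_apply', hcoe]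
      exact (hspec _ (g^[l] j).2).1
    · rw [← hh_def, hcoe, (hspec _ (g^[m - 1] j).2).1]
      congr 1
      have h1 : h ((g^[m - 1] j : {x // x ∈ P}) : Fin k) = ((g (g^[m - 1] j) : {x // x ∈ P}) : Fin k) :=
        rfl
      rw [h1, hclose, hj, ← Function.iterate_succ_apply' g l0 x0]
    · intro l hl l' hl' he
      rw [← hh_def, hcoe, hcoe] at he
      exact Function.iterate_injOn_Iio_minimalPeriod (f := g) (x := j)
        (by rw [hjper]; exact hl) (by rw [hjper]; exact hl') (Subtype.ext he)
    · refine le_trans ?_ hN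
      rw [Nat.cast_le]
      apply card_le_card
      intro s hs
      simp only [mem_filter, ← hh_def] at hs ⊢
      refine ⟨hs.1, ?_⟩
      obtain ⟨l, hl, hne, hsw⟩ := hs.2
      rw [hcoe, hcoe, hclose] at hne hsw
      refine ⟨(l + (l0 + 1)) % m, Nat.mod_lt _ hmpos, ?_, ?_⟩
      · show ((g^[(l + (l0 + 1)) % m] x0 : {x // x ∈ P}) : Fin k) ≠ _
        rw [hm, Function.iterate_mod_minimalPeriod_eq, ← hjit]
        exact hne
      · show sw s (upTo ω s (c ((g^[(l + (l0 + 1)) % m] x0 : {x // x ∈ P}) : Fin k))) = _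
        rw [hm, Function.iterate_mod_minimalPeriod_eq, ← hjit]
        exact hsw
  · intro l
    rw [← hgit l j]
    exact (g^[l] j).2

end Vale.Agent.P162.Th
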