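import Vale.Agent.P162.ThDefs2
import Vale.Agent.P162.ThFlat
import Vale.Agent.P162.Link

/-!
# P162, `Θ(log n)`: the flat pass and the pass of `Setup.lean`
-/

open Finset Equiv
open scoped BigOperators RealInnerProductSpace

namespace Vale.Agent.P162.Th

namespace LinkAux

/-- reversing the bits -/
def rv (d : ℕ) : Perm (Fin d) := Fin.revPerm

lemma permCongr_pbit {d : ℕ} (σ : Perm (Fin d)) (j : Fin d) (c : BS d → Bool) :
    (pbit σ).permCongr (bflip (σ j) (c ∘ pbit σ)) = bflip j c := by
  have h := bflip_pbit σ j c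
  ext1 x
  rw [Equiv.permCongr_apply]
  have h2 := congrArg (fun p : Perm (BS d) => p ((pbit σ).symm x)) h
  simp only [Perm.mul_apply] at h2
  rw [Equiv.apply_symm_apply] at h2
  exact h2.symm

variable {V : Type} [NormedAddCommGroup V] [InnerProductSpace ℝ V]

lemma avg_bflip_congr {d : ℕ} (ρ : Perm (BS d) →* (V →L[ℝ] V)) (σ : Perm (Fin d)) (j : Fin d) :
    avg (ρ.comp ((pbit σ).permCongrHom.toMonoidHom)) (bflip (σ j)) = avg ρ (bflip j) := by
  have h := avg_equiv (ρ.comp ((pbit σ).permCongrHom.toMonoidHom))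
    (Equiv.arrowCongr (pbit σ).symm (Equiv.refl Bool)) (bflip (σ j))
  rw [← h, avg_comp]
  congr 1
  funext c
  exact permCongr_pbit σ j c

/-- the coins of one layer are independent of the others -/
lemma avg_indep {d : ℕ} {G : Type*} [Group G] (ρ : G →* (V →L[ℝ] V)) (k : Fin d)
    (f : Om d → G) (g : (Q d → Bool) → G)
    (hf : ∀ ω ω' : Om d, (∀ v : Fin d × Q d, v.1 ≠ k → ω v = ω' v) → f ω = f ω') :
    avg ρ (fun ω : Om d => f ω * g (fun z => ω (k, z))) = avg ρ f * avg ρ g := by
  classical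
  rw [avg_mul]
  let sw2 : Om d × (Q d → Bool) → Om d × (Q d → Bool) := fun p =>
    (fun v => if v.1 = k then p.2 v.2 else p.1 v, fun z => p.1 (k, z))
  have hinv : Function.Involutive sw2 := by
    rintro ⟨ω, c⟩
    simp only [sw2]
    refine Prod.ext ?_ ?_
    · funext v
      by_cases hv : v.1 = k
      · simp only [hv, if_true]
        rw [← hv]
      · simp only [hv, if_false]
    · funext z
      simp
  have h1 := avg_equiv ρ (hinv.toPerm sw2) (fun p : Om d × (Q d → Bool) => f p.1 * g p.2)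
  have h2 := avg_fst ρ (κ' := Q d → Bool) (fun ω : Om d => f ω * g (fun z => ω (k, z)))
  rw [← h1, ← h2]
  congr 1
  funext p
  simp only [Function.comp_apply, Function.Involutive.coe_toPerm, sw2]
  congr 1
  apply hf
  intro v hv
  simp [hv]

lemma upPr_succ {d : ℕ} (ω : Om d) (r : Fin d) :
    upPr ω (r + 1) = bflip r (fun z => ω (r, z)) * upPr ω r := by
  ext1 z
  rw [Perm.mul_apply, upPr_apply, upPr_apply, upTo_succ]
  rfl

lemma bflip_inv {d : ℕ} (r : Fin d) (c : BS d → Bool) : (bflip r c)⁻¹ = bflip r c := by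
  rw [inv_eq_iff_mul_eq_one]
  ext1 z
  exact flipFun_invol r c z

lemma avg_upPr_succ {d : ℕ} (ρ : Perm (Q d) →* (V →L[ℝ] V)) (r : Fin d) :
    avg ρ (fun ω : Om d => (upPr ω (r + 1))⁻¹) =
      avg ρ (fun ω : Om d => (upPr ω r)⁻¹) * avg ρ (bflip r) := by
  rw [← avg_indep ρ r (fun ω : Om d => (upPr ω r)⁻¹) (bflip r)]
  · congr 1
    funext ω
    rw [upPr_succ, mul_inv_rev, bflip_inv]
  · intro ω ω' h
    congr 1
    ext1 z
    rw [upPr_apply, upPr_apply]
    apply upTo_congr
    intro v hv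
    apply h
    intro e
    rw [e] at hv
    exact lt_irrefl _ hv

end LinkAux

open LinkAux

theorem flat_link (d : ℕ) : ∃ e : Pos d ≃ Q d,
    ∀ (V : Type) [NormedAddCommGroup V] [InnerProductSpace ℝ V]
      (ρ : Perm (Q d) →* (V →L[ℝ] V)),
      avg (ρ.comp (e.permCongrHom.toMonoidHom)) (pass d) =
        avg ρ (fun ω : Om d => (upP ω)⁻¹) := by
  refine ⟨(posE d).trans (pbit (rv d)), ?_⟩
  intro V _ _ ρ
  set ρ' : Perm (BS d) →* (V →L[ℝ] V) := ρ.comp ((pbit (rv d)).permCongrHom.toMonoidHom) with hρ'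
  have h1 : avg (ρ.comp (((posE d).trans (pbit (rv d))).permCongrHom.toMonoidHom)) (pass d) =
      prodE ρ' d := by
    rw [← pass_eq_prodE]
    rfl
  rw [h1]
  have hE : ∀ (k : ℕ) (hk : k < d), Eop ρ' (d - 1 - k) = avg ρ (bflip ⟨k, hk⟩) := by
    intro k hk
    unfold Eop
    rw [dif_pos (show d - 1 - k < d by omega), hρ']
    have h2 := avg_bflip_congr ρ (rv d) ⟨k, hk⟩
    rw [← h2]
    congr 2
    apply Fin.ext
    simp only [rv, Fin.revPerm_apply, Fin.val_rev]
    omega
  have key : ∀ k : ℕ, k ≤ d →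
      avg ρ (fun ω : Om d => (upPr ω k)⁻¹) * prodE ρ' (d - k) = prodE ρ' d := by
    intro k
    induction k with
    | zero =>
      intro _
      have h0 : (fun ω : Om d => (upPr ω 0)⁻¹) = fun _ => 1 := by
        funext ω
        rw [inv_eq_one]
        ext1 z
        rfl
      rw [h0]
      have h3 : avg ρ (fun _ : Om d => (1 : Perm (Q d))) = 1 := by
        unfold avg
        simp only [map_one]
        rw [sum_const, card_univ, ← Nat.cast_smul_eq_nsmul ℝ, smul_smul,
          inv_mul_cancel₀ (by exact_mod_cast Fintype.card_ne_zero), one_smul]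
      rw [h3, one_mul, Nat.sub_zero]
    | succ k ih =>
      intro hk
      have hk' : k < d := by omega
      have h3 := avg_upPr_succ ρ (⟨k, hk'⟩ : Fin d)
      simp only at h3
      rw [h3, mul_assoc, ← hE k hk', ← ih (by omega)]
      congr 1
      have h4 : d - k = (d - 1 - k) + 1 := by omega
      rw [h4, prodE]
      congr 2
      omega
  have hfin := key d le_rfl
  rw [Nat.sub_self, prodE, mul_one] at hfin
  rw [← hfin]
  rfl

theorem ker_flat (d k : ℕ) :
    kerM k (fun a : Om d × Om d => ((upP a.1)⁻¹)⁻¹ * (upP a.2)⁻¹) = Kk d k := by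
  classical
  funext x y
  unfold kerM Kk pr
  have hN : (Fintype.card (Om d) : ℝ) ≠ 0 := by exact_mod_cast Fintype.card_ne_zero
  rw [Fintype.card_prod]
  have h1 : ((univ.filter (fun a : Om d × Om d =>
      ∀ i, (((upP a.1)⁻¹)⁻¹ * (upP a.2)⁻¹) (x i) = y i)).card) =
      ∑ c : Fin k ↪ Q d, (univ.filter (fun ω : Om d => ∀ i, upTo ω d (c i) = x i)).card *
        (univ.filter (fun ω : Om d => ∀ i, upTo ω d (c i) = y i)).card := by
    have h2 : ∀ c : Fin k ↪ Q d, (univ.filter (fun ω : Om d => ∀ i, upTo ω d (c i) = x i)).card *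
        (univ.filter (fun ω : Om d => ∀ i, upTo ω d (c i) = y i)).card =
        (univ.filter (fun a : Om d × Om d =>
          (∀ i, upTo a.2 d (c i) = x i) ∧ ∀ i, upTo a.1 d (c i) = y i)).card := by
      intro c
      rw [mul_comm, ← card_product]
      congr 1
      ext ⟨a, b⟩
      simp only [mem_product, mem_filter, mem_univ, true_and]
      tauto
    rw [sum_congr rfl fun c _ => h2 c, ← card_biUnion]
    · congr 1
      ext ⟨a, b⟩
      simp only [mem_filter, mem_univ, true_and, mem_biUnion]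
      constructor
      · intro h
        refine ⟨x.trans ((upP b)⁻¹ : Perm (Q d)).toEmbedding, ?_, ?_⟩
        · intro i
          exact (upP b).apply_symm_apply (x i)
        · intro i
          have := h i
          rw [inv_inv, Perm.mul_apply, upP_apply] at this
          exact this
      · rintro ⟨c, h1, h2⟩ i
        rw [inv_inv, Perm.mul_apply, upP_apply]
        have h3 : (upP b)⁻¹ (x i) = c i := by
          rw [Perm.inv_eq_iff_eq, upP_apply, h1 i]
        rw [h3, h2 i]
    · intro c _ c' _ hcc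
      rw [Function.onFun, disjoint_left]
      rintro ⟨a, b⟩ h h'
      simp only [mem_filter, mem_univ, true_and] at h h'
      apply hcc
      ext1 i
      apply upTo_inj b d
      rw [h.1 i, h'.1 i]
  rw [h1]
  push_cast
  rw [mul_sum]
  refine sum_congr rfl fun c _ => ?_
  field_simp

theorem ker_transport {X Y : Type} [Fintype X] [DecidableEq X] [Fintype Y] [DecidableEq Y]
    (e : X ≃ Y) {κ : Type} [Fintype κ] (f : κ → Perm X) (k m : ℕ) :
    ((kerM k (fun a : κ × κ => (e.permCongrHom (f a.1))⁻¹ * e.permCongrHom (f a.2))) ^ m).trace =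
      ((kerM k (fun a : κ × κ => (f a.1)⁻¹ * f a.2)) ^ m).trace := by
  classical
  let E : (Fin k ↪ X) ≃ (Fin k ↪ Y) := Equiv.embeddingCongr (Equiv.refl _) e
  have h1 : (kerM k (fun a : κ × κ => (e.permCongrHom (f a.1))⁻¹ * e.permCongrHom (f a.2))) =
      Matrix.reindexAlgEquiv ℝ ℝ E (kerM k (fun a : κ × κ => (f a.1)⁻¹ * f a.2)) := by
    funext x y
    obtain ⟨x, rfl⟩ := E.surjective x
    obtain ⟨y, rfl⟩ := E.surjective y
    show _ = kerM k (fun a : κ × κ => (f a.1)⁻¹ * f a.2) (E.symm (E x)) (E.symm (E y))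
    rw [Equiv.symm_apply_apply, Equiv.symm_apply_apply]
    unfold kerM
    congr 3
    ext a
    simp only [mem_filter, mem_univ, true_and]
    refine forall_congr' fun i => ?_
    have h2 : (e.permCongrHom (f a.1))⁻¹ * e.permCongrHom (f a.2) =
        e.permCongrHom ((f a.1)⁻¹ * f a.2) := by
      rw [map_mul, map_inv]
    rw [h2]
    show e (((f a.1)⁻¹ * f a.2) (e.symm (e (x i)))) = e (y i) ↔ _
    rw [Equiv.symm_apply_apply, e.apply_eq_iff_eq]
  rw [h1, ← map_pow]
  exact Equiv.sum_comp E.symm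
    (fun i => ((kerM k (fun a : κ × κ => (f a.1)⁻¹ * f a.2)) ^ m) i i)

end Vale.Agent.P162.Th
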