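import Vale.Agent.P162.Defs

/-!
# P162, `Θ(log n)`: [LOWER] the counting lower bound
-/

open Finset Equiv
open scoped BigOperators

namespace Vale.Agent.P162.Th

namespace LowerAux

lemma law_nonneg (m : ℕ) (g : Perm (Fin (2 * m))) : 0 ≤ thorpLaw m g := by
  unfold thorpLaw
  positivity

lemma law_sum (m : ℕ) : ∑ g : Perm (Fin (2 * m)), thorpLaw m g = 1 := by
  unfold thorpLaw
  rw [← Finset.sum_div, ← Nat.cast_sum]
  have h : ∑ g : Perm (Fin (2 * m)),
      ((univ : Finset (Fin m → Bool)).filter fun c => thorpPerm m c = g).card = 2 ^ m := by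
    have h1 := Finset.card_eq_sum_card_fiberwise (s := (univ : Finset (Fin m → Bool)))
      (t := (univ : Finset (Perm (Fin (2 * m))))) (f := thorpPerm m)
      (fun c _ => Finset.mem_coe.2 (mem_univ _))
    rw [← h1, Finset.card_univ, Fintype.card_fun, Fintype.card_bool, Fintype.card_fin]
  rw [h]
  push_cast
  exact div_self (by positivity)

lemma pow_nonneg' (m t : ℕ) (g : Perm (Fin (2 * m))) : 0 ≤ thorpPow m t g := by
  induction t generalizing g with
  | zero => unfold thorpPow; split_ifs <;> norm_num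
  | succ t ih =>
    unfold thorpPow
    exact Finset.sum_nonneg fun a _ => mul_nonneg (law_nonneg m a) (ih _)

lemma pow_sum (m t : ℕ) : ∑ g : Perm (Fin (2 * m)), thorpPow m t g = 1 := by
  induction t with
  | zero => simp [thorpPow]
  | succ t ih =>
    simp only [thorpPow]
    rw [Finset.sum_comm]
    have h : ∀ a : Perm (Fin (2 * m)), ∑ g : Perm (Fin (2 * m)),
        thorpLaw m a * thorpPow m t (a⁻¹ * g) = thorpLaw m a := by
      intro a
      rw [← Finset.mul_sum]
      have e := Equiv.sum_comp (Equiv.mulLeft a⁻¹) (fun g => thorpPow m t g)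
      simp only [Equiv.coe_mulLeft] at e
      rw [e, ih, mul_one]
    rw [Finset.sum_congr rfl fun a _ => h a, law_sum]

open Classical in
lemma law_supp (m : ℕ) :
    ((univ : Finset (Perm (Fin (2 * m)))).filter (fun g => thorpLaw m g ≠ 0)).card ≤ 2 ^ m := by
  have h : (univ : Finset (Perm (Fin (2 * m)))).filter (fun g => thorpLaw m g ≠ 0) ⊆
      (univ : Finset (Fin m → Bool)).image (thorpPerm m) := by
    intro g hg
    rw [mem_filter] at hg
    rw [mem_image]
    by_contra hne
    push Not at hne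
    apply hg.2
    unfold thorpLaw
    have : ((univ : Finset (Fin m → Bool)).filter fun c => thorpPerm m c = g) = ∅ := by
      apply Finset.filter_eq_empty_iff.2
      intro c hc
      exact hne c hc
    rw [this]
    simp
  refine (Finset.card_le_card h).trans (Finset.card_image_le.trans ?_)
  rw [Finset.card_univ, Fintype.card_fun, Fintype.card_bool, Fintype.card_fin]

open Classical in
lemma pow_supp (m t : ℕ) :
    ((univ : Finset (Perm (Fin (2 * m)))).filter (fun g => thorpPow m t g ≠ 0)).card ≤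
      2 ^ (m * t) := by
  induction t with
  | zero =>
    rw [mul_zero, pow_zero]
    apply Finset.card_le_one.2
    intro a ha b hb
    rw [mem_filter] at ha hb
    have h1 : a = 1 := by
      by_contra hne
      exact ha.2 (by simp [thorpPow, hne])
    have h2 : b = 1 := by
      by_contra hne
      exact hb.2 (by simp [thorpPow, hne])
    rw [h1, h2]
  | succ t ih =>
    have h : (univ : Finset (Perm (Fin (2 * m)))).filter (fun g => thorpPow m (t + 1) g ≠ 0) ⊆
        (((univ : Finset (Perm (Fin (2 * m)))).filter (fun g => thorpLaw m g ≠ 0)) ×ˢ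
          ((univ : Finset (Perm (Fin (2 * m)))).filter (fun g => thorpPow m t g ≠ 0))).image
          (fun p => p.1 * p.2) := by
      intro g hg
      rw [mem_filter] at hg
      obtain ⟨a, -, ha⟩ := Finset.exists_ne_zero_of_sum_ne_zero hg.2
      rw [mem_image]
      refine ⟨(a, a⁻¹ * g), ?_, by simp⟩
      rw [mem_product, mem_filter, mem_filter]
      exact ⟨⟨mem_univ _, left_ne_zero_of_mul ha⟩, mem_univ _, right_ne_zero_of_mul ha⟩
    refine (Finset.card_le_card h).trans (Finset.card_image_le.trans ?_)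
    rw [Finset.card_product]
    calc _ ≤ 2 ^ m * 2 ^ (m * t) := Nat.mul_le_mul (law_supp m) ih
      _ = 2 ^ (m * (t + 1)) := by rw [← pow_add]; congr 1; ring

lemma tv_ge (m t : ℕ) : 1 - (2 : ℝ) ^ (m * t) / ((2 * m).factorial : ℝ) ≤ tvDist m t := by
  classical
  set S := (univ : Finset (Perm (Fin (2 * m)))).filter (fun g => thorpPow m t g ≠ 0) with hS
  set u : ℝ := 1 / ((2 * m).factorial : ℝ) with hu
  have hu0 : 0 ≤ u := by positivity
  have hfac : (0 : ℝ) < ((2 * m).factorial : ℝ) := by positivity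
  have hcard : ((univ : Finset (Perm (Fin (2 * m)))).card : ℝ) = ((2 * m).factorial : ℝ) := by
    rw [Finset.card_univ, Fintype.card_perm, Fintype.card_fin]
  have h1 : ∑ g : Perm (Fin (2 * m)), |thorpPow m t g - u| ≥
      ∑ g : Perm (Fin (2 * m)), ((thorpPow m t g - u) + if g ∈ S then 0 else 2 * u) := by
    refine Finset.sum_le_sum fun g _ => ?_
    by_cases hg : g ∈ S
    · rw [if_pos hg, add_zero]
      exact le_abs_self _
    · rw [if_neg hg]
      have : thorpPow m t g = 0 := by
        by_contra hne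
        exact hg (by rw [hS, mem_filter]; exact ⟨mem_univ _, hne⟩)
      rw [this, zero_sub, abs_neg, abs_of_nonneg hu0]
      linarith
  have h2 : ∑ g : Perm (Fin (2 * m)), ((thorpPow m t g - u) + if g ∈ S then 0 else 2 * u) =
      2 * (1 - S.card * u) := by
    rw [Finset.sum_add_distrib, Finset.sum_sub_distrib, pow_sum, Finset.sum_const, nsmul_eq_mul,
      hcard]
    have e1 : ∑ g : Perm (Fin (2 * m)), (if g ∈ S then (0 : ℝ) else 2 * u) =
        ∑ g : Perm (Fin (2 * m)), (2 * u - if g ∈ S then 2 * u else 0) := by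
      refine Finset.sum_congr rfl fun g _ => ?_
      split_ifs <;> ring
    rw [e1, Finset.sum_sub_distrib, Finset.sum_const, nsmul_eq_mul, hcard, Finset.sum_ite_mem,
      Finset.univ_inter, Finset.sum_const, nsmul_eq_mul]
    have : ((2 * m).factorial : ℝ) * u = 1 := by
      rw [hu]
      field_simp
    linear_combination this
  have h3 : (S.card : ℝ) ≤ 2 ^ (m * t) := by
    exact_mod_cast pow_supp m t
  unfold tvDist
  have h4 : (2 : ℝ) ^ (m * t) / ((2 * m).factorial : ℝ) = 2 ^ (m * t) * u := by
    rw [hu]; ring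
  rw [h4]
  have h5 := mul_le_mul_of_nonneg_right h3 hu0
  linarith

lemma fact_ge (m : ℕ) : (m + 1) ^ m ≤ (2 * m).factorial := by
  have h := Nat.pow_sub_le_descFactorial (2 * m) m
  rw [show 2 * m + 1 - m = m + 1 by omega] at h
  have h2 := Nat.factorial_mul_descFactorial (show m ≤ 2 * m by omega)
  rw [← h2]
  exact h.trans (Nat.le_mul_of_pos_left _ (Nat.factorial_pos _))

end LowerAux

open LowerAux in
theorem lower (d t : ℕ) (h : tvDist (2 ^ d) t ≤ 1 / 4) : d + 1 ≤ 2 * t := by
  by_contra hlt
  push Not at hlt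
  have ht : 2 * t ≤ d := by omega
  have h1 := tv_ge (2 ^ d) t
  have hfac : (0 : ℝ) < ((2 * 2 ^ d).factorial : ℝ) := by positivity
  have h2 : (3 / 4 : ℝ) ≤ (2 : ℝ) ^ (2 ^ d * t) / ((2 * 2 ^ d).factorial : ℝ) := by linarith
  rw [le_div_iff₀ hfac] at h2
  rcases Nat.eq_zero_or_pos d with rfl | hd
  · have : t = 0 := by omega
    subst this
    norm_num [Nat.factorial] at h2
  · have h3 : 2 * 2 ^ (2 ^ d * t) ≤ (2 * 2 ^ d).factorial := by
      have h4 := fact_ge (2 ^ d)
      refine le_trans ?_ ((Nat.pow_le_pow_left (by omega : 2 ^ d ≤ 2 ^ d + 1) _).trans h4)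
      rw [← pow_mul, ← pow_succ']
      apply Nat.pow_le_pow_right (by norm_num)
      have h5 : t + 1 ≤ d := by omega
      have h6 : 1 ≤ 2 ^ d := Nat.one_le_two_pow
      calc 2 ^ d * t + 1 ≤ 2 ^ d * t + 2 ^ d := by omega
        _ = 2 ^ d * (t + 1) := by ring
        _ ≤ 2 ^ d * d := Nat.mul_le_mul_left _ h5
        _ = d * 2 ^ d := by ring
    have h3' : (2 : ℝ) * 2 ^ (2 ^ d * t) ≤ ((2 * 2 ^ d).factorial : ℝ) := by exact_mod_cast h3
    have h7 : (0 : ℝ) < 2 ^ (2 ^ d * t) := by positivity
    linarith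

end Vale.Agent.P162.Th
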