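import Vale.Agent.P162.ThFlat
import Vale.Agent.P162.ThDecode
import Vale.Agent.P162.ThColor
import Vale.Agent.P162.ThFull

/-!
# P162, `Θ(log n)` [ML]: many layers
-/

open Finset
open scoped BigOperators

namespace Vale.Agent.P162.Th

namespace MLAux

variable {d : ℕ}

/-- integration of the bits in `S` -/
lemma integrate (S : Finset (Fin d × Q d)) (G X : Om d → ℝ) (hG : ∀ η, 0 ≤ G η)
    (hinv : ∀ η η', (∀ v, v ∉ S → η v = η' v) → G η = G η')
    (hX : ∀ ω₀, ∑ η ∈ Off S ω₀, X η ≤ 2 ^ S.card) :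
    ∑ η, G η * X η ≤ ∑ η, G η := by
  classical
  have hcard : ∀ η : Om d, (univ.filter (fun ω₀ : Om d => η ∈ Off S ω₀)).card = 2 ^ S.card := by
    intro η
    rw [← card_Off S η]
    congr 1
    ext ω₀
    simp only [Off, mem_filter, mem_univ, true_and]
    exact ⟨fun h v hv => (h v hv).symm, fun h v hv => (h v hv).symm⟩
  have h1 : ∑ ω₀ : Om d, ∑ η ∈ Off S ω₀, G η * X η = 2 ^ S.card * ∑ η, G η * X η := by
    have : ∀ ω₀ : Om d, ∑ η ∈ Off S ω₀, G η * X η =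
        ∑ η : Om d, if η ∈ Off S ω₀ then G η * X η else 0 := fun ω₀ => by
      rw [← Finset.sum_filter]; congr 1; ext η; simp
    simp_rw [this]
    rw [Finset.sum_comm, Finset.mul_sum]
    apply Finset.sum_congr rfl
    intro η _
    rw [← Finset.sum_filter, Finset.sum_const, hcard η, nsmul_eq_mul]
    push_cast
    ring
  have h2 : ∀ ω₀ : Om d, ∑ η ∈ Off S ω₀, G η * X η ≤ G ω₀ * 2 ^ S.card := by
    intro ω₀
    calc ∑ η ∈ Off S ω₀, G η * X η = ∑ η ∈ Off S ω₀, G ω₀ * X η := by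
          apply Finset.sum_congr rfl
          intro η hη
          rw [hinv η ω₀ (by simpa [Off] using hη)]
      _ = G ω₀ * ∑ η ∈ Off S ω₀, X η := by rw [Finset.mul_sum]
      _ ≤ G ω₀ * 2 ^ S.card := mul_le_mul_of_nonneg_left (hX ω₀) (hG ω₀)
  have h3 : 2 ^ S.card * ∑ η, G η * X η ≤ 2 ^ S.card * ∑ η, G η := by
    rw [← h1]
    calc ∑ ω₀ : Om d, ∑ η ∈ Off S ω₀, G η * X η ≤ ∑ ω₀ : Om d, G ω₀ * 2 ^ S.card :=
          Finset.sum_le_sum fun ω₀ _ => h2 ω₀
      _ = _ := by rw [← Finset.sum_mul, mul_comm]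
  exact le_of_mul_le_mul_left h3 (by positivity)

section main

variable {k : ℕ} (x c : Fin k → Q d)

/-- number of full components of layer `r` -/
noncomputable def cyn (η : Om d) (r : ℕ) : ℕ :=
  if h : r < d then cyc (fs x c ⟨r, h⟩) (fun i => sw (⟨r, h⟩ : Fin d) (upTo η r (c i))) else 0

/-- number of pairs of layer `r` -/
def ppn (r : ℕ) : ℕ := if h : r < d then pp x c ⟨r, h⟩ else 0

lemma Cyc_eq (η : Om d) (N : ℕ) (hN : d ≤ N) :
    Cyc x c (fun i => upTo η d (c i)) = ∑ r ∈ range N, cyn x c η r := by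
  have h1 : Cyc x c (fun i => upTo η d (c i)) = ∑ r ∈ range d, cyn x c η r := by
    rw [Cyc, Finset.sum_range]
    apply Finset.sum_congr rfl
    intro r _
    rw [cyn, dif_pos r.2]
    congr 1
    funext i
    exact fs_up η c r i
  rw [h1]
  apply Finset.sum_subset (Finset.range_subset_range.2 hN)
  intro r _ hr
  rw [cyn, dif_neg (by simpa using hr)]

lemma cyn_congr {η η' : Om d} (r : ℕ)
    (h : ∀ v : Fin d × Q d, (v.1 : ℕ) < r → η v = η' v) : cyn x c η r = cyn x c η' r := by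
  unfold cyn
  split_ifs with hr
  · congr 1
    funext i
    rw [upTo_congr h]
  · rfl

/-- exponent of `X_r` -/
noncomputable def aa (u : ℕ) (r : ℕ) (η : Om d) : ℝ :=
  Real.log 2 * (u * cyn x c η r) - (2 * u / 2 ^ u) * ppn x c r

variable (hc : Function.Injective c)
  (hp : ∀ (r : Fin d) i j, i ≠ j → fs x c r i = fs x c r j → c i r ≠ c j r)

include hc hp

lemma step (j : ℕ) (hj : 4 ≤ j) (r : ℕ) (hr : r ∈ Ico (2 ^ j) (2 ^ (j + 1))) (G : Om d → ℝ)
    (hG : ∀ η, 0 ≤ G η)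
    (hinv : ∀ η η', (∀ v : Fin d × Q d, (v.1 : ℕ) < 2 ^ (j - 1) → η v = η' v) → G η = G η') :
    ∑ η, G η * Real.exp (aa x c (2 ^ (j - 4)) r η) ≤ ∑ η, G η := by
  classical
  rw [mem_Ico] at hr
  by_cases hrd : r < d
  · set W : Finset (Fin d) := univ.filter (fun s : Fin d => 2 ^ (j - 1) ≤ (s : ℕ) ∧ (s : ℕ) < 2 ^ j)
      with hWdef
    have h2j : 2 ^ j = 2 * 2 ^ (j - 1) := by
      rw [← pow_succ']; congr 1; omega
    have h8 : 2 ^ (j - 1) = 8 * 2 ^ (j - 4) := by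
      have : j - 1 = (j - 4) + 3 := by omega
      rw [this, pow_add]; ring
    have hWc : W.card = 8 * 2 ^ (j - 4) := by
      rw [← h8]
      have : W.card = (Ico (2 ^ (j - 1)) (2 ^ j)).card := by
        apply Finset.card_bij (fun (s : Fin d) _ => (s : ℕ))
        · intro s hs
          simpa [hWdef] using hs
        · intro s _ s' _ h
          exact Fin.ext h
        · intro b hb
          rw [mem_Ico] at hb
          exact ⟨⟨b, by omega⟩, by simp [hWdef, hb.1, hb.2], rfl⟩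
      rw [this, Nat.card_Ico]
      omega
    apply integrate (Sb ⟨r, hrd⟩ W) G _ hG
    · intro η η' h
      apply hinv
      intro v hv
      apply h
      intro hvS
      simp only [Sb, mem_filter, mem_univ, true_and, hWdef] at hvS
      omega
    · intro ω₀
      have h1 := SLcyc ⟨r, hrd⟩ W (fun s hs => by
          simp only [hWdef, mem_filter, mem_univ, true_and] at hs
          exact Fin.lt_def.2 (by simp only; omega)) (2 ^ (j - 4)) Nat.one_le_two_pow hWc x c hc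
        (hp ⟨r, hrd⟩) ω₀
      set β : ℝ := (2 * ((2 ^ (j - 4) : ℕ) : ℝ) / 2 ^ (2 ^ (j - 4))) * (pp x c ⟨r, hrd⟩ : ℝ) with hβ
      have h2 : ∀ η : Om d, Real.exp (aa x c (2 ^ (j - 4)) r η) =
          (2 : ℝ) ^ (2 ^ (j - 4) * cyc (fs x c ⟨r, hrd⟩)
            (fun i => sw (⟨r, hrd⟩ : Fin d) (upTo η r (c i)))) * Real.exp (-β) := by
        intro η
        rw [aa, cyn, ppn, dif_pos hrd, dif_pos hrd, sub_eq_add_neg, Real.exp_add, ← hβ]
        congr 1
        rw [← Nat.cast_mul, mul_comm (Real.log 2), Real.exp_nat_mul, Real.exp_log (by norm_num)]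
      simp_rw [h2]
      rw [← Finset.sum_mul]
      calc _ ≤ (2 ^ (Sb ⟨r, hrd⟩ W).card * Real.exp β) * Real.exp (-β) :=
            mul_le_mul_of_nonneg_right h1 (Real.exp_pos _).le
        _ = 2 ^ (Sb ⟨r, hrd⟩ W).card := by
            rw [mul_assoc, ← Real.exp_add, add_neg_cancel, Real.exp_zero, mul_one]
  · apply le_of_eq
    apply Finset.sum_congr rfl
    intro η _
    rw [aa, cyn, ppn, dif_neg hrd, dif_neg hrd]
    simp

/-- the average over a class -/
noncomputable def ZZ (j : ℕ) (η : Om d) : ℝ :=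
  ∑ r ∈ Ico (2 ^ j) (2 ^ (j + 1)), ((2 : ℝ) ^ j)⁻¹ * Real.exp (aa x c (2 ^ (j - 4)) r η)

omit hc hp in
lemma ZZ_nonneg (j : ℕ) (η : Om d) : 0 ≤ ZZ x c j η :=
  Finset.sum_nonneg fun r _ => mul_nonneg (by positivity) (Real.exp_pos _).le

omit hc hp in
lemma ZZ_congr (j : ℕ) {η η' : Om d}
    (h : ∀ v : Fin d × Q d, (v.1 : ℕ) < 2 ^ (j + 1) → η v = η' v) :
    ZZ x c j η = ZZ x c j η' := by
  unfold ZZ
  apply Finset.sum_congr rfl
  intro r hr
  rw [mem_Ico] at hr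
  rw [aa, aa, cyn_congr x c r (fun v hv => h v (by omega))]

lemma stepZ (j : ℕ) (hj : 4 ≤ j) (G : Om d → ℝ) (hG : ∀ η, 0 ≤ G η)
    (hinv : ∀ η η', (∀ v : Fin d × Q d, (v.1 : ℕ) < 2 ^ (j - 1) → η v = η' v) → G η = G η') :
    ∑ η, G η * ZZ x c j η ≤ ∑ η, G η := by
  have h1 : ∑ η, G η * ZZ x c j η = ∑ r ∈ Ico (2 ^ j) (2 ^ (j + 1)), ((2 : ℝ) ^ j)⁻¹ *
      ∑ η, G η * Real.exp (aa x c (2 ^ (j - 4)) r η) := by
    simp_rw [ZZ, Finset.mul_sum]
    rw [Finset.sum_comm]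
    apply Finset.sum_congr rfl
    intro r _
    apply Finset.sum_congr rfl
    intro η _
    ring
  rw [h1]
  calc _ ≤ ∑ r ∈ Ico (2 ^ j) (2 ^ (j + 1)), ((2 : ℝ) ^ j)⁻¹ * ∑ η, G η :=
        Finset.sum_le_sum fun r hr => mul_le_mul_of_nonneg_left
          (step x c hc hp j hj r hr G hG hinv) (by positivity)
    _ = ∑ η, G η := by
        rw [Finset.sum_const, Nat.card_Ico, nsmul_eq_mul]
        have : 2 ^ (j + 1) - 2 ^ j = 2 ^ j := by rw [pow_succ]; omega
        rw [this]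
        push_cast
        field_simp

/-- product over the classes of one parity -/
lemma chain (e : ℕ) (he : 4 ≤ e) (M : ℕ) :
    ∑ η : Om d, ∏ i ∈ range M, ZZ x c (e + 2 * i) η ≤ Fintype.card (Om d) := by
  induction M with
  | zero => simp
  | succ M ih =>
    simp_rw [Finset.prod_range_succ]
    refine (stepZ x c hc hp (e + 2 * M) (by omega) (fun η => ∏ i ∈ range M, ZZ x c (e + 2 * i) η)
      (fun η => Finset.prod_nonneg fun i _ => ZZ_nonneg x c _ η) ?_).trans ih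
    intro η η' h
    apply Finset.prod_congr rfl
    intro i hi
    rw [mem_range] at hi
    apply ZZ_congr
    intro v hv
    apply h
    exact lt_of_lt_of_le hv (Nat.pow_le_pow_right (by norm_num) (by omega))

/-- weights -/
noncomputable def ww (j : ℕ) : ℝ := (2 * ((2 ^ (j - 4) : ℕ) : ℝ) / 2 ^ (2 ^ (j - 4))) / 2 ^ j

omit hc hp in
/-- AM-GM in a class -/
lemma amgm (j : ℕ) (hj : 4 ≤ j) (η : Om d) :
    Real.exp (Real.log 2 / 16 * ∑ r ∈ Ico (2 ^ j) (2 ^ (j + 1)), (cyn x c η r : ℝ)) ≤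
      ZZ x c j η * Real.exp (∑ r ∈ Ico (2 ^ j) (2 ^ (j + 1)), ww j * (ppn x c r : ℝ)) := by
  have hcard : ∑ r ∈ Ico (2 ^ j) (2 ^ (j + 1)), ((2 : ℝ) ^ j)⁻¹ = 1 := by
    rw [Finset.sum_const, Nat.card_Ico, nsmul_eq_mul]
    have : 2 ^ (j + 1) - 2 ^ j = 2 ^ j := by rw [pow_succ]; omega
    rw [this]
    push_cast
    field_simp
  have h1 := convexOn_exp.map_sum_le (t := Ico (2 ^ j) (2 ^ (j + 1)))
    (w := fun _ => ((2 : ℝ) ^ j)⁻¹) (p := fun r => aa x c (2 ^ (j - 4)) r η)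
    (fun r _ => by positivity) hcard (fun r _ => Set.mem_univ _)
  simp only [smul_eq_mul] at h1
  have h2 : Real.log 2 / 16 * ∑ r ∈ Ico (2 ^ j) (2 ^ (j + 1)), (cyn x c η r : ℝ) =
      ∑ r ∈ Ico (2 ^ j) (2 ^ (j + 1)), ((2 : ℝ) ^ j)⁻¹ * aa x c (2 ^ (j - 4)) r η +
      ∑ r ∈ Ico (2 ^ j) (2 ^ (j + 1)), ww j * (ppn x c r : ℝ) := by
    rw [← Finset.sum_add_distrib, Finset.mul_sum]
    apply Finset.sum_congr rfl
    intro r _
    have h16 : (2 : ℝ) ^ j = 16 * 2 ^ (j - 4) := by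
      have : j = (j - 4) + 4 := by omega
      rw [this, pow_add]
      norm_num
      ring
    rw [aa, ww]
    push_cast
    rw [h16]
    field_simp
    ring
  rw [h2, Real.exp_add]
  exact mul_le_mul_of_nonneg_right h1 (Real.exp_pos _).le

end main

lemma split (f : ℕ → ℝ) (M : ℕ) : ∑ r ∈ range (2 ^ (4 + 2 * M)), f r = ∑ r ∈ range 16, f r +
    ∑ i ∈ range M, ∑ r ∈ Ico (2 ^ (4 + 2 * i)) (2 ^ (4 + 2 * i + 1)), f r +
    ∑ i ∈ range M, ∑ r ∈ Ico (2 ^ (5 + 2 * i)) (2 ^ (5 + 2 * i + 1)), f r := by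
  induction M with
  | zero => simp
  | succ M ih =>
    rw [Finset.sum_range_succ _ M, Finset.sum_range_succ _ M]
    have h1 : ∑ r ∈ range (2 ^ (4 + 2 * (M + 1))), f r = ∑ r ∈ range (2 ^ (4 + 2 * M)), f r +
        ∑ r ∈ Ico (2 ^ (4 + 2 * M)) (2 ^ (4 + 2 * M + 1)), f r +
        ∑ r ∈ Ico (2 ^ (5 + 2 * M)) (2 ^ (5 + 2 * M + 1)), f r := by
      rw [Finset.sum_range_add_sum_Ico _ (Nat.pow_le_pow_right (by norm_num) (by omega))]
      have e1 : 5 + 2 * M = 4 + 2 * M + 1 := by omega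
      have e2 : 4 + 2 * (M + 1) = 4 + 2 * M + 1 + 1 := by omega
      rw [e1, e2, Finset.sum_range_add_sum_Ico _ (Nat.pow_le_pow_right (by norm_num) (by omega))]
    rw [h1, ih]
    abel

/-- the weights -/
noncomputable def wtn (r : ℕ) : ℝ := 256 / ((r : ℝ) + 1) ^ 2

lemma wtn_nonneg (r : ℕ) : 0 ≤ wtn r := by unfold wtn; positivity

lemma summable_wtn : Summable wtn := by
  have h := (summable_nat_add_iff 1).2 (Real.summable_one_div_nat_pow.2 (by norm_num : 1 < 2))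
  have h2 := h.mul_left 256
  refine h2.congr fun n => ?_
  unfold wtn
  push_cast
  ring

lemma wtn_small {r : ℕ} (hr : r < 16) : Real.log 2 / 32 ≤ wtn r := by
  have h1 : Real.log 2 ≤ 1 := by linarith [Real.log_two_lt_d9]
  have h2 : ((r : ℝ) + 1) ≤ 16 := by exact_mod_cast (by omega : r + 1 ≤ 16)
  have h3 : (1 : ℝ) ≤ wtn r := by
    unfold wtn
    rw [le_div_iff₀ (by positivity)]
    nlinarith [(Nat.cast_nonneg r : (0 : ℝ) ≤ r)]
  linarith

lemma wtn_big {j r : ℕ} (hj : 4 ≤ j) (hr : r < 2 ^ (j + 1)) : ww j / 2 ≤ wtn r := by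
  have h2 : ((r : ℝ) + 1) ≤ 2 ^ (j + 1) := by exact_mod_cast (by omega : r + 1 ≤ 2 ^ (j + 1))
  have h3 : (64 : ℝ) / (2 ^ j) ^ 2 ≤ wtn r := by
    unfold wtn
    rw [div_le_div_iff₀ (by positivity) (by positivity)]
    have : ((r : ℝ) + 1) ^ 2 ≤ (2 ^ (j + 1)) ^ 2 :=
      pow_le_pow_left₀ (by positivity) h2 2
    rw [pow_succ (2 : ℝ) j] at this
    nlinarith
  obtain ⟨m, rfl⟩ : ∃ m, j = m + 4 := ⟨j - 4, by omega⟩
  have hm : 2 * m ≤ 2 ^ m := by
    cases m with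
    | zero => simp
    | succ m =>
      have := (Nat.lt_two_pow_self (n := m))
      rw [pow_succ]; omega
  have h4 : (2 : ℝ) ^ (2 * m) ≤ 2 ^ (2 ^ m) := pow_le_pow_right₀ (by norm_num) hm
  have h5 : ww (m + 4) / 2 ≤ 64 / (2 ^ (m + 4)) ^ 2 := by
    unfold ww
    rw [Nat.add_sub_cancel]
    push_cast
    rw [pow_mul'] at h4
    have h6 : (0 : ℝ) < 2 ^ m := by positivity
    have h7 : (2 : ℝ) ^ (m + 4) = 16 * 2 ^ m := by rw [pow_add]; ring
    rw [h7]
    have h8 : 2 * (2 : ℝ) ^ m / 2 ^ 2 ^ m ≤ 2 / 2 ^ m := by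
      rw [div_le_div_iff₀ (by positivity) h6]
      nlinarith
    calc 2 * (2 : ℝ) ^ m / 2 ^ 2 ^ m / (16 * 2 ^ m) / 2 ≤ 2 / 2 ^ m / (16 * 2 ^ m) / 2 := by
          gcongr
      _ ≤ 64 / (16 * 2 ^ m) ^ 2 := by
          rw [div_div, div_div, div_le_div_iff₀ (by positivity) (by positivity)]
          nlinarith [sq_nonneg ((2 : ℝ) ^ m)]
  exact h5.trans h3

lemma ppn_sum {k : ℕ} (x c : Fin k → Q d) (N : ℕ) (hN : d ≤ N) :
    ∑ r ∈ range N, wtn r * (ppn x c r : ℝ) = ∑ r : Fin d, wtn r * (pp x c r : ℝ) := by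
  have h1 : ∑ r : Fin d, wtn r * (pp x c r : ℝ) = ∑ r ∈ range d, wtn r * (ppn x c r : ℝ) := by
    rw [Finset.sum_range]
    apply Finset.sum_congr rfl
    intro r _
    rw [ppn, dif_pos r.2]
  rw [h1]
  symm
  apply Finset.sum_subset (Finset.range_subset_range.2 hN)
  intro r _ hr
  rw [ppn, dif_neg (by simpa using hr)]
  simp

lemma cyn_le {k : ℕ} (x c : Fin k → Q d) (η : Om d) (r : ℕ) : cyn x c η r ≤ ppn x c r := by
  classical
  unfold cyn ppn
  split_ifs with h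
  · have := cyc_le (fs x c ⟨r, h⟩) (fun i => sw (⟨r, h⟩ : Fin d) (upTo η r (c i)))
    rw [Fintype.card_fin] at this
    exact this
  · exact le_rfl

section fin

variable {k : ℕ} (x c : Fin k → Q d) (hc : Function.Injective c)
  (hp : ∀ (r : Fin d) i j, i ≠ j → fs x c r i = fs x c r j → c i r ≠ c j r)

include hc hp

/-- one parity -/
lemma parity (e : ℕ) (he : 4 ≤ e) (M : ℕ) :
    ∑ η : Om d, Real.exp (Real.log 2 / 16 * ∑ i ∈ range M,
      ∑ r ∈ Ico (2 ^ (e + 2 * i)) (2 ^ (e + 2 * i + 1)), (cyn x c η r : ℝ)) ≤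
      (Fintype.card (Om d) : ℝ) * Real.exp (∑ i ∈ range M,
        ∑ r ∈ Ico (2 ^ (e + 2 * i)) (2 ^ (e + 2 * i + 1)), ww (e + 2 * i) * (ppn x c r : ℝ)) := by
  calc _ ≤ ∑ η : Om d, (∏ i ∈ range M, ZZ x c (e + 2 * i) η) * Real.exp (∑ i ∈ range M,
        ∑ r ∈ Ico (2 ^ (e + 2 * i)) (2 ^ (e + 2 * i + 1)), ww (e + 2 * i) * (ppn x c r : ℝ)) := by
        apply Finset.sum_le_sum
        intro η _
        rw [Finset.mul_sum, Real.exp_sum, Real.exp_sum, ← Finset.prod_mul_distrib]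
        exact Finset.prod_le_prod (fun i _ => (Real.exp_pos _).le)
          fun i _ => amgm x c (e + 2 * i) (by omega) η
    _ ≤ _ := by
        rw [← Finset.sum_mul]
        exact mul_le_mul_of_nonneg_right (chain x c hc hp e he M) (Real.exp_pos _).le

end fin

end MLAux

open MLAux in
theorem ML : ∃ Wb : ℝ, 0 ≤ Wb ∧ ∀ d : ℕ, ∃ wt : Fin d → ℝ, (∀ r, 0 ≤ wt r) ∧ ∑ r, wt r ≤ Wb ∧
    ∀ (k : ℕ) (x c : Fin k → Q d), Function.Injective c →
      (∀ r i j, i ≠ j → fs x c r i = fs x c r j → c i r ≠ c j r) →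
      ∑ η : Om d, (2 : ℝ) ^ ((1 / 32 : ℝ) * (Cyc x c (fun i => upTo η d (c i)) : ℝ)) ≤
        (Fintype.card (Om d) : ℝ) * Real.exp (∑ r, wt r * (pp x c r : ℝ)) := by
  refine ⟨∑' n, wtn n, tsum_nonneg wtn_nonneg, fun d => ⟨fun r => wtn r, fun r => wtn_nonneg _,
    ?_, ?_⟩⟩
  · rw [← Finset.sum_range (fun n => wtn n)]
    exact summable_wtn.sum_le_tsum _ fun i _ => wtn_nonneg i
  · intro k x c hc hp
    set N := 2 ^ (4 + 2 * d) with hN
    have hdN : d ≤ N := by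
      have h1 : d < 2 ^ d := Nat.lt_two_pow_self
      have h2 : 2 ^ d ≤ 2 ^ (4 + 2 * d) := Nat.pow_le_pow_right (by norm_num) (by omega)
      omega
    set A : Om d → ℝ := fun η => Real.log 2 / 16 * ∑ i ∈ range d,
      ∑ r ∈ Ico (2 ^ (4 + 2 * i)) (2 ^ (4 + 2 * i + 1)), (cyn x c η r : ℝ) with hA
    set B : Om d → ℝ := fun η => Real.log 2 / 16 * ∑ i ∈ range d,
      ∑ r ∈ Ico (2 ^ (5 + 2 * i)) (2 ^ (5 + 2 * i + 1)), (cyn x c η r : ℝ) with hB
    set Ea : ℝ := ∑ i ∈ range d,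
        ∑ r ∈ Ico (2 ^ (4 + 2 * i)) (2 ^ (4 + 2 * i + 1)), ww (4 + 2 * i) * (ppn x c r : ℝ) with hEa
    set Eb : ℝ := ∑ i ∈ range d,
        ∑ r ∈ Ico (2 ^ (5 + 2 * i)) (2 ^ (5 + 2 * i + 1)), ww (5 + 2 * i) * (ppn x c r : ℝ) with hEb
    have hSA : ∑ η : Om d, Real.exp (A η) ≤ (Fintype.card (Om d) : ℝ) * Real.exp Ea :=
      parity x c hc hp 4 le_rfl d
    have hSB : ∑ η : Om d, Real.exp (B η) ≤ (Fintype.card (Om d) : ℝ) * Real.exp Eb :=
      parity x c hc hp 5 (by norm_num) d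
    set P0 : ℝ := Real.log 2 / 32 * ∑ r ∈ range 16, (ppn x c r : ℝ) with hP0
    have hterm : ∀ η : Om d,
        (2 : ℝ) ^ ((1 / 32 : ℝ) * (Cyc x c (fun i => upTo η d (c i)) : ℝ)) ≤
        Real.exp P0 * (1 / 2 * (Real.exp (A η) * Real.exp ((Eb - Ea) / 2) +
          Real.exp (B η) * Real.exp (-((Eb - Ea) / 2)))) := by
      intro η
      rw [Real.rpow_def_of_pos (by norm_num)]
      have h1 : ((Cyc x c (fun i => upTo η d (c i)) : ℕ) : ℝ) =
          ∑ r ∈ range N, (cyn x c η r : ℝ) := by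
        rw [Cyc_eq x c η N hdN]; push_cast; rfl
      rw [h1, split (fun r => (cyn x c η r : ℝ)) d]
      have h2 : Real.log 2 * (1 / 32 * (∑ r ∈ range 16, (cyn x c η r : ℝ) +
          ∑ i ∈ range d, ∑ r ∈ Ico (2 ^ (4 + 2 * i)) (2 ^ (4 + 2 * i + 1)), (cyn x c η r : ℝ) +
          ∑ i ∈ range d, ∑ r ∈ Ico (2 ^ (5 + 2 * i)) (2 ^ (5 + 2 * i + 1)), (cyn x c η r : ℝ))) =
          Real.log 2 / 32 * ∑ r ∈ range 16, (cyn x c η r : ℝ) + (A η + B η) / 2 := by
        rw [hA, hB]; ring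
      rw [h2, Real.exp_add]
      apply mul_le_mul
      · apply Real.exp_le_exp.2
        rw [hP0]
        apply mul_le_mul_of_nonneg_left _ (by positivity)
        apply Finset.sum_le_sum
        intro r _
        exact_mod_cast cyn_le x c η r
      · have h3 : Real.exp ((A η + B η) / 2) ≤ 1 / 2 * (Real.exp (A η + (Eb - Ea) / 2) +
            Real.exp (B η + -((Eb - Ea) / 2))) := by
          have e1 : Real.exp (A η + (Eb - Ea) / 2) =
              Real.exp ((A η + (Eb - Ea) / 2) / 2) ^ 2 := by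
            rw [← Real.exp_nat_mul]; congr 1; push_cast; ring
          have e2 : Real.exp (B η + -((Eb - Ea) / 2)) =
              Real.exp ((B η + -((Eb - Ea) / 2)) / 2) ^ 2 := by
            rw [← Real.exp_nat_mul]; congr 1; push_cast; ring
          have e3 : Real.exp ((A η + B η) / 2) = Real.exp ((A η + (Eb - Ea) / 2) / 2) *
              Real.exp ((B η + -((Eb - Ea) / 2)) / 2) := by
            rw [← Real.exp_add]; congr 1; ring
          rw [e1, e2, e3]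
          nlinarith [sq_nonneg (Real.exp ((A η + (Eb - Ea) / 2) / 2) -
            Real.exp ((B η + -((Eb - Ea) / 2)) / 2))]
        rw [← Real.exp_add, ← Real.exp_add]
        exact h3
      · exact (Real.exp_pos _).le
      · exact (Real.exp_pos _).le
    have hsum : ∑ η : Om d,
        (2 : ℝ) ^ ((1 / 32 : ℝ) * (Cyc x c (fun i => upTo η d (c i)) : ℝ)) ≤
        (Fintype.card (Om d) : ℝ) * Real.exp (P0 + (Ea + Eb) / 2) := by
      calc _ ≤ ∑ η : Om d, Real.exp P0 * (1 / 2 * (Real.exp (A η) * Real.exp ((Eb - Ea) / 2) +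
          Real.exp (B η) * Real.exp (-((Eb - Ea) / 2)))) := Finset.sum_le_sum fun η _ => hterm η
        _ = Real.exp P0 * (1 / 2 * ((∑ η, Real.exp (A η)) * Real.exp ((Eb - Ea) / 2) +
          (∑ η, Real.exp (B η)) * Real.exp (-((Eb - Ea) / 2)))) := by
            rw [← Finset.mul_sum, ← Finset.mul_sum, Finset.sum_add_distrib, ← Finset.sum_mul,
              ← Finset.sum_mul]
        _ ≤ Real.exp P0 * (1 / 2 * (((Fintype.card (Om d) : ℝ) * Real.exp Ea) *
            Real.exp ((Eb - Ea) / 2) +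
          ((Fintype.card (Om d) : ℝ) * Real.exp Eb) * Real.exp (-((Eb - Ea) / 2)))) := by
            gcongr
        _ = (Fintype.card (Om d) : ℝ) * Real.exp (P0 + (Ea + Eb) / 2) := by
            have e1 : Real.exp Ea * Real.exp ((Eb - Ea) / 2) = Real.exp ((Ea + Eb) / 2) := by
              rw [← Real.exp_add]; congr 1; ring
            have e2 : Real.exp Eb * Real.exp (-((Eb - Ea) / 2)) = Real.exp ((Ea + Eb) / 2) := by
              rw [← Real.exp_add]; congr 1; ring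
            rw [mul_assoc, mul_assoc, e1, e2, Real.exp_add]
            ring
    refine hsum.trans ?_
    apply mul_le_mul_of_nonneg_left _ (by positivity)
    apply Real.exp_le_exp.2
    rw [← ppn_sum x c N hdN, split (fun r => wtn r * (ppn x c r : ℝ)) d]
    have h1 : P0 ≤ ∑ r ∈ range 16, wtn r * (ppn x c r : ℝ) := by
      rw [hP0, Finset.mul_sum]
      apply Finset.sum_le_sum
      intro r hr
      exact mul_le_mul_of_nonneg_right (wtn_small (mem_range.1 hr)) (by positivity)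
    have h2 : ∀ e : ℕ, 4 ≤ e → (∑ i ∈ range d,
        ∑ r ∈ Ico (2 ^ (e + 2 * i)) (2 ^ (e + 2 * i + 1)), ww (e + 2 * i) * (ppn x c r : ℝ)) / 2 ≤
        ∑ i ∈ range d, ∑ r ∈ Ico (2 ^ (e + 2 * i)) (2 ^ (e + 2 * i + 1)),
          wtn r * (ppn x c r : ℝ) := by
      intro e he
      rw [Finset.sum_div]
      apply Finset.sum_le_sum
      intro i _
      rw [Finset.sum_div]
      apply Finset.sum_le_sum
      intro r hr
      rw [mem_Ico] at hr
      rw [mul_div_right_comm]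
      exact mul_le_mul_of_nonneg_right (wtn_big (by omega) hr.2) (by positivity)
    have h3 := h2 4 le_rfl
    have h4 := h2 5 (by norm_num)
    rw [← hEa] at h3
    rw [← hEb] at h4
    linarith

end Vale.Agent.P162.Th
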