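import Vale.Agent.P162.ThFlat

/-!
# P162, `Θ(log n)`, module [PAIR]: exponential moment of the number of pairs
-/

open Finset
open scoped BigOperators

namespace Vale.Agent.P162.Th

/-- flip the coordinate `r` -/
private def flp {d : ℕ} (r : Fin d) (z : Q d) : Q d := Function.update z r (!(z r))

private lemma flp_flp {d : ℕ} (r : Fin d) (z : Q d) : flp r (flp r z) = z := by
  unfold flp
  simp

private lemma flp_of_sw {d : ℕ} {r : Fin d} {z z' : Q d} (h : sw r z = sw r z') (hne : z ≠ z') :
    flp r z = z' := by
  have h1 : z r ≠ z' r := fun e => hne (eq_of_sw_eq h e)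
  funext j
  by_cases hj : j = r
  · subst hj
    unfold flp
    rw [Function.update_self]
    cases hz : z j <;> cases hz' : z' j <;> simp_all
  · unfold flp
    rw [Function.update_of_ne hj]
    exact sw_eq_iff.1 h j hj

private lemma step {d k : ℕ} (r : Fin d) (z : Fin k ↪ Q d) (t : ℝ) (ht : 0 ≤ t) :
    ∑ q : {q : Q d // q ∉ Set.range z},
      (if sw r q.1 ∈ univ.image (fun i => sw r (z i)) then (1 + t) else 1) ≤
      (2 : ℝ) ^ d + t * k := by
  classical
  have h1 : ∑ q : {q : Q d // q ∉ Set.range z},
      (if sw r q.1 ∈ univ.image (fun i => sw r (z i)) then (1 + t) else 1) =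
      ∑ q : {q : Q d // q ∉ Set.range z}, (1 : ℝ) +
        ∑ q : {q : Q d // q ∉ Set.range z},
          (if sw r q.1 ∈ univ.image (fun i => sw r (z i)) then t else 0) := by
    rw [← Finset.sum_add_distrib]
    refine Finset.sum_congr rfl fun q _ => ?_
    split_ifs <;> ring
  rw [h1]
  have h2 : ∑ q : {q : Q d // q ∉ Set.range z}, (1 : ℝ) ≤ (2 : ℝ) ^ d := by
    rw [Finset.sum_const, nsmul_eq_mul, mul_one, Finset.card_univ]
    have := Fintype.card_subtype_le (fun q : Q d => q ∉ Set.range z)
    have h3 : Fintype.card (Q d) = 2 ^ d := by simp [Q]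
    rw [h3] at this
    exact_mod_cast this
  have h3 : ∑ q : {q : Q d // q ∉ Set.range z},
      (if sw r q.1 ∈ univ.image (fun i => sw r (z i)) then t else 0) ≤ t * k := by
    rw [← Finset.sum_filter, Finset.sum_const, nsmul_eq_mul, mul_comm]
    refine mul_le_mul_of_nonneg_left ?_ ht
    have h4 : (univ.filter (fun q : {q : Q d // q ∉ Set.range z} =>
        sw r q.1 ∈ univ.image (fun i => sw r (z i)))).card ≤ (univ.map z).card := by
      refine Finset.card_le_card_of_injOn (fun q => flp r q.1) ?_ ?_
      · intro q hq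
        rw [Finset.mem_coe, Finset.mem_filter] at hq
        obtain ⟨i, _, hi⟩ := Finset.mem_image.1 hq.2
        have hne : q.1 ≠ z i := fun e => q.2 ⟨i, e.symm⟩
        have := flp_of_sw hi.symm hne
        simp only [Finset.coe_map, Finset.coe_univ, Set.image_univ, Set.mem_range]
        exact ⟨i, this.symm⟩
      · intro q _ q' _ h
        simp only at h
        have := congrArg (flp r) h
        rw [flp_flp, flp_flp] at this
        exact Subtype.ext this
    rw [Finset.card_map, Finset.card_univ, Fintype.card_fin] at h4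
    exact_mod_cast h4
  linarith

theorem pairCount {d : ℕ} (r : Fin d) (k : ℕ) (t : ℝ) (ht : 0 ≤ t) :
    ∑ z : Fin k ↪ Q d, (1 + t) ^ (k - (univ.image (fun i => sw r (z i))).card) ≤
      ((2 : ℝ) ^ d) ^ k * Real.exp (t * (k : ℝ) ^ 2 / 2 ^ d) := by
  classical
  induction k with
  | zero =>
    rw [Fintype.sum_unique]
    simp
  | succ k ih =>
    rw [← (Equiv.embeddingFinSucc k (Q d)).symm.sum_comp, Fintype.sum_sigma]
    have hpos : (0 : ℝ) < (2 : ℝ) ^ d := by positivity
    have hterm : ∀ (z : Fin k ↪ Q d) (q : {q : Q d // q ∉ Set.range z}),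
        (1 + t) ^ (k + 1 - (univ.image (fun i =>
          sw r ((Equiv.embeddingFinSucc k (Q d)).symm ⟨z, q⟩ i))).card) =
        (1 + t) ^ (k - (univ.image (fun i => sw r (z i))).card) *
          (if sw r q.1 ∈ univ.image (fun i => sw r (z i)) then (1 + t) else 1) := by
      intro z q
      have hc : (univ.image (fun i => sw r (z i))).card ≤ k := by
        refine le_trans Finset.card_image_le ?_
        simp
      have e1 : (univ.image (fun i =>
          sw r ((Equiv.embeddingFinSucc k (Q d)).symm ⟨z, q⟩ i))) =
          insert (sw r q.1) (univ.image (fun i => sw r (z i))) := by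
        ext v
        simp only [Finset.mem_image, Finset.mem_univ, true_and, Finset.mem_insert]
        constructor
        · rintro ⟨i, rfl⟩
          refine Fin.cases ?_ (fun j => ?_) i
          · left
            simp [Equiv.embeddingFinSucc]
          · right
            exact ⟨j, by simp [Equiv.embeddingFinSucc]⟩
        · rintro (rfl | ⟨j, rfl⟩)
          · exact ⟨0, by simp [Equiv.embeddingFinSucc]⟩
          · exact ⟨j.succ, by simp [Equiv.embeddingFinSucc]⟩
      rw [e1]
      split_ifs with h
      · rw [Finset.insert_eq_of_mem h, show k + 1 - (univ.image (fun i => sw r (z i))).card =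
          (k - (univ.image (fun i => sw r (z i))).card) + 1 by omega, pow_succ]
      · rw [Finset.card_insert_of_notMem h, mul_one,
          show k + 1 - ((univ.image (fun i => sw r (z i))).card + 1) =
          (k - (univ.image (fun i => sw r (z i))).card) by omega]
    calc ∑ z : Fin k ↪ Q d, ∑ q : {q : Q d // q ∉ Set.range z},
          (1 + t) ^ (k + 1 - (univ.image (fun i =>
          sw r ((Equiv.embeddingFinSucc k (Q d)).symm ⟨z, q⟩ i))).card)
        = ∑ z : Fin k ↪ Q d, (1 + t) ^ (k - (univ.image (fun i => sw r (z i))).card) *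
          ∑ q : {q : Q d // q ∉ Set.range z},
            (if sw r q.1 ∈ univ.image (fun i => sw r (z i)) then (1 + t) else 1) := by
          refine Finset.sum_congr rfl fun z _ => ?_
          rw [Finset.mul_sum]
          exact Finset.sum_congr rfl fun q _ => hterm z q
      _ ≤ ∑ z : Fin k ↪ Q d, (1 + t) ^ (k - (univ.image (fun i => sw r (z i))).card) *
          ((2 : ℝ) ^ d + t * k) := by
          refine Finset.sum_le_sum fun z _ => ?_
          exact mul_le_mul_of_nonneg_left (step r z t ht) (by positivity)
      _ = (∑ z : Fin k ↪ Q d, (1 + t) ^ (k - (univ.image (fun i => sw r (z i))).card)) *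
          ((2 : ℝ) ^ d + t * k) := by rw [Finset.sum_mul]
      _ ≤ (((2 : ℝ) ^ d) ^ k * Real.exp (t * (k : ℝ) ^ 2 / 2 ^ d)) *
          ((2 : ℝ) ^ d + t * k) := mul_le_mul_of_nonneg_right ih (by positivity)
      _ ≤ (((2 : ℝ) ^ d) ^ k * Real.exp (t * (k : ℝ) ^ 2 / 2 ^ d)) *
          ((2 : ℝ) ^ d * Real.exp (t * k / 2 ^ d)) := by
          refine mul_le_mul_of_nonneg_left ?_ (by positivity)
          have h5 := Real.add_one_le_exp (t * k / (2 : ℝ) ^ d)
          have h6 : (2 : ℝ) ^ d + t * k = (2 : ℝ) ^ d * (t * k / (2 : ℝ) ^ d + 1) := by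
            field_simp
            ring
          rw [h6]
          exact mul_le_mul_of_nonneg_left h5 hpos.le
      _ = ((2 : ℝ) ^ d) ^ (k + 1) *
          Real.exp (t * (k : ℝ) ^ 2 / 2 ^ d + t * k / 2 ^ d) := by
          rw [Real.exp_add, pow_succ]
          ring
      _ ≤ ((2 : ℝ) ^ d) ^ (k + 1) * Real.exp (t * ((k + 1 : ℕ) : ℝ) ^ 2 / 2 ^ d) := by
          refine mul_le_mul_of_nonneg_left (Real.exp_le_exp.2 ?_) (by positivity)
          rw [← add_div]
          refine div_le_div_of_nonneg_right ?_ hpos.le
          push_cast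
          have hk : (0 : ℝ) ≤ k := Nat.cast_nonneg k
          nlinarith [mul_nonneg ht hk]

end Vale.Agent.P162.Th
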