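import Vale.Agent.P162.ThFlat

/-!
# P162, `Θ(log n)`, module [PROB]: transition probabilities of the flat pass
-/

open Finset
open scoped BigOperators

namespace Vale.Agent.P162.Th

private lemma cardOm_pos (d : ℕ) : (0 : ℝ) < (Fintype.card (Om d) : ℝ) := by
  exact_mod_cast Fintype.card_pos

/-- if the cards can go from `c` to `x` then two cards in the same switch of layer `r` are on
different sides -/
theorem proper_of_pr {d k : ℕ} (c x : Fin k → Q d) (hc : Function.Injective c)
    (h : pr c x ≠ 0) (r : Fin d) (i j : Fin k) (hij : i ≠ j) (hs : fs x c r i = fs x c r j) :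
    c i r ≠ c j r := by
  classical
  have h1 : (univ.filter (fun ω : Om d => ∀ i, upTo ω d (c i) = x i)).Nonempty := by
    rw [Finset.nonempty_iff_ne_empty]
    intro he
    refine h ?_
    unfold pr
    have h2 : (univ.filter (fun ω : Om d => ∀ i, upTo ω d (c i) = x i)).card = 0 := by
      rw [he]; rfl
    rw [div_eq_zero_iff]
    left
    exact_mod_cast h2
  obtain ⟨ω, hω⟩ := h1
  have hω' := (Finset.mem_filter.1 hω).2
  intro he
  have hx : x = fun i => upTo ω d (c i) := by
    funext i; exact (hω' i).symm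
  rw [hx, fs_up, fs_up] at hs
  have h3 : upTo ω r (c i) = upTo ω r (c j) := by
    refine eq_of_sw_eq hs ?_
    rw [upTo_ge ω r (c i) r le_rfl, upTo_ge ω r (c j) r le_rfl, he]
  exact hij (hc (upTo_inj ω r h3))

open Classical in
theorem pr_le {d k : ℕ} (c x : Fin k → Q d) (hc : Function.Injective c) :
    pr c x ≤ ∏ r : Fin d, (if (∀ i j, i ≠ j → fs x c r i = fs x c r j → c i r ≠ c j r) then
      (1 / 2 : ℝ) ^ (univ.image (fs x c r)).card else 0) := by
  by_cases h : pr c x = 0
  · rw [h]
    refine Finset.prod_nonneg fun r _ => ?_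
    split_ifs
    · positivity
    · exact le_rfl
  · have hprop : ∀ r : Fin d, ∀ i j, i ≠ j → fs x c r i = fs x c r j → c i r ≠ c j r :=
      fun r i j hij hs => proper_of_pr c x hc h r i j hij hs
    rw [Finset.prod_congr rfl fun r _ => if_pos (hprop r), Finset.prod_pow_eq_pow_sum]
    set S : Finset (Fin d × Q d) := univ.biUnion (fun r => univ.image (fs x c r)) with hS
    have hScard : S.card = ∑ r : Fin d, (univ.image (fs x c r)).card := by
      rw [hS]
      refine Finset.card_biUnion ?_
      intro r _ s _ hrs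
      simp only [Function.onFun]
      rw [Finset.disjoint_left]
      intro v hv hv'
      obtain ⟨i, _, hi⟩ := Finset.mem_image.1 hv
      obtain ⟨j, _, hj⟩ := Finset.mem_image.1 hv'
      have e1 : v.1 = r := by rw [← hi]; rfl
      have e2 : v.1 = s := by rw [← hj]; rfl
      exact hrs (e1.symm.trans e2)
    rw [← hScard]
    have hcount : (univ.filter (fun ω : Om d => ∀ i, upTo ω d (c i) = x i)).card ≤
        2 ^ (Sᶜ).card := by
      have e1 : 2 ^ (Sᶜ).card = (univ : Finset ({v // v ∈ Sᶜ} → Bool)).card := by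
        rw [Finset.card_univ, Fintype.card_fun, Fintype.card_bool, Fintype.card_coe]
      rw [e1]
      refine Finset.card_le_card_of_injOn (fun ω v => ω v.1) (fun _ _ => by simp) ?_
      intro ω hω η hη he
      have hω' := (Finset.mem_filter.1 (Finset.mem_coe.1 hω)).2
      have hη' := (Finset.mem_filter.1 (Finset.mem_coe.1 hη)).2
      funext v
      by_cases hv : v ∈ S
      · obtain ⟨r, _, hr⟩ := Finset.mem_biUnion.1 hv
        obtain ⟨i, _, hi⟩ := Finset.mem_image.1 hr
        have h1 := (route ω (c i) (x i)).1 (hω' i) r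
        have h2 := (route η (c i) (x i)).1 (hη' i) r
        rw [← hi]
        unfold fs
        rw [h1, h2]
      · exact congrFun he ⟨v, by simpa using hv⟩
    have hcardOm : Fintype.card (Om d) = 2 ^ (S.card + (Sᶜ).card) := by
      rw [Finset.card_add_card_compl]
      simp [Om]
    unfold pr
    rw [hcardOm, div_le_iff₀ (by positivity)]
    calc ((univ.filter (fun ω : Om d => ∀ i, upTo ω d (c i) = x i)).card : ℝ)
        ≤ ((2 ^ (Sᶜ).card : ℕ) : ℝ) := by exact_mod_cast hcount
      _ = (1 / 2 : ℝ) ^ S.card * ((2 ^ (S.card + (Sᶜ).card) : ℕ) : ℝ) := by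
          push_cast
          rw [pow_add, ← mul_assoc, ← mul_pow]
          norm_num

/-- expectation of a function of the end positions -/
theorem pr_expect {d k : ℕ} (c : Fin k ↪ Q d) (F : (Fin k → Q d) → ℝ) :
    ∑ y : Fin k ↪ Q d, pr (c : Fin k → Q d) y * F y =
      (Fintype.card (Om d) : ℝ)⁻¹ * ∑ ω : Om d, F (fun i => upTo ω d (c i)) := by
  classical
  have h1 : ∀ y : Fin k ↪ Q d, pr (c : Fin k → Q d) y * F y =
      (Fintype.card (Om d) : ℝ)⁻¹ *
        ∑ ω : Om d, (if (∀ i, upTo ω d (c i) = y i) then F y else 0) := by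
    intro y
    unfold pr
    rw [← Finset.sum_filter, Finset.sum_const, nsmul_eq_mul, div_eq_inv_mul, mul_assoc]
  rw [Finset.sum_congr rfl fun y _ => h1 y, ← Finset.mul_sum, Finset.sum_comm]
  congr 1
  refine Finset.sum_congr rfl fun ω _ => ?_
  have hinj : Function.Injective (fun i => upTo ω d (c i)) :=
    fun a b h => c.injective (upTo_inj ω d h)
  rw [Finset.sum_eq_single (⟨fun i => upTo ω d (c i), hinj⟩ : Fin k ↪ Q d)]
  · rw [if_pos]
    · rfl
    · intro i; rfl
  · intro y _ hy
    rw [if_neg]
    intro h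
    refine hy ?_
    ext1 i
    exact (h i).symm
  · intro h
    exact absurd (Finset.mem_univ _) h

theorem pr_sum_right {d k : ℕ} (c : Fin k ↪ Q d) :
    ∑ y : Fin k ↪ Q d, pr (c : Fin k → Q d) y = 1 := by
  have h := pr_expect c (fun _ => 1)
  simp only [mul_one, Finset.sum_const, nsmul_eq_mul, Finset.card_univ] at h
  rw [h, inv_mul_cancel₀ (cardOm_pos d).ne']

theorem pr_sum_left {d k : ℕ} (x : Fin k ↪ Q d) :
    ∑ c : Fin k ↪ Q d, pr (c : Fin k → Q d) x = 1 := by
  classical
  have h1 : ∀ c : Fin k ↪ Q d, pr (c : Fin k → Q d) x =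
      (Fintype.card (Om d) : ℝ)⁻¹ *
        ∑ ω : Om d, (if (∀ i, upTo ω d (c i) = x i) then (1 : ℝ) else 0) := by
    intro c
    unfold pr
    rw [← Finset.sum_filter, Finset.sum_const, nsmul_eq_mul, mul_one, div_eq_inv_mul]
  rw [Finset.sum_congr rfl fun c _ => h1 c, ← Finset.mul_sum, Finset.sum_comm]
  have h2 : ∀ ω : Om d, ∑ c : Fin k ↪ Q d,
      (if (∀ i, upTo ω d (c i) = x i) then (1 : ℝ) else 0) = 1 := by
    intro ω
    rw [Finset.sum_eq_single (x.trans (upP ω).symm.toEmbedding)]
    · rw [if_pos]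
      intro i
      rw [← upP_apply]
      simp
    · intro c _ hc
      rw [if_neg]
      intro h
      refine hc ?_
      ext1 i
      simp only [Function.Embedding.trans_apply, Equiv.coe_toEmbedding]
      rw [Equiv.eq_symm_apply, upP_apply]
      exact h i
    · intro h
      exact absurd (Finset.mem_univ _) h
  rw [Finset.sum_congr rfl fun ω _ => h2 ω, Finset.sum_const, nsmul_eq_mul, mul_one,
    Finset.card_univ, inv_mul_cancel₀ (cardOm_pos d).ne']

end Vale.Agent.P162.Th
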