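import Mathlib

/-!
# P162, `Θ(log n)`: [WALK] closed walks and AM-GM
-/

open Finset
open scoped BigOperators

namespace Vale.Agent.P162.Th

namespace WalkAux

variable {α : Type} [Fintype α] [DecidableEq α]

/-- `M 0 * M 1 * ⋯ * M (n-1)` -/
def wp : (ℕ → Matrix α α ℝ) → ℕ → Matrix α α ℝ
  | _, 0 => 1
  | M, n + 1 => M 0 * wp (fun i => M (i + 1)) n

lemma wp_apply (n : ℕ) : ∀ (M : ℕ → Matrix α α ℝ) (x y : α),
    wp M n x y = ∑ z : Fin (n + 1) → α, if z 0 = x ∧ z (Fin.last n) = y then
      ∏ i : Fin n, M i (z i.castSucc) (z i.succ) else 0 := by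
  induction n with
  | zero =>
    intro M x y
    rw [wp, Matrix.one_apply,
      ← (Equiv.funUnique (Fin 1) α).symm.sum_comp (fun z : Fin 1 → α =>
        if z 0 = x ∧ z (Fin.last 0) = y then ∏ i : Fin 0, M i (z i.castSucc) (z i.succ) else 0)]
    simp only [univ_eq_empty, prod_empty]
    have : ∀ a : α, (Equiv.funUnique (Fin 1) α).symm a 0 = a := fun a => rfl
    have h2 : ∀ a : α, (Equiv.funUnique (Fin 1) α).symm a (Fin.last 0) = a := fun a => rfl
    simp only [this, h2]
    by_cases h : x = y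
    · subst h
      simp
    · rw [if_neg h]
      symm
      refine Finset.sum_eq_zero fun a _ => ?_
      rw [if_neg]
      rintro ⟨rfl, rfl⟩
      exact h rfl
  | succ n ih =>
    intro M x y
    rw [wp, Matrix.mul_apply]
    simp only [ih]
    rw [← (Fin.consEquiv (fun _ => α)).sum_comp, Fintype.sum_prod_type]
    have hx : ∀ x0 : α, ∑ z : Fin (n + 1) → α,
        (if (Fin.consEquiv (fun _ => α)) (x0, z) 0 = x ∧
          (Fin.consEquiv (fun _ => α)) (x0, z) (Fin.last (n + 1)) = y then
          ∏ i : Fin (n + 1), M i ((Fin.consEquiv (fun _ => α)) (x0, z) i.castSucc)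
            ((Fin.consEquiv (fun _ => α)) (x0, z) i.succ) else 0) =
        if x0 = x then ∑ z : Fin (n + 1) → α, (if z (Fin.last n) = y then
          M 0 x (z 0) * ∏ i : Fin n, M (i + 1) (z i.castSucc) (z i.succ) else 0) else 0 := by
      intro x0
      by_cases hx0 : x0 = x
      · subst hx0
        rw [if_pos rfl]
        refine Finset.sum_congr rfl fun z _ => ?_
        have e1 : (Fin.consEquiv (fun _ => α)) (x0, z) 0 = x0 := rfl
        have e2 : ∀ i : Fin (n + 1), (Fin.consEquiv (fun _ => α)) (x0, z) i.succ = z i :=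
          fun i => rfl
        have e3 : (Fin.consEquiv (fun _ => α)) (x0, z) (Fin.last (n + 1)) = z (Fin.last n) := rfl
        rw [e1, e3, Fin.prod_univ_succ]
        simp only [true_and, e2]
        congr 1
      · rw [if_neg hx0]
        refine Finset.sum_eq_zero fun z _ => ?_
        rw [if_neg]
        rintro ⟨h, -⟩
        exact hx0 h
    rw [Finset.sum_congr rfl fun x0 _ => hx x0, Finset.sum_ite_eq' univ x, if_pos (mem_univ _)]
    simp only [Finset.mul_sum]
    rw [Finset.sum_comm]
    refine Finset.sum_congr rfl fun z _ => ?_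
    rw [Finset.sum_eq_single (z 0)]
    · by_cases h : z (Fin.last n) = y
      · simp [h]
      · simp [h]
    · intro b _ hb
      rw [if_neg (fun h => hb h.1.symm), mul_zero]
    · intro h
      exact absurd (mem_univ _) h

lemma wp_trace (M : ℕ → Matrix α α ℝ) (n : ℕ) :
    (wp M n).trace = ∑ z : Fin (n + 1) → α, if z 0 = z (Fin.last n) then
      ∏ i : Fin n, M i (z i.castSucc) (z i.succ) else 0 := by
  unfold Matrix.trace
  simp only [Matrix.diag_apply, wp_apply]
  rw [Finset.sum_comm]
  refine Finset.sum_congr rfl fun z _ => ?_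
  rw [Finset.sum_eq_single (z 0)]
  · by_cases h : z 0 = z (Fin.last n)
    · rw [if_pos ⟨rfl, h.symm⟩, if_pos h]
    · rw [if_neg (fun e => h e.2.symm), if_neg h]
  · intro b _ hb
    rw [if_neg (fun h => hb h.1.symm)]
  · intro h
    exact absurd (mem_univ _) h

lemma wp_const (K : Matrix α α ℝ) (n : ℕ) : wp (fun _ => K) n = K ^ n := by
  induction n with
  | zero => simp [wp]
  | succ n ih => rw [wp, ih, pow_succ']

lemma wp_one (J L : Matrix α α ℝ) : ∀ (n i : ℕ), i < n →
    wp (fun j => if j = i then J else L) n = L ^ i * J * L ^ (n - 1 - i) := by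
  intro n
  induction n with
  | zero => intro i h; omega
  | succ n ih =>
    intro i h
    rw [wp]
    cases i with
    | zero =>
      simp only [if_true, Nat.add_eq_zero_iff, one_ne_zero, and_false, if_false, wp_const,
        pow_zero, one_mul]
      simp
    | succ i =>
      have e : (fun j => if j + 1 = i + 1 then J else L) = (fun j => if j = i then J else L) := by
        funext j
        simp
      rw [if_neg (by omega), e, ih i (by omega), pow_succ' L i,
        show n + 1 - 1 - (i + 1) = n - 1 - i by omega]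
      simp only [mul_assoc]

lemma amgm (q : ℕ) (hq : 2 ≤ q) (k : Fin q → ℝ) (hk : ∀ i, 0 ≤ k i) :
    ∏ i, k i ≤ (q : ℝ)⁻¹ * ∑ i : Fin q, ∏ j : Fin q,
      (if (j : ℕ) = (i : ℕ) then 1 else (k j) ^ ((q : ℝ) / ((q : ℝ) - 1))) := by
  have hq0 : (0 : ℝ) < q := by exact_mod_cast (by omega : 0 < q)
  have hq1 : (0 : ℝ) < (q : ℝ) - 1 := by
    have : (2 : ℝ) ≤ q := by exact_mod_cast hq
    linarith
  set z : Fin q → ℝ := fun i => ∏ j : Fin q,
      (if (j : ℕ) = (i : ℕ) then 1 else (k j) ^ ((q : ℝ) / ((q : ℝ) - 1))) with hz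
  have hz0 : ∀ i, 0 ≤ z i := by
    intro i
    refine Finset.prod_nonneg fun j _ => ?_
    split_ifs
    · exact zero_le_one
    · exact Real.rpow_nonneg (hk j) _
  have h1 := Real.geom_mean_le_arith_mean_weighted univ (fun _ : Fin q => (q : ℝ)⁻¹) z
    (fun i _ => by positivity) (by
      rw [Finset.sum_const, Finset.card_univ, Fintype.card_fin, nsmul_eq_mul]
      exact mul_inv_cancel₀ hq0.ne') (fun i _ => hz0 i)
  rw [← Finset.mul_sum] at h1
  refine le_trans (le_of_eq ?_) h1
  have h2 : ∀ i, z i ^ ((q : ℝ)⁻¹) = ∏ j : Fin q,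
      (if (j : ℕ) = (i : ℕ) then 1 else (k j) ^ (((q : ℝ) - 1)⁻¹)) := by
    intro i
    rw [hz]
    simp only
    rw [← Real.finsetProd_rpow _ _ (fun j _ => by
      split_ifs
      · exact zero_le_one
      · exact Real.rpow_nonneg (hk j) _)]
    refine Finset.prod_congr rfl fun j _ => ?_
    split_ifs
    · exact Real.one_rpow _
    · rw [← Real.rpow_mul (hk j)]
      congr 1
      field_simp
  simp only [h2]
  rw [Finset.prod_comm]
  refine Finset.prod_congr rfl fun j _ => ?_
  rw [Finset.prod_ite, Finset.prod_const_one, one_mul, Finset.prod_const]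
  have hcard : (univ.filter (fun i : Fin q => ¬ ((j : ℕ) = (i : ℕ)))).card = q - 1 := by
    have : univ.filter (fun i : Fin q => ¬ ((j : ℕ) = (i : ℕ))) = univ.erase j := by
      ext i
      simp only [mem_filter, mem_univ, true_and, mem_erase, and_true]
      constructor
      · intro h e
        exact h (by rw [e])
      · intro h e
        exact h (Fin.ext e.symm)
    rw [this, Finset.card_erase_of_mem (mem_univ _), Finset.card_univ, Fintype.card_fin]
  rw [hcard, ← Real.rpow_natCast, ← Real.rpow_mul (hk j)]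
  have : ((q : ℝ) - 1)⁻¹ * ((q - 1 : ℕ) : ℝ) = 1 := by
    rw [Nat.cast_sub (by omega)]
    push_cast
    exact inv_mul_cancel₀ hq1.ne'
  rw [this, Real.rpow_one]

end WalkAux

open WalkAux in
theorem closed_walk {α : Type} [Fintype α] [DecidableEq α] (K : Matrix α α ℝ)
    (h0 : ∀ x y, 0 ≤ K x y) (q : ℕ) (hq : 2 ≤ q) :
    (K ^ q).trace ≤
      ∑ x, ∑ y, ((Matrix.of fun x y => (K x y) ^ ((q : ℝ) / ((q : ℝ) - 1))) ^ (q - 1)) x y := by
  have hq0 : (0 : ℝ) < q := by exact_mod_cast (by omega : 0 < q)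
  set L : Matrix α α ℝ := Matrix.of fun x y => (K x y) ^ ((q : ℝ) / ((q : ℝ) - 1)) with hL
  set J : Matrix α α ℝ := Matrix.of fun _ _ => (1 : ℝ) with hJ
  have hJtr : ∀ A : Matrix α α ℝ, (J * A).trace = ∑ x, ∑ y, A x y := by
    intro A
    unfold Matrix.trace
    simp only [Matrix.diag_apply, Matrix.mul_apply, hJ, Matrix.of_apply, one_mul]
    rw [Finset.sum_comm]
  have h1 : ∀ i : Fin q, (wp (fun j => if j = (i : ℕ) then J else L) q).trace =
      ∑ x, ∑ y, (L ^ (q - 1)) x y := by
    intro i
    rw [wp_one J L q i i.2, mul_assoc, Matrix.trace_mul_comm, mul_assoc, hJtr, ← pow_add,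
      show q - 1 - (i : ℕ) + i = q - 1 by have := i.2; omega]
  have h2 : (q : ℝ)⁻¹ * ∑ i : Fin q, (wp (fun j => if j = (i : ℕ) then J else L) q).trace =
      ∑ x, ∑ y, (L ^ (q - 1)) x y := by
    rw [Finset.sum_congr rfl fun i _ => h1 i, Finset.sum_const, Finset.card_univ,
      Fintype.card_fin, nsmul_eq_mul, ← mul_assoc, inv_mul_cancel₀ hq0.ne', one_mul]
  rw [← h2, ← wp_const, wp_trace]
  simp only [wp_trace]
  rw [Finset.sum_comm, Finset.mul_sum]
  refine Finset.sum_le_sum fun z _ => ?_
  by_cases hz : z 0 = z (Fin.last q)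
  · simp only [if_pos hz]
    refine (amgm q hq (fun i => K (z i.castSucc) (z i.succ)) (fun i => h0 _ _)).trans
      (le_of_eq ?_)
    congr 1
    refine Finset.sum_congr rfl fun i _ => Finset.prod_congr rfl fun j _ => ?_
    split_ifs
    · rfl
    · rfl
  · simp only [if_neg hz, Finset.sum_const_zero, mul_zero, le_refl]

end Vale.Agent.P162.Th
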