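import Vale.Agent.P162.ThML
import Vale.Agent.P162.ThWalk
import Vale.Agent.P162.ThProb
import Vale.Agent.P162.ThPair
import Vale.Agent.P162.ThJensen

/-!
# P162, `Θ(log n)` [STAR]: the trace bound
-/

open Finset
open scoped BigOperators

namespace Vale.Agent.P162.Th

namespace StarAux

open WalkAux

lemma half_le {l a b : ℝ} (ha : 0 ≤ a) (hb : 0 ≤ b) (h : l ^ 2 ≤ a * b) :
    l ≤ 1 / 2 * (a + b) := by
  by_contra hc
  push Not at hc
  nlinarith [sq_nonneg (a - b)]

section mat

variable {α : Type} [Fintype α] [DecidableEq α]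

/-- entrywise Cauchy-Schwarz for powers -/
lemma pow_sq_le (L A B : Matrix α α ℝ) (hL : ∀ x y, 0 ≤ L x y) (hA : ∀ x y, 0 ≤ A x y)
    (hB : ∀ x y, 0 ≤ B x y) (h : ∀ x y, L x y ^ 2 ≤ A x y * B x y) (m : ℕ) :
    (∀ x y, 0 ≤ (L ^ m) x y) ∧ (∀ x y, 0 ≤ (A ^ m) x y) ∧ (∀ x y, 0 ≤ (B ^ m) x y) ∧
      ∀ x y, (L ^ m) x y ^ 2 ≤ (A ^ m) x y * (B ^ m) x y := by
  have hone : ∀ x y : α, (0 : ℝ) ≤ (1 : Matrix α α ℝ) x y := fun x y => by
    rw [Matrix.one_apply]; split_ifs <;> norm_num
  have hnn : ∀ (M : Matrix α α ℝ), (∀ x y, 0 ≤ M x y) → ∀ m x y, 0 ≤ (M ^ m) x y := by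
    intro M hM m
    induction m with
    | zero => simpa using hone
    | succ m ih =>
      intro x y
      rw [pow_succ, Matrix.mul_apply]
      exact Finset.sum_nonneg fun z _ => mul_nonneg (ih x z) (hM z y)
  refine ⟨hnn L hL m, hnn A hA m, hnn B hB m, ?_⟩
  induction m with
  | zero =>
    intro x y
    simp only [pow_zero, Matrix.one_apply]
    split_ifs <;> norm_num
  | succ m ih =>
    intro x y
    have e1 : (L ^ (m + 1)) x y = ∑ z, (L ^ m) x z * L z y := by rw [pow_succ, Matrix.mul_apply]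
    have e2 : (A ^ (m + 1)) x y = ∑ z, (A ^ m) x z * A z y := by rw [pow_succ, Matrix.mul_apply]
    have e3 : (B ^ (m + 1)) x y = ∑ z, (B ^ m) x z * B z y := by rw [pow_succ, Matrix.mul_apply]
    rw [e1, e2, e3]
    refine Finset.sum_sq_le_sum_mul_sum_of_sq_le_mul univ (fun z _ => ?_) (fun z _ => ?_)
      (fun z _ => ?_)
    · exact mul_nonneg (hnn A hA m x z) (hA z y)
    · exact mul_nonneg (hnn B hB m x z) (hB z y)
    · rw [mul_pow]
      calc (L ^ m) x z ^ 2 * L z y ^ 2 ≤ ((A ^ m) x z * (B ^ m) x z) * (A z y * B z y) :=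
            mul_le_mul (ih x z) (h z y) (sq_nonneg _)
              (mul_nonneg (hnn A hA m x z) (hnn B hB m x z))
        _ = _ := by ring

/-- entrywise monotonicity of powers -/
lemma pow_mono (L M : Matrix α α ℝ) (hL : ∀ x y, 0 ≤ L x y) (h : ∀ x y, L x y ≤ M x y) (m : ℕ) :
    (∀ x y, 0 ≤ (L ^ m) x y) ∧ ∀ x y, (L ^ m) x y ≤ (M ^ m) x y := by
  induction m with
  | zero =>
    refine ⟨fun x y => ?_, fun x y => by simp⟩
    rw [pow_zero, Matrix.one_apply]; split_ifs <;> norm_num
  | succ m ih =>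
    refine ⟨fun x y => ?_, fun x y => ?_⟩
    · rw [pow_succ, Matrix.mul_apply]
      exact Finset.sum_nonneg fun z _ => mul_nonneg (ih.1 x z) (hL z y)
    · rw [pow_succ, pow_succ, Matrix.mul_apply, Matrix.mul_apply]
      exact Finset.sum_le_sum fun z _ => mul_le_mul (ih.2 x z) (h z y) (hL z y)
        ((ih.1 x z).trans (ih.2 x z))

/-- powers of a matrix with row sums `≤ 1` -/
lemma pow_row_le (A : Matrix α α ℝ) (hA : ∀ x y, 0 ≤ A x y) (h : ∀ x, ∑ y, A x y ≤ 1) (m : ℕ) :
    (∀ x y, 0 ≤ (A ^ m) x y) ∧ ∀ x, ∑ y, (A ^ m) x y ≤ 1 := by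
  induction m with
  | zero =>
    refine ⟨fun x y => ?_, fun x => ?_⟩
    · rw [pow_zero, Matrix.one_apply]; split_ifs <;> norm_num
    · simp [Matrix.one_apply]
  | succ m ih =>
    refine ⟨fun x y => ?_, fun x => ?_⟩
    · rw [pow_succ, Matrix.mul_apply]
      exact Finset.sum_nonneg fun z _ => mul_nonneg (ih.1 x z) (hA z y)
    · simp_rw [pow_succ, Matrix.mul_apply]
      rw [Finset.sum_comm]
      calc ∑ z, ∑ y, (A ^ m) x z * A z y = ∑ z, (A ^ m) x z * ∑ y, A z y := by
            simp_rw [Finset.mul_sum]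
        _ ≤ ∑ z, (A ^ m) x z * 1 :=
            Finset.sum_le_sum fun z _ => mul_le_mul_of_nonneg_left (h z) (ih.1 x z)
        _ ≤ 1 := by simpa using ih.2 x

/-- `wp` of a concatenation -/
lemma wp_add (a b : ℕ) : ∀ M : ℕ → Matrix α α ℝ,
    wp M (a + b) = wp M a * wp (fun i => M (i + a)) b := by
  induction a with
  | zero => intro M; simp [wp]
  | succ a ih =>
    intro M
    rw [Nat.succ_add, wp, wp, ih (fun i => M (i + 1)), Matrix.mul_assoc]
    congr 2

lemma wp_congr {M M' : ℕ → Matrix α α ℝ} (n : ℕ) (h : ∀ i < n, M i = M' i) :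
    wp M n = wp M' n := by
  induction n generalizing M M' with
  | zero => rfl
  | succ n ih => rw [wp, wp, h 0 (by omega), ih (fun i hi => h (i + 1) (by omega))]

lemma wp_row (n : ℕ) : ∀ M : ℕ → Matrix α α ℝ, (∀ i x, ∑ y, M i x y = 1) →
    ∀ x, ∑ y, wp M n x y = 1 := by
  induction n with
  | zero => intro M _ x; simp [wp, Matrix.one_apply]
  | succ n ih =>
    intro M h x
    simp_rw [wp, Matrix.mul_apply]
    rw [Finset.sum_comm]
    simp_rw [← Finset.mul_sum]
    rw [Finset.sum_congr rfl fun z _ => by rw [ih (fun i => M (i + 1)) (fun i => h (i + 1)) z]]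
    simpa using h 0 x

lemma wp_col (n : ℕ) : ∀ M : ℕ → Matrix α α ℝ, (∀ i y, ∑ x, M i x y = 1) →
    ∀ y, ∑ x, wp M n x y = 1 := by
  induction n with
  | zero => intro M _ y; simp [wp, Matrix.one_apply]
  | succ n ih =>
    intro M h y
    simp_rw [wp, Matrix.mul_apply]
    rw [Finset.sum_comm]
    simp_rw [← Finset.sum_mul]
    rw [Finset.sum_congr rfl fun z _ => by rw [h 0 z]]
    simpa using ih (fun i => M (i + 1)) (fun i => h (i + 1)) y

/-- changing one factor of a product of doubly stochastic matrices -/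
lemma wp_update (M : ℕ → Matrix α α ℝ) (hr : ∀ i x, ∑ y, M i x y = 1)
    (hcol : ∀ i y, ∑ x, M i x y = 1) (J : Matrix α α ℝ) (n i : ℕ) (hi : i < n) :
    ∑ x, ∑ y, wp (fun j => if j = i then J else M j) n x y = ∑ x, ∑ y, J x y := by
  obtain ⟨b, rfl⟩ : ∃ b, n = i + (1 + b) := ⟨n - i - 1, by omega⟩
  rw [wp_add, wp_add]
  have e1 : wp (fun j => if j = i then J else M j) i = wp M i :=
    wp_congr i fun j hj => by rw [if_neg (by omega)]
  have e2 : wp (fun j => if j + i = i then J else M (j + i)) 1 = J := by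
    simp [wp]
  have e3 : wp (fun j => if j + 1 + i = i then J else M (j + 1 + i)) b =
      wp (fun j => M (j + 1 + i)) b := wp_congr b fun j hj => by rw [if_neg (by omega)]
  rw [e1, e2, e3]
  simp_rw [Matrix.mul_apply]
  have h3 := wp_row b (fun j => M (j + 1 + i)) (fun j => hr _)
  have h1 := wp_col i M hcol
  calc ∑ x, ∑ y, ∑ z, wp M i x z * ∑ w, J z w * wp (fun j => M (j + 1 + i)) b w y
      = ∑ x, ∑ z, wp M i x z * ∑ w, J z w := by
        apply Finset.sum_congr rfl
        intro x _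
        rw [Finset.sum_comm]
        apply Finset.sum_congr rfl
        intro z _
        rw [← Finset.mul_sum, Finset.sum_comm]
        congr 1
        apply Finset.sum_congr rfl
        intro w _
        rw [← Finset.mul_sum, h3 w, mul_one]
    _ = ∑ z, ∑ w, J z w := by
        rw [Finset.sum_comm]
        apply Finset.sum_congr rfl
        intro z _
        rw [← Finset.sum_mul, h1 z, one_mul]

lemma sum_wp (M : ℕ → Matrix α α ℝ) (n : ℕ) :
    ∑ x, ∑ y, wp M n x y = ∑ z : Fin (n + 1) → α, ∏ i : Fin n, M i (z i.castSucc) (z i.succ) := by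
  simp_rw [wp_apply]
  calc _ = ∑ x, ∑ z : Fin (n + 1) → α, ∑ y, (if z 0 = x ∧ z (Fin.last n) = y then
      ∏ i : Fin n, M i (z i.castSucc) (z i.succ) else 0) := by
        apply Finset.sum_congr rfl; intro x _; rw [Finset.sum_comm]
    _ = ∑ z : Fin (n + 1) → α, ∑ x, ∑ y, (if z 0 = x ∧ z (Fin.last n) = y then
      ∏ i : Fin n, M i (z i.castSucc) (z i.succ) else 0) := by rw [Finset.sum_comm]
    _ = _ := by
        apply Finset.sum_congr rfl
        intro z _
        rw [Finset.sum_eq_single (z 0)]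
        · rw [Finset.sum_eq_single (z (Fin.last n))]
          · simp
          · intro b _ hb; rw [if_neg (fun h => hb h.2.symm)]
          · intro h; exact absurd (mem_univ _) h
        · intro b _ hb
          apply Finset.sum_eq_zero
          intro y _
          rw [if_neg (fun h => hb h.1.symm)]
        · intro h; exact absurd (mem_univ _) h

/-- alternating products -/
lemma wp_alt (A B : Matrix α α ℝ) (m : ℕ) :
    wp (fun i => if i % 2 = 0 then A else B) (2 * m) = (A * B) ^ m := by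
  induction m with
  | zero => simp [wp]
  | succ m ih =>
    have : 2 * (m + 1) = 2 + 2 * m := by ring
    rw [this, wp_add, pow_succ']
    congr 1
    · simp [wp]
    · rw [← ih]
      apply wp_congr
      intro i _
      simp

/-- AM-GM along a path -/
lemma path_amgm (P P' : Matrix α α ℝ) (hP : ∀ x y, 0 ≤ P x y) (hP' : ∀ x y, 0 ≤ P' x y)
    (h1 : ∀ x, ∑ y, P x y = 1) (h2 : ∀ y, ∑ x, P x y = 1) (h3 : ∀ x, ∑ y, P' x y = 1)
    (h4 : ∀ y, ∑ x, P' x y = 1) (Y : α → α → ℝ) (m : ℕ) (hm : 1 ≤ m) :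
    ∑ x, ∑ y, ((Matrix.of (fun x c => P x c * Real.exp (Y x c)) * P') ^ m) x y ≤
      ∑ x, ∑ c, P x c * Real.exp (m * Y x c) := by
  set M0 : ℕ → Matrix α α ℝ := fun i => if i % 2 = 0 then P else P' with hM0
  set J : Matrix α α ℝ := Matrix.of (fun x c => P x c * Real.exp (m * Y x c)) with hJ
  have hr : ∀ i x, ∑ y, M0 i x y = 1 := by
    intro i x; simp only [hM0]; split_ifs
    · exact h1 x
    · exact h3 x
  have hcol : ∀ i y, ∑ x, M0 i x y = 1 := by
    intro i x; simp only [hM0]; split_ifs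
    · exact h2 x
    · exact h4 x
  have hM0n : ∀ i x y, 0 ≤ M0 i x y := by
    intro i x y; simp only [hM0]; split_ifs
    · exact hP x y
    · exact hP' x y
  have hm0 : (0 : ℝ) < m := by exact_mod_cast hm
  have hcount : ∑ i : Fin (2 * m), (if (i : ℕ) % 2 = 0 then ((m : ℝ))⁻¹ else 0) = 1 := by
    rw [Finset.sum_ite, Finset.sum_const_zero, add_zero, Finset.sum_const, nsmul_eq_mul]
    have : (univ.filter (fun i : Fin (2 * m) => (i : ℕ) % 2 = 0)).card = m := by
      have h : (univ : Finset (Fin m)).card =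
          (univ.filter (fun i : Fin (2 * m) => (i : ℕ) % 2 = 0)).card := by
        refine Finset.card_bij
          (fun (j : Fin m) _ => (⟨2 * (j : ℕ), by have := j.2; omega⟩ : Fin (2 * m))) ?_ ?_ ?_
        · intro j _
          rw [mem_filter]
          exact ⟨mem_univ _, by show (2 * (j : ℕ)) % 2 = 0; omega⟩
        · intro a _ b _ hab
          have h5 : 2 * (a : ℕ) = 2 * (b : ℕ) := congrArg Fin.val hab
          exact Fin.ext (by omega)
        · intro i hi
          rw [mem_filter] at hi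
          have h6 := hi.2
          refine ⟨⟨(i : ℕ) / 2, by have := i.2; omega⟩, mem_univ _, Fin.ext ?_⟩
          show 2 * ((i : ℕ) / 2) = i
          omega
      rw [← h, Finset.card_univ, Fintype.card_fin]
    rw [this]
    exact mul_inv_cancel₀ hm0.ne'
  rw [← wp_alt, sum_wp]
  calc ∑ z : Fin (2 * m + 1) → α, ∏ i : Fin (2 * m),
        (if (i : ℕ) % 2 = 0 then Matrix.of (fun x c => P x c * Real.exp (Y x c)) else P')
          (z i.castSucc) (z i.succ)
      ≤ ∑ z : Fin (2 * m + 1) → α, ∑ l : Fin (2 * m),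
          (if (l : ℕ) % 2 = 0 then ((m : ℝ))⁻¹ else 0) *
          ∏ i : Fin (2 * m), (if (i : ℕ) = l then J else M0 i) (z i.castSucc) (z i.succ) := by
        apply Finset.sum_le_sum
        intro z _
        set yy : Fin (2 * m) → ℝ := fun i => Y (z i.castSucc) (z i.succ) with hyy
        have e1 : ∏ i : Fin (2 * m),
            (if (i : ℕ) % 2 = 0 then Matrix.of (fun x c => P x c * Real.exp (Y x c)) else P')
              (z i.castSucc) (z i.succ) = (∏ i : Fin (2 * m), M0 i (z i.castSucc) (z i.succ)) *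
            Real.exp (∑ i : Fin (2 * m), (if (i : ℕ) % 2 = 0 then ((m : ℝ))⁻¹ else 0) *
              (m * yy i)) := by
          rw [Real.exp_sum, ← Finset.prod_mul_distrib]
          apply Finset.prod_congr rfl
          intro i _
          simp only [hM0]
          split_ifs with hi
          · rw [Matrix.of_apply, ← mul_assoc, inv_mul_cancel₀ hm0.ne', one_mul]
          · simp
        have e2 : ∀ l : Fin (2 * m), (if (l : ℕ) % 2 = 0 then ((m : ℝ))⁻¹ else 0) *
            ∏ i : Fin (2 * m), (if (i : ℕ) = l then J else M0 i) (z i.castSucc) (z i.succ) =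
            (∏ i : Fin (2 * m), M0 i (z i.castSucc) (z i.succ)) *
              ((if (l : ℕ) % 2 = 0 then ((m : ℝ))⁻¹ else 0) * Real.exp (m * yy l)) := by
          intro l
          split_ifs with hl
          · have : ∏ i : Fin (2 * m), (if (i : ℕ) = l then J else M0 i) (z i.castSucc) (z i.succ) =
                (∏ i : Fin (2 * m), M0 i (z i.castSucc) (z i.succ)) * Real.exp (m * yy l) := by
              rw [← Finset.mul_prod_erase univ _ (mem_univ l),
                ← Finset.mul_prod_erase univ (fun i : Fin (2 * m) =>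
                  M0 i (z i.castSucc) (z i.succ)) (mem_univ l)]
              have h5 : ∏ i ∈ univ.erase l,
                  (if (i : ℕ) = l then J else M0 i) (z i.castSucc) (z i.succ) =
                  ∏ i ∈ univ.erase l, M0 i (z i.castSucc) (z i.succ) := by
                apply Finset.prod_congr rfl
                intro i hi
                rw [if_neg (fun h => (Finset.ne_of_mem_erase hi) (Fin.ext h))]
              rw [h5, if_pos rfl]
              have h6 : M0 l (z l.castSucc) (z l.succ) = P (z l.castSucc) (z l.succ) := by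
                simp only [hM0]; rw [if_pos hl]
              rw [h6, hJ, Matrix.of_apply]
              ring
            rw [this]; ring
          · ring
        rw [e1, Finset.sum_congr rfl fun l _ => e2 l, ← Finset.mul_sum]
        apply mul_le_mul_of_nonneg_left _ (Finset.prod_nonneg fun i _ => hM0n _ _ _)
        have h7 := convexOn_exp.map_sum_le (t := (univ : Finset (Fin (2 * m))))
          (w := fun i => if (i : ℕ) % 2 = 0 then ((m : ℝ))⁻¹ else 0) (p := fun i => m * yy i)
          (fun i _ => by split_ifs <;> positivity) hcount (fun i _ => Set.mem_univ _)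
        simpa only [smul_eq_mul] using h7
    _ = ∑ l : Fin (2 * m), (if (l : ℕ) % 2 = 0 then ((m : ℝ))⁻¹ else 0) * ∑ x, ∑ c, J x c := by
        rw [Finset.sum_comm]
        apply Finset.sum_congr rfl
        intro l _
        rw [← Finset.mul_sum, ← wp_update M0 hr hcol J (2 * m) l l.2, sum_wp]
    _ = _ := by rw [← Finset.sum_mul, hcount, one_mul]; rfl

end mat

section cards

variable {d k : ℕ}

/-- the weighted number of pairs -/
noncomputable def YY (wt : Fin d → ℝ) (x c : Fin k ↪ Q d) : ℝ :=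
  ∑ r, wt r * (pp (x : Fin k → Q d) c r : ℝ)

/-- the layers `< r` as a permutation of the injective tuples -/
noncomputable def trans (ω : Om d) (r : ℕ) : (Fin k ↪ Q d) ≃ (Fin k ↪ Q d) :=
  Equiv.embeddingCongr (Equiv.refl _) (upPr ω r)

lemma trans_apply (ω : Om d) (r : ℕ) (c : Fin k ↪ Q d) (i : Fin k) :
    trans ω r c i = upTo ω r (c i) := rfl

lemma card_emb : (Fintype.card (Fin k ↪ Q d) : ℝ) ≤ ((2 : ℝ) ^ d) ^ k := by
  have h : Fintype.card (Fin k ↪ Q d) ≤ Fintype.card (Fin k → Q d) :=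
    Fintype.card_le_of_injective (fun e => (e : Fin k → Q d)) DFunLike.coe_injective
  have h2 : Fintype.card (Fin k → Q d) = (2 ^ d) ^ k := by simp
  rw [h2] at h
  exact_mod_cast h

/-- exponential moments of the number of pairs in a layer -/
lemma pair_moment (r : Fin d) (t : ℝ) (ht : 0 ≤ t) :
    ∑ x : Fin k ↪ Q d, ∑ c : Fin k ↪ Q d,
      pr (c : Fin k → Q d) x * (1 + t) ^ (pp (x : Fin k → Q d) c r) ≤
      ((2 : ℝ) ^ d) ^ k * Real.exp (t * (k : ℝ) ^ 2 / 2 ^ d) := by
  rw [Finset.sum_comm]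
  have h1 : ∀ c : Fin k ↪ Q d, ∑ x : Fin k ↪ Q d,
      pr (c : Fin k → Q d) x * (1 + t) ^ (pp (x : Fin k → Q d) c r) =
      (Fintype.card (Om d) : ℝ)⁻¹ * ∑ ω : Om d,
        (1 + t) ^ (k - (univ.image (fun i => sw r (trans ω r c i))).card) := by
    intro c
    rw [pr_expect c (fun x => (1 + t) ^ (pp x c r))]
    congr 1
    apply Finset.sum_congr rfl
    intro ω _
    congr 1
    unfold pp
    congr 2
    apply Finset.image_congr
    intro i _
    exact fs_up ω c r i
  rw [Finset.sum_congr rfl fun c _ => h1 c, ← Finset.mul_sum, Finset.sum_comm]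
  have h2 : ∀ ω : Om d, ∑ c : Fin k ↪ Q d,
      (1 + t) ^ (k - (univ.image (fun i => sw r (trans ω r c i))).card) ≤
      ((2 : ℝ) ^ d) ^ k * Real.exp (t * (k : ℝ) ^ 2 / 2 ^ d) := by
    intro ω
    rw [(trans ω r).sum_comp (fun z : Fin k ↪ Q d =>
      (1 + t) ^ (k - (univ.image (fun i => sw r (z i))).card))]
    exact pairCount r k t ht
  have hcard : (0 : ℝ) < Fintype.card (Om d) := by exact_mod_cast Fintype.card_pos
  calc (Fintype.card (Om d) : ℝ)⁻¹ * ∑ ω : Om d, ∑ c : Fin k ↪ Q d,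
      (1 + t) ^ (k - (univ.image (fun i => sw r (trans ω r c i))).card)
      ≤ (Fintype.card (Om d) : ℝ)⁻¹ * ∑ ω : Om d,
        (((2 : ℝ) ^ d) ^ k * Real.exp (t * (k : ℝ) ^ 2 / 2 ^ d)) :=
        mul_le_mul_of_nonneg_left (Finset.sum_le_sum fun ω _ => h2 ω) (by positivity)
    _ = _ := by
        rw [Finset.sum_const, Finset.card_univ, nsmul_eq_mul, ← mul_assoc,
          inv_mul_cancel₀ hcard.ne', one_mul]

/-- total exponential moment -/
lemma total_moment (wt : Fin d → ℝ) (hwt : ∀ r, 0 ≤ wt r) (W : ℝ) (hW : 0 < W)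
    (hsum : ∑ r, wt r ≤ W) (m : ℝ) (hm : 0 ≤ m) :
    ∑ x : Fin k ↪ Q d, ∑ c : Fin k ↪ Q d,
      pr (c : Fin k → Q d) x * Real.exp (m * YY wt x c) ≤
      ((2 : ℝ) ^ d) ^ k * Real.exp ((Real.exp (m * W) - 1) * (k : ℝ) ^ 2 / 2 ^ d) := by
  set t : ℝ := Real.exp (m * W) - 1 with ht
  have ht0 : 0 ≤ t := by
    rw [ht, sub_nonneg]; exact Real.one_le_exp (by positivity)
  set R : ℝ := ((2 : ℝ) ^ d) ^ k * Real.exp (t * (k : ℝ) ^ 2 / 2 ^ d) with hR
  have hconv : ∀ x c : Fin k ↪ Q d, Real.exp (m * YY wt x c) ≤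
      ∑ r, (wt r / W) * (1 + t) ^ (pp (x : Fin k → Q d) c r) + (1 - ∑ r, wt r / W) * 1 := by
    intro x c
    have h0 : 0 ≤ 1 - ∑ r, wt r / W := by
      rw [← Finset.sum_div, sub_nonneg, div_le_one hW]
      exact hsum
    have h1 := convexOn_exp.map_sum_le (t := (univ : Finset (Option (Fin d))))
      (w := fun o => o.elim (1 - ∑ r, wt r / W) (fun r => wt r / W))
      (p := fun o => o.elim 0 (fun r => (m * W) * (pp (x : Fin k → Q d) c r : ℝ)))
      (fun o _ => by
        cases o with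
        | none => exact h0
        | some r => exact div_nonneg (hwt r) hW.le)
      (by rw [Fintype.sum_option]; simp) (fun o _ => Set.mem_univ _)
    rw [Fintype.sum_option, Fintype.sum_option] at h1
    simp only [Option.elim, smul_eq_mul, mul_zero, zero_add, Real.exp_zero] at h1
    have h2 : ∑ r, wt r / W * (m * W * (pp (x : Fin k → Q d) c r : ℝ)) = m * YY wt x c := by
      rw [YY, Finset.mul_sum]
      apply Finset.sum_congr rfl
      intro r _
      field_simp
    rw [h2] at h1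
    refine h1.trans (le_of_eq ?_)
    rw [add_comm]
    congr 1
    apply Finset.sum_congr rfl
    intro r _
    congr 1
    rw [ht]
    have : (1 : ℝ) + (Real.exp (m * W) - 1) = Real.exp (m * W) := by ring
    rw [this, ← Real.exp_nat_mul]
    congr 1
    ring
  have hone : ∑ x : Fin k ↪ Q d, ∑ c : Fin k ↪ Q d, pr (c : Fin k → Q d) x * 1 ≤ R := by
    simp only [mul_one]
    rw [Finset.sum_congr rfl fun x _ => pr_sum_left x]
    rw [Finset.sum_const, Finset.card_univ, nsmul_eq_mul, mul_one, hR]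
    refine card_emb.trans ?_
    have : (1 : ℝ) ≤ Real.exp (t * (k : ℝ) ^ 2 / 2 ^ d) := Real.one_le_exp (by positivity)
    nlinarith [show (0 : ℝ) ≤ ((2 : ℝ) ^ d) ^ k by positivity]
  calc ∑ x : Fin k ↪ Q d, ∑ c : Fin k ↪ Q d,
      pr (c : Fin k → Q d) x * Real.exp (m * YY wt x c)
      ≤ ∑ x : Fin k ↪ Q d, ∑ c : Fin k ↪ Q d, pr (c : Fin k → Q d) x *
        (∑ r, (wt r / W) * (1 + t) ^ (pp (x : Fin k → Q d) c r) + (1 - ∑ r, wt r / W) * 1) :=
        Finset.sum_le_sum fun x _ => Finset.sum_le_sum fun c _ =>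
          mul_le_mul_of_nonneg_left (hconv x c) (pr_nonneg _ _)
    _ = ∑ r, (wt r / W) * (∑ x : Fin k ↪ Q d, ∑ c : Fin k ↪ Q d,
          pr (c : Fin k → Q d) x * (1 + t) ^ (pp (x : Fin k → Q d) c r)) +
        (1 - ∑ r, wt r / W) * ∑ x : Fin k ↪ Q d, ∑ c : Fin k ↪ Q d,
          pr (c : Fin k → Q d) x * 1 := by
        simp_rw [mul_add, Finset.sum_add_distrib, Finset.mul_sum]
        congr 1
        · calc _ = ∑ x : Fin k ↪ Q d, ∑ r : Fin d, ∑ c : Fin k ↪ Q d,
                pr (c : Fin k → Q d) x * (wt r / W * (1 + t) ^ (pp (x : Fin k → Q d) c r)) := by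
                apply Finset.sum_congr rfl; intro x _; rw [Finset.sum_comm]
            _ = ∑ r : Fin d, ∑ x : Fin k ↪ Q d, ∑ c : Fin k ↪ Q d,
                pr (c : Fin k → Q d) x * (wt r / W * (1 + t) ^ (pp (x : Fin k → Q d) c r)) := by
                rw [Finset.sum_comm]
            _ = _ := by
                apply Finset.sum_congr rfl; intro r _
                apply Finset.sum_congr rfl; intro x _
                apply Finset.sum_congr rfl; intro c _
                ring
        · apply Finset.sum_congr rfl; intro x _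
          apply Finset.sum_congr rfl; intro c _
          ring
    _ ≤ ∑ r, (wt r / W) * R + (1 - ∑ r, wt r / W) * R := by
        have h0 : 0 ≤ 1 - ∑ r, wt r / W := by
          rw [← Finset.sum_div, sub_nonneg, div_le_one hW]
          exact hsum
        apply add_le_add
        · apply Finset.sum_le_sum
          intro r _
          exact mul_le_mul_of_nonneg_left (pair_moment r t ht0) (div_nonneg (hwt r) hW.le)
        · exact mul_le_mul_of_nonneg_left hone h0
    _ = R := by rw [← Finset.sum_mul]; ring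

end cards

end StarAux

open StarAux in
theorem star : ∃ C : ℝ, 0 ≤ C ∧ ∀ d k : ℕ,
    ((Kk d k) ^ 128).trace ≤ Real.exp (C * (k : ℝ) ^ 2 / 2 ^ d) := by
  obtain ⟨Wb, hWb, hML⟩ := ML
  set W : ℝ := Wb + 1 with hW
  have hW0 : 0 < W := by linarith
  refine ⟨Real.exp (127 * W) - 1, by
    rw [sub_nonneg]; exact Real.one_le_exp (by positivity), fun d k => ?_⟩
  obtain ⟨wt, hwt, hwsum, hML⟩ := hML d
  set δ : ℝ := 1 / 127 with hδ
  set N : ℝ := (2 : ℝ) ^ (d * k) with hN
  have hN0 : 0 < N := by positivity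
  have hNk : ((2 : ℝ) ^ d) ^ k = N := by rw [hN, pow_mul]
  have hK0 : ∀ x y, 0 ≤ Kk d k x y := fun x y =>
    Finset.sum_nonneg fun c _ => mul_nonneg (pr_nonneg _ _) (pr_nonneg _ _)
  have hL0 : ∀ x y, 0 ≤ Lk δ d k x y := fun x y =>
    Finset.sum_nonneg fun c _ => mul_nonneg (mul_nonneg (pr_nonneg _ _) (pr_nonneg _ _))
      (by positivity)
  set P : Matrix (Fin k ↪ Q d) (Fin k ↪ Q d) ℝ :=
    Matrix.of fun x c => pr (c : Fin k → Q d) x with hP
  set P' : Matrix (Fin k ↪ Q d) (Fin k ↪ Q d) ℝ :=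
    Matrix.of fun c y => pr (c : Fin k → Q d) y with hP'
  set A : Matrix (Fin k ↪ Q d) (Fin k ↪ Q d) ℝ := Matrix.of fun x y =>
    ∑ c : Fin k ↪ Q d, pr (c : Fin k → Q d) x * pr (c : Fin k → Q d) y *
      ((2 : ℝ) ^ ((1 / 32 : ℝ) * (Cyc (x : Fin k → Q d) c y : ℝ)) *
        Real.exp (-(YY wt x c))) with hA
  set B : Matrix (Fin k ↪ Q d) (Fin k ↪ Q d) ℝ :=
    Matrix.of (fun x c => P x c * Real.exp (YY wt x c)) * P' with hB
  have hA0 : ∀ x y, 0 ≤ A x y := fun x y =>
    Finset.sum_nonneg fun c _ => mul_nonneg (mul_nonneg (pr_nonneg _ _) (pr_nonneg _ _))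
      (mul_nonneg (by positivity) (Real.exp_pos _).le)
  have hBapp : ∀ x y, B x y = ∑ c : Fin k ↪ Q d, pr (c : Fin k → Q d) x *
      pr (c : Fin k → Q d) y * Real.exp (YY wt x c) := by
    intro x y
    rw [hB, Matrix.mul_apply]
    apply Finset.sum_congr rfl
    intro c _
    simp only [hP, hP', Matrix.of_apply]
    ring
  have hB0 : ∀ x y, 0 ≤ B x y := fun x y => by
    rw [hBapp]
    exact Finset.sum_nonneg fun c _ => mul_nonneg (mul_nonneg (pr_nonneg _ _) (pr_nonneg _ _))
      (Real.exp_pos _).le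
  -- row sums of A
  have hArow : ∀ x, ∑ y, A x y ≤ 1 := by
    intro x
    simp only [hA, Matrix.of_apply]
    rw [Finset.sum_comm]
    calc _ ≤ ∑ c : Fin k ↪ Q d, pr (c : Fin k → Q d) x := by
          apply Finset.sum_le_sum
          intro c _
          by_cases h0 : pr (c : Fin k → Q d) x = 0
          · simp [h0]
          · have hML1 := hML k x c c.injective
              (fun r i j hij hs => proper_of_pr c x c.injective h0 r i j hij hs)
            have h1 : ∑ y : Fin k ↪ Q d, pr (c : Fin k → Q d) y *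
                (2 : ℝ) ^ ((1 / 32 : ℝ) * (Cyc (x : Fin k → Q d) c y : ℝ)) ≤
                Real.exp (YY wt x c) := by
              rw [pr_expect c (fun y => (2 : ℝ) ^ ((1 / 32 : ℝ) * (Cyc (x : Fin k → Q d) c y : ℝ)))]
              have hcard : (0 : ℝ) < Fintype.card (Om d) := by exact_mod_cast Fintype.card_pos
              rw [inv_mul_le_iff₀ hcard]
              exact hML1
            calc ∑ y : Fin k ↪ Q d, pr (c : Fin k → Q d) x * pr (c : Fin k → Q d) y *
                  ((2 : ℝ) ^ ((1 / 32 : ℝ) * (Cyc (x : Fin k → Q d) c y : ℝ)) *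
                    Real.exp (-(YY wt x c)))
                = pr (c : Fin k → Q d) x * ((∑ y : Fin k ↪ Q d, pr (c : Fin k → Q d) y *
                  (2 : ℝ) ^ ((1 / 32 : ℝ) * (Cyc (x : Fin k → Q d) c y : ℝ))) *
                    Real.exp (-(YY wt x c))) := by
                  rw [Finset.sum_mul, Finset.mul_sum]
                  apply Finset.sum_congr rfl
                  intro y _
                  ring
              _ ≤ pr (c : Fin k → Q d) x * (Real.exp (YY wt x c) * Real.exp (-(YY wt x c))) := by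
                  apply mul_le_mul_of_nonneg_left _ (pr_nonneg _ _)
                  exact mul_le_mul_of_nonneg_right h1 (Real.exp_pos _).le
              _ = pr (c : Fin k → Q d) x := by
                  rw [← Real.exp_add, add_neg_cancel, Real.exp_zero, mul_one]
      _ = 1 := pr_sum_left x
  -- L ^ 2 ≤ A B
  have hLAB : ∀ x y, Lk δ d k x y ^ 2 ≤ A x y * B x y := by
    intro x y
    rw [hBapp]
    refine Finset.sum_sq_le_sum_mul_sum_of_sq_le_mul univ (fun c _ => ?_) (fun c _ => ?_)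
      (fun c _ => ?_)
    · exact mul_nonneg (mul_nonneg (pr_nonneg _ _) (pr_nonneg _ _))
        (mul_nonneg (by positivity) (Real.exp_pos _).le)
    · exact mul_nonneg (mul_nonneg (pr_nonneg _ _) (pr_nonneg _ _)) (Real.exp_pos _).le
    · have h1 : ((2 : ℝ) ^ (δ * (Cyc (x : Fin k → Q d) c y : ℝ))) ^ 2 ≤
          (2 : ℝ) ^ ((1 / 32 : ℝ) * (Cyc (x : Fin k → Q d) c y : ℝ)) := by
        rw [← Real.rpow_natCast, ← Real.rpow_mul (by norm_num)]
        apply Real.rpow_le_rpow_of_exponent_le (by norm_num)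
        have : (0 : ℝ) ≤ (Cyc (x : Fin k → Q d) c y : ℝ) := by positivity
        rw [hδ]
        push_cast
        linarith
      have h2 : Real.exp (-(YY wt x c)) * Real.exp (YY wt x c) = 1 := by
        rw [← Real.exp_add, neg_add_cancel, Real.exp_zero]
      set pq := pr (c : Fin k → Q d) x * pr (c : Fin k → Q d) y with hpq
      calc (pq * (2 : ℝ) ^ (δ * (Cyc (x : Fin k → Q d) c y : ℝ))) ^ 2
          = pq ^ 2 * ((2 : ℝ) ^ (δ * (Cyc (x : Fin k → Q d) c y : ℝ))) ^ 2 := by ring
        _ ≤ pq ^ 2 * (2 : ℝ) ^ ((1 / 32 : ℝ) * (Cyc (x : Fin k → Q d) c y : ℝ)) :=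
            mul_le_mul_of_nonneg_left h1 (sq_nonneg _)
        _ = pq ^ 2 * (2 : ℝ) ^ ((1 / 32 : ℝ) * (Cyc (x : Fin k → Q d) c y : ℝ)) *
            (Real.exp (-(YY wt x c)) * Real.exp (YY wt x c)) := by rw [h2, mul_one]
        _ = _ := by ring
  obtain ⟨hLm0, hAm0, hBm0, hsq⟩ := pow_sq_le (Lk δ d k) A B hL0 hA0 hB0 hLAB 127
  have hLsum : ∑ x, ∑ y, (Lk δ d k ^ 127) x y ≤
      1 / 2 * (∑ x, ∑ y, (A ^ 127) x y + ∑ x, ∑ y, (B ^ 127) x y) := by
    rw [← Finset.sum_add_distrib, Finset.mul_sum]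
    apply Finset.sum_le_sum
    intro x _
    rw [← Finset.sum_add_distrib, Finset.mul_sum]
    apply Finset.sum_le_sum
    intro y _
    exact half_le (hAm0 x y) (hBm0 x y) (hsq x y)
  have hAsum : ∑ x, ∑ y, (A ^ 127) x y ≤ N := by
    calc _ ≤ ∑ x : Fin k ↪ Q d, (1 : ℝ) :=
          Finset.sum_le_sum fun x _ => (pow_row_le A hA0 hArow 127).2 x
      _ = (Fintype.card (Fin k ↪ Q d) : ℝ) := by simp
      _ ≤ N := by rw [← hNk]; exact card_emb
  have hBsum : ∑ x, ∑ y, (B ^ 127) x y ≤
      N * Real.exp ((Real.exp (127 * W) - 1) * (k : ℝ) ^ 2 / 2 ^ d) := by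
    have h1 := path_amgm P P' (fun x y => pr_nonneg _ _) (fun x y => pr_nonneg _ _)
      (fun x => pr_sum_left x) (fun y => pr_sum_right y) (fun x => pr_sum_right x)
      (fun y => pr_sum_left y) (YY wt) 127 (by norm_num)
    refine h1.trans ?_
    have h2 := total_moment (k := k) wt hwt W hW0 (by linarith) 127 (by norm_num)
    rw [hNk] at h2
    exact_mod_cast h2
  -- Jensen
  have hjen : ∀ x y, (Kk d k x y) ^ ((128 : ℕ) / (((128 : ℕ) : ℝ) - 1)) ≤
      (N ^ δ)⁻¹ * Lk δ d k x y := by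
    intro x y
    have h1 := jensen x y (δ := δ) (by rw [hδ]; norm_num)
    have h2 : (((128 : ℕ) : ℝ) / (((128 : ℕ) : ℝ) - 1)) = 1 + δ := by rw [hδ]; norm_num
    rw [h2, inv_mul_eq_div, le_div_iff₀ (by positivity)]
    exact h1
  have hwalk := closed_walk (Kk d k) hK0 128 (by norm_num)
  have hpow := (pow_mono (Matrix.of fun x y => (Kk d k x y) ^ ((128 : ℕ) / (((128 : ℕ) : ℝ) - 1)))
    ((N ^ δ)⁻¹ • Lk δ d k) (fun x y => by
      simp only [Matrix.of_apply]; exact Real.rpow_nonneg (hK0 x y) _) (fun x y => by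
      simp only [Matrix.of_apply, Matrix.smul_apply, smul_eq_mul]; exact hjen x y) 127).2
  have hNδ : ((N ^ δ)⁻¹) ^ 127 = N⁻¹ := by
    rw [inv_pow, ← Real.rpow_natCast, ← Real.rpow_mul hN0.le, hδ]
    norm_num
  have hfin : ((Kk d k) ^ 128).trace ≤ N⁻¹ * ∑ x, ∑ y, (Lk δ d k ^ 127) x y := by
    refine hwalk.trans ?_
    rw [Finset.mul_sum]
    apply Finset.sum_le_sum
    intro x _
    rw [Finset.mul_sum]
    apply Finset.sum_le_sum
    intro y _
    refine (hpow x y).trans (le_of_eq ?_)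
    rw [smul_pow, hNδ, Matrix.smul_apply, smul_eq_mul]
  set E : ℝ := Real.exp ((Real.exp (127 * W) - 1) * (k : ℝ) ^ 2 / 2 ^ d) with hE
  have hE1 : 1 ≤ E := by
    rw [hE]
    apply Real.one_le_exp
    have : 0 ≤ Real.exp (127 * W) - 1 := by
      rw [sub_nonneg]; exact Real.one_le_exp (by positivity)
    positivity
  calc ((Kk d k) ^ 128).trace ≤ N⁻¹ * ∑ x, ∑ y, (Lk δ d k ^ 127) x y := hfin
    _ ≤ N⁻¹ * (1 / 2 * (N + N * E)) := by
        apply mul_le_mul_of_nonneg_left _ (by positivity)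
        linarith
    _ = 1 / 2 * (1 + E) := by field_simp
    _ ≤ E := by linarith

end Vale.Agent.P162.Th
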