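import Vale.Agent.P162.ThAbs
import Vale.Agent.P162.ThStar
import Vale.Agent.P162.ThLink
import Vale.Agent.P162.ThLower
import Vale.Agent.P162.Final

/-!
# P162, `Θ(log n)`: the Thorp shuffle of `2 ^ (d + 1)` cards mixes in order `d + 1` shuffles
-/

open Finset Equiv
open scoped BigOperators RealInnerProductSpace

namespace Vale.Agent.P162.Th

/-- `d + 1` Thorp shuffles are one flat pass -/
lemma thorp_flat (d : ℕ) : ∃ e : Q (d + 1) ≃ Fin (2 * 2 ^ d),
    ∀ (V : Type) [NormedAddCommGroup V] [InnerProductSpace ℝ V]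
      (ρ : Perm (Fin (2 * 2 ^ d)) →* (V →L[ℝ] V)),
      (avg ρ (thorpPerm (2 ^ d))) ^ (d + 1) =
        avg ρ (fun ω : Om (d + 1) => e.permCongrHom ((upP ω)⁻¹)) := by
  obtain ⟨e1, h1⟩ := thorp_pass d
  obtain ⟨e2, h2⟩ := flat_link (d + 1)
  refine ⟨e2.symm.trans e1, ?_⟩
  intro V _ _ ρ
  rw [h1 V ρ]
  have h3 := h2 V (ρ.comp ((e2.symm.trans e1).permCongrHom.toMonoidHom))
  have h4 : (ρ.comp ((e2.symm.trans e1).permCongrHom.toMonoidHom)).comp
      (e2.permCongrHom.toMonoidHom) = ρ.comp (e1.permCongrHom.toMonoidHom) := by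
    ext1 p
    change ρ ((e2.symm.trans e1).permCongr (e2.permCongr p)) = ρ (e1.permCongr p)
    congr 1
    ext1 x
    simp [Equiv.permCongr_apply]
  rw [h4] at h3
  rw [h3, avg_comp]
  rfl

theorem main : ∃ C : ℕ, ∀ d : ℕ,
    d + 1 ≤ 2 * tmix (2 ^ d) ∧ tmix (2 ^ d) ≤ C * (d + 1) ∧
      ∀ t : ℕ, C * (d + 1) ≤ t → tvDist (2 ^ d) t ≤ 1 / 4 := by
  obtain ⟨C, hC, hstar⟩ := star
  obtain ⟨t₀, n₀, habs⟩ := final_abs C hC
  obtain ⟨C₂, hsq⟩ := final_of_link thorp_pass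
  have key : ∀ d t : ℕ, (t₀ + C₂ * n₀) * (d + 1) ≤ t → tvDist (2 ^ d) t ≤ 1 / 4 := by
    intro d t ht
    by_cases hn : n₀ ≤ 2 * 2 ^ d
    · -- many cards
      obtain ⟨e, he⟩ := thorp_flat d
      obtain ⟨e1, h1⟩ := thorp_pass d
      obtain ⟨β, hβ, hgood⟩ := good_pass' d
      have hg2 := good_transport e1 (pass (d + 1)) β hgood
      have hg3 : Good (fun ω : Om (d + 1) => e.permCongrHom ((upP ω)⁻¹)) β := by
        intro V _ _ _ ρ hρ v
        have h3 := hg2 V ρ hρ v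
        have h4 : avg ρ (fun c => e1.permCongrHom (pass (d + 1) c)) =
            avg ρ (fun ω : Om (d + 1) => e.permCongrHom ((upP ω)⁻¹)) := by
          rw [← he V ρ, h1 V ρ]
          rfl
        rw [h4] at h3
        exact h3
      have htr : ∀ k ≤ Fintype.card (Fin (2 * 2 ^ d)),
          ((kerM k (fun a : Om (d + 1) × Om (d + 1) =>
            ((fun ω : Om (d + 1) => e.permCongrHom ((upP ω)⁻¹)) a.1)⁻¹ *
            (fun ω : Om (d + 1) => e.permCongrHom ((upP ω)⁻¹)) a.2)) ^ 128).trace ≤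
          Real.exp (C * (k : ℝ) ^ 2 / Fintype.card (Fin (2 * 2 ^ d))) := by
        intro k _
        have h3 := ker_transport e (fun ω : Om (d + 1) => (upP ω)⁻¹) k 128
        have h4 := hstar (d + 1) k
        rw [← ker_flat, ← h3] at h4
        have h5 : (Fintype.card (Fin (2 * 2 ^ d)) : ℝ) = 2 ^ (d + 1) := by
          rw [Fintype.card_fin]
          push_cast
          ring
        rw [h5]
        exact h4
      have h6 := habs (Fin (2 * 2 ^ d)) (by rw [Fintype.card_fin]; exact hn) (Om (d + 1))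
        (fun ω : Om (d + 1) => e.permCongrHom ((upP ω)⁻¹)) β hβ hg3 htr
      have hR : avg (regRep (Fin (2 * 2 ^ d)))
          (fun ω : Om (d + 1) => e.permCongrHom ((upP ω)⁻¹)) = (Top (2 ^ d)) ^ (d + 1) :=
        (he _ (regRep (Fin (2 * 2 ^ d)))).symm
      rw [hR, ← pow_mul, uni_eq, ← vec_zero, Fintype.card_fin] at h6
      have hanti := Top_pow_anti (2 ^ d) (vec (2 ^ d) 0 - uni (2 ^ d))
        (s := (d + 1) * t₀) (t := t) (le_trans (by nlinarith [Nat.zero_le (C₂ * n₀ * (d + 1))]) ht)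
      have h2 := tv_le (2 ^ d) t
      have h7 : ((2 * 2 ^ d).factorial : ℝ) *
          ‖(Top (2 ^ d) ^ t) (vec (2 ^ d) 0 - uni (2 ^ d))‖ ^ 2 ≤ (1 / 2) ^ 2 := by
        calc ((2 * 2 ^ d).factorial : ℝ) * ‖(Top (2 ^ d) ^ t) (vec (2 ^ d) 0 - uni (2 ^ d))‖ ^ 2
            ≤ ((2 * 2 ^ d).factorial : ℝ) *
              ‖(Top (2 ^ d) ^ ((d + 1) * t₀)) (vec (2 ^ d) 0 - uni (2 ^ d))‖ ^ 2 := by
              gcongr
          _ ≤ 1 / 4 := h6
          _ = (1 / 2) ^ 2 := by norm_num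
      have h8 := Real.sqrt_le_sqrt h7
      rw [Real.sqrt_sq (by norm_num)] at h8
      linarith
    · -- few cards
      apply (hsq d).2
      refine le_trans ?_ ht
      have h1 : d + 1 ≤ n₀ := by
        have h2 : d < 2 ^ d := Nat.lt_two_pow_self
        omega
      calc C₂ * (d + 1) ^ 2 = C₂ * (d + 1) * (d + 1) := by ring
        _ ≤ C₂ * n₀ * (d + 1) := by gcongr
        _ ≤ (t₀ + C₂ * n₀) * (d + 1) := by
            gcongr
            omega
  refine ⟨t₀ + C₂ * n₀, fun d => ⟨?_, Nat.sInf_le (key d _ le_rfl), key d⟩⟩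
  have hmem : tmix (2 ^ d) ∈ {t : ℕ | tvDist (2 ^ d) t ≤ 1 / 4} :=
    Nat.sInf_mem ⟨_, key d _ le_rfl⟩
  exact lower d (tmix (2 ^ d)) hmem

end Vale.Agent.P162.Th
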