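import Vale.Agent.P162.ThQB

/-!
# P162, `Θ(log n)`: basic facts on `Pk`
-/

open Finset Equiv
open scoped BigOperators RealInnerProductSpace

namespace Vale.Agent.P162.Th

open DepthAux

section levels

variable {X : Type} [Fintype X] [DecidableEq X]

theorem Pk_symm (k : ℕ) (v w : EuclideanSpace ℝ (Perm X)) : ⟪Pk X k v, w⟫ = ⟪v, Pk X k w⟫ := by
  unfold Pk
  rw [_root_.sub_apply, _root_.sub_apply, inner_sub_left,
    inner_sub_right, Submodule.inner_starProjection_left_eq_right,
    Submodule.inner_starProjection_left_eq_right]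

namespace PkAux

theorem U_eq_top {k : ℕ} (hk : Fintype.card X ≤ k) : U X k = ⊤ := by
  rw [eq_top_iff, ← U_top (X := X)]
  exact U_mono' hk

/-- operators commuting with the right translations preserve the filtration -/
theorem T_mem {k : ℕ} {T : EuclideanSpace ℝ (Perm X) →L[ℝ] EuclideanSpace ℝ (Perm X)}
    (hT : ∀ (g : Perm X) v, T (rt g v) = rt g (T v)) {v : EuclideanSpace ℝ (Perm X)}
    (hv : v ∈ U X k) : T v ∈ U X k := by
  rcases le_or_gt k (Fintype.card X) with hk | hk
  · have h1 : U X k ≤ (U X k).comap T.toLinearMap := by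
      conv_lhs => rw [U_eq hk]
      refine Finset.sup_le fun Z hZ => ?_
      rintro _ ⟨w, rfl⟩
      show T (Qz Z w) ∈ U X k
      rw [← Qz_comm hT]
      exact Qz_mem_U (Finset.mem_powersetCard.1 hZ).2.le _
    exact h1 hv
  · rw [U_eq_top hk.le]
    trivial

theorem T_orth {k : ℕ} {T : EuclideanSpace ℝ (Perm X) →L[ℝ] EuclideanSpace ℝ (Perm X)}
    (hT : ∀ (g : Perm X) v, T (rt g v) = rt g (T v)) {v : EuclideanSpace ℝ (Perm X)}
    (hv : v ∈ (U X k)ᗮ) : T v ∈ (U X k)ᗮ := by
  rcases le_or_gt k (Fintype.card X) with hk | hk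
  · rw [mem_U_orth hk] at hv ⊢
    intro Z hZ
    rw [Qz_comm hT, hv Z hZ, map_zero]
  · rw [U_eq_top hk.le, Submodule.top_orthogonal_eq_bot, Submodule.mem_bot] at hv ⊢
    rw [hv, map_zero]

theorem starProj_comm {k : ℕ} {T : EuclideanSpace ℝ (Perm X) →L[ℝ] EuclideanSpace ℝ (Perm X)}
    (hT : ∀ (g : Perm X) v, T (rt g v) = rt g (T v)) (v : EuclideanSpace ℝ (Perm X)) :
    (U X k).starProjection (T v) = T ((U X k).starProjection v) := by
  apply Submodule.eq_starProjection_of_mem_of_inner_eq_zero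
  · exact T_mem hT (Submodule.starProjection_apply_mem _ _)
  · intro w hw
    rw [← map_sub]
    have h1 : v - (U X k).starProjection v ∈ (U X k)ᗮ :=
      Submodule.sub_starProjection_mem_orthogonal _
    rw [real_inner_comm]
    exact (Submodule.mem_orthogonal _ _).1 (T_orth hT h1) w hw

theorem Pk_mem (k : ℕ) (v : EuclideanSpace ℝ (Perm X)) : Pk X k v ∈ U X (k + 1) := by
  unfold Pk
  rw [_root_.sub_apply]
  exact Submodule.sub_mem _ (Submodule.starProjection_apply_mem _ _)
    (U_mono k (Submodule.starProjection_apply_mem _ _))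

theorem Pk_orth (k : ℕ) (v : EuclideanSpace ℝ (Perm X)) : Pk X k v ∈ (U X k)ᗮ := by
  unfold Pk
  rw [_root_.sub_apply]
  have e : (U X (k + 1)).starProjection v - (U X k).starProjection v =
      (v - (U X k).starProjection v) - (v - (U X (k + 1)).starProjection v) := by abel
  rw [e]
  refine Submodule.sub_mem _ (Submodule.sub_starProjection_mem_orthogonal _) ?_
  exact Submodule.orthogonal_le (U_mono k) (Submodule.sub_starProjection_mem_orthogonal _)

theorem Pk_eq_self {k : ℕ} {w : EuclideanSpace ℝ (Perm X)} (h1 : w ∈ U X (k + 1))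
    (h2 : w ∈ (U X k)ᗮ) : Pk X k w = w := by
  unfold Pk
  rw [_root_.sub_apply, Submodule.starProjection_eq_self_iff.2 h1,
    (Submodule.starProjection_apply_eq_zero_iff (U X k)).2 h2, sub_zero]

theorem Pk_idem (k : ℕ) (v : EuclideanSpace ℝ (Perm X)) : Pk X k (Pk X k v) = Pk X k v :=
  Pk_eq_self (Pk_mem k v) (Pk_orth k v)

end PkAux

theorem Pk_comm {k : ℕ} {T : EuclideanSpace ℝ (Perm X) →L[ℝ] EuclideanSpace ℝ (Perm X)}
    (hT : ∀ (g : Perm X) v, T (rt g v) = rt g (T v))
    (v : EuclideanSpace ℝ (Perm X)) : Pk X k (T v) = T (Pk X k v) := by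
  unfold Pk
  rw [_root_.sub_apply, _root_.sub_apply, map_sub,
    PkAux.starProj_comm hT, PkAux.starProj_comm hT]

namespace PkAux

theorem Pk_rt (k : ℕ) (g : Perm X) (v : EuclideanSpace ℝ (Perm X)) :
    Pk X k (rt g v) = rt g (Pk X k v) := by
  unfold Pk
  rw [_root_.sub_apply, _root_.sub_apply, map_sub, starProj_rt,
    starProj_rt]

end PkAux

end levels

end Vale.Agent.P162.Th
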