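import Vale.Agent.P162.ThDefs2

/-!
# P162, `Θ(log n)`, module [QB]: basic facts on `Qz`, `Bk`
-/

open Finset Equiv
open scoped BigOperators RealInnerProductSpace

namespace Vale.Agent.P162.Th

open DepthAux

set_option linter.unusedSectionVars false

section levels

variable {X : Type} [Fintype X] [DecidableEq X]

namespace QB

theorem rt_rt (g h : Perm X) (v : EuclideanSpace ℝ (Perm X)) :
    rt g (rt h v) = rt (h * g) v := by
  ext x
  rw [rt_apply, rt_apply, rt_apply, mul_inv_rev, mul_assoc]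

theorem rt_one (v : EuclideanSpace ℝ (Perm X)) : rt 1 v = v := by
  ext x
  rw [rt_apply, inv_one, mul_one]

theorem inner_rt (g : Perm X) (v w : EuclideanSpace ℝ (Perm X)) :
    ⟪rt g v, w⟫ = ⟪v, rt g⁻¹ w⟫ := by
  have h1 : w = rt g (rt g⁻¹ w) := by
    rw [rt_rt, inv_mul_cancel, rt_one]
  conv_lhs => rw [h1]
  rw [LinearIsometryEquiv.inner_map_map]

theorem mem_St_compl {Z : Finset X} {g : Perm X} : g ∈ St Zᶜ ↔ ∀ x ∈ Z, g x = x := by
  rw [mem_St]
  constructor
  · intro h x hx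
    exact h x (by simpa using hx)
  · intro h x hx
    exact h x (by simpa using hx)

theorem Qz_apply (Z : Finset X) (v : EuclideanSpace ℝ (Perm X)) :
    Qz Z v = ((St Zᶜ).card : ℝ)⁻¹ • ∑ g ∈ St Zᶜ, rt g v := by
  simp [Qz]

theorem Bk_apply (k : ℕ) (v : EuclideanSpace ℝ (Perm X)) :
    Bk X k v = ((Fintype.card X).choose k : ℝ)⁻¹ •
      ∑ Z ∈ powersetCard k (univ : Finset X), Qz Z v := by
  simp [Bk]

theorem rt_Qz_of_mem {Z : Finset X} {g : Perm X} (hg : g ∈ St Zᶜ)
    (v : EuclideanSpace ℝ (Perm X)) : rt g (Qz Z v) = Qz Z v := by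
  rw [Qz_apply, map_smul, map_sum]
  congr 1
  refine Finset.sum_nbij' (fun h => h * g) (fun h => h * g⁻¹) (fun h hh => mul_mem_St hh hg)
    (fun h hh => mul_mem_St hh (inv_mem_St hg)) (fun h _ => mul_inv_cancel_right h g)
    (fun h _ => inv_mul_cancel_right h g) (fun h _ => ?_)
  rw [rt_rt]

theorem Qz_rt_of_mem {Z : Finset X} {g : Perm X} (hg : g ∈ St Zᶜ)
    (v : EuclideanSpace ℝ (Perm X)) : Qz Z (rt g v) = Qz Z v := by
  rw [Qz_apply, Qz_apply]
  congr 1
  refine Finset.sum_nbij' (fun h => g * h) (fun h => g⁻¹ * h) (fun h hh => mul_mem_St hg hh)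
    (fun h hh => mul_mem_St (inv_mem_St hg) hh) (fun h _ => inv_mul_cancel_left g h)
    (fun h _ => mul_inv_cancel_left g h) (fun h _ => ?_)
  rw [rt_rt]

theorem Qz_of_inv {Z : Finset X} {v : EuclideanSpace ℝ (Perm X)}
    (h : ∀ g ∈ St Zᶜ, rt g v = v) : Qz Z v = v := by
  rw [Qz_apply, Finset.sum_congr rfl h, Finset.sum_const, ← Nat.cast_smul_eq_nsmul ℝ, smul_smul,
    inv_mul_cancel₀ (card_St_pos _).ne', one_smul]

theorem map_map_inv (h : Perm X) (Z : Finset X) :
    (Z.map (h⁻¹ : Perm X).toEmbedding).map h.toEmbedding = Z := by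
  ext x
  rw [mem_map_equiv, mem_map_equiv]
  show h (h.symm x) ∈ Z ↔ x ∈ Z
  rw [Equiv.apply_symm_apply]

theorem map_inv_map (h : Perm X) (Z : Finset X) :
    (Z.map h.toEmbedding).map (h⁻¹ : Perm X).toEmbedding = Z := by
  ext x
  rw [mem_map_equiv, mem_map_equiv]
  show h.symm (h x) ∈ Z ↔ x ∈ Z
  rw [Equiv.symm_apply_apply]

theorem St_compl_mono {Z Z' : Finset X} (h : Z ⊆ Z') {g : Perm X} (hg : g ∈ St Z'ᶜ) :
    g ∈ St Zᶜ := by
  rw [mem_St_compl] at *
  exact fun x hx => hg x (h hx)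

end QB

open QB

theorem Qz_symm (Z : Finset X) (v w : EuclideanSpace ℝ (Perm X)) :
    ⟪Qz Z v, w⟫ = ⟪v, Qz Z w⟫ := by
  rw [Qz_apply, Qz_apply, inner_smul_left, inner_smul_right, sum_inner, inner_sum]
  congr 1
  refine Finset.sum_nbij' (fun g => g⁻¹) (fun g => g⁻¹) (fun g hg => inv_mem_St hg)
    (fun g hg => inv_mem_St hg) (fun g _ => inv_inv g) (fun g _ => inv_inv g) (fun g _ => ?_)
  exact inner_rt g v w

theorem Qz_idem (Z : Finset X) (v : EuclideanSpace ℝ (Perm X)) : Qz Z (Qz Z v) = Qz Z v :=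
  Qz_of_inv fun _ hg => rt_Qz_of_mem hg v

/-- `Z ⊆ Z'` : functions of `σ|_Z` are functions of `σ|_{Z'}` -/
theorem Qz_sub {Z Z' : Finset X} (h : Z ⊆ Z') (v : EuclideanSpace ℝ (Perm X)) :
    Qz Z' (Qz Z v) = Qz Z v :=
  Qz_of_inv fun _ hg => rt_Qz_of_mem (St_compl_mono h hg) v

theorem Qz_sub' {Z Z' : Finset X} (h : Z ⊆ Z') (v : EuclideanSpace ℝ (Perm X)) :
    Qz Z (Qz Z' v) = Qz Z v := by
  rw [Qz_apply Z' v, map_smul, map_sum,
    Finset.sum_congr rfl (fun g hg => Qz_rt_of_mem (St_compl_mono h hg) v), Finset.sum_const,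
    ← Nat.cast_smul_eq_nsmul ℝ, smul_smul, inv_mul_cancel₀ (card_St_pos _).ne', one_smul]

theorem rt_Qz2 (h : Perm X) (Z : Finset X) (v : EuclideanSpace ℝ (Perm X)) :
    rt h (Qz (Z.map h.toEmbedding) v) = Qz Z (rt h v) := by
  have hmem : ∀ g : Perm X, g ∈ St (Z.map h.toEmbedding)ᶜ ↔ h⁻¹ * g * h ∈ St Zᶜ := by
    intro g
    rw [mem_St_compl, mem_St_compl]
    constructor
    · intro hg x hx
      rw [Perm.mul_apply, Perm.mul_apply, hg (h x) (by simpa using hx)]
      simp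
    · intro hg x hx
      rw [Finset.mem_map] at hx
      obtain ⟨y, hy, rfl⟩ := hx
      have h1 := hg y hy
      rw [Perm.mul_apply, Perm.mul_apply, Perm.inv_eq_iff_eq] at h1
      exact h1
  have hcard : (St (Z.map h.toEmbedding)ᶜ).card = (St Zᶜ).card := by
    refine Finset.card_nbij' (fun g => h⁻¹ * g * h) (fun g => h * g * h⁻¹)
      (fun g hg => (hmem g).1 hg) (fun g hg => ?_) (fun g _ => by group) (fun g _ => by group)
    rw [Finset.mem_coe, hmem]
    have e : h⁻¹ * (h * g * h⁻¹) * h = g := by group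
    rw [e]
    exact hg
  rw [Qz_apply, Qz_apply, map_smul, map_sum, hcard]
  congr 1
  refine Finset.sum_nbij' (fun g => h⁻¹ * g * h) (fun g => h * g * h⁻¹)
    (fun g hg => (hmem g).1 hg) (fun g hg => ?_) (fun g _ => by group) (fun g _ => by group)
    (fun g _ => ?_)
  · rw [hmem]
    have e : h⁻¹ * (h * g * h⁻¹) * h = g := by group
    rw [e]
    exact hg
  · rw [rt_rt, rt_rt]
    congr 1
    congr 1
    group

theorem rt_Qz (h : Perm X) (Z : Finset X) (v : EuclideanSpace ℝ (Perm X)) :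
    rt h (Qz Z v) = Qz (Z.map (h⁻¹ : Perm X).toEmbedding) (rt h v) := by
  rw [← rt_Qz2, map_map_inv]

theorem Qz_comm {T : EuclideanSpace ℝ (Perm X) →L[ℝ] EuclideanSpace ℝ (Perm X)}
    (hT : ∀ (g : Perm X) v, T (rt g v) = rt g (T v)) (Z : Finset X)
    (v : EuclideanSpace ℝ (Perm X)) : Qz Z (T v) = T (Qz Z v) := by
  rw [Qz_apply, Qz_apply, map_smul, map_sum]
  congr 1
  exact Finset.sum_congr rfl fun g _ => (hT g v).symm

theorem rt_Bk (h : Perm X) (k : ℕ) (v : EuclideanSpace ℝ (Perm X)) :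
    rt h (Bk X k v) = Bk X k (rt h v) := by
  rw [Bk_apply, Bk_apply, map_smul, map_sum]
  congr 1
  refine Finset.sum_nbij' (fun Z => Z.map (h⁻¹ : Perm X).toEmbedding)
    (fun Z => Z.map h.toEmbedding) (fun Z hZ => ?_) (fun Z hZ => ?_) (fun Z _ => ?_)
    (fun Z _ => ?_) (fun Z _ => ?_)
  · rw [mem_powersetCard] at *
    exact ⟨subset_univ _, by rw [card_map]; exact hZ.2⟩
  · rw [mem_powersetCard] at *
    exact ⟨subset_univ _, by rw [card_map]; exact hZ.2⟩
  · exact map_map_inv h Z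
  · exact map_inv_map h Z
  · exact rt_Qz h Z v

theorem reg_Qz (h : Perm X) (Z : Finset X) (v : EuclideanSpace ℝ (Perm X)) :
    regRep X h (Qz Z v) = Qz Z (regRep X h v) := by
  rw [Qz_apply, Qz_apply, map_smul, map_sum]
  congr 1

theorem reg_Bk (h : Perm X) (k : ℕ) (v : EuclideanSpace ℝ (Perm X)) :
    regRep X h (Bk X k v) = Bk X k (regRep X h v) := by
  rw [Bk_apply, Bk_apply, map_smul, map_sum]
  congr 1
  exact Finset.sum_congr rfl fun Z _ => reg_Qz h Z v

namespace QB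

theorem reg_dl (h g : Perm X) : regRep X h (dl g) = dl (h * g) := by
  ext x
  rw [regRep_apply]
  simp only [dl, PiLp.single_apply]
  congr 1
  rw [inv_mul_eq_iff_eq_mul]

theorem rt_dl' (h g : Perm X) : rt h (dl g) = dl (g * h) := by
  ext x
  rw [rt_apply]
  simp only [dl, PiLp.single_apply]
  congr 1
  rw [mul_inv_eq_iff_eq_mul]

/-- left and right averages of a point mass -/
theorem symz_dl (Z : Finset X) (g : Perm X) :
    symz (regRep X) (Zᶜ.map g.toEmbedding) (dl g) = ((St Zᶜ).card : ℝ) • Qz Z (dl g) := by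
  have hmem : ∀ h : Perm X, h ∈ St (Zᶜ.map g.toEmbedding) ↔ g⁻¹ * h * g ∈ St Zᶜ := by
    intro h
    rw [mem_St, mem_St_compl]
    constructor
    · intro hh x hx
      rw [Perm.mul_apply, Perm.mul_apply, hh (g x) (by simpa using hx)]
      simp
    · intro hh x hx
      have h1 := hh (g⁻¹ x) (by
        by_contra hc
        apply hx
        rw [Finset.mem_map]
        exact ⟨g⁻¹ x, by simpa using hc, by simp⟩)
      rw [Perm.mul_apply, Perm.mul_apply, Perm.inv_eq_iff_eq] at h1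
      simpa using h1
  rw [symz_apply, Qz_apply, smul_smul, mul_inv_cancel₀ (card_St_pos _).ne', one_smul]
  refine Finset.sum_nbij' (fun h => g⁻¹ * h * g) (fun h => g * h * g⁻¹)
    (fun h hh => (hmem h).1 hh) (fun h hh => (hmem _).2 ?_) (fun h _ => by group)
    (fun h _ => by group) (fun h _ => ?_)
  · have e : g⁻¹ * (g * h * g⁻¹) * g = h := by group
    rw [e]
    exact hh
  · rw [reg_dl, rt_dl']
    congr 1
    group

theorem sum_dl (v : EuclideanSpace ℝ (Perm X)) : v = ∑ g : Perm X, v g • dl g := by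
  ext x
  simp only [WithLp.ofLp_sum, Finset.sum_apply, WithLp.ofLp_smul, Pi.smul_apply, dl,
    PiLp.single_apply, smul_eq_mul]
  rw [Finset.sum_eq_single x]
  · simp
  · intro b _ hb
    rw [if_neg (Ne.symm hb), mul_zero]
  · intro h; exact absurd (mem_univ x) h

end QB

/-- the filtration of `Depth.lean` in terms of right averages -/
theorem U_eq {k : ℕ} (hk : k ≤ Fintype.card X) :
    U X k = (powersetCard k (univ : Finset X)).sup
      (fun Z => LinearMap.range (Qz Z).toLinearMap) := by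
  apply le_antisymm
  · refine U_le fun B hB v => ?_
    rw [sum_dl v, map_sum]
    refine Submodule.sum_mem _ fun g _ => ?_
    rw [map_smul]
    refine Submodule.smul_mem _ _ ?_
    have e : B = ((Bᶜ.map (g⁻¹ : Perm X).toEmbedding)ᶜ).map g.toEmbedding := by
      ext x
      rw [mem_map_equiv, mem_compl, mem_map_equiv]
      show x ∈ B ↔ ¬ (g (g.symm x) ∈ Bᶜ)
      rw [Equiv.apply_symm_apply, mem_compl, not_not]
    rw [e, symz_dl]
    refine Submodule.smul_mem _ _ ?_
    have h1 : LinearMap.range (Qz (Bᶜ.map (g⁻¹ : Perm X).toEmbedding)).toLinearMap ≤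
        (powersetCard k (univ : Finset X)).sup
          (fun Z => LinearMap.range (Qz Z).toLinearMap) :=
      Finset.le_sup (f := fun Z => LinearMap.range (Qz Z).toLinearMap)
        (mem_powersetCard.2 ⟨subset_univ _, by rw [card_map, card_compl, hB]; omega⟩)
    exact h1 ⟨dl g, rfl⟩
  · refine Finset.sup_le fun Z hZ => ?_
    rintro _ ⟨v, rfl⟩
    show Qz Z v ∈ U X k
    rw [sum_dl v, map_sum]
    refine Submodule.sum_mem _ fun g _ => ?_
    rw [map_smul]
    refine Submodule.smul_mem _ _ ?_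
    have h1 : Qz Z (dl g) = ((St Zᶜ).card : ℝ)⁻¹ •
        symz (regRep X) (Zᶜ.map g.toEmbedding) (dl g) := by
      rw [symz_dl, smul_smul, inv_mul_cancel₀ (card_St_pos _).ne', one_smul]
    rw [h1]
    refine Submodule.smul_mem _ _ (symz_mem_U ?_ _)
    rw [card_map, card_compl, (mem_powersetCard.1 hZ).2]

theorem Qz_mem_U {k : ℕ} {Z : Finset X} (hZ : Z.card ≤ k) (v : EuclideanSpace ℝ (Perm X)) :
    Qz Z v ∈ U X k := by
  have h1 : Qz Z v ∈ U X Z.card := by
    rw [U_eq (card_le_univ Z)]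
    have h1 : LinearMap.range (Qz Z).toLinearMap ≤
        (powersetCard Z.card (univ : Finset X)).sup
          (fun Z => LinearMap.range (Qz Z).toLinearMap) :=
      Finset.le_sup (f := fun Z => LinearMap.range (Qz Z).toLinearMap)
        (mem_powersetCard.2 ⟨subset_univ _, rfl⟩)
    exact h1 ⟨v, rfl⟩
  exact U_mono' hZ h1

theorem mem_U_orth {k : ℕ} (hk : k ≤ Fintype.card X) (v : EuclideanSpace ℝ (Perm X)) :
    v ∈ (U X k)ᗮ ↔ ∀ Z : Finset X, Z.card = k → Qz Z v = 0 := by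
  constructor
  · intro h Z hZ
    rw [← inner_self_eq_zero (𝕜 := ℝ), Qz_symm, Qz_idem, real_inner_comm]
    exact (Submodule.mem_orthogonal _ _).1 h _ (Qz_mem_U hZ.le v)
  · intro h
    have h1 : U X k ≤ (ℝ ∙ v)ᗮ := by
      rw [U_eq hk]
      refine Finset.sup_le fun Z hZ => ?_
      rintro _ ⟨w, rfl⟩
      rw [Submodule.mem_orthogonal_singleton_iff_inner_right]
      show ⟪v, Qz Z w⟫ = 0
      rw [← Qz_symm, h Z (mem_powersetCard.1 hZ).2, inner_zero_left]
    rw [Submodule.mem_orthogonal]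
    intro u hu
    have h2 := h1 hu
    rw [Submodule.mem_orthogonal_singleton_iff_inner_right] at h2
    rw [real_inner_comm]
    exact h2

end levels

end Vale.Agent.P162.Th
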