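import Vale.Agent.P162.ThDecode
import Vale.Agent.P162.ThLeader

/-!
# P162, `Θ(log n)`: one layer, exponential moment of the number of loops
-/

open Finset
open scoped BigOperators

namespace Vale.Agent.P162.Th

namespace SLAux

variable {d k : ℕ}

/-- abstract counting: if `Λs η ⊆ L` and every `Λ` with lengths is rare then the exponential
moment of `|Λs η|` is small -/
lemma expo {α : Type*} (O : Finset α) (L : Finset (Fin k)) (Λs : α → Finset (Fin k))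
    (hΛs : ∀ η ∈ O, Λs η ⊆ L) (t B : ℝ) (ht : 0 ≤ t) (N : ℝ)
    (hN : ∀ Λ : Finset (Fin k), Λ ⊆ L →
      ((O.filter (fun η => Λ ⊆ Λs η)).card : ℝ) ≤ N * B ^ Λ.card) :
    ∑ η ∈ O, (1 + t) ^ (Λs η).card ≤ N * (1 + t * B) ^ L.card := by
  classical
  have h1 : ∀ s : Finset (Fin k), ∀ x : ℝ, (1 + x) ^ s.card = ∑ Λ ∈ s.powerset, x ^ Λ.card := by
    intro s x
    have := Finset.prod_one_add (f := fun _ : Fin k => x) (s := s)
    simp only [Finset.prod_const] at this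
    exact this
  have h2 : ∀ η ∈ O, (1 + t) ^ (Λs η).card =
      ∑ Λ ∈ L.powerset, if Λ ⊆ Λs η then t ^ Λ.card else 0 := by
    intro η hη
    rw [h1, ← Finset.sum_filter]
    apply Finset.sum_congr _ (fun _ _ => rfl)
    ext Λ
    rw [mem_filter, mem_powerset, mem_powerset]
    exact ⟨fun h => ⟨h.trans (hΛs η hη), h⟩, fun h => h.2⟩
  rw [Finset.sum_congr rfl h2, Finset.sum_comm, h1 L (t * B), Finset.mul_sum]
  apply Finset.sum_le_sum
  intro Λ hΛ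
  rw [← Finset.sum_filter, Finset.sum_const, nsmul_eq_mul, mul_pow]
  have h3 := hN Λ (mem_powerset.1 hΛ)
  have h4 : 0 ≤ t ^ Λ.card := pow_nonneg ht _
  calc ((O.filter (fun η => Λ ⊆ Λs η)).card : ℝ) * t ^ Λ.card
      ≤ (N * B ^ Λ.card) * t ^ Λ.card := mul_le_mul_of_nonneg_right h3 h4
    _ = N * (t ^ Λ.card * B ^ Λ.card) := by ring

lemma pi_sum (Λ : Finset (Fin k)) (J : ℕ) (g : ℕ → ℝ) :
    ∑ m ∈ Fintype.piFinset (fun j : Fin k => if j ∈ Λ then Icc 1 J else {1}),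
      ∏ j ∈ Λ, g (m j) = (∑ x ∈ Icc 1 J, g x) ^ Λ.card := by
  classical
  have h1 : ∀ m : Fin k → ℕ, ∏ j ∈ Λ, g (m j) = ∏ j : Fin k, if j ∈ Λ then g (m j) else 1 := by
    intro m
    rw [Finset.prod_ite_mem, Finset.univ_inter]
  simp only [h1]
  have h2 := Finset.prod_univ_sum (fun j : Fin k => if j ∈ Λ then Icc 1 J else ({1} : Finset ℕ))
    (fun j x => if j ∈ Λ then g x else 1)
  rw [← h2]
  have h3 : ∀ j : Fin k, (∑ x ∈ (if j ∈ Λ then Icc 1 J else ({1} : Finset ℕ)),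
      if j ∈ Λ then g x else 1) = if j ∈ Λ then ∑ x ∈ Icc 1 J, g x else 1 := by
    intro j
    by_cases hj : j ∈ Λ <;> simp [hj]
  simp only [h3]
  rw [Finset.prod_ite_mem, Finset.univ_inter, Finset.prod_const]

/-- the numerical bound -/
lemma numeric (u : ℕ) (hu : 1 ≤ u) (ℓ : ℕ) :
    (2 : ℝ) ^ ((u : ℝ) * (ℓ / 2 ^ u)) *
      (1 + ((2 : ℝ) ^ u - 1) * ((2 : ℝ) ^ u * (2 : ℝ) ^ (-(7 * (u : ℝ) / 2)))) ^ ℓ ≤
      Real.exp ((2 * u / 2 ^ u) * ℓ) := by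
  have hu' : (1 : ℝ) ≤ u := by exact_mod_cast hu
  have hb : ((2 : ℝ) ^ u - 1) * ((2 : ℝ) ^ u * (2 : ℝ) ^ (-(7 * (u : ℝ) / 2))) ≤ 1 / 2 ^ u := by
    have e1 : (1 : ℝ) / 2 ^ u = (2 : ℝ) ^ (-(u : ℝ)) := by
      rw [Real.rpow_neg (by norm_num), Real.rpow_natCast, one_div]
    have e2 : (2 : ℝ) ^ u = (2 : ℝ) ^ (u : ℝ) := (Real.rpow_natCast 2 u).symm
    rw [e1]
    calc ((2 : ℝ) ^ u - 1) * ((2 : ℝ) ^ u * (2 : ℝ) ^ (-(7 * (u : ℝ) / 2)))
        ≤ (2 : ℝ) ^ u * ((2 : ℝ) ^ u * (2 : ℝ) ^ (-(7 * (u : ℝ) / 2))) := by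
          apply mul_le_mul_of_nonneg_right _ (by positivity)
          linarith
      _ = (2 : ℝ) ^ ((u : ℝ) + ((u : ℝ) + (-(7 * (u : ℝ) / 2)))) := by
          rw [e2, Real.rpow_add (by norm_num), Real.rpow_add (by norm_num)]
      _ ≤ (2 : ℝ) ^ (-(u : ℝ)) := by
          apply Real.rpow_le_rpow_of_exponent_le (by norm_num)
          linarith
  have h1 : (1 + ((2 : ℝ) ^ u - 1) * ((2 : ℝ) ^ u * (2 : ℝ) ^ (-(7 * (u : ℝ) / 2)))) ^ ℓ ≤
      Real.exp (1 / 2 ^ u * ℓ) := by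
    have h0 : (0 : ℝ) ≤ 1 + ((2 : ℝ) ^ u - 1) *
        ((2 : ℝ) ^ u * (2 : ℝ) ^ (-(7 * (u : ℝ) / 2))) := by
      have : (1 : ℝ) ≤ 2 ^ u := one_le_pow₀ (by norm_num)
      have h5 : (0 : ℝ) ≤ (2 : ℝ) ^ u - 1 := by linarith
      positivity
    calc (1 + ((2 : ℝ) ^ u - 1) * ((2 : ℝ) ^ u * (2 : ℝ) ^ (-(7 * (u : ℝ) / 2)))) ^ ℓ
        ≤ (Real.exp (1 / 2 ^ u)) ^ ℓ := by
          apply pow_le_pow_left₀ h0
          have := Real.add_one_le_exp ((1 : ℝ) / 2 ^ u)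
          linarith
      _ = Real.exp (1 / 2 ^ u * ℓ) := by
          rw [← Real.exp_nat_mul]
          congr 1
          ring
  have h2 : (2 : ℝ) ^ ((u : ℝ) * (ℓ / 2 ^ u)) ≤ Real.exp ((u : ℝ) / 2 ^ u * ℓ * (7 / 10)) := by
    rw [Real.rpow_def_of_pos (by norm_num)]
    apply Real.exp_le_exp.2
    have hl := Real.log_two_lt_d9
    have h3 : (0 : ℝ) ≤ (u : ℝ) * (ℓ / 2 ^ u) := by positivity
    calc Real.log 2 * ((u : ℝ) * (ℓ / 2 ^ u)) ≤ (7 / 10) * ((u : ℝ) * (ℓ / 2 ^ u)) := by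
          apply mul_le_mul_of_nonneg_right _ h3
          linarith
      _ = (u : ℝ) / 2 ^ u * ℓ * (7 / 10) := by ring
  calc _ ≤ Real.exp ((u : ℝ) / 2 ^ u * ℓ * (7 / 10)) * Real.exp (1 / 2 ^ u * ℓ) :=
        mul_le_mul h2 h1 (pow_nonneg (by
          have : (1 : ℝ) ≤ 2 ^ u := one_le_pow₀ (by norm_num)
          have h5 : (0 : ℝ) ≤ (2 : ℝ) ^ u - 1 := by linarith
          positivity) _) (Real.exp_pos _).le
    _ = Real.exp ((u : ℝ) / 2 ^ u * ℓ * (7 / 10) + 1 / 2 ^ u * ℓ) := by rw [Real.exp_add]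
    _ ≤ _ := by
        apply Real.exp_le_exp.2
        have h6 : (0 : ℝ) ≤ ℓ / 2 ^ u := by positivity
        have e1 : (u : ℝ) / 2 ^ u * ℓ * (7 / 10) + 1 / 2 ^ u * ℓ =
            ((7 / 10) * u + 1) * (ℓ / 2 ^ u) := by ring
        have e2 : (2 * (u : ℝ) / 2 ^ u) * ℓ = (2 * u) * (ℓ / 2 ^ u) := by ring
        rw [e1, e2]
        apply mul_le_mul_of_nonneg_right _ h6
        linarith

end SLAux

theorem SL {d k : ℕ} (r : Fin d) (W : Finset (Fin d)) (hW : ∀ s ∈ W, s < r) (u : ℕ)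
    (hu : 1 ≤ u) (hw : W.card = 8 * u)
    (c : Fin k → Q d) (hc : Function.Injective c) (tgt : Fin k → Q d) (L : Finset (Fin k))
    (hL : ∀ i ∈ L, c i r = true) (htgt : Set.InjOn tgt (L : Set (Fin k))) (ω₀ : Om d)
    (𝓟 : Om d → Finset (Finset (Fin k)))
    (h𝓟 : ∀ η, ∀ P ∈ 𝓟 η, P.Nonempty ∧ P ⊆ L ∧ ∀ i ∈ P, ∃ j ∈ P, upTo η r (c i) = tgt j)
    (hdis : ∀ η, ∀ P ∈ 𝓟 η, ∀ P' ∈ 𝓟 η, P ≠ P' → Disjoint P P') :
    ∑ η ∈ Off (Sb r W) ω₀, (2 : ℝ) ^ (u * (𝓟 η).card) ≤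
      2 ^ (Sb r W).card * Real.exp ((2 * u / 2 ^ u) * L.card) := by
  classical
  -- leaders
  have hx : ∀ η (P : Finset (Fin k)) (hP : P ∈ 𝓟 η), ∃ j m, j ∈ P ∧ m ≤ P.card ∧
      Lead r c tgt L W η j m ∧ ∀ l, (hh r c tgt L η)^[l] j ∈ P := by
    intro η P hP
    obtain ⟨h1, h2, h3⟩ := h𝓟 η P hP
    obtain ⟨j, hj, m, hm, hl, ho⟩ := exists_leader r W hW c hc tgt L htgt η P h1 h2 h3
    exact ⟨j, m, hj, hm, hl, ho⟩
  choose ld mm hld1 hld2 hld3 hld4 using hx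
  let J : ℕ := 2 ^ u
  let att : (η : Om d) → Finset {P // P ∈ 𝓟 η} := fun η => (𝓟 η).attach
  let shr : (η : Om d) → Finset {P // P ∈ 𝓟 η} := fun η =>
    (att η).filter (fun P => mm η P.1 P.2 ≤ J)
  let Λs : Om d → Finset (Fin k) := fun η => (shr η).image (fun P => ld η P.1 P.2)
  have hinj : ∀ η, ∀ P P' : {P // P ∈ 𝓟 η}, ld η P.1 P.2 = ld η P'.1 P'.2 → P = P' := by
    intro η P P' h
    by_contra hne
    have hne' : P.1 ≠ P'.1 := fun e => hne (Subtype.ext e)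
    have h1 := hdis η P.1 P.2 P'.1 P'.2 hne'
    rw [Finset.disjoint_left] at h1
    exact h1 (hld1 η P.1 P.2) (h ▸ hld1 η P'.1 P'.2)
  have hcardΛ : ∀ η, (Λs η).card = (shr η).card := by
    intro η
    exact Finset.card_image_of_injective _ (fun P P' h => hinj η P P' h)
  have hΛL : ∀ η, Λs η ⊆ L := by
    intro η j hj
    rw [mem_image] at hj
    obtain ⟨P, _, rfl⟩ := hj
    exact (h𝓟 η P.1 P.2).2.1 (hld1 η P.1 P.2)
  -- the long ones are few
  have hlong : ∀ η, (((att η).filter (fun P => ¬ mm η P.1 P.2 ≤ J)).card : ℝ) ≤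
      L.card / 2 ^ u := by
    intro η
    rw [le_div_iff₀ (by positivity)]
    have h1 : ((att η).filter (fun P => ¬ mm η P.1 P.2 ≤ J)).card * 2 ^ u ≤ L.card := by
      calc ((att η).filter (fun P => ¬ mm η P.1 P.2 ≤ J)).card * 2 ^ u
          = ∑ P ∈ (att η).filter (fun P => ¬ mm η P.1 P.2 ≤ J), 2 ^ u := by
            rw [Finset.sum_const, smul_eq_mul]
        _ ≤ ∑ P ∈ (att η).filter (fun P => ¬ mm η P.1 P.2 ≤ J), P.1.card := by
            apply Finset.sum_le_sum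
            intro P hP
            have := (mem_filter.1 hP).2
            have h2 := hld2 η P.1 P.2
            show J ≤ _
            omega
        _ = (((att η).filter (fun P => ¬ mm η P.1 P.2 ≤ J)).biUnion (fun P => P.1)).card := by
            rw [Finset.card_biUnion]
            intro P _ P' _ hne
            exact hdis η P.1 P.2 P'.1 P'.2 (fun e => hne (Subtype.ext e))
        _ ≤ L.card := by
            apply Finset.card_le_card
            intro i hi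
            rw [mem_biUnion] at hi
            obtain ⟨P, _, hi⟩ := hi
            exact (h𝓟 η P.1 P.2).2.1 hi
    exact_mod_cast h1
  have hsplit : ∀ η, (2 : ℝ) ^ (u * (𝓟 η).card) ≤
      (2 : ℝ) ^ ((u : ℝ) * (L.card / 2 ^ u)) * (1 + ((2 : ℝ) ^ u - 1)) ^ (Λs η).card := by
    intro η
    have h1 : (𝓟 η).card = (shr η).card +
        ((att η).filter (fun P => ¬ mm η P.1 P.2 ≤ J)).card := by
      have := Finset.card_filter_add_card_filter_not (s := att η)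
        (fun P : {P // P ∈ 𝓟 η} => mm η P.1 P.2 ≤ J)
      have h2 : (att η).card = (𝓟 η).card := Finset.card_attach
      rw [← h2, ← this]
    rw [h1, hcardΛ, mul_add, pow_add, pow_mul, mul_comm]
    have e1 : (1 : ℝ) + (2 ^ u - 1) = 2 ^ u := by ring
    rw [e1]
    apply mul_le_mul_of_nonneg_right _ (by positivity)
    rw [← Real.rpow_natCast]
    apply Real.rpow_le_rpow_of_exponent_le (by norm_num)
    push_cast
    exact mul_le_mul_of_nonneg_left (hlong η) (by positivity)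
  -- counting
  have hN : ∀ Λ : Finset (Fin k), Λ ⊆ L →
      (((Off (Sb r W) ω₀).filter (fun η => Λ ⊆ Λs η)).card : ℝ) ≤
        2 ^ (Sb r W).card * ((2 : ℝ) ^ u * (2 : ℝ) ^ (-(7 * (u : ℝ) / 2))) ^ Λ.card := by
    intro Λ hΛ
    let M := Fintype.piFinset (fun j : Fin k => if j ∈ Λ then Icc 1 J else ({1} : Finset ℕ))
    let Evt : (Fin k → ℕ) → Finset (Om d) := fun m =>
      (Off (Sb r W) ω₀).filter (fun η => (∀ j ∈ Λ, Lead r c tgt L W η j (m j)) ∧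
      ∀ j ∈ Λ, ∀ j' ∈ Λ, j ≠ j' → ∀ l < m j, ∀ l' < m j',
        (hh r c tgt L η)^[l] j ≠ (hh r c tgt L η)^[l'] j')
    have hsub : (Off (Sb r W) ω₀).filter (fun η => Λ ⊆ Λs η) ⊆ M.biUnion Evt := by
      intro η hη
      rw [mem_filter] at hη
      obtain ⟨hη, hΛη⟩ := hη
      have hj : ∀ j ∈ Λ, ∃ P : {P // P ∈ 𝓟 η}, mm η P.1 P.2 ≤ J ∧ ld η P.1 P.2 = j := by
        intro j hj
        have := hΛη hj
        rw [mem_image] at this
        obtain ⟨P, hP, rfl⟩ := this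
        exact ⟨P, (mem_filter.1 hP).2, rfl⟩
      choose PP hPP1 hPP2 using hj
      let ml : Fin k → ℕ := fun j => if h : j ∈ Λ then mm η (PP j h).1 (PP j h).2 else 1
      have hml : ∀ j (h : j ∈ Λ), ml j = mm η (PP j h).1 (PP j h).2 := fun j h => dif_pos h
      rw [mem_biUnion]
      refine ⟨ml, ?_, ?_⟩
      · rw [Fintype.mem_piFinset]
        intro j
        by_cases hj : j ∈ Λ
        · rw [if_pos hj, mem_Icc, hml j hj]
          exact ⟨(hld3 η (PP j hj).1 (PP j hj).2).pos, hPP1 j hj⟩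
        · rw [if_neg hj, mem_singleton]
          exact dif_neg hj
      · rw [mem_filter]
        refine ⟨hη, ?_, ?_⟩
        · intro j hj
          rw [hml j hj]
          have := hld3 η (PP j hj).1 (PP j hj).2
          rw [hPP2 j hj] at this
          exact this
        · intro j hj j' hj' hne l _ l' _ heq
          have hP : (PP j hj).1 ≠ (PP j' hj').1 := by
            intro e
            apply hne
            rw [← hPP2 j hj, ← hPP2 j' hj']
            have : PP j hj = PP j' hj' := Subtype.ext e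
            rw [this]
          have hd := hdis η (PP j hj).1 (PP j hj).2 (PP j' hj').1 (PP j' hj').2 hP
          rw [Finset.disjoint_left] at hd
          have h1 := hld4 η (PP j hj).1 (PP j hj).2 l
          have h2 := hld4 η (PP j' hj').1 (PP j' hj').2 l'
          rw [hPP2 j hj] at h1
          rw [hPP2 j' hj', ← heq] at h2
          exact hd h1 h2
    have hEvt : ∀ m : Fin k → ℕ, ((Evt m).card : ℝ) ≤
        2 ^ (Sb r W).card * ∏ j ∈ Λ, (2 : ℝ) ^ (-(((W.card : ℝ) - Real.logb 2 (m j)) / 2)) := by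
      intro m
      have h1 := decode r W hW c hc tgt L hL htgt ω₀ Λ hΛ m
      have h2 : (∏ j ∈ Λ, (2 : ℝ) ^ (((W.card : ℝ) - Real.logb 2 (m j)) / 2)) *
          ∏ j ∈ Λ, (2 : ℝ) ^ (-(((W.card : ℝ) - Real.logb 2 (m j)) / 2)) = 1 := by
        rw [← Finset.prod_mul_distrib]
        apply Finset.prod_eq_one
        intro j _
        rw [← Real.rpow_add (by norm_num), add_neg_cancel, Real.rpow_zero]
      have h3 : 0 ≤ ∏ j ∈ Λ, (2 : ℝ) ^ (-(((W.card : ℝ) - Real.logb 2 (m j)) / 2)) :=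
        Finset.prod_nonneg fun _ _ => by positivity
      calc ((Evt m).card : ℝ) = ((Evt m).card : ℝ) *
            (∏ j ∈ Λ, (2 : ℝ) ^ (((W.card : ℝ) - Real.logb 2 (m j)) / 2)) *
            ∏ j ∈ Λ, (2 : ℝ) ^ (-(((W.card : ℝ) - Real.logb 2 (m j)) / 2)) := by
              rw [mul_assoc, h2, mul_one]
        _ ≤ _ := mul_le_mul_of_nonneg_right h1 h3
    have hsum : ∑ x ∈ Icc 1 J, (2 : ℝ) ^ (-(((W.card : ℝ) - Real.logb 2 (x : ℕ)) / 2)) ≤
        (2 : ℝ) ^ u * (2 : ℝ) ^ (-(7 * (u : ℝ) / 2)) := by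
      have h1 : ∀ x ∈ Icc 1 J, (2 : ℝ) ^ (-(((W.card : ℝ) - Real.logb 2 (x : ℕ)) / 2)) ≤
          (2 : ℝ) ^ (-(7 * (u : ℝ) / 2)) := by
        intro x hx
        rw [mem_Icc] at hx
        apply Real.rpow_le_rpow_of_exponent_le (by norm_num)
        have hx1 : (1 : ℝ) ≤ x := by exact_mod_cast hx.1
        have hx2 : (x : ℝ) ≤ 2 ^ u := by exact_mod_cast hx.2
        have h2 : Real.logb 2 x ≤ u := by
          rw [Real.logb_le_iff_le_rpow (by norm_num) (by linarith), Real.rpow_natCast]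
          exact hx2
        rw [hw]
        push_cast
        linarith
      refine (Finset.sum_le_card_nsmul _ _ _ h1).trans ?_
      rw [nsmul_eq_mul, Nat.card_Icc]
      simp [J]
    have hsum0 : 0 ≤ ∑ x ∈ Icc 1 J, (2 : ℝ) ^ (-(((W.card : ℝ) - Real.logb 2 (x : ℕ)) / 2)) :=
      Finset.sum_nonneg fun _ _ => by positivity
    calc (((Off (Sb r W) ω₀).filter (fun η => Λ ⊆ Λs η)).card : ℝ)
        ≤ ((M.biUnion Evt).card : ℝ) := by exact_mod_cast Finset.card_le_card hsub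
      _ ≤ ∑ m ∈ M, ((Evt m).card : ℝ) := by exact_mod_cast Finset.card_biUnion_le
      _ ≤ ∑ m ∈ M, 2 ^ (Sb r W).card *
          ∏ j ∈ Λ, (2 : ℝ) ^ (-(((W.card : ℝ) - Real.logb 2 (m j)) / 2)) :=
          Finset.sum_le_sum fun m _ => hEvt m
      _ = 2 ^ (Sb r W).card *
          (∑ x ∈ Icc 1 J, (2 : ℝ) ^ (-(((W.card : ℝ) - Real.logb 2 (x : ℕ)) / 2))) ^ Λ.card := by
          rw [← Finset.mul_sum]
          congr 1
          exact SLAux.pi_sum Λ J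
            (fun x => (2 : ℝ) ^ (-(((W.card : ℝ) - Real.logb 2 (x : ℕ)) / 2)))
      _ ≤ _ := by
          apply mul_le_mul_of_nonneg_left _ (by positivity)
          exact pow_le_pow_left₀ hsum0 hsum _
  have ht : (0 : ℝ) ≤ (2 : ℝ) ^ u - 1 := by
    have : (1 : ℝ) ≤ 2 ^ u := one_le_pow₀ (by norm_num)
    linarith
  have hexpo := SLAux.expo (Off (Sb r W) ω₀) L Λs (fun η _ => hΛL η) ((2 : ℝ) ^ u - 1)
    ((2 : ℝ) ^ u * (2 : ℝ) ^ (-(7 * (u : ℝ) / 2))) ht _ hN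
  calc ∑ η ∈ Off (Sb r W) ω₀, (2 : ℝ) ^ (u * (𝓟 η).card)
      ≤ ∑ η ∈ Off (Sb r W) ω₀, (2 : ℝ) ^ ((u : ℝ) * (L.card / 2 ^ u)) *
          (1 + ((2 : ℝ) ^ u - 1)) ^ (Λs η).card := Finset.sum_le_sum fun η _ => hsplit η
    _ = (2 : ℝ) ^ ((u : ℝ) * (L.card / 2 ^ u)) * ∑ η ∈ Off (Sb r W) ω₀,
          (1 + ((2 : ℝ) ^ u - 1)) ^ (Λs η).card := by rw [Finset.mul_sum]
    _ ≤ (2 : ℝ) ^ ((u : ℝ) * (L.card / 2 ^ u)) * (2 ^ (Sb r W).card *
          (1 + ((2 : ℝ) ^ u - 1) * ((2 : ℝ) ^ u * (2 : ℝ) ^ (-(7 * (u : ℝ) / 2)))) ^ L.card) :=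
        mul_le_mul_of_nonneg_left hexpo (by positivity)
    _ = 2 ^ (Sb r W).card * ((2 : ℝ) ^ ((u : ℝ) * (L.card / 2 ^ u)) *
          (1 + ((2 : ℝ) ^ u - 1) * ((2 : ℝ) ^ u * (2 : ℝ) ^ (-(7 * (u : ℝ) / 2)))) ^ L.card) := by
        ring
    _ ≤ _ := by
        apply mul_le_mul_of_nonneg_left _ (by positivity)
        exact SLAux.numeric u hu L.card

end Vale.Agent.P162.Th
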